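import Vale.Agent.P232.Base

open MeasureTheory Set Function Filter Topology
open scoped ENNReal

namespace Vale.Agent.P232

namespace AFubAux

theorem Q_eq : Q = univ.pi (fun _ : Fin 3 => Ioo (0 : ℝ) 1) := by
  ext x; simp [Q, Set.mem_pi]

theorem cell_eq : cell = univ.pi (fun _ : Fin 3 => Ico (0 : ℝ) 1) := by
  ext x; simp only [cell, Set.mem_pi, mem_univ, mem_Ico, true_imp_iff, mem_ofPred_eq]

theorem vQ_pi : vQ = Measure.pi (fun _ : Fin 3 => vI) := by
  rw [vQ, Q_eq, volume_pi, Measure.restrict_pi_pi]; rfl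

end AFubAux

theorem vI_prob : IsProbabilityMeasure vI := ⟨by simp [vI]⟩

theorem vQ_prob : IsProbabilityMeasure vQ := by
  have := vI_prob
  rw [AFubAux.vQ_pi]; infer_instance

theorem measurableSet_Q : MeasurableSet Q := by
  rw [AFubAux.Q_eq]; exact MeasurableSet.univ_pi fun _ => measurableSet_Ioo

theorem isOpen_Q : IsOpen Q := by
  rw [AFubAux.Q_eq]; exact isOpen_set_pi finite_univ fun _ _ => isOpen_Ioo

theorem vQ_eq_pi : vQ = Measure.pi (fun _ : Fin 3 => vI) := AFubAux.vQ_pi

theorem ae_vQ : ∀ᵐ x ∂vQ, x ∈ Q := ae_restrict_mem measurableSet_Q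

theorem ae_vI : ∀ᵐ t ∂vI, t ∈ Ioo (0 : ℝ) 1 := ae_restrict_mem measurableSet_Ioo

theorem restrict_cell : (volume : Measure X).restrict cell = vQ := by
  rw [vQ, AFubAux.Q_eq, AFubAux.cell_eq]
  refine Measure.restrict_congr_set ?_
  rw [volume_pi]
  exact (Measure.univ_pi_Ico_ae_eq_Icc (f := fun _ => (0 : ℝ)) (g := fun _ => (1 : ℝ))).trans
    (Measure.univ_pi_Ioo_ae_eq_Icc (f := fun _ => (0 : ℝ)) (g := fun _ => (1 : ℝ))).symm

theorem BM.integrable {α : Type} [MeasurableSpace α] {f : α → ℝ} (hf : BM f) (μ : Measure α)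
    [IsFiniteMeasure μ] : Integrable f μ := by
  obtain ⟨hm, C, hC⟩ := hf
  exact Integrable.of_bound hm.aestronglyMeasurable C (ae_of_all _ fun x => by
    simpa [Real.norm_eq_abs] using hC x)

theorem BM.mul {α : Type} [MeasurableSpace α] {f g : α → ℝ} (hf : BM f) (hg : BM g) :
    BM (fun x => f x * g x) := by
  obtain ⟨hm, C, hC⟩ := hf
  obtain ⟨hm', C', hC'⟩ := hg
  refine ⟨hm.mul hm', C * C', fun x => ?_⟩
  rw [abs_mul]
  exact mul_le_mul (hC x) (hC' x) (abs_nonneg _) ((abs_nonneg _).trans (hC x))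

theorem BM.add {α : Type} [MeasurableSpace α] {f g : α → ℝ} (hf : BM f) (hg : BM g) :
    BM (fun x => f x + g x) := by
  obtain ⟨hm, C, hC⟩ := hf
  obtain ⟨hm', C', hC'⟩ := hg
  exact ⟨hm.add hm', C + C', fun x => (abs_add_le _ _).trans (add_le_add (hC x) (hC' x))⟩

theorem BM.sub {α : Type} [MeasurableSpace α] {f g : α → ℝ} (hf : BM f) (hg : BM g) :
    BM (fun x => f x - g x) := by
  obtain ⟨hm, C, hC⟩ := hf
  obtain ⟨hm', C', hC'⟩ := hg
  exact ⟨hm.sub hm', C + C', fun x => (abs_sub _ _).trans (add_le_add (hC x) (hC' x))⟩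

theorem BM.const {α : Type} [MeasurableSpace α] (c : ℝ) : BM (fun _ : α => c) := ⟨measurable_const, |c|, fun _ => le_rfl⟩

theorem BM.comp {α β : Type} [MeasurableSpace α] [MeasurableSpace β] {f : β → ℝ} (hf : BM f)
    {g : α → β} (hg : Measurable g) : BM (fun x => f (g x)) := by
  obtain ⟨hm, C, hC⟩ := hf
  exact ⟨hm.comp hg, C, fun x => hC _⟩

theorem BM.indicator {α : Type} [MeasurableSpace α] {f : α → ℝ} (hf : BM f) {s : Set α}
    (hs : MeasurableSet s) : BM (s.indicator f) := by
  obtain ⟨hm, C, hC⟩ := hf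
  refine ⟨hm.indicator hs, max C 0, fun x => ?_⟩
  by_cases hx : x ∈ s
  · rw [indicator_of_mem hx]; exact (hC x).trans (le_max_left _ _)
  · rw [indicator_of_notMem hx, abs_zero]; exact le_max_right _ _

theorem mp_update (i : Fin 3) :
    MeasurePreserving (fun p : X × ℝ => update p.1 i p.2) (vQ.prod vI) vQ := by
  have := vI_prob
  have := vQ_prob
  have hm : Measurable (fun p : X × ℝ => update p.1 i p.2) := measurable_update'
  refine ⟨hm, ?_⟩
  conv_rhs => rw [vQ_eq_pi]
  refine (Measure.pi_eq fun s hs => ?_).symm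
  rw [Measure.map_apply hm (MeasurableSet.univ_pi hs)]
  have h1 : (fun p : X × ℝ => update p.1 i p.2) ⁻¹' (univ.pi s) =
      (univ.pi (update s i univ)) ×ˢ s i := by
    ext p
    simp only [mem_preimage, Set.mem_pi, mem_univ, true_imp_iff, Set.mem_prod]
    constructor
    · intro h
      refine ⟨fun j => ?_, by simpa using h i⟩
      by_cases hj : j = i
      · subst hj; simp
      · have := h j
        rw [update_of_ne hj] at this ⊢
        exact this
    · rintro ⟨h1, h2⟩ j
      by_cases hj : j = i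
      · subst hj; simpa using h2
      · have := h1 j
        rw [update_of_ne hj] at this ⊢
        exact this
  rw [h1, Measure.prod_prod, vQ_eq_pi, Measure.pi_pi,
    ← Finset.prod_erase_mul _ _ (Finset.mem_univ i),
    ← Finset.prod_erase_mul Finset.univ (fun j => vI (s j)) (Finset.mem_univ i)]
  simp only [update_self, measure_univ, mul_one]
  congr 1
  refine Finset.prod_congr rfl fun j hj => ?_
  rw [update_of_ne (Finset.ne_of_mem_erase hj)]

theorem integral_update {f : X → ℝ} (hf : Integrable f vQ) (i : Fin 3) :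
    ∫ x, f x ∂vQ = ∫ x, (∫ t, f (update x i t) ∂vI) ∂vQ := by
  have := vI_prob
  have := vQ_prob
  have h := mp_update i
  have hi : Integrable (fun p : X × ℝ => f (update p.1 i p.2)) (vQ.prod vI) :=
    h.integrable_comp_of_integrable hf
  rw [← integral_prod _ hi]
  conv_lhs => rw [← h.map_eq]
  rw [integral_map h.measurable.aemeasurable (by rw [h.map_eq]; exact hf.aestronglyMeasurable)]

theorem ae_update {p : X → Prop} (h : ∀ᵐ x ∂vQ, p x) (i : Fin 3) :
    ∀ᵐ x ∂vQ, ∀ᵐ t ∂vI, p (update x i t) := by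
  have := vI_prob
  exact Measure.ae_ae_of_ae_prod ((mp_update i).quasiMeasurePreserving.ae h)

/-- converse of `ae_update` for measurable properties -/
theorem ae_of_ae_update {p : X → Prop} (hp : MeasurableSet {x | p x}) (i : Fin 3)
    (h : ∀ᵐ x ∂vQ, ∀ᵐ t ∂vI, p (update x i t)) : ∀ᵐ x ∂vQ, p x := by
  have := vI_prob
  have h1 := mp_update i
  have h2 : ∀ᵐ z ∂(vQ.prod vI), p (update z.1 i z.2) :=
    (Measure.ae_prod_iff_ae_ae (h1.measurable hp)).2 h
  rw [← h1.map_eq]
  exact (ae_map_iff h1.measurable.aemeasurable hp).2 h2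

theorem mp_eval (i : Fin 3) : MeasurePreserving (fun x : X => x i) vQ vI := by
  have := vI_prob
  rw [vQ_eq_pi]
  exact measurePreserving_eval (fun _ : Fin 3 => vI) i

theorem mp_two {j k : Fin 3} (h : j ≠ k) :
    MeasurePreserving (fun x : X => (x k, x j)) vQ (vI.prod vI) := by
  have := vI_prob
  have hm : Measurable (fun x : X => (x k, x j)) := by fun_prop
  refine ⟨hm, (Measure.prod_eq fun s t hs ht => ?_).symm⟩
  rw [Measure.map_apply hm (hs.prod ht)]
  have h1 : (fun x : X => (x k, x j)) ⁻¹' (s ×ˢ t) =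
      univ.pi (update (update (fun _ => univ) k s) j t) := by
    ext x
    simp only [mem_preimage, Set.mem_pi, mem_univ, true_imp_iff, Set.mem_prod]
    constructor
    · rintro ⟨h1, h2⟩ l
      by_cases hl : l = j
      · subst hl; simpa using h2
      · rw [update_of_ne hl]
        by_cases hl' : l = k
        · subst hl'; simpa using h1
        · rw [update_of_ne hl']; trivial
    · intro hx
      have h1 := hx k
      have h2 := hx j
      rw [update_of_ne h.symm, update_self] at h1
      rw [update_self] at h2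
      exact ⟨h1, h2⟩
  rw [h1, vQ_eq_pi, Measure.pi_pi, ← Finset.prod_erase_mul _ _ (Finset.mem_univ j),
    ← Finset.prod_erase_mul _ _ (Finset.mem_erase.2 ⟨h.symm, Finset.mem_univ k⟩)]
  rw [update_of_ne h.symm, update_self, update_self, Finset.prod_eq_one, one_mul]
  intro l hl
  have hl1 := Finset.ne_of_mem_erase hl
  have hl2 := Finset.ne_of_mem_erase (Finset.mem_of_mem_erase hl)
  rw [update_of_ne hl2, update_of_ne hl1, measure_univ]

theorem pt_eq {i j k : Fin 3} (hij : i ≠ j) (hik : i ≠ k) (hjk : j ≠ k) (x : X) :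
    pt i j (x i) (x j) (x k) = x := by
  funext l
  by_cases h1 : l = j
  · subst h1; simp [pt]
  · by_cases h2 : l = i
    · subst h2; simp [pt, update_of_ne h1]
    · have h3 : l = k := by omega
      subst h3
      simp [pt, update_of_ne h1, update_of_ne h2]

theorem measurable_pt (i j : Fin 3) :
    Measurable (fun p : ℝ × ℝ × ℝ => pt i j p.1 p.2.1 p.2.2) := by
  refine measurable_pi_iff.2 fun l => ?_
  by_cases h1 : l = j
  · subst h1; simp only [pt, update_self]; fun_prop
  · by_cases h2 : l = i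
    · subst h2; simp only [pt, update_of_ne h1, update_self]; fun_prop
    · simp only [pt, update_of_ne h1, update_of_ne h2]; fun_prop

theorem mp_flip : MeasurePreserving (fun x : X => (fun i => 1 - x i : X)) vQ vQ := by
  have := vI_prob
  rw [vQ_eq_pi]
  refine measurePreserving_pi (fun _ : Fin 3 => vI) (fun _ : Fin 3 => vI)
    (f := fun _ t => 1 - t) fun _ => ?_
  have h := (Measure.measurePreserving_sub_left (volume : Measure ℝ) 1).restrict_preimage
    (s := Ioo (0 : ℝ) 1) measurableSet_Ioo
  have h1 : (fun t : ℝ => 1 - t) ⁻¹' Ioo (0 : ℝ) 1 = Ioo 0 1 := by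
    ext t; simp only [mem_preimage, mem_Ioo]; constructor <;> rintro ⟨a, b⟩ <;>
      constructor <;> linarith
  rw [h1] at h
  exact h

theorem measurable_ht {E : Set X} (hE : MeasurableSet E) (i : Fin 3) : Measurable (ht E i) := by
  have := vI_prob
  have hm : Measurable (fun p : X × ℝ => update p.1 i p.2) := measurable_update'
  exact (measurable_measure_prodMk_left (ν := vI) (hm hE)).ennreal_toReal

theorem ht_nonneg (E : Set X) (i : Fin 3) (x : X) : 0 ≤ ht E i x := measureReal_nonneg

theorem ht_le_one (E : Set X) (i : Fin 3) (x : X) : ht E i x ≤ 1 := by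
  have := vI_prob
  exact measureReal_le_one

theorem ht_update (E : Set X) (i : Fin 3) (x : X) (t : ℝ) : ht E i (update x i t) = ht E i x := by
  simp only [ht, update_idem]

theorem bm_ht {E : Set X} (hE : MeasurableSet E) (i : Fin 3) : BM (ht E i) := ⟨measurable_ht hE i, 1, fun x => by
  rw [abs_of_nonneg (ht_nonneg E i x)]; exact ht_le_one E i x⟩

theorem measurableSet_Wd {E : Set X} (hE : MeasurableSet E) (i : Fin 3) :
    MeasurableSet (Wd E i) := 
  (measurableSet_lt measurable_const (measurable_ht hE i)).inter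
    (measurableSet_lt (measurable_ht hE i) measurable_const)

theorem integral_ht {E : Set X} (hE : MeasurableSet E) (i : Fin 3) :
    ∫ x, ht E i x ∂vQ = vQ.real E := by
  have := vQ_prob
  have h1 : Integrable (E.indicator (fun _ => (1 : ℝ))) vQ := (integrable_const _).indicator hE
  have h2 := integral_update h1 i
  rw [integral_indicator_const _ hE, smul_eq_mul, mul_one] at h2
  rw [h2]
  refine integral_congr_ae (ae_of_all _ fun x => ?_)
  have hm : MeasurableSet {t | update x i t ∈ E} := measurable_update x hE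
  have h3 : (fun t => E.indicator (fun _ => (1 : ℝ)) (update x i t)) =
      {t | update x i t ∈ E}.indicator (fun _ => (1 : ℝ)) := by
    funext t; by_cases h : update x i t ∈ E <;> simp [indicator, h]
  simp only [h3]
  rw [integral_indicator_const _ hm, smul_eq_mul, mul_one, ht]

theorem ht_congr {E F : Set X} (h : E =ᵐ[vQ] F) (i : Fin 3) : ht E i =ᵐ[vQ] ht F i := by
  have h1 : ∀ᵐ x ∂vQ, (x ∈ E ↔ x ∈ F) := eventuallyEq_set.1 h
  filter_upwards [ae_update h1 i] with x hx
  exact measureReal_congr (eventuallyEq_set.2 hx)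

end Vale.Agent.P232
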