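import Vale.Agent.P232.AFub

open MeasureTheory Set Function Filter Topology
open scoped ENNReal

namespace Vale.Agent.P232

theorem nd_eq_norm_a (t : ℝ) : nd t = ‖(t : UnitAddCircle)‖ := by
  rw [nd, UnitAddCircle.norm_eq]

theorem nd_nonneg_a (t : ℝ) : 0 ≤ nd t := abs_nonneg _

theorem nd_le_half_a (t : ℝ) : nd t ≤ 1 / 2 := abs_sub_round t

theorem nd_add_int_a (t : ℝ) (k : ℤ) : nd (t + k) = nd t := by
  rw [nd, nd, round_add_intCast]
  congr 1
  push_cast
  ring

theorem nd_neg_a (t : ℝ) : nd (-t) = nd t := by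
  rw [nd_eq_norm_a, nd_eq_norm_a, AddCircle.coe_neg, norm_neg]

theorem nd_of_abs_le_a {t : ℝ} (h : |t| ≤ 1 / 2) : nd t = |t| := by
  rw [nd_eq_norm_a]
  exact (AddCircle.norm_coe_eq_abs_iff 1 one_ne_zero).2 (by simpa using h)

theorem nd_le_abs_a (t : ℝ) : nd t ≤ |t| := by
  rcases le_total |t| (1 / 2) with h | h
  · exact (nd_of_abs_le_a h).le
  · exact (nd_le_half_a t).trans h

theorem nd_add_le_a (s t : ℝ) : nd (s + t) ≤ nd s + nd t := by
  rw [nd_eq_norm_a, nd_eq_norm_a, nd_eq_norm_a, AddCircle.coe_add]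
  exact norm_add_le _ _

theorem continuous_nd_a : Continuous nd := by
  have : nd = fun t : ℝ => ‖(t : UnitAddCircle)‖ := funext nd_eq_norm_a
  rw [this]
  exact (AddCircle.continuous_mk' (1 : ℝ)).norm

theorem mp_proj_a : MeasurePreserving proj vQ volume := by
  rw [vQ_eq_pi, volume_pi]
  refine measurePreserving_pi (fun _ : Fin 3 => vI) (fun _ => (volume : Measure UnitAddCircle))
    (f := fun _ (t : ℝ) => (t : UnitAddCircle)) fun _ => ?_
  have h := UnitAddCircle.measurePreserving_mk 0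
  rw [zero_add, ← Measure.restrict_congr_set Ioo_ae_eq_Ioc] at h
  exact h

namespace APerAux

theorem update_add (x : X) (i : Fin 3) (t : ℝ) (k : Fin 3 → ℤ) :
    update (fun j => x j + (k j : ℝ)) i (t + k i) = fun j => update x i t j + (k j : ℝ) := by
  funext j
  by_cases h : j = i
  · subst h; simp
  · simp [h]

theorem update_one (x : X) (i : Fin 3) (t : ℝ) :
    update x i (t + 1) = fun j => update x i t j + ((Pi.single i (1 : ℤ) : Fin 3 → ℤ) j : ℝ) := by
  funext j
  by_cases h : j = i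
  · subst h; simp
  · simp [h]

theorem per_int {S : Set ℝ} (h : ∀ t, t + 1 ∈ S ↔ t ∈ S) (k : ℤ) (t : ℝ) :
    t + k ∈ S ↔ t ∈ S := by
  have hp : Periodic (fun t => t ∈ S) (1 : ℝ) := fun t => propext (h t)
  have := hp.int_mul k t
  simp only [mul_one] at this
  exact Iff.of_eq this

end APerAux

theorem Per.update_add_one_a {f : X → ℝ} (hf : Per f) (x : X) (i : Fin 3) (t : ℝ) :
    f (update x i (t + 1)) = f (update x i t) := by
  rw [APerAux.update_one, hf]

theorem PerSet.update_add_one_a {E : Set X} (hE : PerSet E) (x : X) (i : Fin 3) (t : ℝ) :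
    update x i (t + 1) ∈ E ↔ update x i t ∈ E := by
  rw [APerAux.update_one, hE]

theorem PerSet.per_ht_a {E : Set X} (hE : PerSet E) (_hm : MeasurableSet E) (i : Fin 3) :
    Per (ht E i) := by
  intro x k
  unfold ht
  congr 1
  ext t
  have h1 := APerAux.per_int (S := {t | update (fun j => x j + (k j : ℝ)) i t ∈ E})
    (fun t => hE.update_add_one_a _ i t) (k i) t
  simp only [mem_setOf_eq] at h1 ⊢
  rw [← h1, APerAux.update_add, hE]

theorem Per.bm_a {f : X → ℝ} (hf : Per f) (hc : Continuous f) : BM f := by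
  refine ⟨hc.measurable, ?_⟩
  obtain ⟨C, hC⟩ := (isCompact_Icc (a := (0 : X)) (b := 1)).exists_bound_of_continuousOn
    hc.continuousOn
  refine ⟨C, fun x => ?_⟩
  rw [← hf x fun j => -⌊x j⌋]
  refine hC _ ⟨fun j => ?_, fun j => ?_⟩
  · have := Int.floor_le (x j)
    simp only [Pi.zero_apply, Int.cast_neg]
    linarith
  · have := Int.lt_floor_add_one (x j)
    simp only [Pi.one_apply, Int.cast_neg]
    linarith

theorem PC1.bm_a {f : X → ℝ} (hf : PC1 f) : BM f := hf.2.bm_a hf.1.continuous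

theorem PC1.continuous_pd_a {f : X → ℝ} (hf : PC1 f) (i : Fin 3) : Continuous (pd i f) :=
  (hf.1.continuous_fderiv one_ne_zero).clm_apply continuous_const

theorem PC1.per_pd_a {f : X → ℝ} (hf : PC1 f) (i : Fin 3) : Per (pd i f) := by
  intro x k
  have e : f = fun y => f (y + fun j => (k j : ℝ)) := funext fun y => (hf.2 y k).symm
  unfold pd
  conv_rhs => rw [e]
  rw [fderiv_comp_add_right]
  rfl

theorem PC1.bm_pd_a {f : X → ℝ} (hf : PC1 f) (i : Fin 3) : BM (pd i f) :=
  (hf.per_pd_a i).bm_a (hf.continuous_pd_a i)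

theorem PC1.mul_a {f g : X → ℝ} (hf : PC1 f) (hg : PC1 g) : PC1 (fun x => f x * g x) :=
  ⟨hf.1.mul hg.1, fun x k => by simp only [hf.2 x k, hg.2 x k]⟩

theorem pd_mul_a {f g : X → ℝ} (hf : ContDiff ℝ 1 f) (hg : ContDiff ℝ 1 g) (i : Fin 3) (x : X) :
    pd i (fun x => f x * g x) x = pd i f x * g x + f x * pd i g x := by
  unfold pd
  rw [fderiv_fun_mul (hf.differentiable one_ne_zero x) (hg.differentiable one_ne_zero x)]
  simp only [ContinuousLinearMap.add_apply, ContinuousLinearMap.smul_apply, smul_eq_mul]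
  ring

theorem hasDerivAt_update_a {f : X → ℝ} (hf : ContDiff ℝ 1 f) (i : Fin 3) (x : X) (t : ℝ) :
    HasDerivAt (fun s => f (update x i s)) (pd i f (update x i t)) t :=
  (hf.differentiable one_ne_zero (update x i t)).hasFDerivAt.comp_hasDerivAt t
    (_root_.hasDerivAt_update x i t)

theorem pc1_coord_a {g : ℝ → ℝ} (hg : ContDiff ℝ 1 g) (hp : Periodic g 1) (i : Fin 3) :
    PC1 (fun x => g (x i)) :=
  ⟨hg.comp (contDiff_apply ℝ ℝ i), fun x k => by simpa using hp.int_mul (k i) (x i)⟩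

theorem pd_coord_a {g : ℝ → ℝ} (hg : ContDiff ℝ 1 g) (i j : Fin 3) (x : X) :
    pd j (fun x => g (x i)) x = if j = i then deriv g (x i) else 0 := by
  have h1 := hasDerivAt_update_a (f := fun x : X => g (x i)) (hg.comp (contDiff_apply ℝ ℝ i)) j x
    (x j)
  rw [update_eq_self] at h1
  refine h1.unique ?_
  split_ifs with h
  · subst h
    simpa using (hg.differentiable one_ne_zero (x j)).hasDerivAt
  · simpa [update_of_ne (Ne.symm h)] using hasDerivAt_const (x j) (g (x i))

theorem Ind.pd_eq_zero_a {f : X → ℝ} {k : Fin 3} (h : Ind k f) (hf : ContDiff ℝ 1 f) (x : X) :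
    pd k f x = 0 := by
  have h1 := hasDerivAt_update_a hf k x (x k)
  rw [update_eq_self] at h1
  refine h1.unique ?_
  simpa only [h x] using hasDerivAt_const (x k) (f x)

end Vale.Agent.P232
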