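import Vale.Agent.P232.AFub
import Vale.Agent.P232.APerA

open MeasureTheory Set Function Filter Topology
open scoped ENNReal

namespace Vale.Agent.P232

theorem nd_eq_norm (t : ℝ) : nd t = ‖(t : UnitAddCircle)‖ :=
  nd_eq_norm_a t

theorem nd_nonneg (t : ℝ) : 0 ≤ nd t :=
  nd_nonneg_a t

theorem nd_le_half (t : ℝ) : nd t ≤ 1 / 2 :=
  nd_le_half_a t

theorem nd_add_int (t : ℝ) (k : ℤ) : nd (t + k) = nd t :=
  nd_add_int_a t k

theorem nd_neg (t : ℝ) : nd (-t) = nd t :=
  nd_neg_a t

theorem nd_of_abs_le {t : ℝ} (h : |t| ≤ 1 / 2) : nd t = |t| :=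
  nd_of_abs_le_a h

theorem nd_le_abs (t : ℝ) : nd t ≤ |t| :=
  nd_le_abs_a t

theorem nd_add_le (s t : ℝ) : nd (s + t) ≤ nd s + nd t :=
  nd_add_le_a s t

theorem continuous_nd : Continuous nd :=
  continuous_nd_a

theorem mp_proj : MeasurePreserving proj vQ volume :=
  mp_proj_a

theorem Per.update_add_one {f : X → ℝ} (hf : Per f) (x : X) (i : Fin 3) (t : ℝ) :
    f (update x i (t + 1)) = f (update x i t) :=
  hf.update_add_one_a x i t

theorem PerSet.update_add_one {E : Set X} (hE : PerSet E) (x : X) (i : Fin 3) (t : ℝ) :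
    update x i (t + 1) ∈ E ↔ update x i t ∈ E :=
  hE.update_add_one_a x i t

theorem PerSet.per_ht {E : Set X} (hE : PerSet E) (hm : MeasurableSet E) (i : Fin 3) :
    Per (ht E i) :=
  hE.per_ht_a hm i

/-- a continuous periodic function is bounded -/
theorem Per.bm {f : X → ℝ} (hf : Per f) (hc : Continuous f) : BM f :=
  hf.bm_a hc

theorem PC1.bm {f : X → ℝ} (hf : PC1 f) : BM f :=
  hf.bm_a

theorem PC1.continuous_pd {f : X → ℝ} (hf : PC1 f) (i : Fin 3) : Continuous (pd i f) :=
  hf.continuous_pd_a i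

theorem PC1.per_pd {f : X → ℝ} (hf : PC1 f) (i : Fin 3) : Per (pd i f) :=
  hf.per_pd_a i

theorem PC1.bm_pd {f : X → ℝ} (hf : PC1 f) (i : Fin 3) : BM (pd i f) :=
  hf.bm_pd_a i

theorem PC1.mul {f g : X → ℝ} (hf : PC1 f) (hg : PC1 g) : PC1 (fun x => f x * g x) :=
  hf.mul_a hg

theorem pd_mul {f g : X → ℝ} (hf : ContDiff ℝ 1 f) (hg : ContDiff ℝ 1 g) (i : Fin 3) (x : X) :
    pd i (fun x => f x * g x) x = pd i f x * g x + f x * pd i g x :=
  pd_mul_a hf hg i x

theorem hasDerivAt_update {f : X → ℝ} (hf : ContDiff ℝ 1 f) (i : Fin 3) (x : X) (t : ℝ) :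
    HasDerivAt (fun s => f (update x i s)) (pd i f (update x i t)) t :=
  hasDerivAt_update_a hf i x t

/-- a function of one coordinate -/
theorem pc1_coord {g : ℝ → ℝ} (hg : ContDiff ℝ 1 g) (hp : Periodic g 1) (i : Fin 3) :
    PC1 (fun x => g (x i)) :=
  pc1_coord_a hg hp i

theorem pd_coord {g : ℝ → ℝ} (hg : ContDiff ℝ 1 g) (i j : Fin 3) (x : X) :
    pd j (fun x => g (x i)) x = if j = i then deriv g (x i) else 0 :=
  pd_coord_a hg i j x

theorem Ind.pd_eq_zero {f : X → ℝ} {k : Fin 3} (h : Ind k f) (hf : ContDiff ℝ 1 f) (x : X) :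
    pd k f x = 0 :=
  h.pd_eq_zero_a hf x

namespace APerB

theorem vI_int (g : ℝ → ℝ) : ∫ t, g t ∂vI = ∫ t in (0 : ℝ)..(0 + 1), g t := by
  rw [zero_add, intervalIntegral.integral_of_le zero_le_one, integral_Ioc_eq_integral_Ioo, vI]

theorem add_single {f : X → ℝ} (hf : BM f) (hp : Per f) (i : Fin 3) (s : ℝ) :
    ∫ x, f (x + Pi.single i s) ∂vQ = ∫ x, f x ∂vQ := by
  have := vQ_prob
  rw [integral_update ((hf.comp (measurable_add_const _)).integrable _) i,
    integral_update (hf.integrable _) i]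
  refine integral_congr_ae (ae_of_all _ fun x => ?_)
  have e : ∀ t, update x i t + Pi.single i s = update x i (t + s) := fun t => funext fun j => by
    by_cases h : j = i <;> simp [h]
  simp only [e, vI_int]
  rw [intervalIntegral.integral_comp_add_right (fun t => f (update x i t)), add_right_comm]
  exact Periodic.intervalIntegral_add_eq (f := fun t => f (update x i t))
    (hp.update_add_one x i) _ _

theorem nd_min {t : ℝ} (h : t ∈ Ioo (0 : ℝ) 1) : nd t = min t (1 - t) := by
  rcases le_total t (1 / 2) with h1 | h1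
  · rw [nd_of_abs_le (by rwa [abs_of_pos h.1]), abs_of_pos h.1, min_eq_left (by linarith)]
  · have h2 : |t + ((-1 : ℤ) : ℝ)| = 1 - t := by
      push_cast
      rw [abs_of_neg (by linarith [h.2])]
      ring
    rw [← nd_add_int t (-1), nd_of_abs_le (h2.le.trans (by linarith)), h2,
      min_eq_right (by linarith)]

theorem tent : MeasurePreserving (fun t => 2 * nd t) vI vI := by
  have := vI_prob
  have hm : Measurable fun t => 2 * nd t := continuous_nd.measurable.const_mul 2
  refine ⟨hm, Measure.ext_of_Iic _ _ fun a => ?_⟩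
  rw [Measure.map_apply hm measurableSet_Iic, vI, Measure.restrict_apply (hm measurableSet_Iic),
    Measure.restrict_apply measurableSet_Iic]
  rcases le_or_gt 1 a with h | h
  · rw [inter_eq_right.2, inter_eq_right.2]
    · exact fun t ht => ht.2.le.trans h
    · exact fun t _ => show 2 * nd t ≤ a by linarith [nd_le_half t]
  have e1 : (fun t => 2 * nd t) ⁻¹' Iic a ∩ Ioo 0 1 = Ioc 0 (a / 2) ∪ Ico (1 - a / 2) 1 := by
    ext t
    have := @nd_min t
    simp only [mem_inter_iff, mem_preimage, mem_Iic, mem_Ioo, mem_union, mem_Ioc, mem_Ico] at *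
    grind
  have e2 : Iic a ∩ Ioo 0 1 = Ioc 0 a := by
    ext t
    simp only [mem_inter_iff, mem_Iic, mem_Ioo, mem_Ioc]
    grind
  rw [e1, e2, measure_union (disjoint_left.2 fun t h1 h2 => by linarith [h1.2, h2.1])
    measurableSet_Ico, Real.volume_Ioc, Real.volume_Ico, Real.volume_Ioc, sub_sub_cancel,
    sub_zero, sub_zero, ENNReal.ofReal_div_of_pos two_pos, ENNReal.ofReal_ofNat,
    ENNReal.add_halves]

end APerB

theorem integral_pd_eq_zero {f : X → ℝ} (hf : PC1 f) (i : Fin 3) : ∫ x, pd i f x ∂vQ = 0 := by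
  have := vQ_prob
  rw [integral_update ((hf.bm_pd i).integrable _) i]
  refine integral_eq_zero_of_ae (ae_of_all _ fun x => ?_)
  simp only [APerB.vI_int]
  rw [intervalIntegral.integral_eq_sub_of_hasDerivAt (fun t _ => hasDerivAt_update hf.1 i x t)
    (((hf.continuous_pd i).comp (continuous_const.update i continuous_id)).intervalIntegrable _ _),
    hf.2.update_add_one, sub_self, Pi.zero_apply]

theorem integral_add_right {f : X → ℝ} (hf : BM f) (hp : Per f) (z : X) :
    ∫ x, f (x + z) ∂vQ = ∫ x, f x ∂vQ := by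
  induction z using Pi.single_induction generalizing f with
  | zero => simp
  | add z w hz hw =>
    rw [← hw hf hp, ← hz (f := fun y => f (y + w)) (hf.comp (measurable_add_const w)) fun x k =>
      (congrArg f (funext fun j => add_right_comm _ _ _)).trans (hp (x + w) k)]
    simp only [add_assoc]
  | single i s => exact APerB.add_single hf hp i s

theorem integral_sub_left {f : X → ℝ} (hf : BM f) (hp : Per f) (z : X) :
    ∫ x, f (z - x) ∂vQ = ∫ x, f x ∂vQ := by
  have h := integral_map (μ := vQ) (f := fun x => f (z - x)) mp_flip.measurable.aemeasurable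
    (hf.1.comp (measurable_const_sub z)).aestronglyMeasurable
  rw [mp_flip.map_eq] at h
  rw [h, ← integral_add_right hf hp (z - 1)]
  exact integral_congr_ae (ae_of_all _ fun x => congrArg f (funext fun j => by simp; ring))

/-- a periodic property holds a.e. on the cube iff a.e. on the whole space -/
theorem ae_volume_of_per {p : X → Prop}
    (hp : ∀ (x : X) (k : Fin 3 → ℤ), p (fun j => x j + (k j : ℝ)) ↔ p x)
    (h : ∀ᵐ x ∂vQ, p x) : ∀ᵐ x ∂(volume : Measure X), p x := by
  rw [← restrict_cell] at h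
  refine (ae_all_iff.2 fun k : Fin 3 → ℤ =>
    (measurePreserving_add_right volume fun j => (k j : ℝ)).quasiMeasurePreserving.ae
      (ae_imp_of_ae_restrict h)).mono fun x hx => (hp x fun j => -⌊x j⌋).1 (hx _ fun j => ?_)
  simpa [← sub_eq_add_neg] using Int.fract_lt_one (x j)

theorem integral_vI_add {g : ℝ → ℝ} (hp : Periodic g 1) (hg : BM g) (s : ℝ) :
    ∫ t, g t ∂vI = ∫ t in s..(s + 1), g t :=
  (APerB.vI_int g).trans (hp.intervalIntegral_add_eq 0 s)

theorem per1 {g : ℝ → ℝ} (hg : ContDiff ℝ 1 g) {r : ℝ} (hr : r < 1 / 2)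
    (h0 : ∀ t, r ≤ |t| → g t = 0) :
    ContDiff ℝ 1 (fun t => g (t - round t)) ∧ Periodic (fun t => g (t - round t)) 1 := by
  refine ⟨contDiff_iff_contDiffAt.2 fun t => ?_, fun t => by simp⟩
  rcases lt_or_ge r (nd t) with h | h
  · exact (contDiffAt_const (c := 0)).congr_of_eventuallyEq
      ((continuous_nd.continuousAt.eventually (lt_mem_nhds h)).mono fun s hs => h0 _ hs.le)
  · have h1 := abs_lt.1 (show |t - round t| < 1 / 2 from h.trans_lt hr)
    refine ((hg.comp (contDiff_id.sub (contDiff_const (c := (round t : ℝ))))).contDiffAt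
      ).congr_of_eventuallyEq (mem_of_superset (Ioo_mem_nhds (a := (round t : ℝ) - 1 / 2) (x := t)
        (b := (round t : ℝ) + 1 / 2) (by linarith) (by linarith)) fun s hs => ?_)
    have h2 : round s = round t := round_eq_iff.2 (Ioo_subset_Ico_self hs)
    simp [h2]

theorem mp_fold : MeasurePreserving fold vQ vQ := by
  have := vI_prob
  rw [vQ_eq_pi]
  exact measurePreserving_pi _ _ fun _ => APerB.tent

theorem continuous_fold : Continuous fold :=
  continuous_pi fun i => continuous_const.mul (continuous_nd.comp (continuous_apply i))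

theorem perSet_fold (D : Set X) : PerSet (fold ⁻¹' D) := fun x k =>
  iff_of_eq (congrArg (· ∈ D) (funext fun j => congrArg (2 * ·) (nd_add_int (x j) (k j))))

theorem perSet_Mod (I : Finset (Fin 3)) (c : X) (r : ℝ) : PerSet (Mod I c r) := fun x k => by
  simp only [Mod, mem_ofPred_eq, add_sub_right_comm, nd_add_int]

theorem isOpen_Mod (I : Finset (Fin 3)) (c : X) (r : ℝ) : IsOpen (Mod I c r) :=
  isOpen_lt (continuous_finsetSum _ fun i _ =>
    (continuous_nd.comp ((continuous_apply i).sub continuous_const)).pow 2) continuous_const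

theorem fold_ModQ (I : Finset (Fin 3)) (r : ℝ) : fold ⁻¹' ModQ I (2 * r) = Mod I 0 r := by
  ext x
  simp [fold, ModQ, Mod, mul_pow, ← Finset.mul_sum]

theorem PerLe.congr {E F : Set X} {p : ℝ} (h : PerLe E p) (hEF : E =ᵐ[vQ] F) : PerLe F p :=
  fun Y hY => (setIntegral_congr_set hEF).ge.trans (h Y hY)

theorem PerLe.compl {E : Set X} {p : ℝ} (h : PerLe E p) (hE : MeasurableSet E) :
    PerLe Eᶜ p := by
  intro Y hY
  have := vQ_prob
  have h1 : ∀ i, PC1 (Y i) := fun i => ⟨hY.1 i, hY.2.1 i⟩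
  have h2 : ∀ i ∈ Finset.univ, Integrable (pd i (Y i)) vQ := fun i _ => ((h1 i).bm_pd i).integrable _
  have h3 : ∫ x, dvg Y x ∂vQ = 0 := (integral_finsetSum _ h2).trans
    (Finset.sum_eq_zero fun i _ => integral_pd_eq_zero (h1 i) i)
  have h4 := h (fun i x => -Y i x) ⟨fun i => (hY.1 i).neg,
    fun i x k => congrArg Neg.neg (hY.2.1 i x k), fun x => by simpa using hY.2.2 x⟩
  have h5 : ∫ x in E, dvg Y x ∂vQ + ∫ x in Eᶜ, dvg Y x ∂vQ = ∫ x, dvg Y x ∂vQ :=
    integral_add_compl hE (integrable_finsetSum _ h2)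
  have h6 : ∀ x, dvg (fun i x => -Y i x) x = -dvg Y x := fun x => by simp [dvg]
  simp only [h6, integral_neg] at h4
  linarith

theorem PerLe.nonneg {E : Set X} {p : ℝ} (h : PerLe E p) : 0 ≤ p := by
  simpa [dvg] using h (fun _ _ => 0) ⟨fun _ => contDiff_const, fun _ _ _ => rfl, fun _ => by simp⟩

end Vale.Agent.P232
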