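import Vale.Agent.P232.APer

open MeasureTheory Set Function Filter Topology
open scoped ENNReal

namespace Vale.Agent.P232

namespace AVolAux

theorem isOpen_ModQ (I : Finset (Fin 3)) (R : ℝ) : IsOpen (ModQ I R) :=
  isOpen_lt (by fun_prop) continuous_const

theorem vol_Mod (I : Finset (Fin 3)) (c : X) (r : ℝ) :
    vQ.real (Mod I c r) = vQ.real (ModQ I (2 * r)) := by
  have hm := (isOpen_Mod I 0 r).measurableSet
  have hp : Per ((Mod I 0 r).indicator fun _ => (1 : ℝ)) := fun x k => by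
    by_cases hx : x ∈ Mod I 0 r
    · rw [indicator_of_mem hx, indicator_of_mem ((perSet_Mod I 0 r x k).2 hx)]
    · rw [indicator_of_notMem hx,
        indicator_of_notMem fun h => hx ((perSet_Mod I 0 r x k).1 h)]
  have h := integral_add_right ((BM.const 1).indicator hm) hp (-c)
  have e : (fun x => (Mod I 0 r).indicator (fun _ => (1 : ℝ)) (x + -c)) =
      (Mod I c r).indicator fun _ => (1 : ℝ) := by
    funext x
    have : x + -c ∈ Mod I 0 r ↔ x ∈ Mod I c r := by simp [Mod, sub_eq_add_neg]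
    by_cases hx : x ∈ Mod I c r
    · rw [indicator_of_mem hx, indicator_of_mem (this.2 hx)]
    · rw [indicator_of_notMem hx, indicator_of_notMem fun h => hx (this.1 h)]
  rw [e, integral_indicator_const _ hm, integral_indicator_const _ (isOpen_Mod I c r).measurableSet,
    smul_eq_mul, smul_eq_mul, mul_one, mul_one] at h
  rw [h, ← fold_ModQ, measureReal_def, measureReal_def,
    mp_fold.measure_preimage (isOpen_ModQ I _).measurableSet.nullMeasurableSet]

theorem mp_res (I : Finset (Fin 3)) : MeasurePreserving (fun (x : X) (i : I) => x i) vQ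
    (volume.restrict (univ.pi fun _ : I => Ioo (0 : ℝ) 1)) := by
  have := vI_prob
  have h := measurePreserving_fst.comp
    (measurePreserving_piEquivPiSubtypeProd (fun _ : Fin 3 => vI) fun i => i ∈ I)
  rw [Subsingleton.elim (Subtype.fintype fun i => i ∈ I) (Finset.Subtype.fintype I)] at h
  rw [vQ_eq_pi, volume_pi, Measure.restrict_pi_pi]
  exact h

theorem key (I : Finset (Fin 3)) {r : ℝ} (h0 : 0 ≤ r) (h1 : r ≤ 1 / 2) :
    vQ.real (ModQ I (2 * r)) = volume.real
      (Metric.ball (WithLp.toLp 2 fun _ : I => (1 / 2 : ℝ) : EuclideanSpace ℝ I) r) := by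
  set B : Set (I → ℝ) := {y | ∑ i, (y i - 1 / 2) ^ 2 < r ^ 2} with hB
  have hm : MeasurableSet B := (isOpen_lt (by fun_prop) continuous_const).measurableSet
  have e1 : Mod I (fun _ => 1 / 2) r =ᵐ[vQ] (fun (x : X) (i : I) => x i) ⁻¹' B := by
    refine eventuallyEq_set.2 (ae_vQ.mono fun x hx => ?_)
    have : ∀ i, nd (x i - 1 / 2) ^ 2 = (x i - 1 / 2) ^ 2 := fun i => by
      rw [nd_of_abs_le (abs_le.2 ⟨by linarith [(hx i).1], by linarith [(hx i).2]⟩), sq_abs]
    simp only [Mod, hB, mem_preimage, mem_ofPred_eq, this]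
    rw [Finset.sum_coe_sort I fun i => (x i - 1 / 2) ^ 2]
  have e2 : B ⊆ univ.pi fun _ : I => Ioo (0 : ℝ) 1 := fun y hy i _ => by
    have h2 : (y i - 1 / 2) ^ 2 ≤ ∑ i, (y i - 1 / 2) ^ 2 :=
      Finset.single_le_sum (f := fun i => (y i - 1 / 2) ^ 2) (fun _ _ => sq_nonneg _)
        (Finset.mem_univ i)
    have h3 := abs_lt.1 (abs_lt_of_sq_lt_sq (h2.trans_lt hy) h0)
    exact ⟨by linarith [h3.1], by linarith [h3.2]⟩
  have e3 : B = WithLp.toLp 2 ⁻¹'
      Metric.ball (WithLp.toLp 2 fun _ : I => (1 / 2 : ℝ) : EuclideanSpace ℝ I) r := by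
    ext y
    rw [mem_preimage, Metric.mem_ball, ← sq_lt_sq₀ dist_nonneg h0, EuclideanSpace.dist_sq_eq]
    simp [hB, Real.dist_eq]
  rw [← vol_Mod I (fun _ => 1 / 2) r, measureReal_def, measureReal_def, measure_congr e1,
    (mp_res I).measure_preimage hm.nullMeasurableSet, Measure.restrict_eq_self _ e2, e3,
    (PiLp.volume_preserving_toLp I).measure_preimage measurableSet_ball.nullMeasurableSet]

theorem rank (I : Finset (Fin 3)) : Module.finrank ℝ (EuclideanSpace ℝ I) = I.card := by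
  rw [finrank_euclideanSpace, Fintype.card_coe]

end AVolAux

open AVolAux

theorem vol_ModQ_one {I : Finset (Fin 3)} (hI : I.card = 1) {R : ℝ} (h0 : 0 ≤ R) (h1 : R ≤ 1) :
    vQ.real (ModQ I R) = R := by
  have h := key I (r := R / 2) (by linarith) (by linarith)
  rw [mul_div_cancel₀ _ two_ne_zero] at h
  rw [h, measureReal_def, InnerProductSpace.volume_ball_of_dim_odd (k := 0) ((rank I).trans hI),
    rank, hI, ENNReal.toReal_mul, ENNReal.toReal_pow, ENNReal.toReal_ofReal (by linarith),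
    ENNReal.toReal_ofReal (by positivity)]
  norm_num

theorem vol_ModQ_two {I : Finset (Fin 3)} (hI : I.card = 2) {R : ℝ} (h0 : 0 ≤ R) (h1 : R ≤ 1) :
    vQ.real (ModQ I R) = Real.pi * R ^ 2 / 4 := by
  have h := key I (r := R / 2) (by linarith) (by linarith)
  rw [mul_div_cancel₀ _ two_ne_zero] at h
  have : Nontrivial (EuclideanSpace ℝ I) :=
    Module.nontrivial_of_finrank_pos (R := ℝ) (by rw [rank]; omega)
  rw [h, measureReal_def, InnerProductSpace.volume_ball_of_dim_even (k := 1) ((rank I).trans hI),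
    rank, hI, ENNReal.toReal_mul, ENNReal.toReal_pow, ENNReal.toReal_ofReal (by linarith),
    ENNReal.toReal_ofReal (by positivity)]
  norm_num
  ring

theorem vol_ModQ_three {I : Finset (Fin 3)} (hI : I.card = 3) {R : ℝ} (h0 : 0 ≤ R)
    (h1 : R ≤ 1) : vQ.real (ModQ I R) = Real.pi * R ^ 3 / 6 := by
  have h := key I (r := R / 2) (by linarith) (by linarith)
  rw [mul_div_cancel₀ _ two_ne_zero] at h
  rw [h, measureReal_def, InnerProductSpace.volume_ball_of_dim_odd (k := 1) ((rank I).trans hI),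
    rank, hI, ENNReal.toReal_mul, ENNReal.toReal_pow, ENNReal.toReal_ofReal (by linarith),
    ENNReal.toReal_ofReal (by positivity)]
  norm_num
  ring

theorem vol_Mod (I : Finset (Fin 3)) (c : X) (r : ℝ) :
    vQ.real (Mod I c r) = vQ.real (ModQ I (2 * r)) := AVolAux.vol_Mod I c r

/-- scaling law -/
theorem vol_Mod_scale {I : Finset (Fin 3)} (hI : I.Nonempty) :
    ∃ κ : ℝ, 0 < κ ∧ ∀ (c : X) (r : ℝ), 0 ≤ r → r ≤ 1 / 2 →
      vQ.real (Mod I c r) = κ * r ^ I.card := by
  have h1 := Finset.card_pos.2 hI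
  have h3 : I.card ≤ 3 := (Finset.card_le_univ I).trans (by simp)
  obtain h | h | h : I.card = 1 ∨ I.card = 2 ∨ I.card = 3 := by omega
  · refine ⟨2, two_pos, fun c r h0 hr => ?_⟩
    rw [AVolAux.vol_Mod, vol_ModQ_one h (by linarith) (by linarith), h, pow_one]
  · refine ⟨Real.pi, Real.pi_pos, fun c r h0 hr => ?_⟩
    rw [AVolAux.vol_Mod, vol_ModQ_two h (by linarith) (by linarith), h]
    ring
  · refine ⟨Real.pi * 4 / 3, by positivity, fun c r h0 hr => ?_⟩
    rw [AVolAux.vol_Mod, vol_ModQ_three h (by linarith) (by linarith), h]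
    ring

end Vale.Agent.P232
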