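import Vale.Agent.P232.Defs

/-! # P232: internal definitions (no proofs to fill here) -/

open MeasureTheory Set Function Filter Topology
open scoped ENNReal

namespace Vale.Agent.P232

abbrev X : Type := Fin 3 → ℝ

/-- open unit cube -/
def Q : Set X := {x | ∀ i, 0 < x i ∧ x i < 1}

/-- Lebesgue measure on the unit cube (a probability measure) -/
noncomputable def vQ : Measure X := volume.restrict Q

/-- Lebesgue measure on the unit interval -/
noncomputable def vI : Measure ℝ := volume.restrict (Ioo 0 1)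

/-- bounded measurable real functions -/
def BM {α : Type} [MeasurableSpace α] (f : α → ℝ) : Prop :=
  Measurable f ∧ ∃ C : ℝ, ∀ x, |f x| ≤ C

/-- partial derivative in direction `i` -/
noncomputable def pd (i : Fin 3) (f : X → ℝ) (x : X) : ℝ := fderiv ℝ f x (Pi.single i 1)

/-- lattice periodic function -/
def Per (f : X → ℝ) : Prop := ∀ (x : X) (k : Fin 3 → ℤ), f (fun j => x j + (k j : ℝ)) = f x

/-- lattice periodic set -/
def PerSet (E : Set X) : Prop :=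
  ∀ (x : X) (k : Fin 3 → ℤ), ((fun j => x j + (k j : ℝ)) : X) ∈ E ↔ x ∈ E

/-- periodic `C^1` function -/
def PC1 (f : X → ℝ) : Prop := ContDiff ℝ 1 f ∧ Per f

/-- function not depending on coordinate `k` -/
def Ind (k : Fin 3) (f : X → ℝ) : Prop := ∀ x t, f (update x k t) = f x

/-- the torus perimeter of the periodic set `E` is at most `p` -/
def PerLe (E : Set X) (p : ℝ) : Prop := ∀ Y, IsField Y → ∫ x in E, dvg Y x ∂vQ ≤ p

/-- distance to the nearest integer -/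
noncomputable def nd (t : ℝ) : ℝ := |t - round t|

/-- folding of the torus onto the unit cube -/
noncomputable def fold (x : X) : X := fun i => 2 * nd (x i)

/-- periodic model sets: ball, tube, slab for `I.card = 3, 2, 1` -/
def Mod (I : Finset (Fin 3)) (c : X) (r : ℝ) : Set X :=
  {x | ∑ i ∈ I, nd (x i - c i) ^ 2 < r ^ 2}

/-- model sets in the cube -/
def ModQ (I : Finset (Fin 3)) (R : ℝ) : Set X := {x | ∑ i ∈ I, x i ^ 2 < R ^ 2}

/-- length of the section of `E` in direction `i` through `x`; for a down-set the height -/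
noncomputable def ht (E : Set X) (i : Fin 3) (x : X) : ℝ := vI.real {t | update x i t ∈ E}

/-- where the section is neither null nor full -/
def Wd (E : Set X) (i : Fin 3) : Set X := {x | 0 < ht E i x ∧ ht E i x < 1}

/-- Steiner symmetrisation on the circle in direction `k` -/
def St (k : Fin 3) (E : Set X) : Set X := {x | nd (x k) < ht E k x / 2}

/-- Gauss-Green measure on (point, normal) -/
structure Var (E : Set X) (p : ℝ) (V : Measure (X × X)) : Prop where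
  fin : IsFiniteMeasure V
  mass : V.real univ ≤ p
  unit : ∀ᵐ z ∂V, ∑ i, z.2 i ^ 2 ≤ 1
  gg : ∀ (f : X → ℝ) (i : Fin 3), PC1 f →
    ∫ x in E, pd i f x ∂vQ = ∫ z, f z.1 * z.2 i ∂V

/-- `S` is a.e. a periodic arc with centre `θ` -/
def ArcAt (S : Set ℝ) (θ : ℝ) : Prop :=
  ∀ᵐ t ∂(volume : Measure ℝ), (t ∈ S ↔ nd (t - θ) < vI.real S / 2)

/-- Lebesgue density point -/
def Dens (S : Set ℝ) (p : ℝ) : Prop :=
  Tendsto (fun δ : ℝ => volume.real (S ∩ Icc (p - δ) (p + δ)) / (2 * δ)) (𝓝[>] 0) (𝓝 1)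

/-- one-dimensional periodic mollifiers -/
structure Ker (ρ : ℕ → ℝ → ℝ) : Prop where
  c1 : ∀ n, ContDiff ℝ 1 (ρ n)
  per : ∀ n, Periodic (ρ n) 1
  nonneg : ∀ n t, 0 ≤ ρ n t
  even : ∀ n t, ρ n (-t) = ρ n t
  one : ∀ n, ∫ t, ρ n t ∂vI = 1
  supp : ∀ n t, ρ n t ≠ 0 → nd t < 1 / ((n : ℝ) + 3)

/-- product kernel in the coordinates of `I` -/
noncomputable def kr (ρ : ℕ → ℝ → ℝ) (I : Finset (Fin 3)) (n : ℕ) (x : X) : ℝ :=
  ∏ i ∈ I, ρ n (x i)

/-- convolution on the torus -/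
noncomputable def conv (f K : X → ℝ) (x : X) : ℝ := ∫ y, f y * K (x - y) ∂vQ

/-! ### down-sets -/

/-- open lower sets -/
def Dn (D : Set X) : Prop := IsOpen D ∧ IsLowerSet D

/-- graph measure in direction `i` -/
noncomputable def mu (D : Set X) (i : Fin 3) : Measure X :=
  (vQ.restrict (Wd D i)).map (fun x => update x i (ht D i x))

noncomputable def sg (D : Set X) : Measure X := mu D 0 + mu D 1 + mu D 2

noncomputable def nv (D : Set X) (i : Fin 3) (x : X) : ℝ := ((mu D i).rnDeriv (sg D) x).toReal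

noncomputable def nn (D : Set X) (x : X) : ℝ := √(∑ i, nv D i x ^ 2)

/-- relative area of the boundary of the down-set inside the cube -/
noncomputable def area (D : Set X) : ℝ := ∫ x, nn D x ∂(sg D)

noncomputable def vol (D : Set X) : ℝ := vQ.real D

/-- area of the slice at level `t` in direction `i` -/
noncomputable def sl (D : Set X) (i : Fin 3) (t : ℝ) : ℝ := vQ.real {x | t < ht D i x}

noncomputable def al (D : Set X) (i : Fin 3) : ℝ := vQ.real {x | 1 ≤ ht D i x}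

noncomputable def be (D : Set X) (i : Fin 3) : ℝ := vQ.real {x | 0 < ht D i x}

noncomputable def kap (D : Set X) (i : Fin 3) (x : X) : ℝ :=
  (nn D x ^ 2 - nv D i x ^ 2) / nn D x

noncomputable def pp (D : Set X) (i : Fin 3) (x : X) : ℝ := √(nn D x ^ 2 - nv D i x ^ 2)

/-- the conjectured profile of the unit cube -/
noncomputable def Jc (v : ℝ) : ℝ := Jt v / 2

def IsMin (D : Set X) : Prop :=
  Dn D ∧ ∀ D', Dn D' → area D - Jc (vol D) ≤ area D' - Jc (vol D')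

/-- one-sided derivatives of the profile at `v` -/
def JD (v h₁ h₂ : ℝ) : Prop :=
  0 ≤ h₁ ∧ h₁ ≤ h₂ ∧ HasDerivWithinAt Jc h₁ (Ici v) v ∧ HasDerivWithinAt Jc h₂ (Iic v) v

/-- admissible (volume, mean curvature, profile value) -/
def Gam (v H J : ℝ) : Prop :=
  (∃ ρ : ℝ, 0 < ρ ∧ ρ < 2 / 3 ∧ v = Real.pi * ρ ^ 3 / 6 ∧ H = 2 / ρ ∧ J = Real.pi * ρ ^ 2 / 2) ∨
  (v = 4 * Real.pi / 81 ∧ 9 / 4 ≤ H ∧ H ≤ 3 ∧ J = 2 * Real.pi / 9) ∨
  (∃ r : ℝ, 4 / 9 < r ∧ r < 2 / Real.pi ∧ v = Real.pi * r ^ 2 / 4 ∧ H = 1 / r ∧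
    J = Real.pi * r / 2) ∨
  (v = 1 / Real.pi ∧ 0 ≤ H ∧ H ≤ Real.pi / 2 ∧ J = 1) ∨
  (1 / Real.pi < v ∧ v ≤ 1 / 2 ∧ H = 0 ∧ J = 1)

/-- flux identities -/
def Flux (D : Set X) (H : ℝ) (c : Fin 3 → ℝ) : Prop :=
  ∀ (i : Fin 3) (φ : ℝ → ℝ), BM φ →
    ∫ x, φ (x i) * kap D i x ∂(sg D) = ∫ t, φ t * (c i + H * sl D i t) ∂vI

/-- lower bound `f t` for the perimeter of the slice at level `t` in direction `k` -/
def LB (D : Set X) (k : Fin 3) (f : ℝ → ℝ) : Prop :=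
  ∀ ρ : ℝ → ℝ, BM ρ → (∀ t, 0 ≤ ρ t) →
    ∫ t, ρ t * f t ∂vI ≤ ∫ x, ρ (x k) * pp D k x ∂(sg D)

/-- point with `x i = a`, `x j = b` and the remaining coordinate `t` -/
def pt (i j : Fin 3) (a b t : ℝ) : X := update (update (fun _ => t) i a) j b

/-- planar down-set given by its two height functions -/
structure Pl (f e : ℝ → ℝ) : Prop where
  af : Antitone f
  ae : Antitone e
  f01 : ∀ a, 0 ≤ f a ∧ f a ≤ 1
  e01 : ∀ b, 0 ≤ e b ∧ e b ≤ 1
  dual : ∀ a ∈ Ioo (0 : ℝ) 1, ∀ b ∈ Ioo (0 : ℝ) 1, (b < f a ↔ a < e b)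

/-- extent where `e` is positive -/
noncomputable def ext0 (e : ℝ → ℝ) : ℝ := vI.real {b | 0 < e b}

/-- extent where `e` is full -/
noncomputable def ext1 (e : ℝ → ℝ) : ℝ := vI.real {b | 1 ≤ e b}

/-- planar calibration functional -/
noncomputable def Cal (f e : ℝ → ℝ) (g₁ g₂ : ℝ → ℝ → ℝ) : ℝ :=
  ∫ b in {b | 0 < e b ∧ e b < 1}, g₁ (e b) b ∂vI + ∫ a in {a | 0 < f a ∧ f a < 1}, g₂ a (f a) ∂vI

/-- height in direction `j` of the slice at level `t`, as a function of `x i` -/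
noncomputable def fs (D : Set X) (i j : Fin 3) (t a : ℝ) : ℝ := ht D j (pt i j a 0 t)

/-- height in direction `i` of the slice at level `t`, as a function of `x j` -/
noncomputable def es (D : Set X) (i j : Fin 3) (t b : ℝ) : ℝ := ht D i (pt i j 0 b t)

/-- calibration functional of the slice at level `t` -/
noncomputable def CalS (D : Set X) (i j : Fin 3) (g₁ g₂ : X → ℝ) (t : ℝ) : ℝ :=
  Cal (fs D i j t) (es D i j t) (fun a b => g₁ (pt i j a b t)) (fun a b => g₂ (pt i j a b t))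

noncomputable def Dq (L a : ℝ) : ℝ :=
  if 4 * a ≤ Real.pi * L ^ 2 then √(Real.pi * a) else a / L + Real.pi * L / 4

noncomputable def gh (σ : ℝ) : ℝ := 1 - σ ^ 2 / 6 - σ ^ 4 / 40 - 3 * σ ^ 6 / 56

noncomputable def Sq (d : ℝ) : ℝ :=
  (Finset.range 33).sup' ⟨0, Finset.mem_range.2 (Nat.succ_pos 32)⟩
    (fun k : ℕ => gh ((k : ℝ) / 32) + (k : ℝ) / 32 * d)

/-- nested planar profile -/
noncomputable def In (L L' a : ℝ) : ℝ :=
  min (Dq (max L (1 / 8)) a)
    (min (max (Sq (L - a)) (Sq (L' - (1 - a)))) (Dq (max L' (1 / 8)) (1 - a)))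

def StarP (A e c H α β : ℝ) (I : ℝ → ℝ) : Prop :=
  ∀ s : ℝ → ℝ, Measurable s → (∀ a, 0 ≤ s a ∧ s a ≤ 1) →
    (∀ a ∈ Ioo α β, s a = 0 ∨ (c + H * a) ^ 2 ≤ (1 - s a ^ 2) * I a ^ 2) →
    e + ∫ a in Ioo α β, s a ≤ A

/-- everything the real-variable part knows about one direction -/
def DirP (A v H c : ℝ) : Prop :=
  ∃ α β L L' : ℝ, 0 ≤ α ∧ α ≤ v ∧ v ≤ β ∧ β ≤ 1 ∧ 0 ≤ L ∧ L ≤ 1 ∧ 0 ≤ L' ∧ L' ≤ 1 ∧
    In L L' α ≤ c + H * α ∧ In L L' β ≤ c + H * β ∧
    StarP A (c + H * v) c H α β (In L L') ∧ c + H * v ≤ A ∧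
    (β - α) ^ 2 ≤ A * (A - (c + H * v))

def IsModel (D : Set X) : Prop :=
  ∃ I : Finset (Fin 3), I.Nonempty ∧ ∃ R : ℝ, 0 < R ∧ R < 1 ∧ D =ᵐ[vQ] ModQ I R ∧
    area D = I.card * vol D / R

end Vale.Agent.P232
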