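import Vale.Agent.P232.AFub

open MeasureTheory Set Function Filter Topology
open scoped ENNReal

namespace Vale.Agent.P232

namespace DPlAux

theorem vI_Iio {b : ℝ} (h0 : 0 ≤ b) (h1 : b ≤ 1) : vI.real (Iio b) = b := by
  have : Iio b ∩ Ioo (0 : ℝ) 1 = Ioo 0 b := by
    ext x
    simp only [mem_inter_iff, mem_Iio, mem_Ioo]
    constructor
    · rintro ⟨h, h', _⟩; exact ⟨h', h⟩
    · rintro ⟨h, h'⟩; exact ⟨h', h, lt_of_lt_of_le h' h1⟩
  unfold vI
  rw [measureReal_def, Measure.restrict_apply measurableSet_Iio, this, Real.volume_Ioo,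
    ENNReal.toReal_ofReal (by linarith)]
  ring

theorem real_mem (S : Set ℝ) : 0 ≤ vI.real S ∧ vI.real S ≤ 1 := by
  have := vI_prob
  exact ⟨measureReal_nonneg, measureReal_le_one⟩

theorem low_mem {S : Set ℝ} (hS : IsLowerSet S) {b : ℝ} (hb : b ∈ Ioo (0 : ℝ) 1)
    (h : b < vI.real S) : b ∈ S := by
  have := vI_prob
  by_contra hn
  have hsub : S ⊆ Iio b := fun x hx => by
    by_contra hx'
    exact hn (hS (not_lt.1 hx') hx)
  have := measureReal_mono (μ := vI) hsub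
  rw [vI_Iio hb.1.le hb.2.le] at this
  linarith

theorem low_not_mem {S : Set ℝ} (hS : IsLowerSet S) {b : ℝ} (hb : b ∈ Ioo (0 : ℝ) 1)
    (h : vI.real S < b) : b ∉ S := by
  have := vI_prob
  intro hn
  have hsub : Iio b ⊆ S := fun x hx => hS (le_of_lt hx) hn
  have := measureReal_mono (μ := vI) hsub
  rw [vI_Iio hb.1.le hb.2.le] at this
  linarith

theorem ae_ne (m : ℝ) : ∀ᵐ b ∂vI, b ≠ m := by
  unfold vI
  exact ae_restrict_of_ae (by simp [ae_iff])

theorem low0 {e : ℝ → ℝ} (h : Antitone e) : IsLowerSet {b | 0 < e b} :=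
  fun _ _ hab hb => lt_of_lt_of_le hb (h hab)

theorem low1 {e : ℝ → ℝ} (h : Antitone e) : IsLowerSet {b | 1 ≤ e b} :=
  fun _ _ hab hb => le_trans hb (h hab)

theorem bm_of {f : ℝ → ℝ} (h : Antitone f) (h01 : ∀ a, 0 ≤ f a ∧ f a ≤ 1) : BM f :=
  ⟨h.measurable, 1, fun x => by rw [abs_of_nonneg (h01 x).1]; exact (h01 x).2⟩

theorem integral_ind (c : ℝ) (h0 : 0 ≤ c) (h1 : c ≤ 1) :
    ∫ b, (if b < c then (1 : ℝ) else 0) ∂vI = c := by
  have : (fun b : ℝ => if b < c then (1 : ℝ) else 0) = (Iio c).indicator 1 := by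
    ext b; simp [indicator]
  rw [this, integral_indicator_one measurableSet_Iio, vI_Iio h0 h1]

/-- integrals over a set that agrees a.e. with an interval -/
theorem setIntegral_eq {S : Set ℝ} {l r : ℝ} (h0 : 0 ≤ l) (hlr : l ≤ r) (h1 : r ≤ 1)
    (h : ∀ b ∈ Ioo (0 : ℝ) 1, b ≠ l → b ≠ r → (b ∈ S ↔ b ∈ Ioo l r)) (g : ℝ → ℝ) :
    ∫ b in S, g b ∂vI = ∫ b in l..r, g b := by
  have hae : S =ᵐ[vI] Ioo l r := by
    filter_upwards [ae_vI, ae_ne l, ae_ne r] with b hb hl hr
    exact propext (h b hb hl hr)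
  rw [setIntegral_congr_set hae, intervalIntegral.integral_of_le hlr,
    integral_Ioc_eq_integral_Ioo]
  unfold vI
  rw [Measure.restrict_restrict measurableSet_Ioo,
    inter_eq_left.2 (Ioo_subset_Ioo h0 h1)]

theorem integral_vI (g : ℝ → ℝ) : ∫ b, g b ∂vI = ∫ b in (0 : ℝ)..1, g b := by
  rw [intervalIntegral.integral_of_le zero_le_one, integral_Ioc_eq_integral_Ioo]
  rfl

theorem quarter : ∫ x in (0 : ℝ)..1, √(1 - x ^ 2) = Real.pi / 4 := by
  have hc : Continuous fun x : ℝ => √(1 - x ^ 2) := by fun_prop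
  have h1 := integral_sqrt_one_sub_sq
  have h2 := intervalIntegral.integral_add_adjacent_intervals
    (hc.intervalIntegrable (μ := volume) (-1) 0) (hc.intervalIntegrable (μ := volume) 0 1)
  have h3 : ∫ x in (-1 : ℝ)..0, √(1 - x ^ 2) = ∫ x in (0 : ℝ)..1, √(1 - x ^ 2) := by
    have := intervalIntegral.integral_comp_neg (a := 0) (b := 1) (fun x : ℝ => √(1 - x ^ 2))
    simp only [neg_zero, neg_sq] at this
    exact this.symm
  linarith

theorem quarter_scale {L : ℝ} (hL : 0 < L) :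
    ∫ b in (0 : ℝ)..L, √(1 - (b / L) ^ 2) = Real.pi * L / 4 := by
  have := intervalIntegral.integral_comp_div (a := 0) (b := L) (fun x : ℝ => √(1 - x ^ 2)) hL.ne'
  rw [this, zero_div, div_self hL.ne', quarter, smul_eq_mul]
  ring

/-- integral over the set where `0 < f < 1` of a function vanishing elsewhere a.e. -/
theorem setIntegral_mid {f : ℝ → ℝ} (hf : Measurable f) {g : ℝ → ℝ}
    (h : ∀ᵐ a ∂vI, ¬ (0 < f a ∧ f a < 1) → g a = 0) :
    ∫ a in {a | 0 < f a ∧ f a < 1}, g a ∂vI = ∫ a, g a ∂vI := by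
  have hm : MeasurableSet {a | 0 < f a ∧ f a < 1} :=
    (measurableSet_lt measurable_const hf).inter (measurableSet_lt hf measurable_const)
  rw [← integral_indicator hm]
  refine integral_congr_ae ?_
  filter_upwards [h] with a ha
  by_cases hh : 0 < f a ∧ f a < 1
  · rw [indicator_of_mem (show a ∈ {a | 0 < f a ∧ f a < 1} from hh)]
  · rw [indicator_of_notMem (show a ∉ {a | 0 < f a ∧ f a < 1} from hh), ha hh]

theorem setIntegral_mid' {f : ℝ → ℝ} (hf : Measurable f) {g g' : ℝ → ℝ}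
    (h : ∀ᵐ a ∂vI, ((0 < f a ∧ f a < 1) → g a = g' a) ∧ (¬ (0 < f a ∧ f a < 1) → g' a = 0)) :
    ∫ a in {a | 0 < f a ∧ f a < 1}, g a ∂vI = ∫ a, g' a ∂vI := by
  have hm : MeasurableSet {a | 0 < f a ∧ f a < 1} :=
    (measurableSet_lt measurable_const hf).inter (measurableSet_lt hf measurable_const)
  rw [← integral_indicator hm]
  refine integral_congr_ae ?_
  filter_upwards [h] with a ha
  by_cases hh : 0 < f a ∧ f a < 1
  · rw [indicator_of_mem (show a ∈ {a | 0 < f a ∧ f a < 1} from hh), ha.1 hh]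
  · rw [indicator_of_notMem (show a ∉ {a | 0 < f a ∧ f a < 1} from hh), ha.2 hh]

theorem sqrt_ge {z : ℝ} (h0 : 0 ≤ z) (h1 : z ≤ 1) :
    1 - z / 2 - z ^ 2 / 8 - 3 * z ^ 3 / 8 ≤ √(1 - z) := by
  apply Real.le_sqrt_of_sq_le
  have h2 : 0 ≤ 1 - z := by linarith
  have : 1 - z - (1 - z / 2 - z ^ 2 / 8 - 3 * z ^ 3 / 8) ^ 2 =
      z ^ 3 * (1 - z) * (40 + 15 * z + 9 * z ^ 2) / 64 := by ring
  have h3 : 0 ≤ z ^ 3 * (1 - z) * (40 + 15 * z + 9 * z ^ 2) / 64 := by positivity
  linarith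

end DPlAux

open DPlAux

variable {f e : ℝ → ℝ}

theorem Pl.symm (h : Pl f e) : Pl e f := by
  refine ⟨h.ae, h.af, h.e01, h.f01, fun b hb a ha => (h.dual a ha b hb).symm⟩

theorem Pl.integral_eq (h : Pl f e) : ∫ a, f a ∂vI = ∫ b, e b ∂vI := by
  have := vI_prob
  have hm : Measurable (fun p : ℝ × ℝ => if p.2 < f p.1 then (1 : ℝ) else 0) :=
    Measurable.ite (measurableSet_lt measurable_snd (h.af.measurable.comp measurable_fst))
      measurable_const measurable_const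
  have hb : BM (fun p : ℝ × ℝ => if p.2 < f p.1 then (1 : ℝ) else 0) :=
    ⟨hm, 1, fun p => by dsimp only; split_ifs <;> simp⟩
  have hsw := integral_integral_swap (μ := vI) (ν := vI)
    (f := fun a b : ℝ => if b < f a then (1 : ℝ) else 0) (hb.integrable (vI.prod vI))
  have h1 : ∫ a, f a ∂vI = ∫ a, ∫ b, (if b < f a then (1 : ℝ) else 0) ∂vI ∂vI := by
    congr 1
    ext a
    rw [integral_ind _ (h.f01 a).1 (h.f01 a).2]
  rw [h1, hsw]
  refine integral_congr_ae ?_
  filter_upwards [ae_vI] with b hb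
  rw [← integral_ind _ (h.e01 b).1 (h.e01 b).2]
  refine integral_congr_ae ?_
  filter_upwards [ae_vI] with a ha
  simp only [h.dual a ha b hb]

theorem ext0_mem (e : ℝ → ℝ) : 0 ≤ ext0 e ∧ ext0 e ≤ 1 := real_mem _

theorem ext1_mem (e : ℝ → ℝ) : 0 ≤ ext1 e ∧ ext1 e ≤ 1 := real_mem _

theorem Pl.le_ext0 (h : Pl f e) {a : ℝ} (ha : a ∈ Ioo (0 : ℝ) 1) : f a ≤ ext0 e := by
  by_contra hn
  have hn := not_le.1 hn
  obtain ⟨b, hb1, hb2⟩ := exists_between hn
  have hb : b ∈ Ioo (0 : ℝ) 1 :=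
    ⟨lt_of_le_of_lt (ext0_mem e).1 hb1, lt_of_lt_of_le hb2 (h.f01 a).2⟩
  exact low_not_mem (low0 h.ae) hb hb1 (lt_trans ha.1 ((h.dual a ha b hb).1 hb2))

theorem Pl.ext1_le (h : Pl f e) {a : ℝ} (ha : a ∈ Ioo (0 : ℝ) 1) : ext1 e ≤ f a := by
  by_contra hn
  have hn := not_le.1 hn
  obtain ⟨b, hb1, hb2⟩ := exists_between hn
  have hb : b ∈ Ioo (0 : ℝ) 1 :=
    ⟨lt_of_le_of_lt (h.f01 a).1 hb1, lt_of_lt_of_le hb2 (ext1_mem e).2⟩
  have h1 : (1 : ℝ) ≤ e b := low_mem (low1 h.ae) hb hb2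
  have := (h.dual a ha b hb).2 (lt_of_lt_of_le ha.2 h1)
  linarith

theorem Pl.pos_of_lt (h : Pl f e) {b : ℝ} (hb : b ∈ Ioo (0 : ℝ) 1) (hlt : b < ext0 e) :
    0 < e b := low_mem (low0 h.ae) hb hlt

theorem Pl.zero_of_lt (h : Pl f e) {b : ℝ} (hb : b ∈ Ioo (0 : ℝ) 1) (hlt : ext0 e < b) :
    e b = 0 := le_antisymm (not_lt.1 (low_not_mem (low0 h.ae) hb hlt)) (h.e01 b).1

theorem Pl.one_of_lt (h : Pl f e) {b : ℝ} (hb : b ∈ Ioo (0 : ℝ) 1) (hlt : b < ext1 e) :
    e b = 1 := le_antisymm (h.e01 b).2 (low_mem (low1 h.ae) hb hlt)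

theorem Pl.lt_one_of_lt (h : Pl f e) {b : ℝ} (hb : b ∈ Ioo (0 : ℝ) 1) (hlt : ext1 e < b) :
    e b < 1 := not_le.1 (low_not_mem (low1 h.ae) hb hlt)

theorem Pl.area_le (h : Pl f e) : ∫ a, f a ∂vI ≤ ext0 e := by
  have := vI_prob
  have h1 : ∫ a, f a ∂vI ≤ ∫ _a, ext0 e ∂vI := by
    refine integral_mono_ae ((bm_of h.af h.f01).integrable vI) (integrable_const _) ?_
    filter_upwards [ae_vI] with a ha using h.le_ext0 ha
  simpa using h1

theorem Pl.le_area (h : Pl f e) : ext1 e ≤ ∫ a, f a ∂vI := by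
  have := vI_prob
  have h1 : ∫ _a, ext1 e ∂vI ≤ ∫ a, f a ∂vI := by
    refine integral_mono_ae (integrable_const _) ((bm_of h.af h.f01).integrable vI) ?_
    filter_upwards [ae_vI] with a ha using h.ext1_le ha
  simpa using h1

/-- if the set wets the face `b = 1` then it covers the whole face `a = 0` -/
theorem Pl.ext0_eq_one (h : Pl f e) (h2 : 0 < ext1 f) : ext0 e = 1 := by
  have ha : ext1 f / 2 ∈ Ioo (0 : ℝ) 1 := ⟨by linarith, by linarith [(ext1_mem f).2]⟩
  have h1 := h.symm.one_of_lt ha (by linarith)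
  have h3 := h.le_ext0 ha
  exact le_antisymm (ext0_mem e).2 (by linarith)

/-- quarter-disc calibration -/
theorem Pl.disc (h : Pl f e) (h1 : ext1 e = 0) (h2 : ext1 f = 0) (hL : 0 < ext0 e) :
    Cal f e (fun _ b => √(1 - (b / ext0 e) ^ 2)) (fun _ b => min (|b| / ext0 e) 1) =
      (∫ a, f a ∂vI) / ext0 e + Real.pi * ext0 e / 4 := by
  unfold Cal
  rw [setIntegral_eq (l := 0) (r := ext0 e) le_rfl hL.le (ext0_mem e).2, quarter_scale hL,
    setIntegral_mid' h.af.measurable (g' := fun a => f a / ext0 e), integral_div, add_comm]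
  · filter_upwards [ae_vI] with a ha
    have h3 : f a < 1 := h.symm.lt_one_of_lt ha (by rw [h2]; exact ha.1)
    refine ⟨fun _ => ?_, fun hn => ?_⟩
    · rw [abs_of_nonneg (h.f01 a).1]
      exact min_eq_left ((div_le_one hL).2 (h.le_ext0 ha))
    · have : f a = 0 := le_antisymm (not_lt.1 fun h4 => hn ⟨h4, h3⟩) (h.f01 a).1
      rw [this, zero_div]
  · intro b hb _ hr
    have h3 : e b < 1 := h.lt_one_of_lt hb (by rw [h1]; exact hb.1)
    constructor
    · intro h4
      refine ⟨hb.1, lt_of_le_of_ne (not_lt.1 fun h5 => ?_) hr⟩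
      have := h.zero_of_lt hb h5
      exact absurd h4.1 (by rw [this]; exact lt_irrefl 0)
    · intro h4
      exact ⟨h.pos_of_lt hb h4.2, h3⟩

/-- complementary quarter-disc calibration -/
theorem Pl.codisc (h : Pl f e) (h1 : 0 < ext1 e) (h2 : 0 < ext1 f) (hM : ext1 e < 1) :
    Cal f e (fun _ b => √(1 - ((1 - b) / (1 - ext1 e)) ^ 2))
        (fun _ b => min (|1 - b| / (1 - ext1 e)) 1) =
      (1 - ∫ a, f a ∂vI) / (1 - ext1 e) + Real.pi * (1 - ext1 e) / 4 := by
  have := vI_prob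
  have hL : 0 < 1 - ext1 e := by linarith
  unfold Cal
  have e1 : ∫ b in ext1 e..1, √(1 - ((1 - b) / (1 - ext1 e)) ^ 2) =
      Real.pi * (1 - ext1 e) / 4 := by
    have := intervalIntegral.integral_comp_sub_left (a := ext1 e) (b := 1)
      (fun x : ℝ => √(1 - (x / (1 - ext1 e)) ^ 2)) 1
    rw [this, sub_self, quarter_scale hL]
  rw [setIntegral_eq (l := ext1 e) (r := 1) h1.le hM.le le_rfl, e1,
    setIntegral_mid' h.af.measurable (g' := fun a => (1 - f a) / (1 - ext1 e)), integral_div,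
    integral_sub (integrable_const _) ((bm_of h.af h.f01).integrable vI), add_comm]
  · simp
  · filter_upwards [ae_vI] with a ha
    have h3 : 0 < f a := lt_of_lt_of_le h1 (h.ext1_le ha)
    refine ⟨fun _ => ?_, fun hn => ?_⟩
    · rw [abs_of_nonneg (by linarith [(h.f01 a).2])]
      exact min_eq_left ((div_le_one hL).2 (by linarith [h.ext1_le ha]))
    · have : f a = 1 := le_antisymm (h.f01 a).2 (not_lt.1 fun h4 => hn ⟨h3, h4⟩)
      rw [this, sub_self, zero_div]
  · intro b hb hl _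
    have h3 : 0 < e b := h.pos_of_lt hb (by rw [h.ext0_eq_one h2]; exact hb.2)
    constructor
    · intro h4
      refine ⟨lt_of_le_of_ne (not_lt.1 fun h5 => ?_) (Ne.symm hl), hb.2⟩
      have := h.one_of_lt hb h5
      exact absurd h4.2 (by rw [this]; exact lt_irrefl 1)
    · intro h4
      exact ⟨h3, h.lt_one_of_lt hb h4.1⟩

theorem gh_le {σ : ℝ} (h0 : 0 ≤ σ) (h1 : σ ≤ 1) : gh σ ≤ ∫ a, √(1 - (σ * a) ^ 2) ∂vI := by
  rw [integral_vI]
  have e1 : ∫ a in (0 : ℝ)..1, (1 - σ ^ 2 / 2 * a ^ 2 - σ ^ 4 / 8 * a ^ 4 - 3 * σ ^ 6 / 8 * a ^ 6)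
      = gh σ := by
    rw [intervalIntegral.integral_sub, intervalIntegral.integral_sub,
      intervalIntegral.integral_sub, intervalIntegral.integral_const_mul,
      intervalIntegral.integral_const_mul, intervalIntegral.integral_const_mul,
      integral_pow, integral_pow, integral_pow]
    · simp only [intervalIntegral.integral_const, gh]
      norm_num
      ring
    all_goals exact Continuous.intervalIntegrable (by fun_prop) _ _
  rw [← e1]
  refine intervalIntegral.integral_mono_on zero_le_one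
    (Continuous.intervalIntegrable (by fun_prop) _ _)
    (Continuous.intervalIntegrable (by fun_prop) _ _) fun a ha => ?_
  have h2 : 0 ≤ σ * a := mul_nonneg h0 ha.1
  have h3 : σ * a ≤ 1 := mul_le_one₀ h1 ha.1 ha.2
  have := sqrt_ge (z := (σ * a) ^ 2) (by positivity) (pow_le_one₀ h2 h3)
  refine le_trans (le_of_eq ?_) this
  ring

theorem Pl.mid_strip (h : Pl f e) (h1 : 0 < ext1 e) (h2 : ext1 f = 0) {a : ℝ}
    (ha : a ∈ Ioo (0 : ℝ) 1) : 0 < f a ∧ f a < 1 :=
  ⟨lt_of_lt_of_le h1 (h.ext1_le ha), h.symm.lt_one_of_lt ha (by rw [h2]; exact ha.1)⟩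

theorem Pl.ext0_int (h : Pl f e) : ext0 e = ∫ b, (if 0 < e b then (1 : ℝ) else 0) ∂vI := by
  have : (fun b : ℝ => if 0 < e b then (1 : ℝ) else 0) = {b | 0 < e b}.indicator 1 := by
    ext b; simp [indicator]
  rw [this, integral_indicator_one (measurableSet_lt measurable_const h.ae.measurable)]
  rfl

theorem Pl.ext1_int (h : Pl f e) : ext1 e = ∫ b, (if 1 ≤ e b then (1 : ℝ) else 0) ∂vI := by
  have : (fun b : ℝ => if 1 ≤ e b then (1 : ℝ) else 0) = {b | 1 ≤ e b}.indicator 1 := by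
    ext b; simp [indicator]
  rw [this, integral_indicator_one (measurableSet_le measurable_const h.ae.measurable)]
  rfl

/-- strip calibrations -/
theorem Pl.strip₁ (h : Pl f e) (h1 : 0 < ext1 e) (h2 : ext1 f = 0) {σ : ℝ} (hσ0 : 0 ≤ σ)
    (hσ1 : σ ≤ 1) :
    gh σ + σ * (ext0 e - ∫ a, f a ∂vI) ≤
      Cal f e (fun a _ => σ * min |1 - a| 1) (fun a _ => √(1 - (σ * min |1 - a| 1) ^ 2)) := by
  have := vI_prob
  have hb : BM (fun b : ℝ => if 0 < e b then (1 : ℝ) else 0) :=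
    ⟨Measurable.ite (measurableSet_lt measurable_const h.ae.measurable) measurable_const
      measurable_const, 1, fun p => by dsimp only; split_ifs <;> simp⟩
  unfold Cal
  rw [setIntegral_mid' h.ae.measurable
      (g' := fun b => σ * ((if 0 < e b then (1 : ℝ) else 0) - e b)),
    setIntegral_mid' h.af.measurable (g' := fun a => √(1 - (σ * (1 - a)) ^ 2)),
    integral_const_mul, integral_sub (hb.integrable vI) ((bm_of h.ae h.e01).integrable vI),
    ← h.ext0_int, h.integral_eq]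
  · have e1 : ∫ a, √(1 - (σ * (1 - a)) ^ 2) ∂vI = ∫ a, √(1 - (σ * a) ^ 2) ∂vI := by
      rw [integral_vI, integral_vI]
      have := intervalIntegral.integral_comp_sub_left (a := 0) (b := 1)
        (fun x : ℝ => √(1 - (σ * x) ^ 2)) 1
      rw [this, sub_self, sub_zero]
    rw [e1]
    linarith [gh_le hσ0 hσ1]
  · filter_upwards [ae_vI] with a ha
    refine ⟨fun _ => ?_, fun hn => absurd (h.mid_strip h1 h2 ha) hn⟩
    rw [abs_of_nonneg (by linarith [ha.2]), min_eq_left (by linarith [ha.1])]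
  · refine Eventually.of_forall fun b => ⟨fun h3 => ?_, fun hn => ?_⟩
    · dsimp only
      rw [if_pos h3.1, abs_of_nonneg (by linarith [h3.2]), min_eq_left (by linarith [h3.1])]
    · by_cases h3 : 0 < e b
      · have : e b = 1 := le_antisymm (h.e01 b).2 (not_lt.1 fun h4 => hn ⟨h3, h4⟩)
        rw [if_pos h3, this, sub_self, mul_zero]
      · have : e b = 0 := le_antisymm (not_lt.1 h3) (h.e01 b).1
        rw [if_neg h3, this, sub_self, mul_zero]

theorem Pl.strip₂ (h : Pl f e) (h1 : 0 < ext1 e) (h2 : ext1 f = 0) {σ : ℝ} (hσ0 : 0 ≤ σ)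
    (hσ1 : σ ≤ 1) :
    gh σ + σ * ((∫ a, f a ∂vI) - ext1 e) ≤
      Cal f e (fun a _ => σ * min |a| 1) (fun a _ => √(1 - (σ * min |a| 1) ^ 2)) := by
  have := vI_prob
  have hb : BM (fun b : ℝ => if 1 ≤ e b then (1 : ℝ) else 0) :=
    ⟨Measurable.ite (measurableSet_le measurable_const h.ae.measurable) measurable_const
      measurable_const, 1, fun p => by dsimp only; split_ifs <;> simp⟩
  unfold Cal
  rw [setIntegral_mid' h.ae.measurable
      (g' := fun b => σ * (e b - (if 1 ≤ e b then (1 : ℝ) else 0))),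
    setIntegral_mid' h.af.measurable (g' := fun a => √(1 - (σ * a) ^ 2)),
    integral_const_mul, integral_sub ((bm_of h.ae h.e01).integrable vI) (hb.integrable vI),
    ← h.ext1_int, h.integral_eq]
  · linarith [gh_le hσ0 hσ1]
  · filter_upwards [ae_vI] with a ha
    refine ⟨fun _ => ?_, fun hn => absurd (h.mid_strip h1 h2 ha) hn⟩
    rw [abs_of_nonneg ha.1.le, min_eq_left ha.2.le]
  · refine Eventually.of_forall fun b => ⟨fun h3 => ?_, fun hn => ?_⟩
    · dsimp only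
      rw [if_neg (not_le.2 h3.2), abs_of_nonneg h3.1.le, min_eq_left h3.2.le, sub_zero]
    · by_cases h3 : 1 ≤ e b
      · have : e b = 1 := le_antisymm (h.e01 b).2 h3
        rw [if_pos h3, this, sub_self, mul_zero]
      · have : e b = 0 :=
          le_antisymm (not_lt.1 fun h4 => hn ⟨h4, not_le.1 h3⟩) (h.e01 b).1
        rw [if_neg h3, this, sub_self, mul_zero]

theorem Pl.strip₀ (h : Pl f e) (h1 : 0 < ext1 e) (h2 : ext1 f = 0) :
    Cal f e (fun _ _ => 0) (fun _ _ => 1) = 1 := by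
  have := vI_prob
  unfold Cal
  rw [setIntegral_mid' (f := f) h.af.measurable (g := fun _ => 1) (g' := fun _ => 1)]
  · simp
  · filter_upwards [ae_vI] with a ha
    exact ⟨fun _ => rfl, fun hn => absurd (h.mid_strip h1 h2 ha) hn⟩

end Vale.Agent.P232
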