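import Vale.Agent.P232.Base

open MeasureTheory Set Function Filter Topology
open scoped ENNReal

namespace Vale.Agent.P232

namespace NBaseAux

theorem amgm {a R : ℝ} (ha : 0 ≤ a) (hR : 0 < R) :
    √(Real.pi * a) ≤ a / R + Real.pi * R / 4 := by
  have hp := Real.pi_pos
  have h0 : 0 ≤ a / R + Real.pi * R / 4 := by positivity
  apply Real.sqrt_le_iff.2 ⟨h0, ?_⟩
  have h1 : (a / R + Real.pi * R / 4) ^ 2 - Real.pi * a = (a / R - Real.pi * R / 4) ^ 2 := by
    field_simp
    ring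
  nlinarith [sq_nonneg (a / R - Real.pi * R / 4)]

end NBaseAux

theorem Dq_le {L a R : ℝ} (ha : 0 ≤ a) (hR : 0 < R) (hRL : R ≤ L) :
    Dq L a ≤ a / R + Real.pi * R / 4 := by
  have hp := Real.pi_pos
  unfold Dq
  split_ifs with h
  · exact NBaseAux.amgm ha hR
  · have hL : 0 < L := lt_of_lt_of_le hR hRL
    have h' : Real.pi * L ^ 2 < 4 * a := lt_of_not_ge h
    have key : a / R + Real.pi * R / 4 - (a / L + Real.pi * L / 4) =
        (L - R) * (4 * a - Real.pi * R * L) / (4 * R * L) := by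
      field_simp
      ring
    have h2 : 0 ≤ (L - R) * (4 * a - Real.pi * R * L) / (4 * R * L) := by
      apply div_nonneg _ (by positivity)
      apply mul_nonneg (sub_nonneg.2 hRL)
      have : Real.pi * R * L ≤ Real.pi * L * L :=
        mul_le_mul_of_nonneg_right (mul_le_mul_of_nonneg_left hRL hp.le) hL.le
      nlinarith
    linarith

theorem Dq_attained {L a : ℝ} (hL : 0 < L) (ha : 0 < a) :
    ∃ R, 0 < R ∧ R ≤ L ∧ Dq L a = a / R + Real.pi * R / 4 := by
  have hp := Real.pi_pos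
  unfold Dq
  split_ifs with h
  · have hs : 0 < √(Real.pi * a) := Real.sqrt_pos.2 (by positivity)
    have hq : √(Real.pi * a) ^ 2 = Real.pi * a := Real.sq_sqrt (by positivity)
    refine ⟨2 * √(Real.pi * a) / Real.pi, by positivity, ?_, ?_⟩
    · rw [div_le_iff₀ hp]
      refine (pow_le_pow_iff_left₀ (by positivity) (by positivity) two_ne_zero).1 ?_
      have : (2 * √(Real.pi * a)) ^ 2 = 4 * (Real.pi * a) := by rw [mul_pow, hq]; norm_num
      rw [this]
      nlinarith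
    · set s := √(Real.pi * a) with hsdef
      have ha' : a = s ^ 2 / Real.pi := by rw [hq]; field_simp
      rw [ha']
      field_simp
      ring
  · exact ⟨L, hL, le_rfl, rfl⟩

theorem Dq_zero (L : ℝ) : Dq L 0 = 0 := by
  have hp := Real.pi_pos
  unfold Dq
  rw [if_pos (by rw [mul_zero]; positivity)]
  simp

theorem sqrt_le_Dq {L a : ℝ} (hL : 0 < L) (ha : 0 ≤ a) : √(Real.pi * a) ≤ Dq L a := by
  unfold Dq
  split_ifs with h
  · exact le_rfl
  · exact NBaseAux.amgm ha hL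

theorem Dq_anti {L L' a : ℝ} (hL : 0 < L) (hLL : L ≤ L') (ha : 0 ≤ a) : Dq L' a ≤ Dq L a := by
  rcases ha.eq_or_lt with h0 | h0
  · rw [← h0, Dq_zero, Dq_zero]
  · obtain ⟨R, hR, hRL, he⟩ := Dq_attained hL h0
    rw [he]
    exact Dq_le ha hR (hRL.trans hLL)

theorem continuous_Dq {L : ℝ} (hL : 0 < L) : Continuous (Dq L) := by
  have hp := Real.pi_pos
  unfold Dq
  apply Continuous.if_le (by fun_prop) (by fun_prop) (by fun_prop) (by fun_prop)
  intro a h
  have ha : a = Real.pi * L ^ 2 / 4 := by linarith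
  have h1 : Real.pi * a = (Real.pi * L / 2) ^ 2 := by rw [ha]; ring
  rw [h1, Real.sqrt_sq (by positivity), ha]
  field_simp
  ring

theorem le_Sq {k : ℕ} (hk : k ≤ 32) (d : ℝ) : gh ((k : ℝ) / 32) + (k : ℝ) / 32 * d ≤ Sq d := by
  unfold Sq
  exact Finset.le_sup' (fun k : ℕ => gh ((k : ℝ) / 32) + (k : ℝ) / 32 * d)
    (Finset.mem_range.2 (Nat.lt_succ_of_le hk))

theorem Sq_attained (d : ℝ) :
    ∃ k : ℕ, k ≤ 32 ∧ Sq d = gh ((k : ℝ) / 32) + (k : ℝ) / 32 * d := by
  obtain ⟨k, hk, he⟩ := Finset.exists_mem_eq_sup' (s := Finset.range 33)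
    ⟨0, Finset.mem_range.2 (Nat.succ_pos 32)⟩
    (fun k : ℕ => gh ((k : ℝ) / 32) + (k : ℝ) / 32 * d)
  exact ⟨k, Nat.le_of_lt_succ (Finset.mem_range.1 hk), he⟩

theorem one_le_Sq (d : ℝ) : 1 ≤ Sq d := by
  have := le_Sq (k := 0) (by norm_num) d
  simpa [gh] using this

theorem monotone_Sq : Monotone Sq := by
  intro d d' h
  obtain ⟨k, hk, he⟩ := Sq_attained d
  rw [he]
  refine le_trans ?_ (le_Sq hk d')
  have : (0 : ℝ) ≤ (k : ℝ) / 32 := by positivity
  nlinarith

theorem continuous_Sq : Continuous Sq := by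
  unfold Sq
  apply Continuous.finset_sup'_apply
  intro k _
  fun_prop

theorem continuous_In (L L' : ℝ) : Continuous (In L L') := by
  have h1 : (0 : ℝ) < max L (1 / 8) := lt_of_lt_of_le (by norm_num) (le_max_right _ _)
  have h2 : (0 : ℝ) < max L' (1 / 8) := lt_of_lt_of_le (by norm_num) (le_max_right _ _)
  unfold In
  refine (continuous_Dq h1).min (Continuous.min (Continuous.max ?_ ?_) ?_)
  · exact continuous_Sq.comp (by fun_prop)
  · exact continuous_Sq.comp (by fun_prop)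
  · exact (continuous_Dq h2).comp (by fun_prop)

theorem In_symm (L L' a : ℝ) : In L L' (1 - a) = In L' L a := by
  unfold In
  rw [sub_sub_cancel, max_comm (Sq (L - (1 - a))) (Sq (L' - a)), min_left_comm,
    min_comm (Dq (max L (1 / 8)) (1 - a)), min_left_comm]

theorem In_ge (L L' : ℝ) {a : ℝ} (h0 : 0 ≤ a) (h1 : a ≤ 1) :
    min (√(Real.pi * a)) (min 1 (√(Real.pi * (1 - a)))) ≤ In L L' a := by
  have g1 : (0 : ℝ) < max L (1 / 8) := lt_of_lt_of_le (by norm_num) (le_max_right _ _)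
  have g2 : (0 : ℝ) < max L' (1 / 8) := lt_of_lt_of_le (by norm_num) (le_max_right _ _)
  unfold In
  refine min_le_min (sqrt_le_Dq g1 h0) (min_le_min ?_ (sqrt_le_Dq g2 (sub_nonneg.2 h1)))
  exact (one_le_Sq _).trans (le_max_left _ _)

theorem In_nonneg (L L' : ℝ) {a : ℝ} (h0 : 0 ≤ a) (h1 : a ≤ 1) : 0 ≤ In L L' a :=
  le_trans (le_min (Real.sqrt_nonneg _) (le_min zero_le_one (Real.sqrt_nonneg _)))
    (In_ge L L' h0 h1)

/-- on `[0,b]` the nested profile dominates the quarter-disc profile -/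
theorem sqrt_le_In {L L' b : ℝ} (hb : b ≤ 1 / 2) (hS : √(Real.pi * b) ≤ Sq (L - b)) {a : ℝ}
    (h0 : 0 ≤ a) (hab : a ≤ b) : √(Real.pi * a) ≤ In L L' a := by
  have hp := Real.pi_pos
  have g1 : (0 : ℝ) < max L (1 / 8) := lt_of_lt_of_le (by norm_num) (le_max_right _ _)
  have g2 : (0 : ℝ) < max L' (1 / 8) := lt_of_lt_of_le (by norm_num) (le_max_right _ _)
  unfold In
  refine le_min (sqrt_le_Dq g1 h0) (le_min ?_ ?_)
  · refine le_trans ?_ (le_max_left _ _)
    calc √(Real.pi * a) ≤ √(Real.pi * b) :=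
          Real.sqrt_le_sqrt (mul_le_mul_of_nonneg_left hab hp.le)
      _ ≤ Sq (L - b) := hS
      _ ≤ Sq (L - a) := monotone_Sq (by linarith)
  · refine le_trans ?_ (sqrt_le_Dq g2 (by linarith))
    exact Real.sqrt_le_sqrt (mul_le_mul_of_nonneg_left (by linarith) hp.le)

theorem Gam.basic {v H J : ℝ} (h : Gam v H J) :
    0 < v ∧ v ≤ 1 / 2 ∧ 0 ≤ H ∧ H * v < min (√(Real.pi * v)) 1 ∧
      J ≤ min (√(Real.pi * v)) 1 := by
  have hp := Real.pi_pos
  have hp3 := Real.pi_gt_three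
  have hp4 : Real.pi < 3.15 := Real.pi_lt_d2
  rcases h with ⟨ρ, h0, h1, rfl, rfl, rfl⟩ | ⟨rfl, h1, h2, rfl⟩ | ⟨r, h0, h1, rfl, rfl, rfl⟩ |
    ⟨rfl, h1, h2, rfl⟩ | ⟨h0, h1, rfl, rfl⟩
  · have hρ2 : ρ ^ 2 < 4 / 9 := by nlinarith
    have hρ3 : ρ ^ 3 < 8 / 27 := by nlinarith
    have hJ : Real.pi * ρ ^ 2 / 2 ≤ min (√(Real.pi * (Real.pi * ρ ^ 3 / 6))) 1 := by
      refine le_min ?_ (by nlinarith)
      apply Real.le_sqrt_of_sq_le
      have e : Real.pi * (Real.pi * ρ ^ 3 / 6) - (Real.pi * ρ ^ 2 / 2) ^ 2 =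
          Real.pi ^ 2 * ρ ^ 3 * (2 / 3 - ρ) / 4 := by ring
      have : 0 ≤ Real.pi ^ 2 * ρ ^ 3 * (2 / 3 - ρ) / 4 := by
        have : 0 ≤ 2 / 3 - ρ := by linarith
        positivity
      linarith
    refine ⟨by positivity, by nlinarith, by positivity, lt_of_lt_of_le ?_ hJ, hJ⟩
    have e : 2 / ρ * (Real.pi * ρ ^ 3 / 6) = Real.pi * ρ ^ 2 / 3 := by field_simp; ring
    rw [e]
    have : 0 < Real.pi * ρ ^ 2 := by positivity
    linarith
  · have hs : √(Real.pi * (4 * Real.pi / 81)) = 2 * Real.pi / 9 := by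
      rw [show Real.pi * (4 * Real.pi / 81) = (2 * Real.pi / 9) ^ 2 by ring]
      exact Real.sqrt_sq (by positivity)
    rw [hs]
    refine ⟨by positivity, by linarith, by linarith, lt_min ?_ ?_, le_min le_rfl (by linarith)⟩
    · nlinarith
    · nlinarith
  · have hr : 0 < r := by linarith
    have hs : √(Real.pi * (Real.pi * r ^ 2 / 4)) = Real.pi * r / 2 := by
      rw [show Real.pi * (Real.pi * r ^ 2 / 4) = (Real.pi * r / 2) ^ 2 by ring]
      exact Real.sqrt_sq (by positivity)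
    have h2 : Real.pi * r < 2 := by
      rw [lt_div_iff₀ hp] at h1
      linarith
    have e : 1 / r * (Real.pi * r ^ 2 / 4) = Real.pi * r / 4 := by field_simp
    have h3 : 0 < Real.pi * r := by positivity
    rw [hs, e]
    refine ⟨by positivity, ?_, by positivity, lt_min (by linarith) (by linarith),
      le_min le_rfl (by linarith)⟩
    have : r < 2 / 3 := by nlinarith
    nlinarith
  · have hs : √(Real.pi * (1 / Real.pi)) = 1 := by
      rw [mul_one_div_cancel hp.ne', Real.sqrt_one]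
    rw [hs, min_self]
    refine ⟨by positivity, ?_, h1, ?_, le_rfl⟩
    · rw [div_le_iff₀ hp]; linarith
    · rw [mul_one_div, div_lt_iff₀ hp]; linarith
  · have hv : 0 < v := lt_trans (by positivity) h0
    have h2 : 1 ≤ √(Real.pi * v) := by
      apply Real.le_sqrt_of_sq_le
      rw [div_lt_iff₀ hp] at h0
      nlinarith
    rw [min_eq_right h2]
    exact ⟨hv, h1, le_rfl, by simp, le_rfl⟩

/-- consequence of the face inequality -/
theorem Gam.face {v H J c L L' α : ℝ} (h : Gam v H J) (h0 : 0 ≤ α) (h1 : α ≤ v)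
    (hf : In L L' α ≤ c + H * α) : 0 ≤ c ∧ (c = 0 → α = 0) := by
  have hp := Real.pi_pos
  obtain ⟨hv, hv2, hH, hm, -⟩ := h.basic
  have hm1 : H * v < √(Real.pi * v) := lt_of_lt_of_le hm (min_le_left _ _)
  have hm2 : H * v < 1 := lt_of_lt_of_le hm (min_le_right _ _)
  have hge := In_ge L L' h0 (by linarith : α ≤ 1)
  have key : 0 < α → H * α < In L L' α := by
    intro hα
    refine lt_of_lt_of_le (lt_min ?_ (lt_min ?_ ?_)) hge
    · apply Real.lt_sqrt_of_sq_lt
      have h3 : (H * v) ^ 2 < Real.pi * v := by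
        have := (Real.lt_sqrt (mul_nonneg hH hv.le)).1 hm1
        exact this
      have h4 : H ^ 2 * v < Real.pi := by
        have : (H ^ 2 * v) * v < Real.pi * v := by nlinarith
        exact lt_of_mul_lt_mul_right this hv.le
      have h5 : H ^ 2 * α ≤ H ^ 2 * v := mul_le_mul_of_nonneg_left h1 (sq_nonneg _)
      have h6 : (H ^ 2 * α) * α < Real.pi * α := mul_lt_mul_of_pos_right (by linarith) hα
      nlinarith
    · have : H * α ≤ H * v := mul_le_mul_of_nonneg_left h1 hH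
      linarith
    · have h7 : H * α ≤ H * v := mul_le_mul_of_nonneg_left h1 hH
      have h8 : √(Real.pi * v) ≤ √(Real.pi * (1 - α)) :=
        Real.sqrt_le_sqrt (mul_le_mul_of_nonneg_left (by linarith) hp.le)
      linarith
  rcases h0.eq_or_lt with hα | hα
  · subst hα
    have := In_nonneg L L' (le_refl (0 : ℝ)) zero_le_one
    refine ⟨by linarith, fun _ => rfl⟩
  · have := key hα
    refine ⟨by linarith, fun hc => ?_⟩
    exfalso
    rw [hc] at hf
    linarith

theorem DirP.nonneg {A v H J c : ℝ} (hG : Gam v H J) (h : DirP A v H c) : 0 ≤ c := by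
  obtain ⟨α, β, L, L', h0, h1, -, -, -, -, -, -, hf, -⟩ := h
  exact (hG.face h0 h1 hf).1

end Vale.Agent.P232
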