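import Vale.Agent.P232.DLB
import Vale.Agent.P232.DPl
import Vale.Agent.P232.NBase

open MeasureTheory Set Function Filter Topology
open scoped ENNReal

namespace Vale.Agent.P232

variable {D : Set X}

namespace DNestAux

theorem sq_add {u w : ℝ} (h0 : 0 ≤ w) (h1 : w ≤ 1) (h : w ≤ |u|) :
    √(1 - u ^ 2) ^ 2 + w ^ 2 ≤ 1 := by
  have a : w ^ 2 ≤ u ^ 2 := by rw [← sq_abs u]; exact pow_le_pow_left₀ h0 h 2
  have b : w ^ 2 ≤ 1 := pow_le_one₀ h0 h1
  rw [Real.sq_sqrt']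
  rcases le_total (1 - u ^ 2) 0 with c | c
  · rw [max_eq_right c]; linarith
  · rw [max_eq_left c]; linarith

theorem sq_disc (b : ℝ) {L : ℝ} (hL : 0 ≤ L) :
    √(1 - (b / L) ^ 2) ^ 2 + min (|b| / L) 1 ^ 2 ≤ 1 :=
  sq_add (le_min (by positivity) zero_le_one) (min_le_right _ _)
    ((min_le_left _ _).trans (by rw [abs_div, abs_of_nonneg hL]))

theorem sq_strip (b : ℝ) {σ : ℝ} (h0 : 0 ≤ σ) (h1 : σ ≤ 1) :
    (σ * min |b| 1) ^ 2 + √(1 - (σ * min |b| 1) ^ 2) ^ 2 ≤ 1 := by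
  have a : 0 ≤ min |b| 1 := le_min (abs_nonneg _) zero_le_one
  rw [add_comm]
  exact sq_add (by positivity) (mul_le_one₀ h1 a (min_le_right _ _)) (le_abs_self _)

theorem cal (hD : Dn D) {i j k : Fin 3} (hij : i ≠ j) (hik : i ≠ k) (hjk : j ≠ k)
    (G₁ G₂ : ℝ → ℝ → ℝ → ℝ) (m₁ : Measurable fun x : X => G₁ (x k) (x i) (x j))
    (m₂ : Measurable fun x : X => G₂ (x k) (x i) (x j))
    (h : ∀ t a b, G₁ t a b ^ 2 + G₂ t a b ^ 2 ≤ 1) :
    LB D k (fun t => Cal (fs D i j t) (es D i j t) (G₁ t) (G₂ t)) ∧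
      BM fun t => Cal (fs D i j t) (es D i j t) (G₁ t) (G₂ t) := by
  have b₁ : BM fun x : X => G₁ (x k) (x i) (x j) := ⟨m₁, 1, fun x => by
    rw [← sq_le_one_iff_abs_le_one]
    nlinarith [h (x k) (x i) (x j), sq_nonneg (G₂ (x k) (x i) (x j))]⟩
  have b₂ : BM fun x : X => G₂ (x k) (x i) (x j) := ⟨m₂, 1, fun x => by
    rw [← sq_le_one_iff_abs_le_one]
    nlinarith [h (x k) (x i) (x j), sq_nonneg (G₁ (x k) (x i) (x j))]⟩
  have e : CalS D i j (fun x : X => G₁ (x k) (x i) (x j)) (fun x : X => G₂ (x k) (x i) (x j)) =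
      fun t => Cal (fs D i j t) (es D i j t) (G₁ t) (G₂ t) := by
    funext t
    simp only [CalS, pt, update_self, update_of_ne hij, update_of_ne hik.symm,
      update_of_ne hjk.symm]
  rw [← e]
  exact ⟨hD.lb_cal hij hik hjk b₁ b₂ fun x => h _ _ _, hD.bm_CalS i j b₁ b₂⟩

theorem bm_comp (k : Fin 3) {φ : ℝ → ℝ} (hφ : Continuous φ) : BM fun t => φ (sl D k t) := by
  obtain ⟨C, hC⟩ := (isCompact_Icc (a := (0 : ℝ)) (b := 1)).exists_bound_of_continuousOn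
    hφ.continuousOn
  exact ⟨hφ.measurable.comp (bm_sl D k).1, C, fun t => hC _ (sl_mem D k t)⟩

theorem cal_disc (hD : Dn D) {i j k : Fin 3} (hij : i ≠ j) (hik : i ≠ k) (hjk : j ≠ k) :
    ∃ F : ℝ → ℝ, (LB D k F ∧ BM F) ∧ ∀ t ∈ Ioo (0 : ℝ) 1, ext1 (es D i j t) = 0 →
      ext1 (fs D i j t) = 0 → ∀ L, ext0 (es D i j t) ≤ L →
        sl D k t = 0 ∨ (0 < L ∧ Dq L (sl D k t) ≤ F t) := by
  have m : Measurable fun x : X => ext0 (es D i j (x k)) :=
    (hD.anti_ext0 i j).measurable.comp (measurable_pi_apply k)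
  have mj : Measurable fun x : X => x j := measurable_pi_apply j
  refine ⟨_, cal hD hij hik hjk (fun t _ b => √(1 - (b / ext0 (es D i j t)) ^ 2))
    (fun t _ b => min (|b| / ext0 (es D i j t)) 1)
    (measurable_const.sub ((mj.div m).pow_const 2)).sqrt ((mj.abs.div m).min measurable_const)
    fun t _ b => sq_disc b (ext0_mem _).1, fun t ht h1 h2 L hL => ?_⟩
  have p := hD.pl hij t
  have s := hD.sl_eq hij hik hjk ht
  rcases (ext0_mem (es D i j t)).1.eq_or_lt with h | h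
  · exact Or.inl (le_antisymm (s ▸ h ▸ p.area_le) (sl_mem D k t).1)
  · refine Or.inr ⟨h.trans_le hL, ?_⟩
    rw [p.disc h1 h2 h, ← s]
    exact Dq_le (sl_mem D k t).1 h hL

theorem cal_codisc (hD : Dn D) {i j k : Fin 3} (hij : i ≠ j) (hik : i ≠ k) (hjk : j ≠ k) :
    ∃ F : ℝ → ℝ, (LB D k F ∧ BM F) ∧ ∀ t ∈ Ioo (0 : ℝ) 1, 0 < ext1 (es D i j t) →
      0 < ext1 (fs D i j t) → ∀ L, 1 - ext1 (es D i j t) ≤ L →
        sl D k t = 1 ∨ Dq L (1 - sl D k t) ≤ F t := by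
  have m : Measurable fun x : X => 1 - ext1 (es D i j (x k)) :=
    measurable_const.sub ((hD.anti_ext1 i j).measurable.comp (measurable_pi_apply k))
  have mj : Measurable fun x : X => 1 - x j := measurable_const.sub (measurable_pi_apply j)
  refine ⟨_, cal hD hij hik hjk (fun t _ b => √(1 - ((1 - b) / (1 - ext1 (es D i j t))) ^ 2))
    (fun t _ b => min (|1 - b| / (1 - ext1 (es D i j t))) 1)
    (measurable_const.sub ((mj.div m).pow_const 2)).sqrt ((mj.abs.div m).min measurable_const)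
    fun t _ b => sq_disc _ (sub_nonneg.2 (ext1_mem _).2), fun t ht h1 h2 L hL => ?_⟩
  have p := hD.pl hij t
  have s := hD.sl_eq hij hik hjk ht
  rcases (ext1_mem (es D i j t)).2.eq_or_lt with h | h
  · exact Or.inl (le_antisymm (sl_mem D k t).2 (s ▸ h ▸ p.le_area))
  · refine Or.inr ?_
    rw [p.codisc h1 h2 h, ← s]
    exact Dq_le (sub_nonneg.2 (sl_mem D k t).2) (sub_pos.2 h) hL

theorem cal_strip (hD : Dn D) {i j k : Fin 3} (hij : i ≠ j) (hik : i ≠ k) (hjk : j ≠ k) :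
    ∃ F F' : ℕ → ℝ → ℝ, (∀ n ≤ 32, (LB D k (F n) ∧ BM (F n)) ∧ LB D k (F' n) ∧ BM (F' n)) ∧
      ∀ t ∈ Ioo (0 : ℝ) 1, 0 < ext1 (es D i j t) → ext1 (fs D i j t) = 0 →
        (∃ n ≤ 32, Sq (ext0 (es D i j t) - sl D k t) ≤ F n t) ∧
          ∃ n ≤ 32, Sq (sl D k t - ext1 (es D i j t)) ≤ F' n t := by
  have s0 : ∀ n : ℕ, (0 : ℝ) ≤ n / 32 := fun n => by positivity
  have s1 : ∀ n : ℕ, n ≤ 32 → (n / 32 : ℝ) ≤ 1 := fun n hn => by
    rw [div_le_one (by norm_num)]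
    exact_mod_cast hn
  refine ⟨_, _, fun n hn => ⟨cal hD hij hik hjk (fun _ a _ => n / 32 * min |1 - a| 1)
    (fun _ a _ => √(1 - (n / 32 * min |1 - a| 1) ^ 2)) (by fun_prop) (by fun_prop)
    fun _ a _ => sq_strip _ (s0 n) (s1 n hn), cal hD hij hik hjk (fun _ a _ => n / 32 * min |a| 1)
    (fun _ a _ => √(1 - (n / 32 * min |a| 1) ^ 2)) (by fun_prop) (by fun_prop)
    fun _ a _ => sq_strip _ (s0 n) (s1 n hn)⟩, fun t ht h1 h2 => ?_⟩
  have p := hD.pl hij t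
  rw [hD.sl_eq hij hik hjk ht]
  obtain ⟨n, hn, e⟩ := Sq_attained (ext0 (es D i j t) - ∫ a, fs D i j t a ∂vI)
  obtain ⟨n', hn', e'⟩ := Sq_attained ((∫ a, fs D i j t a ∂vI) - ext1 (es D i j t))
  exact ⟨⟨n, hn, e ▸ p.strip₁ h1 h2 (s0 n) (s1 n hn)⟩,
    n', hn', e' ▸ p.strip₂ h1 h2 (s0 n') (s1 n' hn')⟩

theorem pick (k : Fin 3) : ∃ i j : Fin 3, i ≠ j ∧ i ≠ k ∧ j ≠ k := by
  revert k
  decide

end DNestAux

open DNestAux

theorem Dn.nest_of (hD : Dn D) {i j k : Fin 3} (hij : i ≠ j) (hik : i ≠ k) (hjk : j ≠ k)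
    (hor : ∀ t ∈ Ioo (0 : ℝ) 1, 0 < ext1 (fs D i j t) → 0 < ext1 (es D i j t)) :
    ∃ L L' : ℝ, 0 ≤ L ∧ L ≤ 1 ∧ 0 ≤ L' ∧ L' ≤ 1 ∧ LB D k (fun t => In L L' (sl D k t)) := by
  classical
  obtain ⟨Fd, hd, hd'⟩ := cal_disc hD hij hik hjk
  obtain ⟨Fc, hc, hc'⟩ := cal_codisc hD hij hik hjk
  obtain ⟨F, F', hs, hs'⟩ := cal_strip hD hij hik hjk
  set A : Set ℝ := insert 1 ((fun t => ext0 (es D i j t)) '' {t | 0 < ext1 (es D i j t)}) with hA
  set B : Set ℝ := insert 0 ((fun t => ext1 (es D i j t)) '' {t | ext1 (fs D i j t) = 0}) with hB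
  have A0 : ∀ a ∈ A, 0 ≤ a := by
    rintro _ (rfl | ⟨t, -, rfl⟩)
    exacts [zero_le_one, (ext0_mem _).1]
  have B1 : ∀ a ∈ B, a ≤ 1 := by
    rintro _ (rfl | ⟨t, -, rfl⟩)
    exacts [zero_le_one, (ext1_mem _).2]
  have An : A.Nonempty := insert_nonempty _ _
  have Bn : B.Nonempty := insert_nonempty _ _
  have ax : Antitone fun t => ext1 (fs D i j t) := by
    simp only [fs_eq_es D hij]
    exact hD.anti_ext1 j i
  have hF : ∀ n ∈ insert Fd (insert Fc ((Finset.range 33).image F ∪ (Finset.range 33).image F')),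
      LB D k n ∧ BM n := by
    simp only [Finset.mem_insert, Finset.mem_union, Finset.mem_image, Finset.mem_range]
    rintro _ (rfl | rfl | ⟨n, hn, rfl⟩ | ⟨n, hn, rfl⟩)
    exacts [hd, hc, (hs n (by omega)).1, (hs n (by omega)).2]
  refine ⟨sInf A, 1 - sSup B, le_csInf An A0, csInf_le ⟨0, A0⟩ (mem_insert _ _),
    sub_nonneg.2 (csSup_le Bn B1), sub_le_self _ (le_csSup ⟨1, B1⟩ (mem_insert _ _)),
    LB.of_list _ id (fun n hn => (hF n hn).1) (fun n hn => (hF n hn).2)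
      (bm_comp k (continuous_In _ _)) fun t ht => ?_⟩
  simp only [Finset.mem_insert, Finset.mem_union, Finset.mem_image, Finset.mem_range, id]
  rcases (ext1_mem (es D i j t)).1.eq_or_lt with hy | hy
  · have hx : ext1 (fs D i j t) = 0 :=
      le_antisymm (not_lt.1 fun h => (hor t ht h).ne hy) (ext1_mem _).1
    have hL : ext0 (es D i j t) ≤ sInf A := by
      refine le_csInf An ?_
      rintro _ (rfl | ⟨s, hs, rfl⟩)
      · exact (ext0_mem _).2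
      · refine hD.anti_ext0 i j (not_lt.1 fun h => ?_)
        exact (hD.anti_ext1 i j h.le).not_gt (hy.symm.trans_lt hs)
    rcases hd' t ht hy.symm hx _ (hL.trans (le_max_left _ (1 / 8))) with h | h
    · exact Or.inl ((min_le_left _ _).trans (by rw [h, Dq_zero]))
    · exact Or.inr ⟨Fd, Or.inl rfl, (min_le_left _ _).trans h.2⟩
  rcases (ext1_mem (fs D i j t)).1.eq_or_lt with hx | hx
  · obtain ⟨⟨n, hn, h1⟩, n', hn', h2⟩ := hs' t ht hy hx.symm
    have a1 : sInf A ≤ ext0 (es D i j t) := csInf_le ⟨0, A0⟩ (Or.inr ⟨t, hy, rfl⟩)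
    have a2 : ext1 (es D i j t) ≤ sSup B := le_csSup ⟨1, B1⟩ (Or.inr ⟨t, hx.symm, rfl⟩)
    have a3 : In (sInf A) (1 - sSup B) (sl D k t) ≤ _ :=
      (min_le_right _ _).trans (min_le_left _ _)
    rcases le_max_iff.1 a3 with h | h
    · exact Or.inr ⟨F n, Or.inr (Or.inr (Or.inl ⟨n, by omega, rfl⟩)),
        h.trans ((monotone_Sq (by linarith)).trans h1)⟩
    · exact Or.inr ⟨F' n', Or.inr (Or.inr (Or.inr ⟨n', by omega, rfl⟩)),
        h.trans ((monotone_Sq (by linarith)).trans h2)⟩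
  · have hL : sSup B ≤ ext1 (es D i j t) := by
      refine csSup_le Bn ?_
      rintro _ (rfl | ⟨s, hs, rfl⟩)
      · exact hy.le
      · refine hD.anti_ext1 i j (not_lt.1 fun h => ?_)
        exact (ax h.le).not_gt (Eq.trans_lt hs hx)
    have a3 : In (sInf A) (1 - sSup B) (sl D k t) ≤ _ :=
      (min_le_right _ _).trans (min_le_right _ _)
    rcases hc' t ht hy hx _ ((sub_le_sub_left hL 1).trans (le_max_left _ (1 / 8))) with h | h
    · exact Or.inl (a3.trans (by rw [h, sub_self, Dq_zero]))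
    · exact Or.inr ⟨Fc, Or.inr (Or.inl rfl), a3.trans h⟩

theorem Dn.nest (hD : Dn D) (k : Fin 3) :
    ∃ L L' : ℝ, 0 ≤ L ∧ L ≤ 1 ∧ 0 ≤ L' ∧ L' ≤ 1 ∧ LB D k (fun t => In L L' (sl D k t)) := by
  obtain ⟨i, j, hij, hik, hjk⟩ := pick k
  by_cases h : ∀ t ∈ Ioo (0 : ℝ) 1, 0 < ext1 (fs D i j t) → 0 < ext1 (es D i j t)
  · exact hD.nest_of hij hik hjk h
  push Not at h
  obtain ⟨t, -, h1, h2⟩ := h
  refine hD.nest_of hij.symm hjk hik fun s _ hs => ?_
  rw [fs_eq_es D hij] at h1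
  rw [fs_eq_es D hij.symm] at hs
  refine h1.trans_le (hD.anti_ext1 j i (not_lt.1 fun h => ?_))
  exact (hs.trans_le (hD.anti_ext1 i j h.le)).not_ge h2

theorem Dn.lb_disc (hD : Dn D) (h : ∀ i, al D i = 0) (k : Fin 3) :
    LB D k (fun t => √(Real.pi * sl D k t)) := by
  obtain ⟨i, j, hij, hik, hjk⟩ := pick k
  obtain ⟨F, hd, hd'⟩ := cal_disc hD hij hik hjk
  refine LB.of_list {()} (fun _ => F) (fun _ _ => hd.1) (fun _ _ => hd.2)
    (bm_comp (φ := fun a => √(Real.pi * a)) k (by fun_prop)) fun t ht => ?_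
  rcases hd' t ht (hD.ext1_zero hij (h i) ht.1)
    (by rw [fs_eq_es D hij]; exact hD.ext1_zero hij.symm (h j) ht.1) 1 (ext0_mem _).2 with e | e
  · exact Or.inl (by simp [e])
  · exact Or.inr ⟨(), Finset.mem_singleton_self _,
      (sqrt_le_Dq one_pos (sl_mem D k t).1).trans e.2⟩

end Vale.Agent.P232
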