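import Vale.Agent.P232.DStar
import Vale.Agent.P232.DNest

open MeasureTheory Set Function Filter Topology
open scoped ENNReal

namespace Vale.Agent.P232

theorem integral_cap {H : ℝ} (hH : 0 < H) :
    ∫ a in Ioo 0 (Real.pi / H ^ 2), √(1 - H ^ 2 * a / Real.pi) = 2 * Real.pi / (3 * H ^ 2) := by
  have p := Real.pi_pos
  have a0 : 0 < Real.pi / H ^ 2 := by positivity
  rw [← integral_Ioc_eq_integral_Ioo, ← intervalIntegral.integral_of_le a0.le,
    intervalIntegral.integral_eq_sub_of_hasDerivAt_of_le a0.le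
      (f := fun a => -(2 * Real.pi / (3 * H ^ 2)) * √(1 - H ^ 2 * a / Real.pi) ^ 3)
      (by fun_prop) (fun a ha => ?_) (Continuous.intervalIntegrable (by fun_prop) _ _)]
  · rw [mul_div_cancel₀ _ (by positivity), div_self p.ne']
    simp
  · have u : 0 < 1 - H ^ 2 * a / Real.pi := by
      rw [sub_pos, div_lt_one p, mul_comm]
      exact (lt_div_iff₀ (by positivity)).1 ha.2
    refine (((((((hasDerivAt_id' a).const_mul (H ^ 2)).div_const Real.pi).const_sub 1).sqrt
      u.ne').fun_pow 3).const_mul _).congr_deriv ?_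
    have := (Real.sqrt_pos.2 u).ne'
    generalize √(1 - H ^ 2 * a / Real.pi) = w at this
    field_simp
    norm_num

namespace DBall1Aux

/-- clipped ratio -/
noncomputable def r (H b : ℝ) : ℝ := max 0 (min 1 (H ^ 2 * b / Real.pi))

theorem r_mem (H b : ℝ) : 0 ≤ r H b ∧ r H b ≤ 1 :=
  ⟨le_max_left _ _, max_le zero_le_one (min_le_left _ _)⟩

theorem r_cont (H : ℝ) : Continuous (r H) := by
  unfold r
  fun_prop

theorem r_lo {H b : ℝ} (hH : 0 < H) (h0 : 0 ≤ b) (h : b < Real.pi / H ^ 2) :
    r H b = H ^ 2 * b / Real.pi := by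
  have p := Real.pi_pos
  rw [r, min_eq_right, max_eq_right (by positivity)]
  rw [div_le_one p, mul_comm]
  exact ((lt_div_iff₀ (by positivity)).1 h).le

theorem r_hi {H b : ℝ} (hH : 0 < H) (h : Real.pi / H ^ 2 ≤ b) : r H b = 1 := by
  rw [r, min_eq_left, max_eq_right zero_le_one]
  rw [one_le_div Real.pi_pos, mul_comm]
  exact (div_le_iff₀ (by positivity)).1 h

/-- the profile of the cap, continued by the constant `e` -/
noncomputable def sh (H e b : ℝ) : ℝ := if b < Real.pi / H ^ 2 then √(1 - r H b) else e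

theorem sh_meas (H e : ℝ) : Measurable (sh H e) :=
  Measurable.ite measurableSet_Iio (continuous_const.sub (r_cont H)).sqrt.measurable
    measurable_const

theorem sh_mem (H : ℝ) {e : ℝ} (h0 : 0 ≤ e) (h1 : e ≤ 1) (b : ℝ) : 0 ≤ sh H e b ∧ sh H e b ≤ 1 := by
  unfold sh
  split_ifs
  · exact ⟨Real.sqrt_nonneg _, Real.sqrt_le_one.2 (by linarith [(r_mem H b).1])⟩
  · exact ⟨h0, h1⟩

theorem sh_int {H e β : ℝ} (hH : 0 < H) (h0 : 0 ≤ e) (h1 : e ≤ 1) (h : Real.pi / H ^ 2 ≤ β) :
    ∫ b in Ioo 0 β, sh H e b = 2 * Real.pi / (3 * H ^ 2) + (β - Real.pi / H ^ 2) * e := by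
  have a0 : 0 < Real.pi / H ^ 2 := div_pos Real.pi_pos (by positivity)
  have i : IntegrableOn (sh H e) (Ioo 0 β) := Measure.integrableOn_of_bounded (M := 1) (by simp)
    (sh_meas H e).aestronglyMeasurable (.of_forall fun b => by
      rw [Real.norm_of_nonneg (sh_mem H h0 h1 b).1]
      exact (sh_mem H h0 h1 b).2)
  rw [← Ioo_union_Ico_eq_Ioo a0 h] at i ⊢
  rw [setIntegral_union (disjoint_left.2 fun b hb hb' => hb.2.not_ge hb'.1) measurableSet_Ico
    (i.mono_set subset_union_left) (i.mono_set subset_union_right), ← integral_cap hH,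
    setIntegral_congr_fun measurableSet_Ioo fun b hb => by rw [sh, if_pos hb.2, r_lo hH hb.1.le hb.2],
    setIntegral_congr_fun (f := sh H e) (g := fun _ => e) measurableSet_Ico fun b hb => if_neg hb.1.not_gt,
    setIntegral_const, Real.volume_real_Ico_of_le h, smul_eq_mul]

theorem bm_of {f : ℝ → ℝ} (hf : Measurable f) (h : ∀ t, 0 ≤ f t ∧ f t ≤ 1) : BM f :=
  ⟨hf, 1, fun t => (abs_of_nonneg (h t).1).trans_le (h t).2⟩

end DBall1Aux

open DBall1Aux in
theorem be_le {D : Set X} (hD : Dn D) {H : ℝ} (hH : 0 < H) (hF : Flux D H (fun _ => 0))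
    (hal : ∀ i, al D i = 0) (k : Fin 3) (hbe : Real.pi / H ^ 2 ≤ be D k)
    (hA : area D ≤ H * vol D + 2 * Real.pi / (3 * H ^ 2)) : be D k = Real.pi / H ^ 2 := by
  classical
  have p := Real.pi_pos
  have mA := (hD.at_countable k).measurableSet
  have ms := (bm_sl D k).1
  have mG : MeasurableSet (At D k ∪ {t | sl D k t < Real.pi / H ^ 2}) :=
    mA.union (measurableSet_lt ms measurable_const)
  have bs : ∀ e : ℝ, 0 ≤ e → e ≤ 1 → BM fun t => if t ∈ At D k then 1 else sh H e (sl D k t) :=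
    fun e h0 h1 => bm_of (Measurable.ite mA measurable_const ((sh_meas H e).comp ms)) fun t => by
      split_ifs
      · exact ⟨zero_le_one, le_rfl⟩
      · exact sh_mem H h0 h1 _
  have pm : ∀ e : ℝ, 0 ≤ e → e ≤ 1 → 2 * Real.pi / (3 * H ^ 2) + (be D k - Real.pi / H ^ 2) * e ≤
      ∫ x, (if x k ∈ At D k then 1 else sh H e (sl D k (x k))) ∂mu D k := fun e h0 h1 => by
    have := hD.pit_mu k (sh_meas H e) (sh_mem H h0 h1)
    rwa [hal, sh_int hH h0 h1 hbe] at this
  have st := star_raw hD hF k (f := fun t => √(Real.pi * sl D k t))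
    ⟨(ms.const_mul _).sqrt, √Real.pi, fun t => by
      rw [abs_of_nonneg (Real.sqrt_nonneg _)]
      exact Real.sqrt_le_sqrt (mul_le_of_le_one_right p.le (sl_mem D k t).2)⟩
    (hD.lb_disc hal k) mG (ρ := fun t => if t ∈ At D k then 0 else √(r H (sl D k t)))
    (bm_of (Measurable.ite mA measurable_const ((r_cont H).measurable.comp ms).sqrt) fun t => by
      split_ifs
      · exact ⟨le_rfl, zero_le_one⟩
      · exact ⟨Real.sqrt_nonneg _, Real.sqrt_le_one.2 (r_mem _ _).2⟩)
    (bs 0 le_rfl zero_le_one) (fun t => by positivity) (fun t => by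
      unfold sh
      split_ifs
      · norm_num
      · rw [Real.sq_sqrt (r_mem _ _).1, Real.sq_sqrt (sub_nonneg.2 (r_mem _ _).2)]
        linarith
      · rw [Real.sq_sqrt (r_mem _ _).1]
        linarith [(r_mem H (sl D k t)).2]) (by
      filter_upwards [ae_restrict_of_ae ((hD.at_countable k).ae_notMem volume)] with t ht hG
      have s0 := (sl_mem D k t).1
      rw [if_neg ht, r_lo hH s0 (hG.resolve_left ht), ← Real.sqrt_mul (by positivity), zero_add]
      refine Real.le_sqrt_of_sq_le (le_of_eq ?_)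
      field_simp)
  rw [setIntegral_eq_integral_of_forall_compl_eq_zero fun x hx => by
    rw [if_neg fun h => hx (Or.inl h)]
    exact if_neg fun h => hx (Or.inr h)] at st
  have n0 : ∀ x, 0 ≤ nv D k x ^ 2 / nn D x := fun x => div_nonneg (sq_nonneg _) (nn_nonneg D x)
  have R0 : 0 ≤ ∫ x in {x | x k ∉ At D k ∪ {t | sl D k t < Real.pi / H ^ 2}},
    nv D k x ^ 2 / nn D x ∂sg D := integral_nonneg n0
  have z := (integral_eq_zero_iff_of_nonneg n0 (integrable_of_le_nn D
    (((measurable_nv D k).pow_const 2).fun_div (measurable_nn D)) 1 fun x => by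
      rw [abs_of_nonneg (n0 x)]
      linarith [kap_add D k x, kap_nonneg D k x]).restrict).1
    (le_antisymm (by linarith [pm 0 le_rfl zero_le_one]) R0)
  have z' := (ae_restrict_iff' (s := {x : X | x k ∉ At D k ∪ {t | sl D k t < Real.pi / H ^ 2}})
    (measurable_pi_apply (X := fun _ => ℝ) k mG).compl).1 z
  have e : ∫ x, (if x k ∈ At D k then 1 else sh H 1 (sl D k (x k))) ∂mu D k =
      ∫ x, (if x k ∈ At D k then 1 else sh H 0 (sl D k (x k))) ∂mu D k := by
    rw [integral_mu_eq D k ((bs 1 zero_le_one le_rfl).comp (measurable_pi_apply k)),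
      integral_mu_eq D k ((bs 0 le_rfl zero_le_one).comp (measurable_pi_apply k))]
    refine integral_congr_ae ?_
    filter_upwards [z', ae_nv D] with x h1 h2
    by_cases h : x k ∈ At D k ∪ {t | sl D k t < Real.pi / H ^ 2}
    · rcases h with h | h
      · rw [if_pos h, if_pos h]
      · simp only [sh, if_pos (show sl D k (x k) < _ from h)]
    · have := (div_eq_zero_iff.1 (h1 h)).resolve_right (by linarith [h2.2.1])
      rw [pow_eq_zero_iff two_ne_zero] at this
      rw [this, mul_zero, mul_zero]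
  linarith [pm 1 zero_le_one le_rfl]

end Vale.Agent.P232
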