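import Vale.Agent.P232.DLB
import Vale.Agent.P232.DPl

open MeasureTheory Set Function Filter Topology
open scoped ENNReal

namespace Vale.Agent.P232

namespace DSupAux

theorem int_pos {f e : ℝ → ℝ} (h : Pl f e) {a : ℝ} (ha : a ∈ Ioo (0 : ℝ) 1) (h0 : 0 < f a) :
    0 < ∫ t, f t ∂vI := by
  have := vI_prob
  have hb : BM f := ⟨h.af.measurable, 1, fun t => by
    rw [abs_of_nonneg (h.f01 t).1]
    exact (h.f01 t).2⟩
  rw [integral_pos_iff_support_of_nonneg (fun t => (h.f01 t).1) (hb.integrable _)]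
  refine lt_of_lt_of_le ?_ (measure_mono (s := Ioo 0 a) fun t ht => (h0.trans_le (h.af ht.2.le)).ne')
  rw [vI, Measure.restrict_apply measurableSet_Ioo,
    inter_eq_left.2 (Ioo_subset_Ioo_right ha.2.le)]
  simpa using ha.1

theorem key {D : Set X} (hD : Dn D) {i j k : Fin 3} (hij : i ≠ j) (hik : i ≠ k) (hjk : j ≠ k)
    {t b : ℝ} (ht : t ∈ Ioo (0 : ℝ) 1) (hb : b ∈ Ioo (0 : ℝ) 1) (h : 0 < es D i j t b) :
    0 < sl D k t ∧ b ≤ ext0 (es D i j t) := by
  have p := hD.pl hij t
  refine ⟨?_, not_lt.1 fun hl => h.ne' (p.zero_of_lt hb hl)⟩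
  rw [hD.sl_eq hij hik hjk ht, p.integral_eq]
  exact int_pos p.symm hb h

theorem left_le {g : ℝ → ℝ} {s c : ℝ} (hg : ContinuousAt g s) (hs : 0 < s)
    (h : ∀ t ∈ Ioo 0 s, c ≤ g t) : c ≤ g s :=
  ge_of_tendsto (x := 𝓝[<] s) (hg.tendsto.mono_left nhdsWithin_le_nhds)
    (mem_of_superset (Ioo_mem_nhdsLT hs) h)

end DSupAux

open DSupAux in
theorem Dn.support {D : Set X} (hD : Dn D) {i j k : Fin 3} (hij : i ≠ j) (hik : i ≠ k)
    (hjk : j ≠ k) : ∃ B : Set ℝ, B.Countable ∧
      ∀ᵐ x ∂(sg D), x k ∉ B → 0 < sl D k (x k) ∧ x j ≤ ext0 (es D i j (x k)) := by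
  have hL := hD.anti_ext0 i j
  have hI : Antitone fun t => if 0 < sl D k t then (1 : ℝ) else 0 := by
    intro s t hst
    dsimp only
    split_ifs with h1 h2
    · exact le_rfl
    · exact absurd (h1.trans_le (antitone_sl D k hst)) h2
    · exact zero_le_one
    · exact le_rfl
  have hB := hL.countable_not_continuousAt.union hI.countable_not_continuousAt
  refine ⟨_, hB, (ae_sg_iff D).2 fun l => (hD.ae_mu_iff l ?_).2 ?_⟩
  · exact (measurable_pi_apply k hB.measurableSet).compl.imp
      ((measurableSet_lt measurable_const ((bm_sl D k).1.comp (measurable_pi_apply k))).inter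
        (measurableSet_le (measurable_pi_apply j) (hL.measurable.comp (measurable_pi_apply k))))
  filter_upwards [ae_vQ] with y hy hW hx
  have hl : l = i ∨ l = j ∨ l = k := by omega
  rcases hl with rfl | rfl | rfl
  · rw [update_of_ne hik.symm, update_of_ne hij.symm]
    exact key hD hij hik hjk (hy k) (hy j) (ht_eq_es D hij hik hjk y ▸ hW.1)
  · have e := ht_eq_fs D hij hik hjk y
    have p := hD.pl hij (y k)
    rw [update_of_ne hjk.symm, update_self, e, hD.sl_eq hij hik hjk (hy k)]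
    exact ⟨int_pos p (hy i) (e ▸ hW.1), p.le_ext0 (hy i)⟩
  · rw [update_self] at hx
    rw [update_self, update_of_ne hjk]
    simp only [mem_union, mem_setOf_eq, not_or, not_not] at hx
    have H : ∀ t ∈ Ioo 0 (ht D l y), 0 < sl D l t ∧ y j ≤ ext0 (es D i j t) := by
      intro t h
      have h01 : t ∈ Ioo (0 : ℝ) 1 := ⟨h.1, h.2.trans hW.2⟩
      have hQ : update y l t ∈ Q := fun m => by
        by_cases hm : m = l
        · rwa [hm, update_self]
        · rw [update_of_ne hm]
          exact hy m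
      have := (hD.mem_iff' i hQ).1 ((hD.mem_iff l y h01).2 h.2)
      rw [ht_eq_es D hij hik hjk, update_self, update_of_ne hjk] at this
      exact key hD hij hik hjk h01 (hy j) ((hQ i).1.trans this)
    refine ⟨?_, left_le hx.1 hW.1 fun t h => (H t h).2⟩
    have := left_le (c := 1) hx.2 hW.1 fun t h => by simp [(H t h).1]
    by_contra hn
    simp only [hn, if_false] at this
    norm_num at this

end Vale.Agent.P232
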