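import Vale.Agent.P232.DBall1
import Vale.Agent.P232.DSup

open MeasureTheory Set Function Filter Topology
open scoped ENNReal

namespace Vale.Agent.P232

namespace DBall2Aux

theorem sum3 {i j k : Fin 3} (hij : i ≠ j) (hik : i ≠ k) (hjk : j ≠ k) (F : Fin 3 → ℝ) :
    ∑ m, F m = F i + F j + F k := by
  have : (Finset.univ : Finset (Fin 3)) = {i, j, k} := by
    revert i j k
    decide
  rw [this, Finset.sum_insert (by simp [hij, hik]), Finset.sum_pair hjk, add_assoc]

theorem sq12 {L : ℝ} (hL : 0 ≤ L) (b : ℝ) :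
    √(1 - (b / L) ^ 2) ^ 2 + min (|b| / L) 1 ^ 2 ≤ 1 := by
  have e : |b| / L = |b / L| := by rw [abs_div, abs_of_nonneg hL]
  rw [e]
  generalize b / L = y
  rcases le_total |y| 1 with h | h
  · have : y ^ 2 ≤ 1 := (sq_le_one_iff_abs_le_one y).2 h
    rw [min_eq_left h, Real.sq_sqrt (by linarith), sq_abs]
    linarith
  · have : 1 ≤ y ^ 2 := by nlinarith [sq_abs y]
    rw [min_eq_right h, Real.sqrt_eq_zero_of_nonpos (by linarith)]
    norm_num

theorem sqrs {H a : ℝ} (hH : 0 < H) (ha : 0 ≤ a) :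
    min (H * √(a / Real.pi)) 1 ^ 2 + min (√(1 - H ^ 2 * a / Real.pi)) 1 ^ 2 ≤ 1 := by
  have hpi := Real.pi_pos
  have h0 : 0 ≤ H * √(a / Real.pi) := by positivity
  have e : (H * √(a / Real.pi)) ^ 2 = H ^ 2 * a / Real.pi := by
    rw [mul_pow, Real.sq_sqrt (by positivity)]
    ring
  rw [← e]
  generalize H * √(a / Real.pi) = y at h0
  rcases le_total y 1 with h | h
  · have h2 : y ^ 2 ≤ 1 := by nlinarith
    rw [min_eq_left h, min_eq_left (Real.sqrt_le_one.2 (by nlinarith)), Real.sq_sqrt (by linarith)]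
    linarith
  · have : 1 ≤ y ^ 2 := by nlinarith
    rw [min_eq_right h, Real.sqrt_eq_zero_of_nonpos (by linarith)]
    norm_num

theorem rho_eq {H a : ℝ} (hH : 0 < H) (ha : 0 ≤ a) (hb : a ≤ Real.pi / H ^ 2) :
    min (H * √(a / Real.pi)) 1 = H * √(a / Real.pi) := by
  have hpi := Real.pi_pos
  refine min_eq_left ?_
  have e : (H * √(a / Real.pi)) ^ 2 = H ^ 2 * a / Real.pi := by
    rw [mul_pow, Real.sq_sqrt (by positivity)]
    ring
  have h1 : H ^ 2 * a / Real.pi ≤ 1 := by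
    rw [div_le_one hpi]
    rw [le_div_iff₀ (by positivity)] at hb
    linarith
  have h0 : 0 ≤ H * √(a / Real.pi) := by positivity
  nlinarith

theorem gap {H a L : ℝ} (ha : 0 ≤ a) (hL : 0 < L) :
    H * √(a / Real.pi) * (a / L + Real.pi * L / 4) - H * a =
      H * √(a / Real.pi) * Real.pi * (√(a / Real.pi) - L / 2) ^ 2 / L := by
  have hpi := Real.pi_pos
  have e : a = Real.pi * √(a / Real.pi) ^ 2 := by
    rw [Real.sq_sqrt (by positivity)]
    field_simp
  generalize √(a / Real.pi) = r at e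
  subst e
  field_simp
  ring

theorem bm01 {α : Type} [MeasurableSpace α] {f : α → ℝ} (hf : Measurable f)
    (h : ∀ x, f x ^ 2 ≤ 1) : BM f :=
  ⟨hf, 1, fun x => (sq_le_one_iff_abs_le_one _).1 (h x)⟩

end DBall2Aux

open DBall2Aux

theorem normal_off {D : Set X} (hD : Dn D) {H : ℝ} (hH : 0 < H)
    (hal : ∀ i, al D i = 0) {i j k : Fin 3} (hij : i ≠ j) (hik : i ≠ k) (hjk : j ≠ k)
    (hbe : be D k = Real.pi / H ^ 2)
    (hA : area D ≤ H * vol D + 2 * Real.pi / (3 * H ^ 2)) :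
    ∃ B : Set ℝ, MeasurableSet B ∧ vI B = 0 ∧
      ∀ᵐ x ∂(sg D), x k ∉ B → nv D j x = nn D x * (H * x j / 2) := by
  classical
  have := vI_prob
  have hpi := Real.pi_pos
  have hAt := hD.at_countable k
  have hAm : MeasurableSet (At D k) := hAt.measurableSet
  have ham : Measurable (sl D k) := (bm_sl D k).1
  have hLm : Measurable (fun t => ext0 (es D i j t)) := (hD.anti_ext0 i j).measurable
  have hL0 : ∀ t, 0 ≤ ext0 (es D i j t) := fun t => (ext0_mem _).1
  have ha0 : ∀ t, 0 ≤ sl D k t := fun t => (sl_mem D k t).1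
  set ρ : ℝ → ℝ := fun t => if t ∈ At D k then 0 else min (H * √(sl D k t / Real.pi)) 1 with hρ
  set s0 : ℝ → ℝ := fun a => min (√(1 - H ^ 2 * a / Real.pi)) 1 with hs0
  set s : ℝ → ℝ := fun t => if t ∈ At D k then 1 else s0 (sl D k t) with hs
  set g₁ : X → ℝ := fun x => √(1 - (x j / ext0 (es D i j (x k))) ^ 2) with hg₁
  set g₂ : X → ℝ := fun x => min (|x j| / ext0 (es D i j (x k))) 1 with hg₂
  have hρs : ∀ t, ρ t ^ 2 + s t ^ 2 ≤ 1 := by
    intro t
    by_cases h : t ∈ At D k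
    · simp [hρ, hs, h]
    · simp only [hρ, hs, hs0, if_neg h]
      exact sqrs hH (ha0 t)
  have h12 : ∀ x, g₁ x ^ 2 + g₂ x ^ 2 ≤ 1 := fun x => sq12 (hL0 _) _
  have hs0m : Measurable s0 := by
    rw [hs0]
    fun_prop
  have bρ : BM ρ := by
    refine bm01 (Measurable.ite hAm measurable_const ?_) fun t => by
      nlinarith [hρs t, sq_nonneg (s t)]
    exact ((ham.div_const _).sqrt.const_mul H).min measurable_const
  have bs : BM s :=
    bm01 (Measurable.ite hAm measurable_const (hs0m.comp ham)) fun t => by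
      nlinarith [hρs t, sq_nonneg (ρ t)]
  have hLx : Measurable (fun x : X => ext0 (es D i j (x k))) := hLm.comp (measurable_pi_apply k)
  have b₁ : BM g₁ :=
    bm01 ((((measurable_pi_apply j).div hLx).pow_const 2).const_sub 1).sqrt fun x => by
      nlinarith [h12 x, sq_nonneg (g₂ x)]
  have b₂ : BM g₂ :=
    bm01 (((measurable_pi_apply j).abs.div hLx).min measurable_const) fun x => by
      nlinarith [h12 x, sq_nonneg (g₁ x)]
  set g : Fin 3 → X → ℝ := fun m x =>
    if m = i then ρ (x k) * g₁ x else if m = j then ρ (x k) * g₂ x else s (x k) with hg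
  have gi : g i = fun x => ρ (x k) * g₁ x := by
    funext x
    simp only [hg, if_true]
  have gj : g j = fun x => ρ (x k) * g₂ x := by
    funext x
    simp only [hg, if_neg hij.symm, if_true]
  have gk : g k = fun x => s (x k) := by
    funext x
    simp only [hg, if_neg hik.symm, if_neg hjk.symm]
  have bg : ∀ m, BM (g m) := by
    intro m
    by_cases h1 : m = i
    · rw [h1, gi]
      exact (bρ.comp (measurable_pi_apply k)).mul b₁
    · by_cases h2 : m = j
      · rw [h2, gj]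
        exact (bρ.comp (measurable_pi_apply k)).mul b₂
      · have : g m = fun x => s (x k) := by
          funext x
          simp only [hg, if_neg h1, if_neg h2]
        rw [this]
        exact bs.comp (measurable_pi_apply k)
  have hg1 : ∀ x, ∑ m, g m x ^ 2 ≤ 1 := by
    intro x
    rw [sum3 hij hik hjk, gi, gj, gk]
    have := mul_le_mul_of_nonneg_left (h12 x) (sq_nonneg (ρ (x k)))
    nlinarith [hρs (x k)]
  have hcal : ∀ t ∈ Ioo (0 : ℝ) 1, 0 < ext0 (es D i j t) →
      CalS D i j g₁ g₂ t = sl D k t / ext0 (es D i j t) + Real.pi * ext0 (es D i j t) / 4 := by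
    intro t ht01 hL
    have e1 : ext1 (es D i j t) = 0 := hD.ext1_zero hij (hal i) ht01.1
    have e2 : ext1 (fs D i j t) = 0 := by
      rw [fs_eq_es D hij]
      exact hD.ext1_zero hij.symm (hal j) ht01.1
    rw [hD.sl_eq hij hik hjk ht01, ← (hD.pl hij t).disc e1 e2 hL, CalS]
    simp only [hg₁, hg₂, pt, update_self, update_of_ne hjk.symm, update_of_ne hik.symm]
  have hρeq : ∀ t ∈ Ioo (0 : ℝ) 1, t ∉ At D k → ρ t = H * √(sl D k t / Real.pi) := by
    intro t ht01 hn
    simp only [hρ, if_neg hn]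
    exact rho_eq hH (ha0 t) (hbe ▸ sl_le_be D k ht01.1.le)
  have hAt0 : ∀ᵐ t ∂vI, t ∉ At D k := ae_restrict_of_ae (hAt.ae_notMem volume)
  have hge : ∀ᵐ t ∂vI, 0 ≤ ρ t * CalS D i j g₁ g₂ t - H * sl D k t := by
    filter_upwards [ae_vI, hAt0] with t ht01 hn
    rw [hρeq t ht01 hn]
    rcases (hL0 t).eq_or_lt with hL | hL
    · have h1 := (hD.pl hij t).area_le
      rw [← hD.sl_eq hij hik hjk ht01, ← hL] at h1
      rw [le_antisymm h1 (ha0 t)]
      simp
    · rw [hcal t ht01 hL, gap (ha0 t) hL]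
      positivity
  have bC : BM (fun t => ρ t * CalS D i j g₁ g₂ t) := bρ.mul (hD.bm_CalS i j b₁ b₂)
  have bH : BM (fun t => H * sl D k t) := (BM.const H).mul (bm_sl D k)
  have hsl := hD.cal_slices hij hik hjk b₁ b₂ bρ
  have hpit := hD.pit_mu k hs0m fun a => ⟨le_min (Real.sqrt_nonneg _) zero_le_one, min_le_right _ _⟩
  have hcap : ∫ b in Ioo (al D k) (be D k), s0 b = 2 * Real.pi / (3 * H ^ 2) := by
    rw [hal k, hbe, ← integral_cap hH]
    refine setIntegral_congr_fun measurableSet_Ioo fun b hb => ?_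
    have : 0 ≤ H ^ 2 * b / Real.pi := by
      have := hb.1
      positivity
    exact min_eq_left (Real.sqrt_le_one.2 (by linarith))
  rw [hcap] at hpit
  have hk' : 2 * Real.pi / (3 * H ^ 2) ≤ ∫ x, s (x k) ∂(mu D k) := hpit
  have hdiff : ∫ t, (ρ t * CalS D i j g₁ g₂ t - H * sl D k t) ∂vI =
      ∫ t, ρ t * CalS D i j g₁ g₂ t ∂vI - H * vol D := by
    rw [integral_sub (bC.integrable vI) (bH.integrable vI), integral_const_mul, hD.vol_eq k]
  have hsum : ∑ m, ∫ x, g m x ∂(mu D m) =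
      ∫ t, ρ t * CalS D i j g₁ g₂ t ∂vI + ∫ x, s (x k) ∂(mu D k) := by
    rw [sum3 hij hik hjk, gi, gj, gk, hsl]
  have hnn := integral_nonneg_of_ae hge
  have hle := cal_le D bg hg1
  have hce := cal_eq D bg hg1 (by linarith)
  have hzero : ∀ᵐ t ∂vI, ρ t * CalS D i j g₁ g₂ t - H * sl D k t = 0 :=
    (integral_eq_zero_iff_of_nonneg_ae hge ((bC.sub bH).integrable vI)).1 (by linarith)
  obtain ⟨B₀, hB₀, hsup⟩ := hD.support hij hik hjk
  have hB0 : ∀ᵐ t ∂vI, t ∉ B₀ := ae_restrict_of_ae (hB₀.ae_notMem volume)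
  have hall : ∀ᵐ t ∂vI, t ∉ At D k ∧ t ∉ B₀ ∧ ρ t * CalS D i j g₁ g₂ t - H * sl D k t = 0 := by
    filter_upwards [hAt0, hB0, hzero] with t h1 h2 h3
    exact ⟨h1, h2, h3⟩
  obtain ⟨B, hsub, hBm, hB⟩ := exists_measurable_superset_of_null (ae_iff.1 hall)
  refine ⟨B, hBm, hB, ?_⟩
  filter_upwards [hce, hsup, hD.ae_sg_Q] with x hx hx2 hxQ hxB
  obtain ⟨h1, h2, h3⟩ : x k ∉ At D k ∧ x k ∉ B₀ ∧
      ρ (x k) * CalS D i j g₁ g₂ (x k) - H * sl D k (x k) = 0 := by
    by_contra h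
    exact hxB (hsub h)
  obtain ⟨h4, h5⟩ := hx2 h2
  have hj := (hxQ j).1
  have hL : 0 < ext0 (es D i j (x k)) := hj.trans_le h5
  rw [hρeq _ (hxQ k) h1, hcal _ (hxQ k) hL, gap (ha0 _) hL] at h3
  have hr : 0 < √(sl D k (x k) / Real.pi) := Real.sqrt_pos.2 (by positivity)
  have h6 : √(sl D k (x k) / Real.pi) - ext0 (es D i j (x k)) / 2 = 0 := by
    rcases div_eq_zero_iff.1 h3 with h | h
    · rcases mul_eq_zero.1 h with h | h
      · exact absurd h (by positivity)
      · exact pow_eq_zero_iff two_ne_zero |>.1 h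
    · exact absurd h hL.ne'
  rw [hx j, gj]
  simp only [hg₂]
  rw [hρeq _ (hxQ k) h1, abs_of_pos hj, min_eq_left ((div_le_one hL).2 h5), sub_eq_zero.1 h6]
  field_simp

end Vale.Agent.P232
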