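import Vale.Agent.P232.DSig
import Vale.Agent.P232.AVol

open MeasureTheory Set Function Filter Topology
open scoped ENNReal

namespace Vale.Agent.P232

theorem Dn.sphere_of {D : Set X} (hD : Dn D) {I : Finset (Fin 3)} {j : Fin 3} (hj : j ∈ I)
    {R : ℝ} (hs : ∀ᵐ x ∂(mu D j), ∑ i ∈ I, x i ^ 2 = R ^ 2) (hal : al D j = 0)
    (hv : vol D = vQ.real (ModQ I R)) : D =ᵐ[vQ] ModQ I R := by
  have := vQ_prob
  rw [hD.ae_mu_iff j (measurableSet_eq_fun (by fun_prop) measurable_const)] at hs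
  have h1 : ∀ᵐ x ∂vQ, ¬ 1 ≤ ht D j x :=
    measure_eq_zero_iff_ae_notMem.1 ((measureReal_eq_zero_iff (measure_ne_top _ _)).1 hal)
  refine ae_eq_of_ae_subset_of_measure_ge ?_ ?_ hD.meas.nullMeasurableSet (measure_ne_top _ _)
  · filter_upwards [hs, h1, ae_vQ] with x h2 h3 h4 h5
    have h6 := (hD.mem_iff' j h4).1 h5
    have h7 := (h4 j).1
    show ∑ i ∈ I, x i ^ 2 < R ^ 2
    rw [← h2 ⟨h7.trans h6, not_le.1 h3⟩]
    refine Finset.sum_lt_sum (fun i _ => ?_) ⟨j, hj, ?_⟩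
    · by_cases h : i = j
      · rw [h, update_self]
        exact pow_le_pow_left₀ h7.le h6.le 2
      · rw [update_of_ne h]
    · rw [update_self]
      exact pow_lt_pow_left₀ h6 h7.le two_ne_zero
  · exact ((measureReal_eq_measureReal_iff (measure_ne_top _ _) (measure_ne_top _ _)).1 hv).ge

namespace DSphAux

theorem sl_const {D : Set X} (hD : Dn D) {k : Fin 3} (h : mu D k = 0) {t : ℝ}
    (h1 : t ∈ Ioo (0 : ℝ) 1) : sl D k t = vol D := by
  have k1 := hD.mu_univ k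
  rw [h, measureReal_zero, Pi.zero_apply] at k1
  linarith [al_le_sl D k h1.2, sl_le_be D k h1.1.le, hD.al_le_vol k, hD.vol_le_be k]

theorem int_es {D : Set X} (hD : Dn D) {i j : Fin 3} (hij : i ≠ j) (t : ℝ) :
    Integrable (es D i j t) vI := by
  have := vI_prob
  have p := hD.pl hij t
  exact BM.integrable ⟨p.ae.measurable, 1, fun b =>
    abs_le.2 ⟨by linarith [(p.e01 b).1], (p.e01 b).2⟩⟩ vI

theorem es_le {D : Set X} (hD : Dn D) {i j k : Fin 3} (hij : i ≠ j) (hik : i ≠ k)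
    (hjk : j ≠ k) (h : mu D k = 0) {t t' : ℝ} (h1 : t ∈ Ioo (0 : ℝ) 1)
    (h2 : t' ∈ Ioo (0 : ℝ) 1) (h3 : t' ≤ t) : es D i j t =ᵐ[vI] es D i j t' := by
  refine (integral_eq_iff_of_ae_le (int_es hD hij t) (int_es hD hij t')
    (Eventually.of_forall fun b => hD.es_anti i j b h3)).1 ?_
  rw [← fs_eq_es D hij.symm, ← fs_eq_es D hij.symm, ← hD.sl_eq hij.symm hjk hik h1,
    ← hD.sl_eq hij.symm hjk hik h2, sl_const hD h h1, sl_const hD h h2]

end DSphAux

/-- if the graph measure in direction `k` vanishes then all slices agree a.e. -/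
theorem Dn.es_congr {D : Set X} (hD : Dn D) {i j k : Fin 3} (hij : i ≠ j) (hik : i ≠ k)
    (hjk : j ≠ k) (h : mu D k = 0) {t t' : ℝ} (h1 : t ∈ Ioo (0 : ℝ) 1)
    (h2 : t' ∈ Ioo (0 : ℝ) 1) : es D i j t =ᵐ[vI] es D i j t' := by
  rcases le_total t' t with h3 | h3
  · exact DSphAux.es_le hD hij hik hjk h h1 h2 h3
  · exact (DSphAux.es_le hD hij hik hjk h h2 h1 h3).symm

theorem Dn.sl_const {D : Set X} (hD : Dn D) {k : Fin 3} (h : mu D k = 0) {t : ℝ}
    (h1 : t ∈ Ioo (0 : ℝ) 1) : sl D k t = vol D := DSphAux.sl_const hD h h1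

end Vale.Agent.P232
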