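import Vale.Agent.P232.DBall2
import Vale.Agent.P232.DSph

open MeasureTheory Set Function Filter Topology
open scoped ENNReal

namespace Vale.Agent.P232

theorem ball_model {D : Set X} (hD : Dn D) {ρ : ℝ} (h0 : 0 < ρ) (h1 : ρ < 1)
    (hF : Flux D (2 / ρ) (fun _ => 0)) (hal : ∀ i, al D i = 0)
    (hbe : ∀ k, Real.pi / (2 / ρ) ^ 2 ≤ be D k) (hv : vol D = Real.pi * ρ ^ 3 / 6)
    (hA : area D = Real.pi * ρ ^ 2 / 2) : IsModel D := by
  have hH : 0 < 2 / ρ := by positivity
  have hA' : area D ≤ 2 / ρ * vol D + 2 * Real.pi / (3 * (2 / ρ) ^ 2) := by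
    rw [hA, hv]
    refine le_of_eq ?_
    field_simp
    ring
  have hb := fun k => be_le hD hH hF hal k (hbe k) hA'
  have key : ∀ i j k : Fin 3, i ≠ j → i ≠ k → j ≠ k →
      ∀ᵐ x ∂(sg D), nv D j x = nn D x * (2 / ρ * x j / 2) := by
    intro i j k hij hik hjk
    obtain ⟨B, m1, n1, e1⟩ := normal_off hD hH hal hij hik hjk (hb k) hA'
    obtain ⟨B', m2, n2, e2⟩ := normal_off hD hH hal hjk.symm hik.symm hij.symm (hb i) hA'
    have h3 : ∀ᵐ x ∂(sg D), x k ∉ B ∨ x i ∉ B' := (ae_sg_iff D).2 fun m => by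
      by_cases hm : m = k
      · exact (hD.mu_null (hm ▸ hik.symm) m2 n2).mono fun x hx => Or.inr hx
      · exact (hD.mu_null hm m1 n1).mono fun x hx => Or.inl hx
    filter_upwards [e1, e2, h3] with x a b c using c.elim a b
  have hs : ∀ᵐ x ∂(sg D), ∑ i ∈ Finset.univ, x i ^ 2 = ρ ^ 2 := by
    filter_upwards [key 1 0 2 (by decide) (by decide) (by decide),
      key 0 1 2 (by decide) (by decide) (by decide),
      key 0 2 1 (by decide) (by decide) (by decide), ae_nv D] with x a b c d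
    have h2 := nn_sq D x
    have h3 : nn D x ≠ 0 := by linarith [d.2.1] |> ne_of_gt
    rw [Fin.sum_univ_three, a, b, c] at h2
    rw [Fin.sum_univ_three]
    field_simp at h2
    linarith
  refine ⟨Finset.univ, Finset.univ_nonempty, ρ, h0, h1, hD.sphere_of (Finset.mem_univ 0)
    ((ae_sg_iff D).1 hs 0) (hal 0) (by rw [hv, vol_ModQ_three (by simp) h0.le h1.le]), ?_⟩
  rw [hA, hv, Finset.card_univ, Fintype.card_fin]
  push_cast
  field_simp
  ring

end Vale.Agent.P232
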