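import Vale.Agent.P232.AFub

open MeasureTheory Set Function Filter Topology
open scoped ENNReal

namespace Vale.Agent.P232

namespace DCptAux

theorem exists_const (P : ℕ → ℕ → Prop) :
    ∃ φ : ℕ → ℕ, StrictMono φ ∧
      ∀ m, (∀ᶠ n in atTop, P (φ n) m) ∨ (∀ᶠ n in atTop, ¬ P (φ n) m) := by
  classical
  obtain ⟨a, -, φ, hφ, hlim⟩ := (isCompact_univ (X := ℕ → Bool)).tendsto_subseq
    (x := fun n m => decide (P n m)) (fun _ => mem_univ _)
  refine ⟨φ, hφ, fun m => ?_⟩
  have h1 : Tendsto (fun n => decide (P (φ n) m)) atTop (𝓝 (a m)) :=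
    (tendsto_pi_nhds.1 hlim) m
  rw [nhds_discrete, tendsto_pure] at h1
  cases ha : a m
  · right
    filter_upwards [h1] with n hn
    rw [ha] at hn
    simpa using hn
  · left
    filter_upwards [h1] with n hn
    rw [ha] at hn
    simpa using hn

theorem isOpen_box (a b : X) : IsOpen {y : X | ∀ i, a i < y i ∧ y i < b i} := by
  have : {y : X | ∀ i, a i < y i ∧ y i < b i} = ⋂ i, {y : X | a i < y i ∧ y i < b i} := by
    ext y; simp
  rw [this]
  refine isOpen_iInter_of_finite fun i => ?_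
  exact (isOpen_lt continuous_const (continuous_apply i)).inter
    (isOpen_lt (continuous_apply i) continuous_const)

theorem isOpen_below (b : X) : IsOpen {y : X | ∀ i, y i < b i} := by
  have : {y : X | ∀ i, y i < b i} = ⋂ i, {y : X | y i < b i} := by
    ext y; simp
  rw [this]
  exact isOpen_iInter_of_finite fun i => isOpen_lt (continuous_apply i) continuous_const

end DCptAux

theorem exists_subseq (D : ℕ → Set X) (hD : ∀ n, Dn (D n)) :
    ∃ (φ : ℕ → ℕ) (E : Set X), StrictMono φ ∧ Dn E ∧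
      ∀ᵐ x ∂vQ, ∀ᶠ n in atTop, (x ∈ D (φ n) ↔ x ∈ E) := by
  set q : ℕ → X := TopologicalSpace.denseSeq X with hq
  have hqd : DenseRange q := TopologicalSpace.denseRange_denseSeq X
  obtain ⟨φ, hφ, hc⟩ := DCptAux.exists_const (fun n m => q m ∈ D n)
  set E : Set X := {x | ∃ m, (∀ i, x i < q m i) ∧ ∀ᶠ n in atTop, q m ∈ D (φ n)} with hE
  have hEo : IsOpen E := by
    have : E = ⋃ m, ⋃ (_ : ∀ᶠ n in atTop, q m ∈ D (φ n)), {y : X | ∀ i, y i < q m i} := by
      ext y
      simp only [hE, mem_ofPred_eq, mem_iUnion]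
      constructor
      · rintro ⟨m, h1, h2⟩; exact ⟨m, h2, h1⟩
      · rintro ⟨m, h1, h2⟩; exact ⟨m, h2, h1⟩
    rw [this]
    exact isOpen_iUnion fun m => isOpen_iUnion fun _ => DCptAux.isOpen_below _
  have hEl : IsLowerSet E := by
    rintro a b hba ⟨m, h1, h2⟩
    exact ⟨m, fun i => (hba i).trans_lt (h1 i), h2⟩
  refine ⟨φ, E, hφ, ⟨hEo, hEl⟩, ?_⟩
  have hnull : (volume : Measure X) (frontier E) = 0 := hEl.null_frontier
  have hae : ∀ᵐ x ∂vQ, x ∉ frontier E := by
    unfold vQ
    exact ae_restrict_of_ae (measure_eq_zero_iff_ae_notMem.1 hnull)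
  filter_upwards [hae] with x hx
  by_cases hxE : x ∈ E
  · obtain ⟨m, h1, h2⟩ := id hxE
    filter_upwards [h2] with n hn
    exact ⟨fun _ => hxE, fun _ => (hD _).2 (fun i => (h1 i).le) hn⟩
  · have hcl : x ∉ closure E := by
      intro h
      apply hx
      rw [hEo.frontier_eq]
      exact ⟨h, hxE⟩
    obtain ⟨δ, hδ, hball⟩ := Metric.isOpen_iff.1 isClosed_closure.isOpen_compl x hcl
    set x' : X := fun i => x i - δ / 2 with hx'
    have hx'E : x' ∉ E := by
      intro h
      refine hball (a := x') ?_ (subset_closure h)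
      rw [Metric.mem_ball, dist_pi_lt_iff hδ]
      intro i
      rw [Real.dist_eq, hx']
      simp only [sub_sub_cancel_left, abs_neg]
      rw [abs_of_pos (by linarith)]
      linarith
    obtain ⟨m, hm⟩ := hqd.exists_mem_open (DCptAux.isOpen_box x' x)
      ⟨fun i => x i - δ / 4, fun i => by simp only [hx']; constructor <;> linarith⟩
    rcases hc m with h | h
    · exact absurd ⟨m, fun i => (hm i).1, h⟩ hx'E
    · filter_upwards [h] with n hn
      exact ⟨fun hxD => absurd ((hD _).2 (fun i => (hm i).2.le) hxD) hn, fun h => absurd h hxE⟩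

end Vale.Agent.P232
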