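import Vale.Agent.P232.DSig

open MeasureTheory Set Function Filter Topology
open scoped ENNReal

namespace Vale.Agent.P232

variable {D : Set X}

namespace DLBAux

theorem bm_int {F : ℝ × ℝ → ℝ} (hF : BM F) : BM fun t => ∫ b, F (t, b) ∂vI := by
  have := vI_prob
  obtain ⟨C, hC⟩ := hF.2
  refine ⟨hF.1.stronglyMeasurable.integral_prod_right'.measurable, C, fun t => ?_⟩
  have := norm_integral_le_of_norm_le_const (μ := vI) (f := fun b => F (t, b)) (C := C)
    (ae_of_all _ fun b => hC (t, b))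
  simpa using this

theorem fub {j k : Fin 3} (hjk : j ≠ k) {F : ℝ × ℝ → ℝ} (hF : BM F) {ρ : ℝ → ℝ} (hρ : BM ρ) :
    ∫ x, ρ (x k) * F (x k, x j) ∂vQ = ∫ t, ρ t * ∫ b, F (t, b) ∂vI ∂vI := by
  have := vI_prob
  have hb : BM fun p : ℝ × ℝ => ρ p.1 * F p := (hρ.comp measurable_fst).mul hF
  have e := integral_map (μ := vQ) (mp_two hjk).measurable.aemeasurable
    (f := fun p : ℝ × ℝ => ρ p.1 * F p) hb.1.aestronglyMeasurable
  rw [(mp_two hjk).map_eq, integral_prod _ (hb.integrable _)] at e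
  rw [← e]
  simp only [integral_const_mul]

/-- the first integrand -/
noncomputable def F1 (D : Set X) (i j : Fin 3) (g : X → ℝ) : ℝ × ℝ → ℝ :=
  {p : ℝ × ℝ | 0 < es D i j p.1 p.2 ∧ es D i j p.1 p.2 < 1}.indicator
    fun p => g (pt i j (es D i j p.1 p.2) p.2 p.1)

/-- the second integrand -/
noncomputable def F2 (D : Set X) (i j : Fin 3) (g : X → ℝ) : ℝ × ℝ → ℝ :=
  {p : ℝ × ℝ | 0 < fs D i j p.1 p.2 ∧ fs D i j p.1 p.2 < 1}.indicator
    fun p => g (pt i j p.2 (fs D i j p.1 p.2) p.1)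

theorem meas_es (hD : Dn D) (i j : Fin 3) : Measurable fun p : ℝ × ℝ => es D i j p.1 p.2 :=
  (measurable_ht hD.meas i).comp ((measurable_pt i j).comp
    (measurable_const.prodMk (measurable_snd.prodMk measurable_fst)))

theorem meas_fs (hD : Dn D) (i j : Fin 3) : Measurable fun p : ℝ × ℝ => fs D i j p.1 p.2 :=
  (measurable_ht hD.meas j).comp ((measurable_pt i j).comp
    (measurable_snd.prodMk (measurable_const.prodMk measurable_fst)))

theorem mset {α : Type} [MeasurableSpace α] {e : α → ℝ} (he : Measurable e) :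
    MeasurableSet {p | 0 < e p ∧ e p < 1} :=
  (measurableSet_lt measurable_const he).inter (measurableSet_lt he measurable_const)

theorem bm_F1 (hD : Dn D) (i j : Fin 3) {g : X → ℝ} (h : BM g) : BM (F1 D i j g) :=
  (h.comp ((measurable_pt i j).comp
    ((meas_es hD i j).prodMk (measurable_snd.prodMk measurable_fst)))).indicator
    (mset (meas_es hD i j))

theorem bm_F2 (hD : Dn D) (i j : Fin 3) {g : X → ℝ} (h : BM g) : BM (F2 D i j g) :=
  (h.comp ((measurable_pt i j).comp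
    (measurable_snd.prodMk ((meas_fs hD i j).prodMk measurable_fst)))).indicator
    (mset (meas_fs hD i j))

theorem calS_eq (hD : Dn D) (i j : Fin 3) (g₁ g₂ : X → ℝ) (t : ℝ) :
    CalS D i j g₁ g₂ t = ∫ b, F1 D i j g₁ (t, b) ∂vI + ∫ a, F2 D i j g₂ (t, a) ∂vI := by
  unfold CalS Cal
  have m1 : Measurable fun b => es D i j t b :=
    Measurable.of_uncurry_left (f := fun t b => es D i j t b) (meas_es hD i j)
  have m2 : Measurable fun a => fs D i j t a :=
    Measurable.of_uncurry_left (f := fun t a => fs D i j t a) (meas_fs hD i j)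
  rw [← integral_indicator (mset m1), ← integral_indicator (mset m2)]
  rfl

theorem upd1 {i j k : Fin 3} (hij : i ≠ j) (hik : i ≠ k) (hjk : j ≠ k) (x : X) (s : ℝ) :
    update x i s = pt i j s (x j) (x k) := by
  have := pt_eq hij hik hjk (update x i s)
  rw [update_self, update_of_ne hij.symm, update_of_ne hik.symm] at this
  exact this.symm

theorem upd2 {i j k : Fin 3} (hij : i ≠ j) (hik : i ≠ k) (hjk : j ≠ k) (x : X) (s : ℝ) :
    update x j s = pt i j (x i) s (x k) := by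
  have := pt_eq hij hik hjk (update x j s)
  rw [update_self, update_of_ne hij, update_of_ne hjk.symm] at this
  exact this.symm

theorem mu1 (hD : Dn D) {i j k : Fin 3} (hij : i ≠ j) (hik : i ≠ k) (hjk : j ≠ k) {g : X → ℝ}
    (h : BM g) {ρ : ℝ → ℝ} (hρ : BM ρ) :
    ∫ x, ρ (x k) * g x ∂(mu D i) = ∫ x, ρ (x k) * F1 D i j g (x k, x j) ∂vQ := by
  rw [hD.integral_mu i ((hρ.comp (measurable_pi_apply k)).mul h).1,
    ← integral_indicator (measurableSet_Wd hD.meas i)]
  refine integral_congr_ae (ae_of_all _ fun x => ?_)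
  simp only [F1, Wd, indicator, mem_ofPred_eq, ← ht_eq_es D hij hik hjk x, update_of_ne hik.symm,
    ← upd1 hij hik hjk, mul_ite, mul_zero]

theorem mu2 (hD : Dn D) {i j k : Fin 3} (hij : i ≠ j) (hik : i ≠ k) (hjk : j ≠ k) {g : X → ℝ}
    (h : BM g) {ρ : ℝ → ℝ} (hρ : BM ρ) :
    ∫ x, ρ (x k) * g x ∂(mu D j) = ∫ x, ρ (x k) * F2 D i j g (x k, x i) ∂vQ := by
  rw [hD.integral_mu j ((hρ.comp (measurable_pi_apply k)).mul h).1,
    ← integral_indicator (measurableSet_Wd hD.meas j)]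
  refine integral_congr_ae (ae_of_all _ fun x => ?_)
  simp only [F2, Wd, indicator, mem_ofPred_eq, ← ht_eq_fs D hij hik hjk x, update_of_ne hjk.symm,
    ← upd2 hij hik hjk, mul_ite, mul_zero]

theorem int_mul (D : Set X) {f u : X → ℝ} (hf : BM f) (hu : Measurable u) (h0 : ∀ x, 0 ≤ u x)
    (h1 : ∀ x, u x ≤ nn D x) : Integrable (fun x => f x * u x) (sg D) := by
  obtain ⟨C, hC⟩ := hf.2
  refine integrable_of_le_nn D (hf.1.mul hu) C fun x => ?_
  rw [abs_mul, abs_of_nonneg (h0 x)]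
  exact mul_le_mul (hC x) (h1 x) (h0 x) ((abs_nonneg _).trans (hC x))

theorem int_pp (D : Set X) (k : Fin 3) {ρ : ℝ → ℝ} (hρ : BM ρ) :
    Integrable (fun x => ρ (x k) * pp D k x) (sg D) :=
  int_mul D (hρ.comp (measurable_pi_apply k)) (measurable_pp D k) (pp_nonneg D k) (pp_le_nn D k)

theorem univ_eq : ∀ i j k : Fin 3, i ≠ j → i ≠ k → j ≠ k →
    (Finset.univ : Finset (Fin 3)) = {i, j, k} := by decide

theorem third : ∀ i j : Fin 3, i ≠ j → ∃ k, i ≠ k ∧ j ≠ k := by decide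

theorem pp_sq' (D : Set X) {i j k : Fin 3} (hij : i ≠ j) (hik : i ≠ k) (hjk : j ≠ k) (x : X) :
    pp D k x ^ 2 = nv D i x ^ 2 + nv D j x ^ 2 := by
  rw [pp_sq, nn_sq, univ_eq i j k hij hik hjk, Finset.sum_insert (by simp [hij, hik]),
    Finset.sum_pair hjk]
  ring

theorem bm_max {f g : ℝ → ℝ} (hf : BM f) (hg : BM g) : BM fun t => max (f t) (g t) := by
  obtain ⟨C, hC⟩ := hf.2
  obtain ⟨C', hC'⟩ := hg.2
  refine ⟨hf.1.max hg.1, max C C', fun t => ?_⟩
  beta_reduce
  rcases max_choice (f t) (g t) with e | e <;> rw [e]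
  · exact (hC t).trans (le_max_left _ _)
  · exact (hC' t).trans (le_max_right _ _)

end DLBAux

open DLBAux

theorem Dn.bm_CalS (hD : Dn D) (i j : Fin 3) {g₁ g₂ : X → ℝ} (h₁ : BM g₁) (h₂ : BM g₂) :
    BM (CalS D i j g₁ g₂) := by
  rw [funext (calS_eq hD i j g₁ g₂)]
  exact (bm_int (bm_F1 hD i j h₁)).add (bm_int (bm_F2 hD i j h₂))

theorem Dn.cal_slices (hD : Dn D) {i j k : Fin 3} (hij : i ≠ j) (hik : i ≠ k) (hjk : j ≠ k)
    {g₁ g₂ : X → ℝ} (h₁ : BM g₁) (h₂ : BM g₂) {ρ : ℝ → ℝ} (hρ : BM ρ) :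
    ∫ x, ρ (x k) * g₁ x ∂(mu D i) + ∫ x, ρ (x k) * g₂ x ∂(mu D j) =
      ∫ t, ρ t * CalS D i j g₁ g₂ t ∂vI := by
  have := vI_prob
  rw [mu1 hD hij hik hjk h₁ hρ, mu2 hD hij hik hjk h₂ hρ, fub hjk (bm_F1 hD i j h₁) hρ,
    fub hik (bm_F2 hD i j h₂) hρ,
    ← integral_add ((hρ.mul (bm_int (bm_F1 hD i j h₁))).integrable _)
      ((hρ.mul (bm_int (bm_F2 hD i j h₂))).integrable _)]
  simp only [calS_eq hD, mul_add]

theorem Dn.lb_cal (hD : Dn D) {i j k : Fin 3} (hij : i ≠ j) (hik : i ≠ k) (hjk : j ≠ k)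
    {g₁ g₂ : X → ℝ} (h₁ : BM g₁) (h₂ : BM g₂) (h : ∀ x, g₁ x ^ 2 + g₂ x ^ 2 ≤ 1) :
    LB D k (CalS D i j g₁ g₂) := by
  intro ρ hρ h0
  have b1 := (hρ.comp (measurable_pi_apply (X := fun _ : Fin 3 => ℝ) k)).mul h₁
  have b2 := (hρ.comp (measurable_pi_apply (X := fun _ : Fin 3 => ℝ) k)).mul h₂
  have i1 := int_mul D b1 (measurable_nv D i) (nv_nonneg D i) (nv_le_nn D i)
  have i2 := int_mul D b2 (measurable_nv D j) (nv_nonneg D j) (nv_le_nn D j)
  rw [← hD.cal_slices hij hik hjk h₁ h₂ hρ, integral_mu_eq D i b1, integral_mu_eq D j b2,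
    ← integral_add i1 i2]
  refine integral_mono (i1.add i2) (int_pp D k hρ) fun x => ?_
  have e : g₁ x * nv D i x + g₂ x * nv D j x ≤ pp D k x := by
    refine (abs_le_of_sq_le_sq' ?_ (pp_nonneg D k x)).2
    rw [pp_sq' D hij hik hjk]
    have := mul_le_mul_of_nonneg_right (h x)
      (add_nonneg (sq_nonneg (nv D i x)) (sq_nonneg (nv D j x)))
    nlinarith [sq_nonneg (g₁ x * nv D j x - g₂ x * nv D i x)]
  have := mul_le_mul_of_nonneg_left e (h0 (x k))
  simp only
  linarith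

theorem LB.mono {k : Fin 3} {f g : ℝ → ℝ} (h : LB D k f) (hf : BM f) (hg : BM g)
    (hle : ∀ᵐ t ∂vI, g t ≤ f t) : LB D k g := by
  have := vI_prob
  intro ρ hρ h0
  refine le_trans (integral_mono_ae ((hρ.mul hg).integrable _) ((hρ.mul hf).integrable _) ?_)
    (h ρ hρ h0)
  filter_upwards [hle] with t ht using mul_le_mul_of_nonneg_left ht (h0 t)

theorem LB.max {k : Fin 3} {f g : ℝ → ℝ} (h : LB D k f) (h' : LB D k g) (hf : BM f) (hg : BM g) :
    LB D k (fun t => max (f t) (g t)) := by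
  have := vI_prob
  intro ρ hρ h0
  have hs : MeasurableSet {t | g t ≤ f t} := measurableSet_le hg.1 hf.1
  have b1 := hρ.indicator hs
  have b2 := hρ.indicator hs.compl
  have e1 := h _ b1 fun t => indicator_nonneg (fun s _ => h0 s) t
  have e2 := h' _ b2 fun t => indicator_nonneg (fun s _ => h0 s) t
  have e := add_le_add e1 e2
  rw [← integral_add ((b1.mul hf).integrable _) ((b2.mul hg).integrable _),
    ← integral_add (int_pp D k b1) (int_pp D k b2)] at e
  refine le_of_eq_of_le (integral_congr_ae (ae_of_all _ fun t => ?_)) (le_of_le_of_eq e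
    (integral_congr_ae (ae_of_all _ fun x => ?_)))
  · by_cases ht : g t ≤ f t
    · simp [indicator, ht]
    · simp [indicator, ht, (not_le.1 ht).le]
  · simp only
    rw [← add_mul, indicator_self_add_compl_apply]

theorem lb_zero (D : Set X) (k : Fin 3) : LB D k (fun _ => 0) := by
  intro ρ _ h0
  simp only [mul_zero, integral_zero]
  exact integral_nonneg fun x => mul_nonneg (h0 _) (pp_nonneg D k x)

/-- finitely many lower bounds, one of which dominates `g` at each level -/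
theorem LB.of_list {k : Fin 3} {ι : Type} (s : Finset ι) (f : ι → ℝ → ℝ)
    (h : ∀ n ∈ s, LB D k (f n)) (hf : ∀ n ∈ s, BM (f n)) {g : ℝ → ℝ} (hg : BM g)
    (hle : ∀ t ∈ Ioo (0 : ℝ) 1, g t ≤ 0 ∨ ∃ n ∈ s, g t ≤ f n t) : LB D k g := by
  classical
  have key : ∃ F, BM F ∧ LB D k F ∧ (∀ t, 0 ≤ F t) ∧ ∀ n ∈ s, ∀ t, f n t ≤ F t := by
    clear hle
    induction s using Finset.induction_on with
    | empty => exact ⟨fun _ => 0, BM.const 0, lb_zero D k, fun _ => le_rfl, by simp⟩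
    | insert a s _ ih =>
      obtain ⟨F, b, l, p, q⟩ := ih (fun n hn => h n (Finset.mem_insert_of_mem hn))
        fun n hn => hf n (Finset.mem_insert_of_mem hn)
      have ha := Finset.mem_insert_self a s
      refine ⟨_, bm_max b (hf a ha), l.max (h a ha) b (hf a ha),
        fun t => (p t).trans (le_max_left _ _), fun n hn t => ?_⟩
      rcases Finset.mem_insert.1 hn with rfl | hn
      · exact le_max_right _ _
      · exact (q n hn t).trans (le_max_left _ _)
  obtain ⟨F, b, l, p, q⟩ := key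
  refine l.mono b hg ?_
  filter_upwards [ae_vI] with t ht
  rcases hle t ht with h1 | ⟨n, hn, h1⟩
  · exact h1.trans (p t)
  · exact h1.trans (q n hn t)

theorem Dn.anti_ext0 (hD : Dn D) (i j : Fin 3) : Antitone (fun t => ext0 (es D i j t)) := by
  have := vI_prob
  intro s t hst
  exact measureReal_mono (fun b hb => lt_of_lt_of_le hb (hD.es_anti i j b hst))

theorem Dn.anti_ext1 (hD : Dn D) (i j : Fin 3) : Antitone (fun t => ext1 (es D i j t)) := by
  have := vI_prob
  intro s t hst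
  exact measureReal_mono (fun b hb => le_trans hb (hD.es_anti i j b hst))

/-- no wetting of the face `x i = 1` at any level -/
theorem Dn.ext1_zero (hD : Dn D) {i j : Fin 3} (hij : i ≠ j) (h : al D i = 0) {t : ℝ}
    (ht0 : 0 < t) : ext1 (es D i j t) = 0 := by
  have := vI_prob
  obtain ⟨k, hik, hjk⟩ := third i j hij
  have h0 : ∀ s, 0 ≤ ext1 (es D i j s) := fun s => measureReal_nonneg
  have hb : BM fun s => ext1 (es D i j s) := ⟨(hD.anti_ext1 i j).measurable, 1, fun s => by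
    rw [abs_of_nonneg (h0 s)]
    exact measureReal_le_one⟩
  rw [hD.al_eq hij hik hjk, integral_eq_zero_iff_of_nonneg h0 (hb.integrable _)] at h
  have h1 : ∀ᵐ s ∂(volume.restrict (Ioo 0 (min t 1))), ext1 (es D i j s) = 0 :=
    ae_restrict_of_ae_restrict_of_subset (Ioo_subset_Ioo_right (min_le_right _ _)) h
  obtain ⟨s, hs, e⟩ := Measure.exists_mem_of_measure_ne_zero_of_ae (by
    rw [Real.volume_Ioo, sub_zero]
    exact (ENNReal.ofReal_pos.2 (lt_min ht0 one_pos)).ne') h1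
  exact le_antisymm (le_of_le_of_eq (hD.anti_ext1 i j (hs.2.le.trans (min_le_left _ _))) e)
    (h0 t)

end Vale.Agent.P232
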