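import Vale.Agent.P232.DSph
import Vale.Agent.P232.DLB
import Vale.Agent.P232.DPl

open MeasureTheory Set Function Filter Topology
open scoped ENNReal

namespace Vale.Agent.P232

variable {D : Set X}

namespace DCylAux

theorem half : (1 / 2 : ℝ) ∈ Ioo (0 : ℝ) 1 := ⟨by norm_num, by norm_num⟩

theorem sq_disc (b : ℝ) {L : ℝ} (hL : 0 ≤ L) :
    √(1 - (b / L) ^ 2) ^ 2 + min (|b| / L) 1 ^ 2 ≤ 1 := by
  have h0 : 0 ≤ min (|b| / L) 1 := le_min (by positivity) zero_le_one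
  have a : min (|b| / L) 1 ^ 2 ≤ (b / L) ^ 2 := by
    rw [← sq_abs (b / L), abs_div, abs_of_nonneg hL]
    exact pow_le_pow_left₀ h0 (min_le_left _ _) 2
  have b : min (|b| / L) 1 ^ 2 ≤ 1 := pow_le_one₀ h0 (min_le_right _ _)
  rw [Real.sq_sqrt']
  exact add_le_of_le_sub_right (max_le (by linarith) (by linarith))

theorem sum3 {i j k : Fin 3} (hij : i ≠ j) (hik : i ≠ k) (hjk : j ≠ k) (F : Fin 3 → ℝ) :
    ∑ n, F n = F i + F j + F k := by
  have : (Finset.univ : Finset (Fin 3)) = {i, j, k} := by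
    revert i j k
    decide
  rw [this, Finset.sum_insert (by simp [hij, hik]), Finset.sum_pair hjk, add_assoc]

theorem int_const {φ : ℝ → ℝ} {c : ℝ} (h : ∀ t ∈ Ioo (0 : ℝ) 1, φ t = c) : ∫ t, φ t ∂vI = c := by
  have := vI_prob
  rw [integral_congr_ae (g := fun _ => c) (ae_vI.mono h)]
  simp

theorem cal (hD : Dn D) {i j k : Fin 3} (hij : i ≠ j) (hik : i ≠ k) (hjk : j ≠ k)
    (G₁ G₂ : ℝ → ℝ) (m₁ : Measurable G₁) (m₂ : Measurable G₂) (h : ∀ b, G₁ b ^ 2 + G₂ b ^ 2 ≤ 1)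
    {c : ℝ} (hc : ∀ t ∈ Ioo (0 : ℝ) 1,
      Cal (fs D i j t) (es D i j t) (fun _ b => G₁ b) (fun _ b => G₂ b) = c) :
    c ≤ area D ∧ (area D ≤ c →
      ∀ᵐ x ∂(sg D), nv D i x = nn D x * G₁ (x j) ∧ nv D j x = nn D x * G₂ (x j)) := by
  have b₁ : BM fun x : X => G₁ (x j) := ⟨m₁.comp (measurable_pi_apply j), 1, fun x => by
    rw [← sq_le_one_iff_abs_le_one]
    nlinarith [h (x j), sq_nonneg (G₂ (x j))]⟩
  have b₂ : BM fun x : X => G₂ (x j) := ⟨m₂.comp (measurable_pi_apply j), 1, fun x => by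
    rw [← sq_le_one_iff_abs_le_one]
    nlinarith [h (x j), sq_nonneg (G₁ (x j))]⟩
  set g : Fin 3 → X → ℝ :=
    update (update (fun _ _ => 0) i fun x => G₁ (x j)) j fun x => G₂ (x j) with hg
  have gi : g i = fun x => G₁ (x j) := by rw [hg, update_of_ne hij, update_self]
  have gj : g j = fun x => G₂ (x j) := by rw [hg, update_self]
  have gk : g k = fun _ => 0 := by rw [hg, update_of_ne hjk.symm, update_of_ne hik.symm]
  have hb : ∀ n, BM (g n) := fun n => by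
    by_cases h1 : n = j
    · exact h1 ▸ gj ▸ b₂
    by_cases h2 : n = i
    · exact h2 ▸ gi ▸ b₁
    rw [hg, update_of_ne h1, update_of_ne h2]
    exact BM.const 0
  have h1 : ∀ x, ∑ n, g n x ^ 2 ≤ 1 := fun x => by
    rw [sum3 hij hik hjk, gi, gj, gk]
    simpa using h (x j)
  have e : ∑ n, ∫ x, g n x ∂(mu D n) = c := by
    have := hD.cal_slices hij hik hjk b₁ b₂ (BM.const 1)
    simp only [one_mul] at this
    rw [sum3 hij hik hjk, gi, gj, gk, integral_zero, add_zero, this]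
    refine int_const fun t ht => ?_
    simp only [CalS, pt, update_self]
    exact hc t ht
  refine ⟨e ▸ cal_le D hb h1, fun hA => (cal_eq D hb h1 (e ▸ hA)).mono fun x hx => ?_⟩
  have a := hx i
  have b := hx j
  rw [gi] at a
  rw [gj] at b
  exact ⟨a, b⟩

theorem ext0_eq (hD : Dn D) {i j k : Fin 3} (hij : i ≠ j) (hik : i ≠ k) (hjk : j ≠ k)
    (hk : mu D k = 0) {t : ℝ} (ht : t ∈ Ioo (0 : ℝ) 1) :
    ext0 (es D i j t) = ext0 (es D i j (1 / 2)) :=
  measureReal_congr (eventuallyEq_set.2 ((hD.es_congr hij hik hjk hk ht half).mono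
    fun b hb => by simp only [mem_ofPred_eq, hb]))

theorem ext1_eq (hD : Dn D) {i j k : Fin 3} (hij : i ≠ j) (hik : i ≠ k) (hjk : j ≠ k)
    (hk : mu D k = 0) {t : ℝ} (ht : t ∈ Ioo (0 : ℝ) 1) :
    ext1 (es D i j t) = ext1 (es D i j (1 / 2)) :=
  measureReal_congr (eventuallyEq_set.2 ((hD.es_congr hij hik hjk hk ht half).mono
    fun b hb => by simp only [mem_ofPred_eq, hb]))

theorem int_fs (hD : Dn D) {i j k : Fin 3} (hij : i ≠ j) (hik : i ≠ k) (hjk : j ≠ k)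
    (hk : mu D k = 0) {t : ℝ} (ht : t ∈ Ioo (0 : ℝ) 1) : ∫ a, fs D i j t a ∂vI = vol D :=
  (hD.sl_eq hij hik hjk ht).symm.trans (hD.sl_const hk ht)

theorem disc (hD : Dn D) {i j k : Fin 3} (hij : i ≠ j) (hik : i ≠ k) (hjk : j ≠ k)
    (hk : mu D k = 0) (hv : 0 < vol D) (hA : area D ≤ √(Real.pi * vol D))
    (h1 : ∀ t ∈ Ioo (0 : ℝ) 1, ext1 (es D i j t) = 0)
    (h2 : ∀ t ∈ Ioo (0 : ℝ) 1, ext1 (fs D i j t) = 0) :
    ∃ R : ℝ, 0 < R ∧ vol D = Real.pi * R ^ 2 / 4 ∧ area D = Real.pi * R / 2 ∧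
      ∀ᵐ x ∂(sg D), nv D i x = nn D x * √(1 - (x j / R) ^ 2) ∧
        nv D j x = nn D x * min (|x j| / R) 1 := by
  set R := ext0 (es D i j (1 / 2)) with hR
  have R0 : 0 < R := hv.trans_le (int_fs hD hij hik hjk hk half ▸ (hD.pl hij _).area_le)
  obtain ⟨c1, c2⟩ := cal hD hij hik hjk (fun b => √(1 - (b / R) ^ 2)) (fun b => min (|b| / R) 1)
    (by fun_prop) (by fun_prop) (fun b => sq_disc b R0.le) (c := vol D / R + Real.pi * R / 4)
    fun t ht => by
      have e := ext0_eq hD hij hik hjk hk ht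
      have := (hD.pl hij t).disc (h1 t ht) (h2 t ht) (e ▸ R0)
      rwa [e, int_fs hD hij hik hjk hk ht] at this
  have p := Real.pi_pos
  have e : vol D = vol D / R * R := by field_simp
  have u0 : 0 < vol D / R := by positivity
  generalize vol D / R = u at e u0 c1 c2
  have a1 : (u + Real.pi * R / 4) ^ 2 ≤ Real.pi * vol D :=
    (Real.le_sqrt (by positivity) (by positivity)).1 (c1.trans hA)
  have a2 : u = Real.pi * R / 4 := by
    have : (u - Real.pi * R / 4) ^ 2 ≤ 0 := by rw [e] at a1; linarith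
    exact sub_eq_zero.1 (pow_eq_zero_iff two_ne_zero |>.1 (le_antisymm this (sq_nonneg _)))
  have a3 : √(Real.pi * vol D) = Real.pi * R / 2 := by
    rw [Real.sqrt_eq_iff_mul_self_eq (by positivity) (by positivity), e, a2]
    ring
  exact ⟨R, R0, by rw [e, a2]; ring, by linarith, c2 (by linarith)⟩

theorem circle {p q : ℝ} (hp : 0 < p) (hq : 0 < q) (h1 : √(1 - q ^ 2) = min p 1)
    (h2 : √(1 - p ^ 2) = min q 1) : p ^ 2 + q ^ 2 = 1 := by
  have a : 0 < 1 - q ^ 2 := Real.sqrt_pos.1 (h1 ▸ lt_min hp one_pos)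
  have b : 0 < 1 - p ^ 2 := Real.sqrt_pos.1 (h2 ▸ lt_min hq one_pos)
  have c : p ≤ 1 := by nlinarith
  rw [min_eq_left c] at h1
  have := Real.sq_sqrt a.le
  rw [h1] at this
  linarith

theorem pick (k : Fin 3) : ∃ i j : Fin 3, i ≠ j ∧ i ≠ k ∧ j ≠ k := by
  revert k
  decide

end DCylAux

open DCylAux

theorem Dn.cyl_disc (hD : Dn D) {i j k : Fin 3} (hij : i ≠ j) (hik : i ≠ k) (hjk : j ≠ k)
    (hk : mu D k = 0) (hv : 0 < vol D) (hA : area D ≤ min (√(Real.pi * vol D)) 1)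
    (h1 : ∀ t ∈ Ioo (0 : ℝ) 1, ext1 (es D i j t) = 0)
    (h2 : ∀ t ∈ Ioo (0 : ℝ) 1, ext1 (fs D i j t) = 0) :
    IsModel D ∧ area D = √(Real.pi * vol D) := by
  have hA1 := hA.trans (min_le_left _ _)
  have hA2 := hA.trans (min_le_right _ _)
  obtain ⟨R, R0, v1, a1, n1⟩ := disc hD hij hik hjk hk hv hA1 h1 h2
  obtain ⟨R', -, -, a2, n2⟩ := disc hD hij.symm hjk hik hk hv hA1
    (fun t ht => fs_eq_es D hij t ▸ h2 t ht) fun t ht => fs_eq_es D hij.symm t ▸ h1 t ht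
  have p := Real.pi_gt_three
  have e : R' = R := by
    apply mul_left_cancel₀ Real.pi_ne_zero
    linarith
  subst e
  have R1 : R' < 1 := by nlinarith
  have cI : ({i, j} : Finset (Fin 3)).card = 2 := Finset.card_pair hij
  have hs : ∀ᵐ x ∂(sg D), ∑ n ∈ ({i, j} : Finset (Fin 3)), x n ^ 2 = R' ^ 2 := by
    filter_upwards [n1, n2, hD.ae_sg_Q, ae_nv D] with x b1 b2 hx hn
    have n0 : nn D x ≠ 0 := by linarith [hn.2.1] |> fun h : 0 < nn D x => h.ne'
    have xi := (hx i).1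
    have xj := (hx j).1
    rw [abs_of_pos xi] at b2
    rw [abs_of_pos xj] at b1
    have := circle (div_pos xi R0) (div_pos xj R0)
      (mul_left_cancel₀ n0 (b1.1.symm.trans b2.2)) (mul_left_cancel₀ n0 (b2.1.symm.trans b1.2))
    rw [Finset.sum_pair hij]
    field_simp at this
    exact this
  refine ⟨⟨{i, j}, Finset.insert_nonempty _ _, R', R0, R1,
    hD.sphere_of (Finset.mem_insert_self _ _) ((ae_sg_iff D).1 hs i)
      ((hD.al_eq hij hik hjk).trans (int_const h1))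
      (v1.trans (vol_ModQ_two cI R0.le R1.le).symm), ?_⟩, ?_⟩
  · rw [cI, a1, v1]
    push_cast
    field_simp
    norm_num
  · rw [eq_comm, Real.sqrt_eq_iff_mul_self_eq (by positivity) (area_nonneg D), a1, v1]
    ring

theorem Dn.cyl_strip (hD : Dn D) {i j k : Fin 3} (hij : i ≠ j) (hik : i ≠ k) (hjk : j ≠ k)
    (hk : mu D k = 0) (hv : vol D < 1) (hA : area D ≤ 1)
    (h1 : ∀ t ∈ Ioo (0 : ℝ) 1, 0 < ext1 (es D i j t))
    (h2 : ∀ t ∈ Ioo (0 : ℝ) 1, ext1 (fs D i j t) = 0) : IsModel D ∧ area D = 1 := by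
  have := vQ_prob
  obtain ⟨c1, c2⟩ := cal hD hij hik hjk (fun _ => 0) (fun _ => 1) measurable_const
    measurable_const (fun _ => by norm_num) fun t ht => (hD.pl hij t).strip₀ (h1 t ht) (h2 t ht)
  have hi : mu D i = 0 := (mu_eq_zero_iff D i).2 ((c2 hA).mono fun x hx => by
    rw [hx.1, mul_zero])
  have a1 : al D i = vol D := by
    have := hD.mu_univ i
    rw [hi] at this
    simp only [measureReal_zero, Pi.zero_apply] at this
    linarith [hD.al_le_vol i, hD.vol_le_be i]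
  have a2 : ∀ t ∈ Ioo (0 : ℝ) 1, ext1 (es D i j t) = vol D := fun t ht => by
    rw [← a1, hD.al_eq hij hik hjk, int_const fun s hs => ext1_eq hD hij hik hjk hk hs]
    exact ext1_eq hD hij hik hjk hk ht
  have v0 : 0 < vol D := a2 _ half ▸ h1 _ half
  have a3 : (fun _ => vol D) ≤ᵐ[vQ] ht D j := ae_vQ.mono fun x hx => by
    rw [ht_eq_fs D hij hik hjk, ← a2 _ (hx k)]
    exact (hD.pl hij _).ext1_le (hx i)
  have a4 := (integral_eq_iff_of_ae_le (integrable_const _)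
    ((bm_ht hD.meas j).integrable vQ) a3).1 (by rw [integral_ht hD.meas]; simp [vol])
  have a5 : area D = 1 := le_antisymm hA c1
  refine ⟨⟨{j}, Finset.singleton_nonempty _, vol D, v0, hv, eventuallyEq_set.2 ?_, ?_⟩, a5⟩
  · filter_upwards [a4, ae_vQ] with x e hx
    rw [hD.mem_iff' j hx, ← e, ModQ, mem_ofPred_eq, Finset.sum_singleton,
      sq_lt_sq₀ (hx j).1.le v0.le]
  · rw [a5, Finset.card_singleton, Nat.cast_one, one_mul, div_self v0.ne']

theorem Dn.cyl_codisc (hD : Dn D) {i j k : Fin 3} (hij : i ≠ j) (hik : i ≠ k) (hjk : j ≠ k)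
    (hk : mu D k = 0) (hv : vol D ≤ 1 / 2)
    (h1 : ∀ t ∈ Ioo (0 : ℝ) 1, 0 < ext1 (es D i j t))
    (h2 : ∀ t ∈ Ioo (0 : ℝ) 1, 0 < ext1 (fs D i j t)) : 1 < area D := by
  set y := ext1 (es D i j (1 / 2)) with hy
  have y1 : y ≤ vol D := int_fs hD hij hik hjk hk half ▸ (hD.pl hij _).le_area
  have M0 : 0 < 1 - y := by linarith
  obtain ⟨c1, -⟩ := cal hD hij hik hjk (fun b => √(1 - ((1 - b) / (1 - y)) ^ 2))
    (fun b => min (|1 - b| / (1 - y)) 1) (by fun_prop) (by fun_prop)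
    (fun b => sq_disc _ M0.le) (c := (1 - vol D) / (1 - y) + Real.pi * (1 - y) / 4)
    fun t ht => by
      have e := ext1_eq hD hij hik hjk hk ht
      have := (hD.pl hij t).codisc (h1 t ht) (h2 t ht) (e ▸ sub_pos.1 M0)
      rwa [e, int_fs hD hij hik hjk hk ht] at this
  refine lt_of_lt_of_le ?_ c1
  generalize 1 - y = M at M0
  have p := mul_lt_mul_of_pos_right Real.pi_gt_three M0
  have : 1 - 3 * M / 4 ≤ (1 - vol D) / M := by
    rw [le_div_iff₀ M0]
    nlinarith [sq_nonneg (3 * M - 2)]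
  linarith

theorem Dn.cyl (hD : Dn D) {k : Fin 3} (hk : mu D k = 0) (hv0 : 0 < vol D) (hv : vol D ≤ 1 / 2)
    (hA : area D ≤ min (√(Real.pi * vol D)) 1) :
    IsModel D ∧ min (√(Real.pi * vol D)) 1 ≤ area D := by
  obtain ⟨i, j, hij, hik, hjk⟩ := pick k
  have hA2 := hA.trans (min_le_right _ _)
  have e1 := fun t ht => ext1_eq hD hij hik hjk hk (t := t) ht
  have e2 := fun t ht => ext1_eq hD hij.symm hjk hik hk (t := t) ht
  have f1 := fs_eq_es D hij
  have f2 := fs_eq_es D hij.symm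
  rcases (ext1_mem (es D i j (1 / 2))).1.eq_or_lt with hy | hy <;>
    rcases (ext1_mem (es D j i (1 / 2))).1.eq_or_lt with hx | hx
  · have := hD.cyl_disc hij hik hjk hk hv0 hA (fun t ht => by rw [e1 t ht, hy])
      fun t ht => by rw [f1, e2 t ht, hx]
    exact ⟨this.1, (min_le_left _ _).trans this.2.ge⟩
  · have := hD.cyl_strip hij.symm hjk hik hk (by linarith) hA2 (fun t ht => by rwa [e2 t ht])
      fun t ht => by rw [f2, e1 t ht, hy]
    exact ⟨this.1, (min_le_right _ _).trans this.2.ge⟩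
  · have := hD.cyl_strip hij hik hjk hk (by linarith) hA2 (fun t ht => by rwa [e1 t ht])
      fun t ht => by rw [f1, e2 t ht, hx]
    exact ⟨this.1, (min_le_right _ _).trans this.2.ge⟩
  · exact absurd (hD.cyl_codisc hij hik hjk hk hv (fun t ht => by rwa [e1 t ht])
      fun t ht => by rwa [f1, e2 t ht]) hA2.not_gt

end Vale.Agent.P232
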