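import Vale.Agent.P232.DSig
import Vale.Agent.P232.APer

open MeasureTheory Set Function Filter Topology
open scoped ENNReal

namespace Vale.Agent.P232

variable {D : Set X}

/-- `C^1` functions vanishing near the boundary of the cube and outside -/
def CQ (g : X → ℝ) : Prop :=
  ContDiff ℝ 1 g ∧ ∃ δ : ℝ, 0 < δ ∧ ∀ x : X, (∃ i, x i ≤ δ ∨ 1 - δ ≤ x i) → g x = 0

namespace DDensAux

theorem hcs {g : X → ℝ} (hg : CQ g) : HasCompactSupport g := by
  obtain ⟨_, δ, hδ, h⟩ := hg
  refine HasCompactSupport.intro (isCompact_Icc (a := (0 : X)) (b := 1)) fun x hx => h x ?_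
  by_contra hne
  push Not at hne
  refine hx ⟨fun i => ?_, fun i => ?_⟩
  · have := (hne i).1
    simp only [Pi.zero_apply]
    linarith
  · have := (hne i).2
    simp only [Pi.one_apply]
    linarith

theorem bm_of {g : X → ℝ} (hc : Continuous g) (hs : HasCompactSupport g) : BM g := by
  obtain ⟨C, hC⟩ := hc.bounded_above_of_compact_support hs
  exact ⟨hc.measurable, C, fun x => by simpa using hC x⟩

theorem bm_cq {g : X → ℝ} (hg : CQ g) : BM g := bm_of hg.1.continuous (hcs hg)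

theorem cont_pd {g : X → ℝ} (hg : ContDiff ℝ 1 g) (i : Fin 3) : Continuous (pd i g) :=
  (hg.continuous_fderiv (by norm_num)).clm_apply continuous_const

theorem bm_pd {g : X → ℝ} (hg : CQ g) (i : Fin 3) : BM (pd i g) :=
  bm_of (cont_pd hg.1 i) ((hcs hg).fderiv_apply ℝ _)

theorem inner (hD : Dn D) {g : X → ℝ} (hg : CQ g) (i : Fin 3) (x : X) :
    ∫ t, D.indicator (pd i g) (update x i t) ∂vI =
      (Wd D i).indicator (fun x => g (update x i (ht D i x))) x := by
  have h0 := ht_nonneg D i x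
  have h1 := ht_le_one D i x
  obtain ⟨hc, δ, hδ, hz⟩ := hg
  have e1 : ∫ t, D.indicator (pd i g) (update x i t) ∂vI =
      ∫ t, (Iio (ht D i x)).indicator (fun t => pd i g (update x i t)) t ∂vI := by
    refine integral_congr_ae ?_
    filter_upwards [ae_vI] with t ht01
    by_cases h : t < ht D i x
    · rw [indicator_of_mem ((hD.mem_iff i x ht01).2 h), indicator_of_mem (mem_Iio.2 h)]
    · rw [indicator_of_notMem (fun hh => h ((hD.mem_iff i x ht01).1 hh)),
        indicator_of_notMem (fun hh => h (mem_Iio.1 hh))]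
  have e2 : Iio (ht D i x) ∩ Ioo 0 1 = Ioo 0 (ht D i x) := by
    ext t
    simp only [mem_inter_iff, mem_Iio, mem_Ioo]
    constructor
    · rintro ⟨a, b, _⟩
      exact ⟨b, a⟩
    · rintro ⟨a, b⟩
      exact ⟨b, a, b.trans_le h1⟩
  have hcont : Continuous fun t => pd i g (update x i t) :=
    (cont_pd hc i).comp (continuous_const.update i continuous_id)
  rw [e1, integral_indicator measurableSet_Iio, vI, Measure.restrict_restrict measurableSet_Iio, e2,
    ← integral_Ioc_eq_integral_Ioo, ← intervalIntegral.integral_of_le h0,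
    intervalIntegral.integral_eq_sub_of_hasDerivAt (fun t _ => hasDerivAt_update hc i x t)
      (hcont.intervalIntegrable _ _),
    hz (update x i 0) ⟨i, Or.inl (by simpa using hδ.le)⟩, sub_zero]
  by_cases hw : x ∈ Wd D i
  · rw [indicator_of_mem hw]
  · rw [indicator_of_notMem hw]
    refine hz _ ⟨i, ?_⟩
    simp only [update_self]
    simp only [Wd, mem_setOf_eq, not_and_or, not_lt] at hw
    rcases hw with hw | hw
    · left
      linarith
    · right
      linarith

/-- the cutoff functions -/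
noncomputable def chi (n : ℕ) : ContDiffBump (fun _ => 1 / 2 : X) where
  rIn := 1 / 2 - 1 / ((n : ℝ) + 3)
  rOut := 1 / 2 - 1 / (2 * ((n : ℝ) + 3))
  rIn_pos := by
    have : 1 / ((n : ℝ) + 3) ≤ 1 / 3 :=
      one_div_le_one_div_of_le (by norm_num) (by linarith [Nat.cast_nonneg (α := ℝ) n])
    linarith
  rIn_lt_rOut := by
    have h3 : (0 : ℝ) < (n : ℝ) + 3 := by positivity
    have : 1 / (2 * ((n : ℝ) + 3)) < 1 / ((n : ℝ) + 3) :=
      one_div_lt_one_div_of_lt h3 (by linarith)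
    linarith

theorem cq_chi (n : ℕ) {h : X → ℝ} (hh : ContDiff ℝ 1 h) : CQ (fun x => chi n x * h x) := by
  refine ⟨(chi n).contDiff.mul hh, 1 / (2 * ((n : ℝ) + 3)), by positivity, ?_⟩
  rintro x ⟨i, hi⟩
  have hd := dist_le_pi_dist x (fun _ => 1 / 2 : X) i
  rw [Real.dist_eq] at hd
  have : (chi n).rOut ≤ dist x (fun _ => 1 / 2 : X) := by
    refine le_trans ?_ hd
    change 1 / 2 - 1 / (2 * ((n : ℝ) + 3)) ≤ _
    rcases hi with hi | hi
    · exact le_trans (by linarith) (neg_le_abs _)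
    · exact le_trans (by linarith) (le_abs_self _)
  simp only [(chi n).zero_of_le_dist this, zero_mul]

theorem chi_ev {x : X} (hx : x ∈ Q) : ∀ᶠ n in atTop, chi n x = 1 := by
  have hd : dist x (fun _ => 1 / 2 : X) < 1 / 2 := by
    rw [dist_pi_lt_iff (by norm_num)]
    intro i
    rw [Real.dist_eq, abs_lt]
    have := hx i
    constructor <;> linarith [this.1, this.2]
  have ht : Tendsto (fun n : ℕ => 1 / ((n : ℝ) + 3)) atTop (𝓝 0) := by
    refine Tendsto.div_atTop tendsto_const_nhds ?_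
    exact tendsto_atTop_add_const_right _ _ tendsto_natCast_atTop_atTop
  filter_upwards [ht.eventually (gt_mem_nhds (sub_pos.2 hd))] with n hn
  refine (chi n).one_of_mem_closedBall ?_
  rw [Metric.mem_closedBall]
  change _ ≤ 1 / 2 - 1 / ((n : ℝ) + 3)
  linarith

theorem approx (σ : Measure X) [IsFiniteMeasure σ] (hσ : ∀ᵐ x ∂σ, x ∈ Q) {f : X → ℝ} (hf : BM f)
    {ε : ℝ} (hε : 0 < ε) : ∃ k, CQ k ∧ ∫ x, |k x - f x| ∂σ ≤ ε := by
  have hfi := hf.integrable σ
  obtain ⟨h, hs, hc, hle⟩ := (memLp_one_iff_integrable.2 hfi).exist_eLpNorm_sub_le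
    ENNReal.one_ne_top le_rfl (half_pos hε)
  have hb := bm_of hc.continuous hs
  have hhi := hb.integrable σ
  have h1 : ∫ x, |h x - f x| ∂σ ≤ ε / 2 := by
    rw [eLpNorm_one_eq_lintegral_enorm, ← ofReal_integral_norm_eq_lintegral_enorm (hfi.sub hhi),
      ENNReal.ofReal_le_ofReal_iff (half_pos hε).le] at hle
    simpa only [Pi.sub_apply, Real.norm_eq_abs, abs_sub_comm] using hle
  have hc1 : ContDiff ℝ 1 h := hc.of_le (by exact_mod_cast le_top)
  have hlim : Tendsto (fun n => ∫ x, |chi n x * h x - h x| ∂σ) atTop (𝓝 (∫ _ : X, (0 : ℝ) ∂σ)) := by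
    refine tendsto_integral_of_dominated_convergence (fun x => |h x|) (fun n => ?_) hhi.abs
      (fun n => Eventually.of_forall fun x => ?_) ?_
    · exact ((((chi n).continuous.mul hc.continuous).sub hc.continuous).abs).aestronglyMeasurable
    · rw [Real.norm_eq_abs, abs_abs, ← sub_one_mul, abs_mul]
      refine mul_le_of_le_one_left (abs_nonneg _) ?_
      rw [abs_le]
      constructor <;> linarith [(chi n).nonneg (x := x), (chi n).le_one (x := x)]
    · filter_upwards [hσ] with x hx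
      refine tendsto_const_nhds.congr' ?_
      filter_upwards [chi_ev hx] with n hn
      simp [hn]
  rw [integral_zero] at hlim
  obtain ⟨n, hn⟩ := (hlim.eventually (gt_mem_nhds (half_pos hε))).exists
  have hk := cq_chi n hc1
  have hki := (bm_cq hk).integrable σ
  refine ⟨_, hk, ?_⟩
  calc ∫ x, |chi n x * h x - f x| ∂σ
      ≤ ∫ x, (|chi n x * h x - h x| + |h x - f x|) ∂σ :=
        integral_mono (hki.sub hfi).abs ((hki.sub hhi).abs.add (hhi.sub hfi).abs)
          fun x => abs_sub_le _ _ _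
    _ = ∫ x, |chi n x * h x - h x| ∂σ + ∫ x, |h x - f x| ∂σ :=
        integral_add (hki.sub hhi).abs (hhi.sub hfi).abs
    _ ≤ ε := by linarith

theorem one_term {a b S : ℝ} (hb : b ^ 2 ≤ 1) (ha : a ^ 2 ≤ S) :
    (a - b) ^ 2 ≤ 2 * |a - b| * (1 + S) := by
  have h1 : |a - b| ≤ 2 * (1 + S) := by
    have hb' : |b| ≤ 1 := by
      rw [← sq_le_one_iff_abs_le_one]
      exact hb
    have ha' : |a| ≤ 1 + S := by
      nlinarith [sq_abs a, abs_nonneg a, sq_nonneg (|a| - 1)]
    have := abs_sub a b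
    nlinarith [sq_nonneg a]
  rw [← sq_abs]
  nlinarith [abs_nonneg (a - b)]

theorem key {h g : Fin 3 → ℝ} (hg : ∑ i, g i ^ 2 = 1) :
    1 - 2 * ∑ i, |h i - g i| ≤ ∑ i, 2 * h i / (1 + ∑ j, h j ^ 2) * g i := by
  have hS : 0 < 1 + ∑ j, h j ^ 2 := by positivity
  have e : ∑ i, 2 * h i / (1 + ∑ j, h j ^ 2) * g i =
      1 - (∑ i, (h i - g i) ^ 2) / (1 + ∑ j, h j ^ 2) := by
    simp only [Fin.sum_univ_three] at hg hS ⊢
    field_simp
    linear_combination hg
  rw [e]
  have : (∑ i, (h i - g i) ^ 2) / (1 + ∑ j, h j ^ 2) ≤ 2 * ∑ i, |h i - g i| := by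
    rw [div_le_iff₀ hS, Finset.mul_sum, Finset.sum_mul]
    refine Finset.sum_le_sum fun i _ => one_term ?_ ?_
    · rw [← hg]
      exact Finset.single_le_sum (f := fun i => g i ^ 2) (fun _ _ => sq_nonneg _)
        (Finset.mem_univ i)
    · exact Finset.single_le_sum (f := fun i => h i ^ 2) (fun _ _ => sq_nonneg _)
        (Finset.mem_univ i)
  linarith

theorem norm_le (h : Fin 3 → ℝ) : ∑ i, (2 * h i / (1 + ∑ j, h j ^ 2)) ^ 2 ≤ 1 := by
  have hS : 0 < 1 + ∑ j, h j ^ 2 := by positivity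
  have e : ∑ i, (2 * h i / (1 + ∑ j, h j ^ 2)) ^ 2 =
      4 * (∑ j, h j ^ 2) / (1 + ∑ j, h j ^ 2) ^ 2 := by
    simp only [Fin.sum_univ_three] at hS ⊢
    field_simp
    ring
  rw [e, div_le_one (by positivity)]
  nlinarith [sq_nonneg (1 - ∑ j, h j ^ 2)]

theorem cq_norm {h : Fin 3 → X → ℝ} (hh : ∀ i, CQ (h i)) (i : Fin 3) :
    CQ (fun x => 2 * h i x / (1 + ∑ j, h j x ^ 2)) := by
  obtain ⟨hc, δ, hδ, hz⟩ := hh i
  refine ⟨(contDiff_const.mul hc).div
    (contDiff_const.add (ContDiff.sum fun j _ => (hh j).1.pow 2)) fun x => by positivity,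
    δ, hδ, fun x hx => ?_⟩
  simp only [hz x hx, mul_zero, zero_div]

end DDensAux

open DDensAux

theorem Dn.gauss (hD : Dn D) {g : X → ℝ} (hg : CQ g) (i : Fin 3) :
    ∫ x, g x ∂(mu D i) = ∫ x in D, pd i g x ∂vQ := by
  haveI := vQ_prob
  rw [hD.integral_mu i (bm_cq hg).1, ← integral_indicator hD.meas,
    integral_update (((bm_pd hg i).indicator hD.meas).integrable vQ) i,
    ← integral_indicator (measurableSet_Wd hD.meas i)]
  exact integral_congr_ae (Eventually.of_forall fun x => (inner hD hg i x).symm)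

theorem DDensAux.dvg_eq (hD : Dn D) {g : Fin 3 → X → ℝ} (hg : ∀ i, CQ (g i)) :
    ∫ x in D, dvg g x ∂vQ = ∑ i, ∫ x, g i x ∂(mu D i) := by
  haveI := vQ_prob
  simp only [hD.gauss (hg _)]
  rw [← integral_finset_sum _ fun i _ => (bm_pd (hg i) i).integrable _]
  rfl

theorem Dn.area_le (hD : Dn D) {p : ℝ}
    (h : ∀ g : Fin 3 → X → ℝ, (∀ i, CQ (g i)) → (∀ x, ∑ i, g i x ^ 2 ≤ 1) →
      ∫ x in D, dvg g x ∂vQ ≤ p) : area D ≤ p := by
  haveI := sg_fin D
  obtain ⟨g, hg, -, hg1, hA⟩ := exists_cal D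
  have hce := cal_eq D hg hg1 hA.le
  refine le_of_forall_pos_le_add fun ε hε => ?_
  choose k hk hkε using fun i => approx (sg D) hD.ae_sg_Q (hg i) (ε := ε / 6) (by positivity)
  have hK := cq_norm hk
  have h1 := h _ hK fun x => norm_le fun i => k i x
  rw [dvg_eq hD hK] at h1
  simp only [integral_mu_eq D _ (bm_cq (hK _))] at h1
  have hint : ∀ i, Integrable (fun x => 2 * k i x / (1 + ∑ j, k j x ^ 2) * nv D i x) (sg D) := by
    intro i
    obtain ⟨hm, C, hC⟩ := bm_cq (hK i)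
    refine integrable_of_le_nn D (hm.mul (measurable_nv D i)) C fun x => ?_
    rw [abs_mul, abs_of_nonneg (nv_nonneg D i x)]
    exact mul_le_mul (hC x) (nv_le_nn D i x) (nv_nonneg D i x) ((abs_nonneg _).trans (hC x))
  rw [← integral_finset_sum _ fun i _ => hint i] at h1
  have hnn : Integrable (nn D) (sg D) :=
    integrable_of_le_nn D (measurable_nn D) 1 fun x => by
      rw [abs_of_nonneg (nn_nonneg D x), one_mul]
  have hd : ∀ i, Integrable (fun x => |k i x - g i x|) (sg D) := fun i =>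
    (((bm_cq (hk i)).sub (hg i)).integrable _).abs
  have h2 : ∫ x, (nn D x - 2 * ∑ i, |k i x - g i x|) ∂(sg D) ≤
      ∫ x, ∑ i, 2 * k i x / (1 + ∑ j, k j x ^ 2) * nv D i x ∂(sg D) := by
    refine integral_mono_ae (hnn.sub ((integrable_finset_sum _ fun i _ => hd i).const_mul 2))
      (integrable_finset_sum _ fun i _ => hint i) ?_
    filter_upwards [hce, ae_nv D] with x hx hy
    have hsq : ∑ i, g i x ^ 2 = 1 := by
      have e := nn_sq D x
      simp only [hx, mul_pow, ← Finset.mul_sum] at e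
      have hpos : 0 < nn D x ^ 2 := by nlinarith [hy.2.1]
      exact (mul_left_cancel₀ hpos.ne' (by rw [mul_one]; exact e)).symm
    have hkey := key (h := fun i => k i x) hsq
    have e2 : ∑ i, 2 * k i x / (1 + ∑ j, k j x ^ 2) * nv D i x =
        nn D x * ∑ i, 2 * k i x / (1 + ∑ j, k j x ^ 2) * g i x := by
      rw [Finset.mul_sum]
      exact Finset.sum_congr rfl fun i _ => by rw [hx i]; ring
    have hs0 : 0 ≤ ∑ i, |k i x - g i x| := Finset.sum_nonneg fun _ _ => abs_nonneg _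
    change nn D x - 2 * ∑ i, |k i x - g i x| ≤ _
    rw [e2]
    nlinarith [mul_le_mul_of_nonneg_left hkey (nn_nonneg D x), hy.2.2]
  rw [integral_sub hnn ((integrable_finset_sum _ fun i _ => hd i).const_mul 2),
    integral_const_mul, integral_finset_sum _ fun i _ => hd i, Fin.sum_univ_three] at h2
  have e3 : area D = ∫ x, nn D x ∂(sg D) := rfl
  linarith [hkε 0, hkε 1, hkε 2]

theorem Dn.dvg_le (hD : Dn D) {g : Fin 3 → X → ℝ} (hg : ∀ i, CQ (g i))
    (h1 : ∀ x, ∑ i, g i x ^ 2 ≤ 1) : ∫ x in D, dvg g x ∂vQ ≤ area D := by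
  rw [dvg_eq hD hg]
  exact cal_le D (fun i => bm_cq (hg i)) h1

end Vale.Agent.P232
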