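import Vale.Agent.P232.DSig

open MeasureTheory Set Function Filter Topology
open scoped ENNReal

namespace Vale.Agent.P232

namespace DDerAux

theorem pr (f : Fin 3 → ℝ) : ∏ j ∈ Finset.univ.erase 0, f j = f 1 * f 2 ∧
    ∏ j ∈ Finset.univ.erase 1, f j = f 0 * f 2 ∧ ∏ j ∈ Finset.univ.erase 2, f j = f 0 * f 1 := by
  have e0 : (Finset.univ.erase 0 : Finset (Fin 3)) = {1, 2} := by decide
  have e1 : (Finset.univ.erase 1 : Finset (Fin 3)) = {0, 2} := by decide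
  have e2 : (Finset.univ.erase 2 : Finset (Fin 3)) = {0, 1} := by decide
  rw [e0, e1, e2]
  exact ⟨Finset.prod_pair (by decide), Finset.prod_pair (by decide), Finset.prod_pair (by decide)⟩

theorem lip2 {a b C s t : ℝ} (ha : |a| ≤ C) (hb : |b| ≤ C) (hs : |s| ≤ 1) (ht : |t| ≤ 1) :
    |(1 + s * a) * (1 + s * b) - (1 + t * a) * (1 + t * b)| ≤ (2 * C + 2 * C ^ 2) * |s - t| := by
  have e : (1 + s * a) * (1 + s * b) - (1 + t * a) * (1 + t * b) =
      (a + b + (s + t) * (a * b)) * (s - t) := by ring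
  rw [e, abs_mul]
  refine mul_le_mul_of_nonneg_right ?_ (abs_nonneg _)
  have h0 : 0 ≤ C := (abs_nonneg a).trans ha
  have h1 : |a * b| ≤ C * C := by rw [abs_mul]; gcongr
  have h2 : |s + t| ≤ 2 := (abs_add_le _ _).trans (by linarith)
  have h3 : |(s + t) * (a * b)| ≤ 2 * (C * C) := by rw [abs_mul]; gcongr
  have h4 := abs_add_le (a + b) ((s + t) * (a * b))
  have h5 := abs_add_le a b
  nlinarith

theorem sq_diff (u v : Fin 3 → ℝ) : |√(∑ i, u i ^ 2) - √(∑ i, v i ^ 2)| ≤ ∑ i, |u i - v i| := by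
  have e : ∀ w : Fin 3 → ℝ, √(∑ i, w i ^ 2) = ‖(WithLp.toLp 2 w : EuclideanSpace ℝ (Fin 3))‖ :=
    fun w => by simp [EuclideanSpace.norm_eq]
  rw [e, e]
  refine (abs_norm_sub_norm_le _ _).trans ?_
  rw [← WithLp.toLp_sub, ← e, Real.sqrt_le_iff]
  refine ⟨Finset.sum_nonneg fun _ _ => abs_nonneg _, ?_⟩
  simp only [Fin.sum_univ_three, Pi.sub_apply]
  have h0 := abs_nonneg (u 0 - v 0)
  have h1 := abs_nonneg (u 1 - v 1)
  have h2 := abs_nonneg (u 2 - v 2)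
  rw [← sq_abs (u 0 - v 0), ← sq_abs (u 1 - v 1), ← sq_abs (u 2 - v 2)]
  nlinarith [mul_nonneg h0 h1, mul_nonneg h0 h2, mul_nonneg h1 h2]

theorem lip {n a : Fin 3 → ℝ} {C : ℝ} (hn : ∀ i, 0 ≤ n i) (h1 : ∑ i, n i = 1)
    (ha : ∀ i, |a i| ≤ C) :
    LipschitzOnWith (Real.nnabs (2 * C + 2 * C ^ 2))
      (fun s : ℝ => √(∑ i, (n i * ∏ j ∈ Finset.univ.erase i, (1 + s * a j)) ^ 2))
      (Metric.ball 0 1) := by
  have h0 : 0 ≤ C := (abs_nonneg _).trans (ha 0)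
  refine LipschitzOnWith.of_dist_le_mul fun s hs t ht => ?_
  rw [mem_ball_zero_iff, Real.norm_eq_abs] at hs ht
  rw [Real.dist_eq, Real.dist_eq, Real.coe_nnabs, abs_of_nonneg (a := 2 * C + 2 * C ^ 2)
    (by positivity)]
  refine (sq_diff _ _).trans ?_
  have h2 : ∀ i, |n i * ∏ j ∈ Finset.univ.erase i, (1 + s * a j) -
      n i * ∏ j ∈ Finset.univ.erase i, (1 + t * a j)| ≤
      n i * ((2 * C + 2 * C ^ 2) * |s - t|) := fun i => by
    rw [← mul_sub, abs_mul, abs_of_nonneg (hn i)]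
    refine mul_le_mul_of_nonneg_left ?_ (hn i)
    obtain ⟨a0, a1, a2⟩ := pr fun j => 1 + s * a j
    obtain ⟨b0, b1, b2⟩ := pr fun j => 1 + t * a j
    fin_cases i
    · exact (congrArg abs (congrArg₂ (· - ·) a0 b0)).trans_le (lip2 (ha _) (ha _) hs.le ht.le)
    · exact (congrArg abs (congrArg₂ (· - ·) a1 b1)).trans_le (lip2 (ha _) (ha _) hs.le ht.le)
    · exact (congrArg abs (congrArg₂ (· - ·) a2 b2)).trans_le (lip2 (ha _) (ha _) hs.le ht.le)
  refine (Finset.sum_le_sum fun i _ => h2 i).trans (le_of_eq ?_)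
  rw [← Finset.sum_mul, h1, one_mul]

theorem lin (a : ℝ) : HasDerivAt (fun s : ℝ => 1 + s * a) a 0 := by
  simpa using ((hasDerivAt_id (0 : ℝ)).mul_const a).const_add 1

theorem der {n a : Fin 3 → ℝ} {N : ℝ} (hN : 0 < N) (h : N ^ 2 = ∑ i, n i ^ 2) :
    HasDerivAt (fun s : ℝ => √(∑ i, (n i * ∏ j ∈ Finset.univ.erase i, (1 + s * a j)) ^ 2))
      (∑ i, a i * ((N ^ 2 - n i ^ 2) / N)) 0 := by
  have e : (fun s : ℝ => √(∑ i, (n i * ∏ j ∈ Finset.univ.erase i, (1 + s * a j)) ^ 2)) =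
      fun s => √((n 0 * ((1 + s * a 1) * (1 + s * a 2))) ^ 2 +
        (n 1 * ((1 + s * a 0) * (1 + s * a 2))) ^ 2 +
        (n 2 * ((1 + s * a 0) * (1 + s * a 1))) ^ 2) := by
    funext s
    obtain ⟨a0, a1, a2⟩ := pr fun j => 1 + s * a j
    rw [Fin.sum_univ_three, a0, a1, a2]
  rw [e]
  rw [Fin.sum_univ_three] at h
  have h1 := ((((((lin (a 1)).fun_mul (lin (a 2))).const_mul (n 0)).fun_pow 2).fun_add
    ((((lin (a 0)).fun_mul (lin (a 2))).const_mul (n 1)).fun_pow 2)).fun_add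
    ((((lin (a 0)).fun_mul (lin (a 1))).const_mul (n 2)).fun_pow 2)).sqrt (by
      simp only [zero_mul, add_zero, mul_one]
      rw [← h]
      positivity)
  refine h1.congr_deriv ?_
  simp only [zero_mul, add_zero, mul_one, one_mul, Fin.sum_univ_three]
  rw [← h, Real.sqrt_sq hN.le]
  field_simp
  rw [h]
  ring

theorem bd {ψ : Fin 3 → ℝ → ℝ} (hψ : ∀ i, BM (ψ i)) : ∃ C : ℝ, ∀ i t, |ψ i t| ≤ C := by
  choose C hC using fun i => (hψ i).2
  exact ⟨∑ i, |C i|, fun i t => (hC i t).trans ((le_abs_self _).trans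
    (Finset.single_le_sum (f := fun i => |C i|) (fun _ _ => abs_nonneg _) (Finset.mem_univ i)))⟩

end DDerAux

theorem hasDerivAt_area {D : Set X} {ψ : Fin 3 → ℝ → ℝ} (hψ : ∀ i, BM (ψ i)) :
    HasDerivAt (fun s : ℝ => ∫ x,
        √(∑ i, (nv D i x * ∏ j ∈ Finset.univ.erase i, (1 + s * ψ j (x j))) ^ 2) ∂(sg D))
      (∑ i, ∫ x, ψ i (x i) * kap D i x ∂(sg D)) 0 := by
  have := sg_fin D
  obtain ⟨C, hC⟩ := DDerAux.bd hψ
  have hm : ∀ i, Measurable fun x : X => ψ i (x i) := fun i =>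
    (hψ i).1.comp (measurable_pi_apply i)
  have hi : ∀ i, Integrable (fun x : X => ψ i (x i) * kap D i x) (sg D) := fun i =>
    integrable_of_le_nn D ((hm i).mul (measurable_kap D i)) C fun x => by
      rw [abs_mul, abs_of_nonneg (kap_nonneg D i x)]
      exact mul_le_mul (hC _ _) (kap_le_nn D i x) (kap_nonneg D i x)
        ((abs_nonneg _).trans (hC i 0))
  have hF : ∀ s : ℝ, Measurable fun x : X =>
      √(∑ i, (nv D i x * ∏ j ∈ Finset.univ.erase i, (1 + s * ψ j (x j))) ^ 2) := fun s =>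
    (Finset.measurable_sum _ fun i _ => ((measurable_nv D i).mul
      (Finset.measurable_prod _ fun j _ => ((hm j).const_mul s).const_add 1)).pow_const 2).sqrt
  rw [← integral_finsetSum _ fun i _ => hi i]
  refine (hasDerivAt_integral_of_dominated_loc_of_lip (s := Metric.ball 0 1)
    (bound := fun _ => 2 * C + 2 * C ^ 2) (Metric.ball_mem_nhds _ one_pos)
    (.of_forall fun s => (hF s).aestronglyMeasurable)
    (integrable_of_le_nn D (hF 0) 1 fun x => ?_)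
    (integrable_finsetSum _ fun i _ => hi i).aestronglyMeasurable ?_ (integrable_const _) ?_).2
  · simp [nn, abs_of_nonneg]
  · filter_upwards [ae_nv D] with x hx
    exact DDerAux.lip (fun i => nv_nonneg D i x) hx.1 fun i => hC i _
  · filter_upwards [ae_nv D] with x hx
    exact DDerAux.der (by linarith [hx.2.1]) (nn_sq D x)

theorem hasDerivAt_vol {D : Set X} (hD : Dn D) {ψ : Fin 3 → ℝ → ℝ} (hψ : ∀ i, BM (ψ i)) :
    HasDerivAt (fun s : ℝ => ∫ x in D, ∏ i, (1 + s * ψ i (x i)) ∂vQ)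
      (∑ i, ∫ t, ψ i t * sl D i t ∂vI) 0 := by
  have := vQ_prob
  have hb : ∀ i, BM fun x : X => ψ i (x i) := fun i => (hψ i).comp (measurable_pi_apply i)
  have h1 : BM fun x : X => ψ 0 (x 0) + ψ 1 (x 1) + ψ 2 (x 2) := ((hb 0).add (hb 1)).add (hb 2)
  have h2 : BM fun x : X => ψ 0 (x 0) * ψ 1 (x 1) + ψ 0 (x 0) * ψ 2 (x 2) +
      ψ 1 (x 1) * ψ 2 (x 2) := (((hb 0).mul (hb 1)).add ((hb 0).mul (hb 2))).add ((hb 1).mul (hb 2))
  have h3 : BM fun x : X => ψ 0 (x 0) * ψ 1 (x 1) * ψ 2 (x 2) := ((hb 0).mul (hb 1)).mul (hb 2)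
  have i0 := (BM.const (α := X) 1).integrable (vQ.restrict D)
  have i1 := h1.integrable (vQ.restrict D)
  have i2 := h2.integrable (vQ.restrict D)
  have i3 := h3.integrable (vQ.restrict D)
  have e : (fun s : ℝ => ∫ x in D, ∏ i, (1 + s * ψ i (x i)) ∂vQ) = fun s =>
      (∫ _ in D, (1 : ℝ) ∂vQ) + s * (∫ x in D, ψ 0 (x 0) + ψ 1 (x 1) + ψ 2 (x 2) ∂vQ) +
      s ^ 2 * (∫ x in D, ψ 0 (x 0) * ψ 1 (x 1) + ψ 0 (x 0) * ψ 2 (x 2) +
        ψ 1 (x 1) * ψ 2 (x 2) ∂vQ) + s ^ 3 * ∫ x in D, ψ 0 (x 0) * ψ 1 (x 1) * ψ 2 (x 2) ∂vQ := by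
    funext s
    rw [← integral_const_mul, ← integral_const_mul, ← integral_const_mul,
      ← integral_add i0 (i1.const_mul _), ← integral_add (i0.fun_add (i1.const_mul _))
        (i2.const_mul _), ← integral_add ((i0.fun_add (i1.const_mul _)).fun_add
        (i2.const_mul _)) (i3.const_mul _)]
    refine integral_congr_ae (.of_forall fun x => ?_)
    simp only [Fin.prod_univ_three]
    ring
  rw [e]
  refine ((((hasDerivAt_id' (0 : ℝ)).mul_const _).const_add _).fun_add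
    ((hasDerivAt_pow 2 (0 : ℝ)).mul_const _) |>.fun_add
    ((hasDerivAt_pow 3 (0 : ℝ)).mul_const _)).congr_deriv ?_
  rw [integral_add (((hb 0).add (hb 1)).integrable _) ((hb 2).integrable _),
    integral_add ((hb 0).integrable _) ((hb 1).integrable _), hD.integral_coord 0 (hψ 0),
    hD.integral_coord 1 (hψ 1), hD.integral_coord 2 (hψ 2), Fin.sum_univ_three]
  simp

end Vale.Agent.P232
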