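import Vale.Agent.P232.Base

open MeasureTheory Set Function Filter Topology
open scoped ENNReal

namespace Vale.Agent.P232

namespace DJAux

/-- area of the spherical model -/
noncomputable def f1 (v : ℝ) : ℝ := (36 * Real.pi) ^ (1 / 3 : ℝ) * v ^ (2 / 3 : ℝ) / 2

/-- area of the cylindrical model -/
noncomputable def f2 (v : ℝ) : ℝ := √(Real.pi * v)

theorem Jc_eq (v : ℝ) : Jc v = min (f1 (min v (1 - v))) (min (f2 (min v (1 - v))) 1) := by
  rw [Jc, Jt, ← min_div_div_right zero_le_two, ← min_div_div_right zero_le_two,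
    mul_div_cancel_left₀ _ two_ne_zero, div_self two_ne_zero, f1, f2]

theorem f1_eq {ρ : ℝ} (h : 0 ≤ ρ) : f1 (Real.pi * ρ ^ 3 / 6) = Real.pi * ρ ^ 2 / 2 := by
  have h0 := Real.pi_pos
  have h1 : (2 / 3 : ℝ) = (2 : ℕ) * (1 / 3) := by norm_num
  have h2 : (1 / 3 : ℝ) = ((3 : ℕ) : ℝ)⁻¹ := by norm_num
  have h3 : 36 * Real.pi * (Real.pi * ρ ^ 3 / 6) ^ 2 = (Real.pi * ρ ^ 2) ^ 3 := by ring
  rw [f1, h1, Real.rpow_natCast_mul (by positivity),
    ← Real.mul_rpow (by positivity) (by positivity), h3, h2,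
    Real.pow_rpow_inv_natCast (by positivity) (by norm_num)]

theorem f2_eq {r : ℝ} (h : 0 ≤ r) : f2 (Real.pi * r ^ 2 / 4) = Real.pi * r / 2 := by
  have h0 := Real.pi_pos
  rw [f2, show Real.pi * (Real.pi * r ^ 2 / 4) = (Real.pi * r / 2) ^ 2 by ring,
    Real.sqrt_sq (by positivity)]

theorem ex3 {v : ℝ} (h : 0 ≤ v) : ∃ ρ : ℝ, 0 ≤ ρ ∧ v = Real.pi * ρ ^ 3 / 6 := by
  have h0 := Real.pi_pos
  refine ⟨(6 * v / Real.pi) ^ ((3 : ℕ) : ℝ)⁻¹, by positivity, ?_⟩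
  rw [Real.rpow_inv_natCast_pow (by positivity) (by norm_num)]
  field_simp

theorem ex2 {v : ℝ} (h : 0 ≤ v) : ∃ r : ℝ, 0 ≤ r ∧ v = Real.pi * r ^ 2 / 4 := by
  have h0 := Real.pi_pos
  refine ⟨√(4 * v / Real.pi), Real.sqrt_nonneg _, ?_⟩
  rw [Real.sq_sqrt (by positivity)]
  field_simp

theorem cube_le {a b : ℝ} (hb : 0 ≤ b) (h : Real.pi * a ^ 3 / 6 ≤ Real.pi * b ^ 3 / 6) :
    a ≤ b := by
  have h0 := Real.pi_pos
  refine le_of_pow_le_pow_left₀ (n := 3) (by norm_num) hb ?_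
  nlinarith

theorem sq_le {a b : ℝ} (hb : 0 ≤ b) (h : Real.pi * a ^ 2 / 4 ≤ Real.pi * b ^ 2 / 4) :
    a ≤ b := by
  have h0 := Real.pi_pos
  refine le_of_pow_le_pow_left₀ (n := 2) (by norm_num) hb ?_
  nlinarith

theorem e1 : 4 * Real.pi / 81 = Real.pi * (2 / 3) ^ 3 / 6 := by ring

theorem e2 : 4 * Real.pi / 81 = Real.pi * (4 / 9) ^ 2 / 4 := by ring

theorem e3 : 1 / Real.pi = Real.pi * (2 / Real.pi) ^ 2 / 4 := by
  have h0 := Real.pi_pos
  field_simp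
  norm_num

theorem l1 : 4 * Real.pi / 81 < 1 / Real.pi := by
  have h0 := Real.pi_pos
  have h1 := Real.pi_le_four
  rw [div_lt_div_iff₀ (by norm_num) h0]
  nlinarith

theorem l2 : 1 / Real.pi < 1 / 2 :=
  one_div_lt_one_div_of_lt two_pos (by linarith [Real.pi_gt_three])

theorem f1_le {v : ℝ} (h0 : 0 ≤ v) (h : v ≤ 4 * Real.pi / 81) : f1 v ≤ f2 v := by
  obtain ⟨ρ, h1, rfl⟩ := ex3 h0
  have h2 := cube_le (by norm_num) (h.trans_eq e1)
  rw [f1_eq h1, f2]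
  refine Real.le_sqrt_of_sq_le ?_
  nlinarith [mul_nonneg (mul_nonneg (sq_nonneg Real.pi) (pow_nonneg h1 3)) (sub_nonneg.2 h2)]

theorem f2_le {v : ℝ} (h : 4 * Real.pi / 81 ≤ v) : f2 v ≤ f1 v := by
  have h0 := Real.pi_pos
  obtain ⟨ρ, h1, rfl⟩ := ex3 (le_trans (by positivity) h)
  have h2 := cube_le h1 (e1.symm.trans_le h)
  rw [f1_eq h1, f2]
  refine Real.sqrt_le_iff.2 ⟨by positivity, ?_⟩
  nlinarith [mul_nonneg (mul_nonneg (sq_nonneg Real.pi) (pow_nonneg h1 3)) (sub_nonneg.2 h2)]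

theorem f2_le_one {v : ℝ} (h : v ≤ 1 / Real.pi) : f2 v ≤ 1 := by
  rw [le_div_iff₀ Real.pi_pos, mul_comm] at h
  exact Real.sqrt_le_one.2 h

theorem one_le_f2 {v : ℝ} (h : 1 / Real.pi ≤ v) : 1 ≤ f2 v := by
  rw [div_le_iff₀ Real.pi_pos, mul_comm] at h
  exact Real.one_le_sqrt.2 h

theorem J1 {v : ℝ} (h0 : 0 ≤ v) (h : v ≤ 4 * Real.pi / 81) : Jc v = f1 v := by
  rw [Jc_eq, min_eq_left (by linarith [l1, l2] : v ≤ 1 - v),
    min_eq_left (f2_le_one (h.trans l1.le)), min_eq_left (f1_le h0 h)]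

theorem J2 {v : ℝ} (h0 : 4 * Real.pi / 81 ≤ v) (h : v ≤ 1 / Real.pi) : Jc v = f2 v := by
  rw [Jc_eq, min_eq_left (by linarith [l2] : v ≤ 1 - v), min_eq_left (f2_le_one h),
    min_eq_right (f2_le h0)]

theorem J3 {v : ℝ} (h0 : 1 / Real.pi ≤ v) (h : v ≤ 1 - 1 / Real.pi) : Jc v = 1 := by
  have h1 : 1 / Real.pi ≤ min v (1 - v) := le_min h0 (by linarith)
  rw [Jc_eq, min_eq_right (one_le_f2 h1),
    min_eq_right ((one_le_f2 h1).trans (f2_le (l1.le.trans h1)))]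

theorem d1 {ρ : ℝ} (h : 0 < ρ) : HasDerivAt f1 (2 / ρ) (Real.pi * ρ ^ 3 / 6) := by
  have h0 := Real.pi_pos
  have h1 : Real.pi * ρ ^ 3 / 6 ≠ 0 := by positivity
  have h2 := ((Real.hasDerivAt_rpow_const (p := 2 / 3) (Or.inl h1)).const_mul
    ((36 * Real.pi) ^ (1 / 3 : ℝ))).div_const 2
  have h3 := f1_eq h.le
  rw [f1] at h3
  refine h2.congr_deriv ?_
  rw [Real.rpow_sub_one h1]
  calc _ = 2 / 3 * ((36 * Real.pi) ^ (1 / 3 : ℝ) * (Real.pi * ρ ^ 3 / 6) ^ (2 / 3 : ℝ) / 2) /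
        (Real.pi * ρ ^ 3 / 6) := by ring
    _ = _ := by
      rw [h3]
      field_simp
      norm_num

theorem d2 {r : ℝ} (h : 0 < r) : HasDerivAt f2 (1 / r) (Real.pi * r ^ 2 / 4) := by
  have h0 := Real.pi_pos
  have h2 := ((hasDerivAt_id (Real.pi * r ^ 2 / 4)).const_mul Real.pi).sqrt
    (by simp only [id]; positivity)
  have h3 := f2_eq h.le
  rw [f2] at h3
  refine h2.congr_deriv ?_
  rw [id, h3]
  field_simp

theorem right {f : ℝ → ℝ} {h v b : ℝ} (hf : HasDerivAt f h v) (hb : v < b)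
    (e : ∀ x, v ≤ x → x ≤ b → Jc x = f x) : HasDerivWithinAt Jc h (Ici v) v :=
  hf.hasDerivWithinAt.congr_of_eventuallyEq
    (mem_of_superset (Icc_mem_nhdsGE hb) fun x hx => e x hx.1 hx.2) (e v le_rfl hb.le)

theorem left {f : ℝ → ℝ} {h v a : ℝ} (hf : HasDerivAt f h v) (ha : a < v)
    (e : ∀ x, a ≤ x → x ≤ v → Jc x = f x) : HasDerivWithinAt Jc h (Iic v) v :=
  hf.hasDerivWithinAt.congr_of_eventuallyEq
    (mem_of_superset (Icc_mem_nhdsLE ha) fun x hx => e x hx.1 hx.2) (e v ha.le le_rfl)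

theorem lower {f : ℝ → ℝ} {v h ε : ℝ} {s : Set ℝ} (hf : HasDerivWithinAt f h s v) (hε : 0 < ε) :
    ∀ᶠ x in 𝓝[s] v, h * (x - v) - ε * |x - v| ≤ f x - f v := by
  filter_upwards [hf.isLittleO.bound hε] with x hx
  rw [Real.norm_eq_abs, Real.norm_eq_abs, smul_eq_mul] at hx
  linarith [(abs_le.1 hx).1]

end DJAux

open DJAux

theorem continuous_Jc : Continuous Jc := by
  have h1 : Continuous fun v : ℝ => min v (1 - v) := by fun_prop
  have h2 : Continuous f1 :=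
    (continuous_const.mul (Real.continuous_rpow_const (by norm_num))).div_const 2
  have h3 : Continuous f2 := (continuous_const.mul continuous_id).sqrt
  rw [funext Jc_eq]
  exact (h2.comp h1).min ((h3.comp h1).min continuous_const)

theorem Jc_symm (v : ℝ) : Jc (1 - v) = Jc v := by
  rw [Jc_eq, Jc_eq, sub_sub_cancel, min_comm (1 - v)]

theorem Jc_zero : Jc 0 = 0 := by
  rw [J1 le_rfl (by positivity)]
  simp [f1]

theorem Jc_one : Jc 1 = 0 := by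
  rw [← Jc_symm, sub_self, Jc_zero]

theorem Jc_le {v : ℝ} (h0 : 0 ≤ v) (h1 : v ≤ 1 / 2) : Jc v ≤ min (√(Real.pi * v)) 1 := by
  rw [Jc_eq, min_eq_left (by linarith : v ≤ 1 - v)]
  exact min_le_right _ _

theorem exists_JD {v : ℝ} (h0 : 0 < v) (h1 : v ≤ 1 / 2) :
    ∃ h₁ h₂, JD v h₁ h₂ ∧ ∀ H, h₁ ≤ H → H ≤ h₂ → Gam v H (Jc v) := by
  have hp := Real.pi_pos
  rcases lt_trichotomy v (4 * Real.pi / 81) with a | rfl | a
  · obtain ⟨ρ, k1, rfl⟩ := ex3 h0.le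
    have k2 : 0 < ρ := k1.lt_of_ne (by rintro rfl; simp at h0)
    refine ⟨2 / ρ, 2 / ρ, ⟨by positivity, le_rfl,
      right (d1 k2) a fun x x1 x2 => J1 (h0.le.trans x1) x2,
      left (d1 k2) h0 fun x x1 x2 => J1 x1 (x2.trans a.le)⟩, fun H H1 H2 =>
      Or.inl ⟨ρ, k2, ?_, rfl, le_antisymm H2 H1, (J1 h0.le a.le).trans (f1_eq k1)⟩⟩
    refine (cube_le (by norm_num) (a.le.trans_eq e1)).lt_of_ne ?_
    rintro rfl
    exact a.ne e1.symm
  · have k1 := d1 (ρ := 2 / 3) (by norm_num)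
    have k2 := d2 (r := 4 / 9) (by norm_num)
    rw [← e1] at k1
    rw [← e2] at k2
    refine ⟨1 / (4 / 9), 2 / (2 / 3), ⟨by norm_num, by norm_num, right k2 l1 fun x => J2,
      left k1 h0 fun x => J1⟩, fun H H1 H2 =>
      Or.inr (Or.inl ⟨rfl, by linarith, by linarith, ?_⟩)⟩
    rw [J1 h0.le le_rfl, e1, f1_eq (by norm_num)]
    ring
  rcases lt_trichotomy v (1 / Real.pi) with b | rfl | b
  · obtain ⟨r, k1, rfl⟩ := ex2 h0.le
    have k2 : 0 < r := k1.lt_of_ne (by rintro rfl; simp at h0)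
    refine ⟨1 / r, 1 / r, ⟨by positivity, le_rfl,
      right (d2 k2) b fun x x1 x2 => J2 (a.le.trans x1) x2,
      left (d2 k2) a fun x x1 x2 => J2 x1 (x2.trans b.le)⟩, fun H H1 H2 =>
      Or.inr (Or.inr (Or.inl ⟨r, ?_, ?_, rfl, le_antisymm H2 H1,
        (J2 a.le b.le).trans (f2_eq k1)⟩))⟩
    · refine (sq_le k1 (e2.symm.trans_le a.le)).lt_of_ne ?_
      rintro rfl
      exact a.ne e2
    · refine (sq_le (by positivity) (b.le.trans_eq e3)).lt_of_ne ?_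
      rintro rfl
      exact b.ne e3.symm
  · have k2 := d2 (r := 2 / Real.pi) (by positivity)
    rw [← e3, one_div_div] at k2
    exact ⟨0, Real.pi / 2, ⟨le_rfl, by positivity,
      right (b := 1 - 1 / Real.pi) (hasDerivAt_const _ 1) (by linarith [l2]) fun x => J3,
      left k2 a fun x => J2⟩, fun H H1 H2 => Or.inr (Or.inr (Or.inr (Or.inl
        ⟨rfl, H1, H2, J3 le_rfl (by linarith [l2])⟩)))⟩
  · have k1 : v < 1 - 1 / Real.pi := by linarith [l2]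
    exact ⟨0, 0, ⟨le_rfl, le_rfl,
      right (hasDerivAt_const _ 1) k1 fun x x1 x2 => J3 (b.le.trans x1) x2,
      left (hasDerivAt_const _ 1) b fun x x1 x2 => J3 x1 (x2.trans k1.le)⟩, fun H H1 H2 =>
      Or.inr (Or.inr (Or.inr (Or.inr ⟨b, h1, le_antisymm H2 H1, J3 b.le k1.le⟩)))⟩

/-- the value of the profile is attained by one of the three models -/
theorem exists_model {v : ℝ} (h0 : 0 < v) (h1 : v ≤ 1 / 2) :
    (∃ R, 0 < R ∧ R < 1 ∧ v = Real.pi * R ^ 3 / 6 ∧ Jc v = 3 * v / R) ∨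
    (∃ R, 0 < R ∧ R < 1 ∧ v = Real.pi * R ^ 2 / 4 ∧ Jc v = 2 * v / R) ∨ Jc v = 1 := by
  have hp := Real.pi_pos
  rcases le_total v (4 * Real.pi / 81) with a | a
  · obtain ⟨ρ, k1, rfl⟩ := ex3 h0.le
    have k2 : 0 < ρ := k1.lt_of_ne (by rintro rfl; simp at h0)
    refine Or.inl ⟨ρ, k2, (cube_le (by norm_num) (a.trans_eq e1)).trans_lt (by norm_num), rfl, ?_⟩
    rw [J1 h0.le a, f1_eq k1]
    field_simp
    norm_num
  rcases le_total v (1 / Real.pi) with b | b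
  · obtain ⟨r, k1, rfl⟩ := ex2 h0.le
    have k2 : 0 < r := k1.lt_of_ne (by rintro rfl; simp at h0)
    refine Or.inr (Or.inl ⟨r, k2, (sq_le (by positivity) (b.trans_eq e3)).trans_lt ?_, rfl, ?_⟩)
    · rw [div_lt_one hp]
      linarith [Real.pi_gt_three]
    · rw [J2 a b, f2_eq k1]
      field_simp
      norm_num
  · exact Or.inr (Or.inr (J3 b (by linarith [l2])))

/-- first variation inequality -/
theorem var_ineq {v h₁ h₂ a b A : ℝ} (hJ : JD v h₁ h₂) {φ ψ : ℝ → ℝ}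
    (hφ : HasDerivWithinAt φ a (Ici 0) 0) (hψ : HasDerivWithinAt ψ b (Ici 0) 0)
    (hφ0 : φ 0 = A) (hψ0 : ψ 0 = v)
    (h : ∀ᶠ s in 𝓝[>] (0 : ℝ), A - Jc v ≤ φ s - Jc (ψ s)) : min (h₁ * b) (h₂ * b) ≤ a := by
  have t1 := (hasDerivWithinAt_iff_tendsto_slope' (s := Ioi 0) (by simp)).1 hφ.Ioi_of_Ici
  have t2 := (hasDerivWithinAt_iff_tendsto_slope' (s := Ioi 0) (by simp)).1 hψ.Ioi_of_Ici
  have t3 : Tendsto ψ (𝓝[>] 0) (𝓝 v) := hψ0 ▸ hψ.Ioi_of_Ici.continuousWithinAt.tendsto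
  have key : ∀ ε, 0 < ε → min (h₁ * b) (h₂ * b) - ε * |b| ≤ a := fun ε hε => by
    have k1 : ∀ᶠ x in 𝓝 v, min (h₁ * (x - v)) (h₂ * (x - v)) - ε * |x - v| ≤ Jc x - Jc v := by
      rw [← nhdsLE_sup_nhdsGE, eventually_sup]
      exact ⟨(lower hJ.2.2.2 hε).mono fun x hx => le_trans (by gcongr; exact min_le_right _ _) hx,
        (lower hJ.2.2.1 hε).mono fun x hx => le_trans (by gcongr; exact min_le_left _ _) hx⟩
    refine le_of_tendsto_of_tendsto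
      (((t2.const_mul h₁).min (t2.const_mul h₂)).sub (t2.abs.const_mul ε)) t1 ?_
    filter_upwards [h, t3.eventually k1, self_mem_nhdsWithin] with s s1 s2 s3
    have s4 : 0 < s := s3
    rw [slope_def_field, slope_def_field, sub_zero, hφ0, hψ0, ← mul_div_assoc, ← mul_div_assoc,
      min_div_div_right s4.le, abs_div, abs_of_pos s4, ← mul_div_assoc, ← sub_div]
    exact div_le_div_of_nonneg_right (by linarith) s4.le
  refine le_of_forall_pos_le_add fun e he => ?_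
  have k1 := key (e / (|b| + 1)) (by positivity)
  have k2 : e / (|b| + 1) * |b| ≤ e := by
    rw [div_mul_eq_mul_div, div_le_iff₀ (by positivity)]
    nlinarith
  linarith

end Vale.Agent.P232
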