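import Vale.Agent.P232.DRep
import Vale.Agent.P232.DDer
import Vale.Agent.P232.DJ

open MeasureTheory Set Function Filter Topology
open scoped ENNReal

namespace Vale.Agent.P232

namespace DFaceAux

theorem vI_Ioo {l r : ℝ} (h0 : 0 ≤ l) (hlr : l ≤ r) (h1 : r ≤ 1) : vI.real (Ioo l r) = r - l := by
  rw [vI, measureReal_restrict_apply measurableSet_Ioo,
    inter_eq_left.2 (Ioo_subset_Ioo h0 h1), Real.volume_real_Ioo_of_le hlr]

theorem bm_ind {s : Set ℝ} (hs : MeasurableSet s) (a : ℝ) : BM (s.indicator fun _ => a) :=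
  (BM.const a).indicator hs

theorem avg_le {S : Set ℝ} (hS : MeasurableSet S) {f : ℝ → ℝ} (hf : BM f) {a ε k : ℝ}
    (hk : 0 ≤ k) (h : ∀ t ∈ Ioo (0 : ℝ) 1, t ∈ S → |f t - a| ≤ ε) :
    |∫ t, S.indicator (fun _ => k) t * f t ∂vI - k * vI.real S * a| ≤ k * vI.real S * ε := by
  have := vI_prob
  have e : ∀ b : ℝ, ∫ t, S.indicator (fun _ => k) t * b ∂vI = k * vI.real S * b := by
    intro b
    rw [integral_mul_const, integral_indicator_const _ hS, smul_eq_mul]; ring
  have i1 := ((bm_ind hS k).mul hf).integrable vI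
  have i2 := fun b : ℝ => ((bm_ind hS k).mul (BM.const b)).integrable vI
  rw [← e, ← e, ← integral_sub i1 (i2 a)]
  refine (abs_integral_le_integral_abs).trans (integral_mono_ae (i1.sub (i2 a)).abs (i2 ε) ?_)
  filter_upwards [ae_vI] with t ht
  by_cases m : t ∈ S
  · rw [indicator_of_mem m, ← mul_sub, abs_mul, abs_of_nonneg hk]
    gcongr
    exact h t ht m
  · simp [indicator_of_notMem m]

theorem face {D : Set X} (hD : IsMin D) {h₁ h₂ : ℝ} (hJ : JD (vol D) h₁ h₂) {H : ℝ}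
    {c : Fin 3 → ℝ} (hF : Flux D H c) (i : Fin 3) {I : ℝ → ℝ} (hI : Continuous I)
    (hL : LB D i (fun t => I (sl D i t))) {a : ℝ} {l r : ℝ → ℝ}
    (h01 : ∀ s, 0 ≤ s → s < 1 → 0 ≤ l s ∧ r s ≤ 1 ∧ r s - l s = 1 - s)
    (hlim : ∀ ε > 0, ∃ d u : ℝ, 0 < d ∧ d < 1 ∧ (∀ s ∈ Ioo 0 d, l s ≤ u ∧ u + d ≤ r s) ∧
      (∀ t ∈ Ioo u (u + d), |sl D i t - a| ≤ ε) ∧
      ∀ s ∈ Ioo 0 d, ∀ t ∈ Ioo (0 : ℝ) 1, t ∉ Ioo (l s) (r s) → |sl D i t - a| ≤ ε) :
    I a ≤ c i + H * a := by
  have := vI_prob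
  have := vQ_prob
  have := sg_fin D
  have hDn := hD.1
  obtain ⟨ρ, hρ⟩ : ∃ ρ : ℝ → ℝ → ℝ, ρ = fun s => (Ioo (l s) (r s))ᶜ.indicator fun _ => 1 := ⟨_, rfl⟩
  have bρ : ∀ s, BM (ρ s) := fun s => hρ ▸ bm_ind measurableSet_Ioo.compl 1
  have vc : ∀ s, 0 ≤ s → s < 1 → vI.real (Ioo (l s) (r s))ᶜ = s := by
    intro s h0 h1
    obtain ⟨a1, a2, a3⟩ := h01 s h0 h1
    rw [probReal_compl_eq_one_sub measurableSet_Ioo, vI_Ioo a1 (by linarith) a2]
    linarith
  have g0 : ∫ t, ρ 0 t * sl D i t ∂vI = 0 := by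
    have := avg_le (S := (Ioo (l 0) (r 0))ᶜ) measurableSet_Ioo.compl (bm_sl D i) (a := 0) (ε := 1)
      zero_le_one fun t _ _ => by rw [sub_zero, abs_of_nonneg (sl_mem D i t).1]; exact (sl_mem D i t).2
    rw [vc 0 le_rfl one_pos] at this
    simpa [hρ] using this
  have gd : HasDerivWithinAt (fun s => ∫ t, ρ s t * sl D i t ∂vI) a (Ici 0) 0 := by
    rw [hasDerivWithinAt_iff_isLittleO, Asymptotics.isLittleO_iff]
    intro ε hε
    obtain ⟨d, u, d0, d1, -, -, h3⟩ := hlim ε hε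
    filter_upwards [Ico_mem_nhdsGE d0] with s hs
    rcases hs.1.eq_or_lt with rfl | s0
    · simp
    have := avg_le measurableSet_Ioo.compl (bm_sl D i) zero_le_one (h3 s ⟨s0, hs.2⟩)
    rw [vc s hs.1 (hs.2.trans d1)] at this
    rw [g0]
    simp only [sub_zero, smul_eq_mul, Real.norm_eq_abs, abs_of_pos s0, hρ]
    simpa [mul_comm] using this
  refine le_of_forall_pos_le_add fun η hη => ?_
  obtain ⟨δ, δ0, hδ⟩ := Metric.continuous_iff.1 hI a (η / 2) (by positivity)
  have h2 : 0 ≤ h₂ := hJ.1.trans hJ.2.1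
  obtain ⟨ε, ε0, ε1, ε2⟩ : ∃ ε > 0, ε < δ ∧ (|H| + h₂) * ε ≤ η / 2 := by
    refine ⟨min (δ / 2) (η / 2 / (|H| + h₂ + 1)), by positivity,
      (min_le_left _ _).trans_lt (by linarith), ?_⟩
    calc _ ≤ (|H| + h₂ + 1) * (η / 2 / (|H| + h₂ + 1)) :=
          mul_le_mul (by linarith) (min_le_right _ _) (by positivity) (by positivity)
      _ = _ := by field_simp
  obtain ⟨d, u, d0, d1, k1, k2, k3⟩ := hlim ε ε0
  obtain ⟨φ, hφ⟩ : ∃ φ : ℝ → ℝ, φ = (Ioo u (u + d)).indicator fun _ => 1 / d := ⟨_, rfl⟩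
  have bφ : BM φ := hφ ▸ bm_ind measurableSet_Ioo _
  have φ0 : ∀ t, 0 ≤ φ t ∧ φ t ≤ 1 / d := fun t => by
    rw [hφ]
    by_cases m : t ∈ Ioo u (u + d)
    · rw [indicator_of_mem m]; exact ⟨by positivity, le_rfl⟩
    · rw [indicator_of_notMem m]; exact ⟨le_rfl, by positivity⟩
  have u0 : 0 ≤ u ∧ u + d ≤ 1 := by
    have a1 := k1 (d / 2) ⟨by linarith, by linarith⟩
    have a2 := h01 (d / 2) (by linarith) (by linarith)
    exact ⟨by linarith [a1.1, a2.1], by linarith [a1.2, a2.2.1]⟩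
  have vu : 1 / d * vI.real (Ioo u (u + d)) = 1 := by
    rw [vI_Ioo u0.1 (by linarith) u0.2]; field_simp; ring
  have m1 : |∫ t, φ t * sl D i t ∂vI - a| ≤ ε := by
    have := avg_le measurableSet_Ioo (bm_sl D i) (by positivity : 0 ≤ 1 / d) fun t _ h => k2 t h
    rwa [vu, one_mul, one_mul, ← hφ] at this
  have m2 : ∫ t, φ t ∂vI = 1 := by
    rw [hφ, integral_indicator_const _ measurableSet_Ioo, smul_eq_mul, mul_comm, vu]
  obtain ⟨ψ, hψ⟩ : ∃ ψ : Fin 3 → ℝ → ℝ, ψ = fun j t => if j = i then φ t else 0 := ⟨_, rfl⟩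
  have bψ : ∀ j, BM (ψ j) := fun j => by
    by_cases e : j = i
    · simpa [hψ, e] using bφ
    · simpa [hψ, e] using BM.const (α := ℝ) 0
  have ψ0 : ∀ j t, 0 ≤ ψ j t ∧ ψ j t ≤ 1 / d := fun j t => by
    simp only [hψ]
    split_ifs
    · exact φ0 t
    · exact ⟨le_rfl, by positivity⟩
  have dA := hasDerivAt_area (D := D) bψ
  have dV := hasDerivAt_vol hDn bψ
  have sA : ∑ j, ∫ x, ψ j (x j) * kap D j x ∂(sg D) = c i + H * ∫ t, φ t * sl D i t ∂vI := by
    rw [Finset.sum_eq_single i (fun j _ hj => by simp [hψ, hj]) (by simp)]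
    simp only [hψ, if_true]
    rw [hF i φ bφ]
    simp only [mul_add, ← mul_assoc, mul_comm _ H]
    rw [integral_add ((bφ.mul (BM.const _)).integrable vI), integral_mul_const, m2, one_mul]
    · simp only [mul_assoc, integral_const_mul]
    · simpa only [mul_assoc] using ((BM.const H).mul (bφ.mul (bm_sl D i))).integrable vI
  have sV : ∑ j, ∫ t, ψ j t * sl D j t ∂vI = ∫ t, φ t * sl D i t ∂vI := by
    rw [Finset.sum_eq_single i (fun j _ hj => by simp [hψ, hj]) (by simp)]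
    simp only [hψ, if_true]
  rw [sA] at dA
  rw [sV] at dV
  have key := var_ineq (A := area D) hJ
    (dA.hasDerivWithinAt.fun_sub ((hasDerivAt_id (0 : ℝ)).mul_const (I a - η / 2)).hasDerivWithinAt)
    (dV.hasDerivWithinAt.fun_sub gd) (by simp [area, nn]) (by simp [g0, vol, measureReal_def]) ?_
  · rw [abs_le] at m1
    have b1 : -(h₂ * ε) ≤ h₁ * (∫ t, φ t * sl D i t ∂vI - a) := by nlinarith [hJ.1, hJ.2.1, m1.1]
    have b2 : -(h₂ * ε) ≤ h₂ * (∫ t, φ t * sl D i t ∂vI - a) := by nlinarith [m1.1]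
    have b3 : H * (∫ t, φ t * sl D i t ∂vI - a) ≤ |H| * ε :=
      (le_abs_self _).trans (by rw [abs_mul]; gcongr; exact abs_le.2 m1)
    have := (le_min b1 b2).trans key
    linarith
  filter_upwards [Ioo_mem_nhdsGT d0] with s hs
  obtain ⟨a1, a2, a3⟩ := h01 s hs.1.le (hs.2.trans d1)
  have w1 : ∀ j t, 1 ≤ 1 + s * ψ j t ∧ 1 + s * ψ j t ≤ 2 := fun j t => by
    have := ψ0 j t
    have e : s * (1 / d) ≤ 1 := by rw [mul_one_div, div_le_one d0]; exact hs.2.le
    constructor <;> nlinarith [this.1, this.2, hs.1]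
  have bw : ∀ j, BM fun t => 1 + s * ψ j t := fun j => (BM.const 1).add ((BM.const s).mul (bψ j))
  have out : ∀ x : X, x i ∉ Ioo (l s) (r s) → ∀ j, 1 + s * ψ j (x j) = 1 := by
    intro x hx j
    by_cases e : j = i
    · subst e
      have : x j ∉ Ioo u (u + d) := fun h =>
        hx ⟨(k1 s hs).1.trans_lt h.1, h.2.trans_le (k1 s hs).2⟩
      simp [hψ, hφ, indicator_of_notMem this]
    · simp [hψ, e]
  obtain ⟨D', hD', v', ar'⟩ := exists_rep hDn bw one_pos (fun j t => (w1 j t).1)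
    (l := update 0 i (l s)) (r := update 1 i (r s))
    (fun j => by by_cases e : j = i <;> simp [e, a1])
    (fun j => by
      by_cases e : j = i
      · simp only [e, update_self]; linarith [hs.2]
      · simp [e])
    (fun j => by by_cases e : j = i <;> simp [e, a2])
    (fun j => by
      by_cases e : j = i
      · simp only [e, update_self, hψ, if_true]
        rw [integral_add (by simp) ((((BM.const s).mul bφ).integrable _)), integral_const_mul, hφ,
          integral_indicator_const _ measurableSet_Ioo, measureReal_restrict_apply measurableSet_Ioo,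
          inter_eq_left.2 (Ioo_subset_Ioo (k1 s hs).1 (k1 s hs).2),
          Real.volume_real_Ioo_of_le (by linarith)]
        simp only [integral_const, MeasurableSet.univ, measureReal_restrict_apply, univ_inter]
        rw [Real.volume_real_Ioo_of_le (by linarith [hs.2]), a3]
        simp only [smul_eq_mul]
        field_simp
        ring
      · simp [e, hψ])
  have mB : MeasurableSet (Bx (update 0 i (l s)) (update 1 i (r s))) := by
    simp only [Bx, ofPred_forall]
    exact MeasurableSet.iInter fun j => measurable_pi_apply j measurableSet_Ioo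
  have inB : ∀ x ∈ Q, x ∈ Bx (update 0 i (l s)) (update 1 i (r s)) ↔ x i ∈ Ioo (l s) (r s) := by
    intro x hx
    refine ⟨fun h => by simpa using h i, fun h j => ?_⟩
    by_cases e : j = i
    · simpa [e] using h
    · simpa [e] using hx j
  have mw : ∀ t : Finset (Fin 3), Measurable fun x : X => ∏ j ∈ t, (1 + s * ψ j (x j)) :=
    fun t => Finset.measurable_prod _ fun j _ => (bw j).1.comp (measurable_pi_apply j)
  have pw : ∀ (t : Finset (Fin 3)) (x : X), |∏ j ∈ t, (1 + s * ψ j (x j))| ≤ 8 := fun t x => by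
    rw [abs_of_nonneg (Finset.prod_nonneg fun j _ => by linarith [(w1 j (x j)).1])]
    calc _ ≤ ∏ _j ∈ t, (2 : ℝ) :=
          Finset.prod_le_prod (fun j _ => by linarith [(w1 j (x j)).1]) fun j _ => (w1 j _).2
      _ = 2 ^ t.card := by simp
      _ ≤ 2 ^ 3 := by gcongr; · norm_num
                      · simpa using t.card_le_univ
      _ = 8 := by norm_num
  have bρi : BM fun x : X => ρ s (x i) := (bρ s).comp (measurable_pi_apply i)
  have ev : vol D' = ∫ x in D, ∏ j, (1 + s * ψ j (x j)) ∂vQ - ∫ t, ρ s t * sl D i t ∂vI := by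
    rw [v', ← hDn.integral_coord i (bρ s), ← setIntegral_indicator mB,
      ← integral_sub (BM.integrable ⟨mw _, 8, pw _⟩ _) (bρi.integrable _)]
    refine integral_congr_ae (ae_restrict_of_ae (ae_vQ.mono fun x hx => ?_))
    by_cases m : x i ∈ Ioo (l s) (r s)
    · simp only [indicator_of_mem ((inB x hx).2 m), hρ, indicator_of_notMem (notMem_compl_iff.2 m),
        sub_zero]
    · simp only [indicator_of_notMem fun h => m ((inB x hx).1 h), hρ, indicator_of_mem (mem_compl m),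
        out x m, Finset.prod_const_one, sub_self]
  have iA : Integrable (fun x =>
      √(∑ k, (nv D k x * ∏ j ∈ Finset.univ.erase k, (1 + s * ψ j (x j))) ^ 2)) (sg D) := by
    refine integrable_of_le_nn D (Finset.measurable_sum _ fun k _ =>
      ((measurable_nv D k).mul (mw _)).pow_const 2).sqrt 8 fun x => ?_
    rw [abs_of_nonneg (Real.sqrt_nonneg _), Real.sqrt_le_left (by linarith [nn_nonneg D x]),
      mul_pow, nn_sq, Finset.mul_sum]
    refine Finset.sum_le_sum fun k _ => ?_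
    rw [mul_pow, mul_comm]
    exact mul_le_mul_of_nonneg_right (sq_le_sq' (abs_le.1 (pw _ x)).1 (abs_le.1 (pw _ x)).2)
      (sq_nonneg _)
  have iP : Integrable (fun x => ρ s (x i) * pp D i x) (sg D) := by
    refine integrable_of_le_nn D (bρi.1.mul (measurable_pp D i)) 1 fun x => ?_
    rw [abs_mul, abs_of_nonneg (pp_nonneg D i x)]
    refine mul_le_mul ?_ (pp_le_nn D i x) (pp_nonneg D i x) zero_le_one
    rw [hρ]
    by_cases m : x i ∈ (Ioo (l s) (r s))ᶜ
    · simp only [indicator_of_mem m, abs_one, le_refl]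
    · simp only [indicator_of_notMem m, abs_zero, zero_le_one]
  have ea : area D' ≤ ∫ x, √(∑ k, (nv D k x * ∏ j ∈ Finset.univ.erase k, (1 + s * ψ j (x j))) ^ 2)
      ∂(sg D) - ∫ x, ρ s (x i) * pp D i x ∂(sg D) := by
    refine ar'.trans ?_
    rw [← integral_indicator mB, ← integral_sub iA iP]
    refine integral_mono_ae (iA.indicator mB) (iA.sub iP) (hDn.ae_sg_Q.mono fun x hx => ?_)
    by_cases m : x i ∈ Ioo (l s) (r s)
    · simp only [indicator_of_mem ((inB x hx).2 m), hρ, indicator_of_notMem (notMem_compl_iff.2 m),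
        zero_mul, sub_zero, le_refl]
    · simp only [indicator_of_notMem fun h => m ((inB x hx).1 h), hρ, indicator_of_mem (mem_compl m),
        out x m, Finset.prod_const_one, mul_one, one_mul, sub_nonneg]
      exact pp_le_nn D i x
  have lb := hL (ρ s) (bρ s) fun t => by rw [hρ]; exact indicator_nonneg (fun _ _ => zero_le_one) _
  have bI : BM fun t => I (sl D i t) := by
    obtain ⟨C, hC⟩ := isCompact_Icc.exists_bound_of_continuousOn (s := Icc (0 : ℝ) 1) hI.continuousOn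
    exact ⟨hI.measurable.comp (bm_sl D i).1, C, fun t => hC _ (sl_mem D i t)⟩
  have m3 := avg_le measurableSet_Ioo.compl bI zero_le_one (a := I a) (ε := η / 2) fun t ht m =>
    (hδ _ ((k3 s hs t ht m).trans_lt ε1)).le
  rw [vc s hs.1.le (hs.2.trans d1), abs_le] at m3
  have := hD.2 D' hD'
  rw [ev] at this
  simp only [hρ] at lb ea this ⊢
  simp only [id]
  linarith [m3.1]

end DFaceAux

theorem face_top {D : Set X} (hD : IsMin D) {h₁ h₂ : ℝ} (hJ : JD (vol D) h₁ h₂) {H : ℝ}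
    {c : Fin 3 → ℝ} (hF : Flux D H c) (i : Fin 3) {I : ℝ → ℝ} (hI : Continuous I)
    (hL : LB D i (fun t => I (sl D i t))) : I (al D i) ≤ c i + H * al D i := by
  refine DFaceAux.face hD hJ hF i hI hL (l := fun _ => 0) (r := fun s => 1 - s)
    (fun s h0 _ => ⟨le_rfl, by linarith, by ring⟩) fun ε hε => ?_
  obtain ⟨δ, δ0, h⟩ := Metric.tendsto_nhdsWithin_nhds.1 (hD.1.tendsto_al i) ε hε
  have m0 : 0 < min δ 1 := by positivity
  have m1 := min_le_left δ 1
  have m2 := min_le_right δ 1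
  have k : ∀ t, t < 1 → 1 - min δ 1 < t → |sl D i t - al D i| ≤ ε := fun t a b =>
    (h a (by rw [Real.dist_eq, abs_lt]; constructor <;> linarith)).le
  refine ⟨min δ 1 / 3, 1 - 2 * (min δ 1 / 3), by linarith, by linarith,
    fun s hs => ⟨by linarith, by linarith [hs.2]⟩,
    fun t ht => k t (by linarith [ht.2]) (by linarith [ht.1]), fun s hs t ht m => k t ht.2 ?_⟩
  have : 1 - s ≤ t := not_lt.1 fun a => m ⟨ht.1, a⟩
  linarith [hs.2]

theorem face_bot {D : Set X} (hD : IsMin D) {h₁ h₂ : ℝ} (hJ : JD (vol D) h₁ h₂) {H : ℝ}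
    {c : Fin 3 → ℝ} (hF : Flux D H c) (i : Fin 3) {I : ℝ → ℝ} (hI : Continuous I)
    (hL : LB D i (fun t => I (sl D i t))) : I (be D i) ≤ c i + H * be D i := by
  refine DFaceAux.face hD hJ hF i hI hL (l := fun s => s) (r := fun _ => 1)
    (fun s h0 _ => ⟨h0, le_rfl, rfl⟩) fun ε hε => ?_
  obtain ⟨δ, δ0, h⟩ := Metric.tendsto_nhdsWithin_nhds.1 (hD.1.tendsto_be i) ε hε
  have m0 : 0 < min δ 1 := by positivity
  have m1 := min_le_left δ 1
  have m2 := min_le_right δ 1
  have k : ∀ t, 0 < t → t < min δ 1 → |sl D i t - be D i| ≤ ε := fun t a b =>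
    (h a (by rw [Real.dist_eq, abs_lt]; constructor <;> linarith)).le
  refine ⟨min δ 1 / 3, min δ 1 / 3, by linarith, by linarith,
    fun s hs => ⟨hs.2.le, by linarith⟩,
    fun t ht => k t (by linarith [ht.1]) (by linarith [ht.2]), fun s hs t ht m => k t ht.1 ?_⟩
  have : t ≤ s := not_lt.1 fun a => m ⟨a, ht.2⟩
  linarith [hs.2]

end Vale.Agent.P232
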