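import Vale.Agent.P232.DDens

open MeasureTheory Set Function Filter Topology
open scoped ENNReal

namespace Vale.Agent.P232

namespace DFlipAux

/-- the flip of the cube -/
def fl (x : X) : X := fun i => 1 - x i

theorem fl_fl (x : X) : fl (fl x) = x := by funext i; simp [fl]

theorem fl_eq : fl = fun x : X => (1 : X) - x := rfl

/-- the flip as a measurable equivalence -/
def fe : X ≃ᵐ X :=
  ⟨⟨fl, fl, fl_fl, fl_fl⟩, by rw [Equiv.coe_fn_mk, fl_eq]; fun_prop,
    by change Measurable fl; rw [fl_eq]; fun_prop⟩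

theorem cq_fl {g : X → ℝ} (hg : CQ g) : CQ fun x => g (fl x) := by
  obtain ⟨h1, δ, h2, h3⟩ := hg
  refine ⟨h1.comp (by rw [fl_eq]; fun_prop), δ, h2, fun x ⟨i, hi⟩ => h3 _ ⟨i, ?_⟩⟩
  simp only [fl]
  rcases hi with hi | hi
  · right; linarith
  · left; linarith

theorem pd_fl {g : X → ℝ} (hg : ContDiff ℝ 1 g) (i : Fin 3) (x : X) :
    pd i (fun x => g (fl x)) x = -pd i g (fl x) := by
  have h1 : HasFDerivAt fl (-ContinuousLinearMap.id ℝ X) x := (hasFDerivAt_id x).const_sub 1
  have h2 := ((hg.differentiable one_ne_zero (fl x)).hasFDerivAt.comp x h1).fderiv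
  rw [pd, pd, show (fun x => g (fl x)) = g ∘ fl from rfl, h2]
  simp

theorem int_pd {g : X → ℝ} (hg : ContDiff ℝ 1 g) (i : Fin 3) : Integrable (pd i g) vQ := by
  have hc : Continuous (pd i g) := (hg.continuous_fderiv one_ne_zero).clm_apply continuous_const
  exact (hc.continuousOn.integrableOn_compact (isCompact_Icc (a := (0 : X)) (b := 1))).mono_set
    fun x hx => ⟨fun j => (hx j).1.le, fun j => (hx j).2.le⟩

theorem zero_pd {g : X → ℝ} (hg : CQ g) (i : Fin 3) : ∫ x, pd i g x ∂vQ = 0 := by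
  have := vI_prob
  have h := Dn.gauss (D := univ) ⟨isOpen_univ, isLowerSet_univ⟩ hg i
  have e : Wd univ i = ∅ := eq_empty_of_forall_notMem fun x hx => by
    simpa [ht] using hx.2
  rw [mu, e, Measure.restrict_empty, Measure.map_zero, integral_zero_measure,
    Measure.restrict_univ] at h
  exact h.symm

end DFlipAux

open DFlipAux in
theorem exists_flip {D : Set X} (hD : Dn D) :
    ∃ D', Dn D' ∧ vol D' = 1 - vol D ∧ area D' ≤ area D := by
  have := vQ_prob
  have hm : MeasurePreserving fe vQ vQ := mp_flip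
  have hc : Continuous fl := by rw [fl_eq]; fun_prop
  have hD' : Dn (fl ⁻¹' (closure D)ᶜ) :=
    ⟨isClosed_closure.isOpen_compl.preimage hc, fun x y hxy hx hy =>
      hx (hD.2.closure (show fl x ≤ fl y from fun i => sub_le_sub_left (hxy i) 1) hy)⟩
  have h0 : closure D =ᵐ[vQ] D :=
    ae_restrict_of_ae (closure_ae_eq_of_null_frontier hD.2.null_frontier)
  have h1 : ∀ f : X → ℝ, ∫ x in fl ⁻¹' (closure D)ᶜ, f (fl x) ∂vQ = ∫ x in Dᶜ, f x ∂vQ := fun f =>
    (hm.setIntegral_preimage_emb fe.measurableEmbedding f _).trans (setIntegral_congr_set h0.compl)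
  refine ⟨_, hD', ?_, hD'.area_le fun g hg hg1 => ?_⟩
  · have h2 := h1 fun _ => 1
    simp only [integral_const, smul_eq_mul, mul_one, measureReal_restrict_apply_univ] at h2
    rw [vol, vol, h2, probReal_compl_eq_one_sub hD.meas]
  · have e : ∀ x, dvg g x = -dvg (fun i x => g i (fl x)) (fl x) := fun x => by
      change ∑ i, pd i (g i) x = -∑ i, pd i (fun x => g i (fl x)) (fl x)
      simp only [fun i => pd_fl (hg i).1 i, fl_fl, Finset.sum_neg_distrib, neg_neg]
    have hi : Integrable (dvg fun i x => g i (fl x)) vQ :=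
      integrable_finsetSum _ fun i _ => int_pd (cq_fl (hg i)).1 i
    have hz : ∫ x, dvg (fun i x => g i (fl x)) x ∂vQ = 0 :=
      (integral_finsetSum _ fun i _ => int_pd (cq_fl (hg i)).1 i).trans
        (Finset.sum_eq_zero fun i _ => zero_pd (cq_fl (hg i)) i)
    have h3 := integral_add_compl hD.meas hi
    have h4 := hD.dvg_le (fun i => cq_fl (hg i)) fun x => hg1 (fl x)
    simp only [e]
    rw [integral_neg, h1]
    linarith

end Vale.Agent.P232
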