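import Vale.Agent.P232.DRep
import Vale.Agent.P232.DDer
import Vale.Agent.P232.DJ

open MeasureTheory Set Function Filter Topology
open scoped ENNReal

namespace Vale.Agent.P232

/-- Lagrange multiplier for two homogeneous additive functionals on a cone closed under all
linear operations -/
theorem exists_mult {W : Type} [AddCommGroup W] [Module ℝ W] (P : W → Prop)
    (hadd : ∀ x y, P x → P y → P (x + y)) (hsm : ∀ (c : ℝ) x, P x → P (c • x))
    (a b : W → ℝ) (ha : ∀ x y, P x → P y → a (x + y) = a x + a y)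
    (hb : ∀ x y, P x → P y → b (x + y) = b x + b y)
    (ha' : ∀ (c : ℝ) x, P x → a (c • x) = c * a x) (hb' : ∀ (c : ℝ) x, P x → b (c • x) = c * b x)
    {h₁ h₂ : ℝ} (h12 : h₁ ≤ h₂) (h : ∀ x, P x → min (h₁ * b x) (h₂ * b x) ≤ a x) :
    ∃ H, h₁ ≤ H ∧ H ≤ h₂ ∧ ∀ x, P x → a x = H * b x := by
  have key : ∀ y, P y → b y = 0 → a y = 0 := fun y hy h0 => by
    have h1 := h y hy
    have h2 := h _ (hsm (-1) y hy)
    rw [ha' _ _ hy, hb' _ _ hy] at h2
    simp only [h0, mul_zero, min_self] at h1 h2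
    linarith
  by_cases h0 : ∀ x, P x → b x = 0
  · exact ⟨h₁, le_rfl, h12, fun x hx => by rw [key x hx (h0 x hx), h0 x hx, mul_zero]⟩
  push Not at h0
  obtain ⟨x₀, p0, b0⟩ := h0
  have p1 := hsm (b x₀)⁻¹ x₀ p0
  have b1 : b ((b x₀)⁻¹ • x₀) = 1 := by rw [hb' _ _ p0, inv_mul_cancel₀ b0]
  generalize (b x₀)⁻¹ • x₀ = x₁ at p1 b1
  have h1 := h _ p1
  have h2 := h _ (hsm (-1) _ p1)
  rw [ha' _ _ p1, hb' _ _ p1, b1, min_eq_right (by linarith)] at h2
  rw [b1, min_eq_left (by linarith)] at h1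
  refine ⟨a x₁, by linarith, by linarith, fun x hx => ?_⟩
  have p2 := hsm (-b x) _ p1
  have h3 := key _ (hadd _ _ hx p2) (by rw [hb _ _ hx p2, hb' _ _ p1, b1]; ring)
  rw [ha _ _ hx p2, ha' _ _ p1] at h3
  linarith

namespace DFluxAux

theorem ik (D : Set X) (i : Fin 3) {φ : ℝ → ℝ} (hφ : BM φ) :
    Integrable (fun x : X => φ (x i) * kap D i x) (sg D) := by
  obtain ⟨hm, C, hC⟩ := hφ
  refine integrable_of_le_nn D ((hm.comp (measurable_pi_apply i)).mul (measurable_kap D i)) C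
    fun x => ?_
  rw [abs_mul, abs_of_nonneg (kap_nonneg D i x)]
  exact mul_le_mul (hC _) (kap_le_nn D i x) (kap_nonneg D i x) ((abs_nonneg _).trans (hC 0))

theorem is (D : Set X) (i : Fin 3) {φ : ℝ → ℝ} (hφ : BM φ) :
    Integrable (fun t => φ t * sl D i t) vI :=
  have := vI_prob
  (hφ.mul (bm_sl D i)).integrable vI

theorem var {D : Set X} (hD : IsMin D) {h₁ h₂ : ℝ} (hJ : JD (vol D) h₁ h₂) {ψ : Fin 3 → ℝ → ℝ}
    (hψ : ∀ i, BM (ψ i) ∧ ∫ t, ψ i t ∂vI = 0) :
    min (h₁ * ∑ i, ∫ t, ψ i t * sl D i t ∂vI) (h₂ * ∑ i, ∫ t, ψ i t * sl D i t ∂vI) ≤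
      ∑ i, ∫ x, ψ i (x i) * kap D i x ∂(sg D) := by
  have := vI_prob
  refine var_ineq (A := area D) hJ (hasDerivAt_area fun i => (hψ i).1).hasDerivWithinAt
    (hasDerivAt_vol hD.1 fun i => (hψ i).1).hasDerivWithinAt (by simp [area, nn])
    (by simp [vol, Measure.real]) ?_
  choose C hC using fun i => (hψ i).1.2
  have C0 : ∀ i, 0 ≤ C i := fun i => (abs_nonneg _).trans (hC i 0)
  have S0 : 0 < ∑ i, C i + 1 := add_pos_of_nonneg_of_pos (Finset.sum_nonneg fun i _ => C0 i) one_pos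
  filter_upwards [Ioo_mem_nhdsGT (show 0 < 1 / (2 * (∑ i, C i + 1)) by positivity)] with s hs
  obtain ⟨D', h1, h2, h3⟩ := exists_rep (w := fun i t => 1 + s * ψ i t) (c := 1 / 2)
    (l := fun _ => 0) (r := fun _ => 1) hD.1
    (fun i => (BM.const 1).add ((BM.const s).mul (hψ i).1)) (by norm_num) (fun i t => by
      have a1 := (abs_le.1 (hC i t)).1
      have a2 : C i ≤ ∑ i, C i := Finset.single_le_sum (fun i _ => C0 i) (Finset.mem_univ i)
      have a3 := (lt_div_iff₀ (by positivity)).1 hs.2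
      nlinarith [hs.1])
    (fun _ => le_rfl) (fun _ => one_pos) (fun _ => le_rfl) fun i => by
      change ∫ t, (1 + s * ψ i t) ∂vI = 1
      rw [integral_add (integrable_const _) (((hψ i).1.integrable vI).const_mul s),
        integral_const_mul, (hψ i).2]
      simp
  change vol D' = ∫ x in D ∩ Q, _ ∂vQ at h2
  change area D' ≤ ∫ x in Q, _ ∂(sg D) at h3
  rw [setIntegral_congr_set (s := D ∩ Q) (t := D)
    (ae_vQ.mono fun x hx => propext (and_iff_left hx))] at h2
  rw [Measure.restrict_eq_self_of_ae_mem hD.1.ae_sg_Q] at h3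
  have := hD.2 D' h1
  rw [h2] at this
  linarith

end DFluxAux

open DFluxAux in

theorem exists_flux {D : Set X} (hD : IsMin D) {h₁ h₂ : ℝ} (hJ : JD (vol D) h₁ h₂) :
    ∃ H, h₁ ≤ H ∧ H ≤ h₂ ∧ ∃ c, Flux D H c := by
  have := vI_prob
  obtain ⟨H, h1, h2, h3⟩ := exists_mult (W := Fin 3 → ℝ → ℝ)
    (fun ψ => ∀ i, BM (ψ i) ∧ ∫ t, ψ i t ∂vI = 0)
    (fun x y hx hy i => ⟨(hx i).1.add (hy i).1, by
      simp only [Pi.add_apply]
      rw [integral_add ((hx i).1.integrable vI) ((hy i).1.integrable vI), (hx i).2, (hy i).2,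
        add_zero]⟩)
    (fun c x hx i => ⟨(BM.const c).mul (hx i).1, by
      simp only [Pi.smul_apply, smul_eq_mul]
      rw [integral_const_mul, (hx i).2, mul_zero]⟩)
    (fun ψ => ∑ i, ∫ x, ψ i (x i) * kap D i x ∂(sg D))
    (fun ψ => ∑ i, ∫ t, ψ i t * sl D i t ∂vI)
    (fun x y hx hy => by
      simp only [Pi.add_apply, add_mul, ← Finset.sum_add_distrib]
      exact Finset.sum_congr rfl fun i _ => integral_add (ik D i (hx i).1) (ik D i (hy i).1))
    (fun x y hx hy => by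
      simp only [Pi.add_apply, add_mul, ← Finset.sum_add_distrib]
      exact Finset.sum_congr rfl fun i _ => integral_add (is D i (hx i).1) (is D i (hy i).1))
    (fun c x _ => by
      simp only [Pi.smul_apply, smul_eq_mul, mul_assoc, integral_const_mul, Finset.mul_sum])
    (fun c x _ => by
      simp only [Pi.smul_apply, smul_eq_mul, mul_assoc, integral_const_mul, Finset.mul_sum])
    hJ.2.1 fun x hx => var hD hJ hx
  refine ⟨H, h1, h2, fun i => ∫ x, kap D i x ∂(sg D) - H * vol D, fun i φ hφ => ?_⟩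
  have a1 := h3 (Pi.single i fun t => φ t - ∫ t, φ t ∂vI) fun j => by
    rcases eq_or_ne j i with rfl | h
    · rw [Pi.single_eq_same]
      refine ⟨hφ.sub (BM.const _), ?_⟩
      rw [integral_sub (hφ.integrable vI) (integrable_const _)]
      simp
    · rw [Pi.single_eq_of_ne h]
      exact ⟨BM.const 0, by simp⟩
  rw [Finset.sum_eq_single i (fun j _ h => by simp [Pi.single_eq_of_ne h]) (by simp),
    Finset.sum_eq_single i (fun j _ h => by simp [Pi.single_eq_of_ne h]) (by simp)] at a1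
  simp only [Pi.single_eq_same, sub_mul] at a1
  rw [integral_sub (ik D i hφ) (ik D i (BM.const _)), integral_sub (is D i hφ)
    (is D i (BM.const _)), integral_const_mul, integral_const_mul, ← hD.1.vol_eq] at a1
  simp only [mul_add, ← mul_left_comm H]
  rw [integral_add ((hφ.integrable vI).mul_const _) ((is D i hφ).const_mul H), integral_mul_const,
    integral_const_mul]
  linarith

end Vale.Agent.P232
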