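import Vale.Agent.P232.AFub

open MeasureTheory Set Function Filter Topology
open scoped ENNReal

namespace Vale.Agent.P232

variable {D : Set X}

namespace DHtAux

theorem real_Iio {h : ℝ} (h0 : 0 ≤ h) (h1 : h ≤ 1) : vI.real (Iio h) = h := by
  have e : Iio h ∩ Ioo (0 : ℝ) 1 = Ioo 0 h := by
    ext t
    exact ⟨fun ht => ⟨ht.2.1, ht.1⟩, fun ht => ⟨ht.2, ht.1, ht.2.trans_le h1⟩⟩
  rw [measureReal_def, vI, Measure.restrict_apply measurableSet_Iio, e, Real.volume_Ioo, sub_zero,
    ENNReal.toReal_ofReal h0]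

theorem pt_mono (i j : Fin 3) {a a' b b' t t' : ℝ} (ha : a ≤ a') (hb : b ≤ b') (ht : t ≤ t') :
    pt i j a b t ≤ pt i j a' b' t' := by
  intro l
  simp only [pt, update_apply]
  split_ifs <;> assumption

end DHtAux

theorem Dn.meas (hD : Dn D) : MeasurableSet D := hD.1.measurableSet

theorem Dn.mem_iff (hD : Dn D) (i : Fin 3) (x : X) {t : ℝ} (ht01 : t ∈ Ioo (0 : ℝ) 1) :
    update x i t ∈ D ↔ t < ht D i x := by
  have := vI_prob
  constructor
  · intro h
    have ho : IsOpen {s : ℝ | update x i s ∈ D} :=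
      hD.1.preimage (continuous_const.update i continuous_id)
    have h1 : ∀ᶠ s in 𝓝[>] t, update x i s ∈ D := mem_nhdsWithin_of_mem_nhds (ho.mem_nhds h)
    have h2 : ∀ᶠ s in 𝓝[>] t, s < 1 := nhdsWithin_le_nhds (gt_mem_nhds ht01.2)
    obtain ⟨s, ⟨s1, s2⟩, s3⟩ := ((h1.and h2).and self_mem_nhdsWithin).exists
    have s4 : t < s := s3
    refine s4.trans_le ?_
    rw [← DHtAux.real_Iio (ht01.1.trans s4).le s2.le]
    exact measureReal_mono fun r hr => hD.2 (update_mono (le_of_lt hr)) s1
  · intro h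
    by_contra hn
    refine h.not_ge ?_
    rw [← DHtAux.real_Iio ht01.1.le ht01.2.le]
    exact measureReal_mono fun r hr => not_le.1 fun h' => hn (hD.2 (update_mono h') hr)

theorem Dn.mem_iff' (hD : Dn D) (i : Fin 3) {x : X} (hx : x ∈ Q) : x ∈ D ↔ x i < ht D i x := by
  rw [← hD.mem_iff i x (hx i), update_eq_self]

theorem Dn.antitone_ht (hD : Dn D) (i : Fin 3) : Antitone (ht D i) := fun x y h => by
  have := vI_prob
  exact measureReal_mono fun t ht => hD.2 (update_le_update_iff.2 ⟨le_rfl, fun j _ => h j⟩) ht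

theorem antitone_sl (D : Set X) (i : Fin 3) : Antitone (sl D i) := fun s t h => by
  have := vQ_prob
  exact measureReal_mono fun x hx => h.trans_lt hx

theorem bm_sl (D : Set X) (i : Fin 3) : BM (sl D i) := by
  have := vQ_prob
  exact ⟨(antitone_sl D i).measurable, 1, fun t => by
    rw [sl, abs_of_nonneg measureReal_nonneg]; exact measureReal_le_one⟩

theorem sl_mem (D : Set X) (i : Fin 3) (t : ℝ) : 0 ≤ sl D i t ∧ sl D i t ≤ 1 := by
  have := vQ_prob
  exact ⟨measureReal_nonneg, measureReal_le_one⟩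

theorem al_le_sl (D : Set X) (i : Fin 3) {t : ℝ} (ht1 : t < 1) : al D i ≤ sl D i t := by
  have := vQ_prob
  exact measureReal_mono fun x hx => ht1.trans_le hx

theorem sl_le_be (D : Set X) (i : Fin 3) {t : ℝ} (ht0 : 0 ≤ t) : sl D i t ≤ be D i := by
  have := vQ_prob
  exact measureReal_mono fun x hx => ht0.trans_lt hx

theorem al_nonneg (D : Set X) (i : Fin 3) : 0 ≤ al D i := measureReal_nonneg

theorem be_le_one (D : Set X) (i : Fin 3) : be D i ≤ 1 := by
  have := vQ_prob
  exact measureReal_le_one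

theorem Dn.tendsto_al (hD : Dn D) (i : Fin 3) : Tendsto (sl D i) (𝓝[<] 1) (𝓝 (al D i)) := by
  have := vQ_prob
  refine (ENNReal.tendsto_toReal (measure_ne_top _ _)).comp
    (tendsto_measure_of_tendsto_indicator_of_isFiniteMeasure (𝓝[<] (1 : ℝ)) vQ
      (As := fun t => {x | t < ht D i x})
      (fun t => measurableSet_lt measurable_const (measurable_ht hD.meas i)) fun x => ?_)
  by_cases h : 1 ≤ ht D i x
  · filter_upwards [self_mem_nhdsWithin] with t ht'
    exact iff_of_true (lt_of_lt_of_le ht' h) h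
  · filter_upwards [nhdsWithin_le_nhds (lt_mem_nhds (not_le.1 h))] with t ht'
    exact iff_of_false (not_lt.2 (le_of_lt ht')) h

theorem Dn.tendsto_be (hD : Dn D) (i : Fin 3) : Tendsto (sl D i) (𝓝[>] 0) (𝓝 (be D i)) := by
  have := vQ_prob
  refine (ENNReal.tendsto_toReal (measure_ne_top _ _)).comp
    (tendsto_measure_of_tendsto_indicator_of_isFiniteMeasure (𝓝[>] (0 : ℝ)) vQ
      (As := fun t => {x | t < ht D i x})
      (fun t => measurableSet_lt measurable_const (measurable_ht hD.meas i)) fun x => ?_)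
  by_cases h : 0 < ht D i x
  · filter_upwards [nhdsWithin_le_nhds (gt_mem_nhds h)] with t ht'
    exact iff_of_true ht' h
  · filter_upwards [self_mem_nhdsWithin] with t ht'
    exact iff_of_false (fun h' => h (lt_trans ht' h')) h

theorem Dn.integral_coord (hD : Dn D) (i : Fin 3) {φ : ℝ → ℝ} (hφ : BM φ) :
    ∫ x in D, φ (x i) ∂vQ = ∫ t, φ t * sl D i t ∂vI := by
  have := vI_prob
  have := vQ_prob
  have hm : MeasurableSet {p : X × ℝ | p.2 < ht D i p.1} :=
    measurableSet_lt measurable_snd ((measurable_ht hD.meas i).comp measurable_fst)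
  rw [← integral_indicator hD.meas, integral_update
    (((hφ.comp (measurable_pi_apply i)).indicator hD.meas).integrable vQ) i]
  have e : ∀ x : X, ∫ t, D.indicator (fun x => φ (x i)) (update x i t) ∂vI =
      ∫ t, {p : X × ℝ | p.2 < ht D i p.1}.indicator (fun p => φ p.2) (x, t) ∂vI := fun x => by
    refine integral_congr_ae (ae_vI.mono fun t ht' => ?_)
    by_cases h : update x i t ∈ D
    · have h' := (hD.mem_iff i x ht').1 h
      simp [indicator, h, h']
    · have h' := mt (hD.mem_iff i x ht').2 h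
      simp [indicator, h, h']
  simp only [e]
  rw [integral_integral_swap
    (f := fun x t => {p : X × ℝ | p.2 < ht D i p.1}.indicator (fun p => φ p.2) (x, t))
    (((hφ.comp measurable_snd).indicator hm).integrable _)]
  refine integral_congr_ae (ae_of_all _ fun t => ?_)
  have e2 : ∀ x : X, {p : X × ℝ | p.2 < ht D i p.1}.indicator (fun p => φ p.2) (x, t) =
      {x | t < ht D i x}.indicator (fun _ => φ t) x := fun x => rfl
  simp only [e2]
  rw [integral_indicator_const _ (measurableSet_lt measurable_const (measurable_ht hD.meas i)),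
    smul_eq_mul, mul_comm]
  rfl

theorem Dn.vol_eq (hD : Dn D) (i : Fin 3) : vol D = ∫ t, sl D i t ∂vI := by
  have h := hD.integral_coord i (BM.const 1)
  simpa [vol] using h

theorem Dn.al_le_vol (hD : Dn D) (i : Fin 3) : al D i ≤ vol D := by
  have := vI_prob
  rw [hD.vol_eq i]
  have h := integral_mono_ae (integrable_const (al D i)) ((bm_sl D i).integrable vI)
    (ae_vI.mono fun t ht' => al_le_sl D i ht'.2)
  simpa using h

theorem Dn.vol_le_be (hD : Dn D) (i : Fin 3) : vol D ≤ be D i := by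
  have := vI_prob
  rw [hD.vol_eq i]
  have h := integral_mono_ae ((bm_sl D i).integrable vI) (integrable_const (be D i))
    (ae_vI.mono fun t ht' => sl_le_be D i ht'.1.le)
  simpa using h

theorem vol_nonneg (D : Set X) : 0 ≤ vol D := measureReal_nonneg

theorem vol_le_one (D : Set X) : vol D ≤ 1 := by
  have := vQ_prob
  exact measureReal_le_one

theorem Dn.wd_real (hD : Dn D) (i : Fin 3) : vQ.real (Wd D i) = be D i - al D i := by
  have := vQ_prob
  have e : Wd D i = {x | 0 < ht D i x} \ {x | 1 ≤ ht D i x} := by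
    ext x
    simp [Wd]
  rw [e]
  exact measureReal_sdiff (fun x (hx : 1 ≤ ht D i x) => one_pos.trans_le hx)
    (measurableSet_le measurable_const (measurable_ht hD.meas i))

/-- slices of a down-set are planar down-sets -/
theorem Dn.pl (hD : Dn D) {i j : Fin 3} (hij : i ≠ j) (t : ℝ) :
    Pl (fs D i j t) (es D i j t) := by
  refine ⟨fun a a' h => hD.antitone_ht j (DHtAux.pt_mono i j h le_rfl le_rfl),
    fun b b' h => hD.antitone_ht i (DHtAux.pt_mono i j le_rfl h le_rfl),
    fun a => ⟨ht_nonneg _ _ _, ht_le_one _ _ _⟩, fun b => ⟨ht_nonneg _ _ _, ht_le_one _ _ _⟩,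
    fun a ha b hb => ?_⟩
  rw [fs, es, ← hD.mem_iff j _ hb, ← hD.mem_iff i _ ha, pt, pt, update_idem,
    update_comm hij.symm, update_idem]

theorem Dn.fs_anti (hD : Dn D) (i j : Fin 3) (a : ℝ) : Antitone (fun t => fs D i j t a) := 
  fun _ _ h => hD.antitone_ht j (DHtAux.pt_mono i j le_rfl le_rfl h)

theorem Dn.es_anti (hD : Dn D) (i j : Fin 3) (b : ℝ) : Antitone (fun t => es D i j t b) := 
  fun _ _ h => hD.antitone_ht i (DHtAux.pt_mono i j le_rfl le_rfl h)

theorem fs_eq_es (D : Set X) {i j : Fin 3} (hij : i ≠ j) (t : ℝ) : fs D i j t = es D j i t := by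
  funext a
  rw [fs, es, pt, pt, update_comm hij]

theorem ht_eq_fs (D : Set X) {i j k : Fin 3} (hij : i ≠ j) (hik : i ≠ k) (hjk : j ≠ k) (x : X) :
    ht D j x = fs D i j (x k) (x i) := by
  conv_lhs => rw [← pt_eq hij hik hjk x]
  rw [fs, pt, pt, ht_update, ht_update]

theorem ht_eq_es (D : Set X) {i j k : Fin 3} (hij : i ≠ j) (hik : i ≠ k) (hjk : j ≠ k) (x : X) :
    ht D i x = es D i j (x k) (x j) := by
  rw [← fs_eq_es D hij.symm]
  exact ht_eq_fs D hij.symm hjk hik x

theorem Dn.sl_eq (hD : Dn D) {i j k : Fin 3} (hij : i ≠ j) (hik : i ≠ k) (hjk : j ≠ k) {t : ℝ}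
    (ht01 : t ∈ Ioo (0 : ℝ) 1) : sl D k t = ∫ a, fs D i j t a ∂vI := by
  have e : {x | t < ht D k x} = {x | update x k t ∈ D} := by
    ext x
    exact (hD.mem_iff k x ht01).symm
  have hm : MeasurableSet {x : X | update x k t ∈ D} := measurable_update_left hD.meas
  have e2 : ∀ x, ht {x | update x k t ∈ D} j x = fs D i j t (x i) := fun x => by
    have h := ht_eq_fs D hij hik hjk (update x k t)
    rw [update_self, update_of_ne hik] at h
    rw [← h]
    simp only [ht, mem_ofPred_eq, update_comm hjk]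
  rw [sl, e, ← integral_ht hm j, ← (mp_eval i).map_eq, integral_map
    (mp_eval i).measurable.aemeasurable (hD.pl hij t).af.measurable.aestronglyMeasurable]
  simp only [e2]

theorem Dn.al_eq (hD : Dn D) {i j k : Fin 3} (hij : i ≠ j) (hik : i ≠ k) (hjk : j ≠ k) :
    al D i = ∫ t, ext1 (es D i j t) ∂vI := by
  have := vI_prob
  have hm : MeasurableSet {p : ℝ × ℝ | 1 ≤ es D i j p.1 p.2} :=
    measurableSet_le measurable_const ((measurable_ht hD.meas i).comp ((measurable_pt i j).comp
      (measurable_const.prodMk (measurable_snd.prodMk measurable_fst))))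
  have e : {x | 1 ≤ ht D i x} =
      (fun x : X => (x k, x j)) ⁻¹' {p : ℝ × ℝ | 1 ≤ es D i j p.1 p.2} := by
    ext x
    simp only [mem_ofPred_eq, mem_preimage, ht_eq_es D hij hik hjk x]
  rw [al, e, measureReal_def, (mp_two hjk).measure_preimage hm.nullMeasurableSet,
    Measure.prod_apply hm, ← integral_toReal (measurable_measure_prodMk_left hm).aemeasurable
      (ae_of_all _ fun t => measure_lt_top _ _)]
  rfl

end Vale.Agent.P232
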