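import Vale.Agent.P232.AFub

open MeasureTheory Set Function Filter Topology
open scoped ENNReal

namespace Vale.Agent.P232

namespace DIsoAux

theorem ii {w : ℝ → ℝ} (hw : BM w) (a b : ℝ) : IntervalIntegrable w volume a b := by
  obtain ⟨hm, C, hC⟩ := hw
  exact (intervalIntegrable_const (c := C)).mono_fun' hm.aestronglyMeasurable
    (ae_of_all _ fun t => hC t)

theorem sub_eq {w : ℝ → ℝ} (hw : BM w) (l s t : ℝ) :
    (∫ u in l..t, w u) - ∫ u in l..s, w u = ∫ u in s..t, w u :=
  intervalIntegral.integral_interval_sub_left (ii hw l t) (ii hw l s)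

theorem low {w : ℝ → ℝ} (hw : BM w) {c : ℝ} (hcw : ∀ t, c ≤ w t) {s t : ℝ} (h : s ≤ t) :
    c * (t - s) ≤ ∫ u in s..t, w u := by
  have := intervalIntegral.integral_mono_on h intervalIntegrable_const (ii hw s t)
    fun u _ => hcw u
  rwa [intervalIntegral.integral_const, smul_eq_mul, mul_comm] at this

end DIsoAux

open DIsoAux in
theorem exists_iso {w : ℝ → ℝ} (hw : BM w) {c : ℝ} (hc : 0 < c) (hcw : ∀ t, c ≤ w t)
    {l r : ℝ} (hlr : l < r) (h1 : ∫ t in Ioo l r, w t = 1) :
    ∃ g : ℝ ≃o ℝ, g l = 0 ∧ g r = 1 ∧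
      MeasurePreserving g
        ((volume.restrict (Ioo l r)).withDensity (fun t => ENNReal.ofReal (w t))) vI := by
  have hm : StrictMono fun t => ∫ u in l..t, w u := fun s t h => by
    have a := low hw hcw h.le
    have b := mul_pos hc (sub_pos.2 h)
    rw [← sub_eq hw l] at a
    show ∫ u in l..s, w u < ∫ u in l..t, w u
    linarith
  have ht : Tendsto (fun t => ∫ u in l..t, w u) atTop atTop := by
    refine tendsto_atTop_mono' _ ((eventually_ge_atTop l).mono fun t h => low hw hcw h) ?_
    exact (tendsto_atTop_add_const_right _ (-l) tendsto_id).const_mul_atTop hc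
  have hb : Tendsto (fun t => ∫ u in l..t, w u) atBot atBot := by
    refine tendsto_atBot_mono' (f₁ := fun t => c * (t - l)) _
      ((eventually_le_atBot l).mono fun t h => ?_) ?_
    · have a := low hw hcw h
      rw [intervalIntegral.integral_symm] at a
      show ∫ u in l..t, w u ≤ c * (t - l)
      linarith
    · exact (tendsto_atBot_add_const_right _ (-l) tendsto_id).const_mul_atBot hc
  have hs := (intervalIntegral.continuous_primitive (ii hw) l).surjective ht hb
  obtain ⟨g, hg⟩ : ∃ g : ℝ ≃o ℝ, ∀ t, g t = ∫ u in l..t, w u :=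
    ⟨hm.orderIsoOfSurjective _ hs, fun _ => rfl⟩
  have g0 : g l = 0 := by rw [hg, intervalIntegral.integral_same]
  have g1 : g r = 1 := by
    rw [hg, intervalIntegral.integral_of_le hlr.le, integral_Ioc_eq_integral_Ioo, h1]
  have gm : Measurable g := g.continuous.measurable
  have mp : MeasurePreserving g (volume.withDensity fun t => ENNReal.ofReal (w t)) volume := by
    refine ⟨gm, (Measure.ext_of_Ioc _ _ fun a b hab => ?_).symm⟩
    obtain ⟨s, rfl⟩ := g.surjective a
    obtain ⟨t, rfl⟩ := g.surjective b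
    have hst : s ≤ t := g.le_iff_le.1 hab.le
    rw [Measure.map_apply gm measurableSet_Ioc, g.preimage_Ioc, g.symm_apply_apply,
      g.symm_apply_apply, withDensity_apply _ measurableSet_Ioc, Real.volume_Ioc, hg, hg,
      sub_eq hw, intervalIntegral.integral_of_le hst]
    exact ofReal_integral_eq_lintegral_ofReal (ii hw s t).1
      (ae_of_all _ fun u => hc.le.trans (hcw u))
  refine ⟨g, g0, g1, ?_⟩
  have := mp.restrict_preimage (measurableSet_Ioo (a := 0) (b := 1))
  rwa [← g0, ← g1, g.preimage_Ioo, g.symm_apply_apply, g.symm_apply_apply,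
    restrict_withDensity measurableSet_Ioo, g0, g1] at this

end Vale.Agent.P232
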