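import Vale.Agent.P232.NRoot

open MeasureTheory Set Function Filter Topology
open scoped ENNReal

namespace Vale.Agent.P232

namespace NBallAux

theorem cap {a q : ℝ} (ha : 0 ≤ a) (h : a ≤ q) :
    ∫ u in a..q, u * √(q ^ 2 - u ^ 2) = (q ^ 2 - a ^ 2) * √(q ^ 2 - a ^ 2) / 3 := by
  rw [intervalIntegral.integral_eq_sub_of_hasDerivAt_of_le h
    (f := fun u => -((q ^ 2 - u ^ 2) * √(q ^ 2 - u ^ 2) / 3)) (by fun_prop) (fun u hu => ?_)
    (Continuous.intervalIntegrable (by fun_prop) _ _)]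
  · simp
  have p : 0 < q ^ 2 - u ^ 2 := by nlinarith [hu.1, hu.2]
  have d : HasDerivAt (fun u => q ^ 2 - u ^ 2) (-(2 * u)) u := by
    simpa using (hasDerivAt_pow 2 u).const_sub (q ^ 2)
  refine (((d.fun_mul (d.sqrt p.ne')).div_const 3).fun_neg).congr_deriv ?_
  have s := Real.sqrt_pos.2 p
  have e := Real.sq_sqrt p.le
  field_simp
  linear_combination (-u) * e

theorem low {p q : ℝ} (p0 : 0 ≤ p) (h : 65 / 16 * p ≤ q) (q0 : 0 < q) :
    2 / 3 * (p + q) ^ 2 - 9 / 4 * (p + q) * p - 3969 / 256 * p ^ 2 ≤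
      2 / (p + q) * ∫ u in p..q, √((u ^ 2 - p ^ 2) * (q ^ 2 - u ^ 2)) := by
  have c1 : ∀ a b, IntervalIntegrable (fun u => √((u ^ 2 - p ^ 2) * (q ^ 2 - u ^ 2))) volume a b :=
    fun a b => Continuous.intervalIntegrable (by fun_prop) _ _
  have l1 : ∫ u in (65 / 16 * p)..q, √((u ^ 2 - p ^ 2) * (q ^ 2 - u ^ 2)) ≤
      ∫ u in p..q, √((u ^ 2 - p ^ 2) * (q ^ 2 - u ^ 2)) :=
    intervalIntegral.integral_mono_interval (by linarith) h le_rfl
      (Eventually.of_forall fun _ => Real.sqrt_nonneg _) (c1 _ _)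
  have l2 : ∫ u in (65 / 16 * p)..q, (u * √(q ^ 2 - u ^ 2) - p * q / 8) ≤
      ∫ u in (65 / 16 * p)..q, √((u ^ 2 - p ^ 2) * (q ^ 2 - u ^ 2)) := by
    refine intervalIntegral.integral_mono_on h (Continuous.intervalIntegrable (by fun_prop) _ _)
      (c1 _ _) fun u hu => ?_
    have a : u - p / 8 ≤ √(u ^ 2 - p ^ 2) :=
      Real.le_sqrt_of_sq_le (by nlinarith [mul_le_mul_of_nonneg_left hu.1 p0])
    have b : √(q ^ 2 - u ^ 2) ≤ q := Real.sqrt_le_iff.2 ⟨q0.le, by linarith [sq_nonneg u]⟩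
    rw [Real.sqrt_mul (by nlinarith [hu.1])]
    have := mul_le_mul_of_nonneg_right a (Real.sqrt_nonneg (q ^ 2 - u ^ 2))
    have := mul_le_mul_of_nonneg_left b p0
    linarith
  rw [intervalIntegral.integral_sub (Continuous.intervalIntegrable (by fun_prop) _ _)
    (Continuous.intervalIntegrable (by fun_prop) _ _), cap (by linarith) h,
    intervalIntegral.integral_const, smul_eq_mul] at l2
  obtain ⟨y, hy⟩ : ∃ y, y = √(q ^ 2 - (65 / 16 * p) ^ 2) := ⟨_, rfl⟩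
  have y0 : 0 ≤ y := hy ▸ Real.sqrt_nonneg _
  have y2 : y ^ 2 = q ^ 2 - (65 / 16 * p) ^ 2 := hy ▸ Real.sq_sqrt (by nlinarith)
  rw [← hy, ← y2] at l2
  have s0 : 0 < p + q := by linarith
  rw [div_mul_eq_mul_div 2 (p + q), le_div_iff₀ s0]
  have t : 0 ≤ (y - (p + q)) ^ 2 * (2 * y + (p + q)) := by positivity
  have t2 : (y - (p + q)) ^ 2 * (2 * y + (p + q)) =
      2 * (y ^ 2 * y) - 3 * (p + q) * (q ^ 2 - (65 / 16 * p) ^ 2) + (p + q) ^ 3 := by
    rw [← y2]; ring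
  have t3 : 0 ≤ p ^ 2 * q := by positivity
  have t4 : 0 ≤ p ^ 3 := by positivity
  have t5 : 0 ≤ p ^ 2 * q + p ^ 3 := by positivity
  linarith

end NBallAux

/-- local analysis near the ball -/
theorem ball_raw {A c H α β L L' : ℝ} (hc : 0 ≤ c) (hc1 : c ≤ 3 / 200) (hH : 29699 / 10000 ≤ H)
    (hH3 : H ≤ 3) (hL : 9 / 16 ≤ L) (h0 : 0 ≤ α) (hα : α ≤ 4 * Real.pi / 81)
    (hβ : 4 * Real.pi / 81 ≤ β) (fα : In L L' α ≤ c + H * α) (fβ : In L L' β ≤ c + H * β)
    (hs : StarP A (c + H * (4 * Real.pi / 81)) c H α β (In L L')) (hA : A ≤ 2 * Real.pi / 9) :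
    c = 0 ∧ H = 3 ∧ A = 2 * Real.pi / 9 := by
  have pi0 := Real.pi_pos
  have pi1 := Real.pi_gt_d2
  have pi2 := Real.pi_lt_d4
  have sb : √(Real.pi * (713 / 2000)) ≤ 10585 / 10000 :=
    Real.sqrt_le_iff.2 ⟨by norm_num, by linarith⟩
  have hS : √(Real.pi * (713 / 2000)) ≤ Sq (L - 713 / 2000) := by
    refine sb.trans (le_trans ?_ (le_Sq (k := 16) (by norm_num) _))
    rw [gh]
    push_cast
    linarith
  have sv : √(Real.pi * (4 * Real.pi / 81)) = 2 * Real.pi / 9 := by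
    rw [Real.sqrt_eq_iff_mul_self_eq (by positivity) (by positivity)]; ring
  obtain ⟨p, q, p0, pv, vq, e1, e2, h⟩ := roots_star (b := 713 / 2000) hc (by linarith) h0 hα hβ
    (by linarith) (fun a a0 ab => sqrt_le_In (by norm_num) hS a0 ab) fα fβ
    (by rw [sv]; nlinarith) (by linarith) hs
  have q1 : 39 / 100 < q := lt_of_le_of_lt (Real.le_sqrt_of_sq_le (by linarith)) vq
  have p1 : p ≤ 13 / 1000 := by
    by_contra hp
    have : 13 / 1000 * (39 / 100) < p * q := mul_lt_mul'' (not_le.1 hp) q1 (by norm_num) (by norm_num)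
    nlinarith
  have lo := NBallAux.low p0 (by linarith : 65 / 16 * p ≤ q) (by linarith)
  have H0 : 0 < H := by linarith
  have s0 : 0 < p + q := by linarith
  have e3 : 2 * H / √Real.pi = 2 / (p + q) := by rw [← e1]; field_simp
  have e4 : H ^ 2 * (p + q) ^ 2 = Real.pi := by rw [← mul_pow, e1, Real.sq_sqrt pi0.le]
  rw [e3] at h
  have s1 : 59 / 100 ≤ p + q := by
    refine le_of_sq_le_sq ?_ s0.le
    have : H ^ 2 ≤ 9 := by nlinarith
    nlinarith [sq_nonneg (p + q)]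
  have k1 : p / 10 ≤ c - 9 / 4 * (p + q) * p - 3969 / 256 * p ^ 2 := by
    have a : 1 / 10 ≤ H * q - 9 / 4 * (p + q) - 3969 / 256 * p := by nlinarith
    have := mul_le_mul_of_nonneg_left a p0
    rw [← e2]
    linarith
  have k2 : H ^ 2 * (H * (4 * Real.pi / 81) + 2 / 3 * (p + q) ^ 2 - 2 * Real.pi / 9) =
      2 * Real.pi / 81 * ((H - 3) ^ 2 * (2 * H + 3)) := by
    linear_combination 2 / 3 * e4
  have k3 : 0 ≤ H * (4 * Real.pi / 81) + 2 / 3 * (p + q) ^ 2 - 2 * Real.pi / 9 :=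
    le_of_mul_le_mul_left (by rw [mul_zero, k2]; positivity) (by positivity : 0 < H ^ 2)
  have pz : p = 0 := by linarith
  have k4 : H * (4 * Real.pi / 81) + 2 / 3 * (p + q) ^ 2 - 2 * Real.pi / 9 = 0 := by linarith
  refine ⟨by rw [← e2, pz]; ring, ?_, by linarith⟩
  rw [k4, mul_zero, eq_comm, mul_eq_zero, mul_eq_zero] at k2
  rcases k2 with k | k | k
  · linarith
  · linarith [pow_eq_zero_iff (two_ne_zero) |>.1 k]
  · linarith

end Vale.Agent.P232
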