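import Vale.Agent.P232.NChk
import Vale.Agent.P232.NBallA

open MeasureTheory Set Function Filter Topology
open scoped ENNReal

namespace Vale.Agent.P232

theorem nball {A H c α β L L' : ℝ} (h : DirW A (4 * Real.pi / 81) H c α β L L')
    (hH : 2.9699 ≤ H) (hH3 : H ≤ 3) (hc : 0 ≤ c) (hc1 : c ≤ 0.015) (hL : 9 / 16 ≤ L)
    (hA : A ≤ 2 * Real.pi / 9) : c = 0 ∧ H = 3 ∧ A = 2 * Real.pi / 9 :=
  ball_raw hc (by linarith) (by linarith) hH3 hL h.a0 h.av h.vb h.fa h.fb h.star hA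

end Vale.Agent.P232
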