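import Vale.Agent.P232.NBase

open MeasureTheory Set Function Filter Topology
open scoped ENNReal

namespace Vale.Agent.P232

namespace NSmallAux

theorem sq_of_sqrt_le {x y : ℝ} (hx : 0 ≤ x) (h : √x ≤ y) : x ≤ y ^ 2 := by
  have h0 := Real.sqrt_nonneg x
  have h1 := Real.sq_sqrt hx
  nlinarith

theorem one_le_sqrt {x : ℝ} (h : 1 ≤ x) : 1 ≤ √x := by
  apply Real.le_sqrt_of_sq_le
  simpa using h

theorem mid {e w : ℝ} (he0 : 1 / 10 ≤ e) (he1 : e ≤ 2 / 3)
    (hw : 314 / 100 * w ≤ e ^ 2 + (e + 205 / 1000) ^ 2) (h : (1 - w) ^ 2 ≤ 1 - e) : False := by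
  have h1 : w ≤ 62 / 100 * e - 29 / 1000 := by
    nlinarith [mul_nonneg (sub_nonneg.2 he0) (sub_nonneg.2 he1)]
  have h2 : 0 ≤ 1029 / 1000 - 62 / 100 * e := by linarith
  have h3 : (1029 / 1000 - 62 / 100 * e) ^ 2 ≤ (1 - w) ^ 2 :=
    pow_le_pow_left₀ h2 (by linarith) 2
  nlinarith [sq_nonneg (e - 36 / 100)]

theorem low {e w : ℝ} (he0 : 0 ≤ e) (he1 : e ≤ 1 / 10)
    (hw : 314 / 100 * w ≤ e ^ 2 + (315 / 100 * e) ^ 2) (h : (1 - w) ^ 2 ≤ 1 - e) : e = 0 := by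
  have h1 : w ≤ 35 / 100 * e := by nlinarith [mul_nonneg he0 (sub_nonneg.2 he1)]
  have h2 : e ≤ 2 * w := by nlinarith [sq_nonneg w]
  linarith

theorem one_dir {A v H c : ℝ} (hv0 : 1 / Real.pi ≤ v) (hv1 : v ≤ 1 / 2)
    (hH0 : 0 ≤ H) (hH1 : H ≤ 3 / 10) (hA : A ≤ 1) (hd : DirP A v H c) (hc : 0 ≤ c)
    (he : c + H * v ≤ 2 / 3) : c + H * v = 0 ∧ 1 ≤ A := by
  have hp := Real.pi_pos
  have hp3 : 314 / 100 < Real.pi := by have := Real.pi_gt_d2; linarith
  have hp4 : Real.pi < 315 / 100 := by have := Real.pi_lt_d2; linarith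
  have hv2 : 1 ≤ v * Real.pi := by rwa [div_le_iff₀ hp] at hv0
  have hv : 0 < v := lt_of_lt_of_le (by positivity) hv0
  have hv3 : 1 ≤ 315 / 100 * v := by nlinarith
  obtain ⟨α, β, L, L', h0, h1, h2, h3, -, -, -, -, hf, hg, -, hA1, hA2⟩ := hd
  set e := c + H * v with hedef
  have hHv : 0 ≤ H * v := by positivity
  have he0 : 0 ≤ e := by positivity
  have hs1 : c + H ≤ e + 205 / 1000 := by
    have : H * (1 - v) ≤ 3 / 10 * (1 - v) := mul_le_mul_of_nonneg_right hH1 (by linarith)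
    nlinarith
  have hs2 : c + H ≤ 315 / 100 * e := by
    have : H * 1 ≤ H * (315 / 100 * v) := mul_le_mul_of_nonneg_left hv3 hH0
    nlinarith
  have hs0 : 0 ≤ c + H := by positivity
  have ha : Real.pi * α ≤ e ^ 2 := by
    apply sq_of_sqrt_le (by positivity)
    have g := (In_ge L L' h0 (by linarith)).trans hf
    have g1 : c + H * α ≤ e := by
      have : H * α ≤ H * v := mul_le_mul_of_nonneg_left h1 hH0
      linarith
    have g2 : 1 ≤ √(Real.pi * (1 - α)) := one_le_sqrt (by nlinarith)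
    rw [min_eq_left g2] at g
    rcases min_le_iff.1 (g.trans g1) with g3 | g3
    · exact g3
    · linarith
  have hb : Real.pi * (1 - β) ≤ (c + H) ^ 2 := by
    apply sq_of_sqrt_le (mul_nonneg hp.le (by linarith))
    have g := (In_ge L L' (by linarith) h3).trans hg
    have g1 : c + H * β ≤ c + H := by
      have : H * β ≤ H * 1 := mul_le_mul_of_nonneg_left h3 hH0
      linarith
    have g2 : 1 ≤ √(Real.pi * β) := one_le_sqrt (by nlinarith)
    rcases min_le_iff.1 (g.trans g1) with g3 | g3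
    · linarith
    · rcases min_le_iff.1 g3 with g4 | g4
      · linarith
      · exact g4
  have hw0 : 0 ≤ α + (1 - β) := by linarith
  have hw : 314 / 100 * (α + (1 - β)) ≤ e ^ 2 + (c + H) ^ 2 := by nlinarith
  have hq : (1 - (α + (1 - β))) ^ 2 ≤ 1 - e := by
    have e1 : (1 - (α + (1 - β))) ^ 2 = (β - α) ^ 2 := by ring
    have : A * (A - e) ≤ 1 * (A - e) := mul_le_mul_of_nonneg_right hA (by linarith)
    rw [e1]
    linarith
  rcases le_total (1 / 10) e with g | g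
  · exact (mid g he (hw.trans (by
      have := pow_le_pow_left₀ hs0 hs1 2
      linarith)) hq).elim
  · have hw' : 314 / 100 * (α + (1 - β)) ≤ e ^ 2 + (315 / 100 * e) ^ 2 := hw.trans (by
      have := pow_le_pow_left₀ hs0 hs2 2
      linarith)
    have hz := low he0 g hw' hq
    refine ⟨hz, ?_⟩
    rw [hz] at hw' hA1 hA2
    have hab : β - α = 1 := by nlinarith
    rw [hab] at hA2
    nlinarith

end NSmallAux

theorem nsmall {A v H : ℝ} {c : Fin 3 → ℝ} (hv0 : 1 / Real.pi ≤ v) (hv1 : v ≤ 1 / 2)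
    (hH0 : 0 ≤ H) (hH1 : H ≤ 3 / 10) (hA : A ≤ 1)
    (hs : 2 * A = c 0 + c 1 + c 2 + 3 * H * v) (hd : ∀ i, DirP A v H (c i))
    (hc : ∀ i, 0 ≤ c i) (hgap : ∀ i, c i + H * v < 1) : False := by
  have key : ∀ i, c i + H * v ≤ 2 / 3 → c i + H * v = 0 ∧ 1 ≤ A := fun i h =>
    NSmallAux.one_dir hv0 hv1 hH0 hH1 hA (hd i) (hc i) h
  have g0 := hgap 0
  have g1 := hgap 1
  have g2 := hgap 2
  by_cases a0 : c 0 + H * v ≤ 2 / 3
  · obtain ⟨b1, b2⟩ := key 0 a0
    linarith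
  by_cases a1 : c 1 + H * v ≤ 2 / 3
  · obtain ⟨b1, b2⟩ := key 1 a1
    linarith
  by_cases a2 : c 2 + H * v ≤ 2 / 3
  · obtain ⟨b1, b2⟩ := key 2 a2
    linarith
  push Not at a0 a1 a2
  linarith

end Vale.Agent.P232
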