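import Vale.Agent.P232.NAll
import Vale.Agent.P232.NSmall
import Vale.Agent.P232.NBall

open MeasureTheory Set Function Filter Topology
open scoped ENNReal

namespace Vale.Agent.P232

namespace NCoreAux

theorem NN_eq : (NN : ℝ) = 16777216 := by norm_num [NN]

theorem sort3 (c : Fin 3 → ℝ) (P : ℝ → Prop) (h : ∀ i, P (c i)) :
    ∃ x y z, P x ∧ P y ∧ P z ∧ x ≤ y ∧ y ≤ z ∧ c 0 + c 1 + c 2 = x + y + z := by
  rcases le_total (c 0) (c 1) with a | a <;> rcases le_total (c 1) (c 2) with b | b <;>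
    rcases le_total (c 0) (c 2) with d | d
  · exact ⟨_, _, _, h 0, h 1, h 2, a, b, rfl⟩
  · exact ⟨_, _, _, h 0, h 1, h 2, a, b, rfl⟩
  · exact ⟨_, _, _, h 0, h 2, h 1, d, b, by ring⟩
  · exact ⟨_, _, _, h 2, h 0, h 1, d, a, by ring⟩
  · exact ⟨_, _, _, h 1, h 0, h 2, a, d, by ring⟩
  · exact ⟨_, _, _, h 1, h 2, h 0, b, d, by ring⟩
  · exact ⟨_, _, _, h 2, h 1, h 0, b, a, by ring⟩
  · exact ⟨_, _, _, h 2, h 1, h 0, b, a, by ring⟩

theorem strip {m k e cs H0 H1 : ℕ} (hS : StripP m k e cs H0 H1) {A v H c : ℝ} (hg : G2 v H)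
    (hA : A ≤ √(Real.pi * v)) (hd : DirP A v H c) (c0 : 0 ≤ c) (gap : c + H * v < √(Real.pi * v))
    (lo : m * c + 3 * H * v ≤ 2 * A) (up : 2 * A ≤ k * c + (e : ℝ) / 16777216 + 3 * H * v)
    (h1 : (cs : ℝ) / 16777216 ≤ c) (h2 : (H0 : ℝ) / 16777216 ≤ H) (h3 : H ≤ (H1 : ℝ) / 16777216) :
    ∃ α β L L', DirW A v H c α β L L' ∧ (49828331 : ℝ) / 16777216 ≤ H ∧
      c ≤ 251658 / 16777216 ∧ 9 / 16 ≤ L := by
  obtain ⟨α, β, L, L', a0, a1, a2, a3, a4, a5, a6, a7, a8, a9, b0, -⟩ := hd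
  have hW : DirW A v H c α β L L' := ⟨a0, a1, a2, a3, a4, a5, a6, a7, a8, a9, b0⟩
  refine ⟨α, β, L, L', hW, ?_⟩
  by_contra hn
  rw [← NN_eq] at up h1 h2 h3 hn
  exact hS A v H c α β L L' ⟨hg, hA, hW, c0, gap, lo, up, hn⟩ h1 h2 h3

theorem num {A v H : ℝ} {c : Fin 3 → ℝ} (hg : G2 v H) (hA : A ≤ min (√(Real.pi * v)) 1)
    (hH : 3 / 10 ≤ H) (hs : 2 * A = c 0 + c 1 + c 2 + 3 * H * v) (hd : ∀ i, DirP A v H (c i))
    (hc : ∀ i, 0 ≤ c i) (hgap : ∀ i, c i + H * v < min (√(Real.pi * v)) 1) :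
    H = 3 ∧ A = 2 * Real.pi / 9 := by
  obtain ⟨x, y, z, ⟨x1, x2, x3⟩, ⟨y1, y2, y3⟩, ⟨z1, z2, z3⟩, hxy, hyz, e⟩ :=
    sort3 c (fun t => DirP A v H t ∧ 0 ≤ t ∧ t + H * v < √(Real.pi * v)) fun i =>
      ⟨hd i, hc i, (hgap i).trans_le (min_le_left _ _)⟩
  rw [e] at hs
  have hp := Real.pi_pos
  have A1 := hA.trans (min_le_left _ _)
  have A2 := hA.trans (min_le_right _ _)
  have hv : 0 ≤ H * v := mul_nonneg hg.2.2.1.le (le_trans (by positivity) hg.1)
  rcases le_total H (23236444 / 16777216) with k1 | k1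
  · obtain ⟨_, _, _, _, -, h, -⟩ := strip cover_a hg A1 x1 x2 x3 (by push_cast; linarith)
      (by push_cast; linarith) (by simpa using x2) (by push_cast; linarith) (by exact_mod_cast k1)
    linarith
  rcases le_total H (24326963 / 16777216) with k2 | k2
  · rcases le_total (671088 / 16777216) y with k3 | k3
    · obtain ⟨_, _, _, _, -, h, -⟩ := strip cover_b hg A1 y1 y2 y3 (by push_cast; linarith)
        (by push_cast; linarith) (by exact_mod_cast k3) (by exact_mod_cast k1)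
        (by exact_mod_cast k2)
      linarith
    · obtain ⟨_, _, _, _, -, h, -⟩ := strip cover_c hg A1 z1 z2 z3 (by push_cast; linarith)
        (by push_cast; linarith) (by simpa using z2) (by exact_mod_cast k1) (by exact_mod_cast k2)
      linarith
  obtain ⟨α, β, L, L', hW, h1, h2, h3⟩ := strip cover_d hg A1 z1 z2 z3 (by push_cast; linarith)
    (by push_cast; linarith) (by simpa using z2) (by exact_mod_cast k2)
    (by push_cast; linarith [hg.2.2.2.1])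
  obtain ⟨g1, -, g2, g3, ⟨rfl, -⟩ | g4 | ⟨-, g4⟩⟩ := hg
  · rw [show Real.pi * (4 * Real.pi / 81) = (2 * Real.pi / 9) ^ 2 by ring,
      Real.sqrt_sq (by positivity)] at A1
    exact (nball hW (by linarith) g3 z2 (by linarith) h3 A1).2
  · exfalso
    rw [g4, div_le_div_iff₀ (by norm_num) (by positivity)] at g1
    have h4 : 8 ≤ H ^ 2 := by nlinarith
    nlinarith
  · linarith [Real.pi_le_four]

end NCoreAux

open NCoreAux in
theorem core {v H J A : ℝ} {c : Fin 3 → ℝ} (hG : Gam v H J) (hA : A ≤ J)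
    (hs : 2 * A = c 0 + c 1 + c 2 + 3 * H * v) (hd : ∀ i, DirP A v H (c i)) :
    (∃ i, min (√(Real.pi * v)) 1 ≤ c i + H * v) ∨
      ∃ ρ : ℝ, 0 < ρ ∧ ρ < 1 ∧ v = Real.pi * ρ ^ 3 / 6 ∧ H = 2 / ρ ∧
        A = Real.pi * ρ ^ 2 / 2 ∧ J = A ∧ ∀ i, c i = 0 := by
  by_cases hl : ∃ i, min (√(Real.pi * v)) 1 ≤ c i + H * v
  · exact Or.inl hl
  right
  push Not at hl
  have hp := Real.pi_pos
  have hp3 := Real.pi_gt_three
  have hp4 := Real.pi_le_four
  have hc : ∀ i, 0 ≤ c i := fun i => (hd i).nonneg hG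
  have hA' := hA.trans hG.basic.2.2.2.2
  have hz : c 0 + c 1 + c 2 ≤ 0 → ∀ i, c i = 0 := fun h i => by
    have h0 := hc 0
    have h1 := hc 1
    have h2 := hc 2
    fin_cases i
    · exact show c 0 = 0 by linarith
    · exact show c 1 = 0 by linarith
    · exact show c 2 = 0 by linarith
  have hsm : 1 / Real.pi ≤ v → H ≤ 3 / 10 → False := fun h1 h2 =>
    nsmall h1 hG.basic.2.1 hG.basic.2.2.1 h2 (hA'.trans (min_le_right _ _)) hs hd hc fun i =>
      (hl i).trans_le (min_le_right _ _)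
  have hlt : 4 * Real.pi / 81 ≤ 1 / Real.pi := by
    rw [div_le_div_iff₀ (by norm_num) hp]
    nlinarith
  rcases hG with ⟨ρ, h0, h1, rfl, rfl, rfl⟩ | ⟨rfl, h1, h2, rfl⟩ | ⟨r, h0, h1, rfl, rfl, rfl⟩ |
    ⟨rfl, h1, h2, rfl⟩ | ⟨h0, h1, rfl, rfl⟩
  · have e : 3 * (2 / ρ) * (Real.pi * ρ ^ 3 / 6) = Real.pi * ρ ^ 2 := by
      field_simp
      norm_num
    rw [e] at hs
    have h2 : A = Real.pi * ρ ^ 2 / 2 := by linarith [hc 0, hc 1, hc 2]
    exact ⟨ρ, h0, by linarith, rfl, rfl, h2, h2.symm, hz (by linarith)⟩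
  · obtain ⟨rfl, rfl⟩ := num ⟨le_rfl, hlt, by linarith, h2, Or.inl ⟨rfl, h1⟩⟩ hA' (by linarith)
      hs hd hc hl
    exact ⟨2 / 3, by norm_num, by norm_num, by ring, by norm_num, by ring, rfl, hz (by linarith)⟩
  · exfalso
    have r0 : 0 < r := by linarith
    have r1 : Real.pi * r < 2 := by
      rw [lt_div_iff₀ hp] at h1
      linarith
    have r2 : 1 / r < 3 := by
      rw [div_lt_iff₀ r0]
      linarith
    have r3 : 3 / 10 ≤ 1 / r := by
      rw [le_div_iff₀ r0]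
      nlinarith
    refine r2.ne (num ⟨?_, ?_, by positivity, r2.le, Or.inr (Or.inl ?_)⟩ hA' r3 hs hd hc hl).1
    · have : (4 / 9) ^ 2 ≤ r ^ 2 := pow_le_pow_left₀ (by norm_num) h0.le 2
      nlinarith
    · rw [le_div_iff₀ hp]
      nlinarith [mul_pos hp r0]
    · field_simp
  · exfalso
    rcases le_total H (3 / 10) with k | k
    · exact hsm le_rfl k
    · have := (num ⟨hlt, le_rfl, by linarith, by linarith, Or.inr (Or.inr ⟨rfl, h2⟩)⟩ hA' k
        hs hd hc hl).1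
      linarith
  · exact (hsm h0.le (by norm_num)).elim

end Vale.Agent.P232
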