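import Vale.Agent.P232.DMin
import Vale.Agent.P232.DFlip
import Vale.Agent.P232.DFlux
import Vale.Agent.P232.DFace
import Vale.Agent.P232.DCyl
import Vale.Agent.P232.DBall3
import Vale.Agent.P232.NCore

open MeasureTheory Set Function Filter Topology
open scoped ENNReal

namespace Vale.Agent.P232

theorem key {D : Set X} (hD : IsMin D) (hv0 : 0 < vol D) (hv : vol D ≤ 1 / 2)
    (hA : area D ≤ Jc (vol D)) : area D = Jc (vol D) ∧ IsModel D := by
  obtain ⟨h₁, h₂, hJ, hG⟩ := exists_JD hv0 hv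
  obtain ⟨H, a, b, c, hF⟩ := exists_flux hD hJ
  have G := hG H a b
  have dir : ∀ i, DirP (area D) (vol D) H (c i) := fun i => by
    obtain ⟨L, L', l0, l1, l2, l3, hL⟩ := hD.1.nest i
    exact ⟨al D i, be D i, L, L', al_nonneg D i, hD.1.al_le_vol i, hD.1.vol_le_be i,
      be_le_one D i, l0, l1, l2, l3, face_top hD hJ hF i (continuous_In L L') hL,
      face_bot hD hJ hF i (continuous_In L L') hL,
      star hD.1 hF i (continuous_In L L') (fun a h0 h1 => In_nonneg L L' h0 h1) hL,
      Flux.le_area hD.1 hF i, Flux.cs hD.1 hF i⟩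
  rcases core G hA (Flux.sum hD.1 hF) dir with ⟨i, hi⟩ | ⟨ρ, ρ0, ρ1, e1, e2, e3, e4, hc⟩
  · have j := Jc_le hv0.le hv
    obtain ⟨m, hm⟩ := hD.1.cyl (Flux.mu_zero hD.1 hF i (hA.trans (j.trans hi))) hv0 hv
      (hA.trans j)
    exact ⟨le_antisymm hA (j.trans hm), m⟩
  · have hal : ∀ i, al D i = 0 := fun i => by
      obtain ⟨L, L', -, -, -, -, hL⟩ := hD.1.nest i
      exact (G.face (al_nonneg D i) (hD.1.al_le_vol i)
        (face_top hD hJ hF i (continuous_In L L') hL)).2 (hc i)
    obtain rfl : c = fun _ => 0 := funext hc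
    subst e2
    refine ⟨e4.symm, ball_model hD.1 ρ0 ρ1 hF hal (fun k => ?_) e1 e3⟩
    have h := face_bot hD hJ hF k (I := fun a => √(Real.pi * a)) (by fun_prop)
      (hD.1.lb_disc hal k)
    have b0 : 0 < be D k := hv0.trans_le (hD.1.vol_le_be k)
    have H0 : 0 < 2 / ρ := by positivity
    generalize 2 / ρ = H at h H0 ⊢
    simp only [zero_add] at h
    rw [Real.sqrt_le_left (by positivity)] at h
    rw [div_le_iff₀ (by positivity)]
    exact le_of_mul_le_mul_right (by nlinarith) b0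

theorem Dn.lower {D : Set X} (hD : Dn D) : Jc (vol D) ≤ area D := by
  obtain ⟨E, hE⟩ := exists_min
  suffices h : Jc (vol E) ≤ area E by linarith [hE.2 D hD]
  by_contra hlt
  have hlt := not_le.1 hlt
  have a0 := area_nonneg E
  have v0 : 0 < vol E := (vol_nonneg E).lt_of_ne fun e => by
    rw [← e, Jc_zero] at hlt
    linarith
  have v1 : vol E < 1 := (vol_le_one E).lt_of_ne fun e => by
    rw [e, Jc_one] at hlt
    linarith
  rcases le_total (vol E) (1 / 2) with h | h
  · exact hlt.ne (key hE v0 h hlt.le).1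
  · obtain ⟨F, hF, f1, f2⟩ := exists_flip hE.1
    have j : Jc (vol F) = Jc (vol E) := by rw [f1, Jc_symm]
    have m : IsMin F := ⟨hF, fun D' hD' => by linarith [hE.2 D' hD']⟩
    have := (key m (by linarith) (by linarith) (by linarith)).1
    linarith

theorem Dn.rigid {D : Set X} (hD : Dn D) (hv0 : 0 < vol D) (hv : vol D ≤ 1 / 2)
    (hA : area D ≤ Jc (vol D)) : IsModel D :=
  (key ⟨hD, fun D' hD' => by linarith [hD'.lower]⟩ hv0 hv hA).2

end Vale.Agent.P232
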