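import Vale.Agent.P232.DDens
import Vale.Agent.P232.DCpt
import Vale.Agent.P232.DJ

open MeasureTheory Set Function Filter Topology
open scoped ENNReal

namespace Vale.Agent.P232

namespace DMinAux

theorem int1 {g : X → ℝ} (hg : Continuous g) : Integrable g vQ :=
  (hg.continuousOn.integrableOn_compact isCompact_Icc).mono_set
    (t := Icc 0 1) fun _ hx => ⟨fun i => (hx i).1.le, fun i => (hx i).2.le⟩

theorem cvg {D : ℕ → Set X} {E : Set X} (hD : ∀ n, MeasurableSet (D n)) (hE : MeasurableSet E)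
    (h : ∀ᵐ x ∂vQ, ∀ᶠ n in atTop, (x ∈ D n ↔ x ∈ E)) {f : X → ℝ} (hf : Integrable f vQ) :
    Tendsto (fun n => ∫ x in D n, f x ∂vQ) atTop (𝓝 (∫ x in E, f x ∂vQ)) := by
  simp only [← integral_indicator (hD _), ← integral_indicator hE]
  refine tendsto_integral_of_dominated_convergence (fun x => ‖f x‖)
    (fun n => (hf.indicator (hD n)).1) hf.norm
    (fun n => Eventually.of_forall fun x => norm_indicator_le_norm_self f x) ?_
  filter_upwards [h] with x hx
  refine tendsto_const_nhds.congr' ?_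
  filter_upwards [hx] with n hn
  by_cases k : x ∈ E
  · rw [indicator_of_mem k, indicator_of_mem (hn.2 k)]
  · rw [indicator_of_notMem k, indicator_of_notMem (mt hn.1 k)]

theorem vol_eq (D : Set X) : vol D = ∫ _ in D, (1 : ℝ) ∂vQ := by simp [vol]

end DMinAux

open DMinAux in
theorem exists_min : ∃ D, IsMin D := by
  obtain ⟨C, hC⟩ := (isCompact_Icc (a := (0 : ℝ)) (b := 1)).bddAbove_image
    continuous_Jc.continuousOn
  have hb : BddBelow ((fun D => area D - Jc (vol D)) '' {D | Dn D}) := by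
    refine ⟨-C, ?_⟩
    rintro _ ⟨D, _, rfl⟩
    have h1 := hC (mem_image_of_mem Jc (⟨vol_nonneg D, vol_le_one D⟩ : vol D ∈ Icc (0 : ℝ) 1))
    have h2 := area_nonneg D
    linarith
  obtain ⟨u, -, hu, hm⟩ := exists_seq_tendsto_sInf
    (Nonempty.image _ ⟨∅, (⟨isOpen_empty, isLowerSet_empty⟩ : Dn ∅)⟩) hb
  choose D hD e using hm
  replace hD : ∀ n, Dn (D n) := hD
  obtain ⟨φ, E, hφ, hE, h⟩ := exists_subseq D hD
  refine ⟨E, hE, fun D' h' => le_trans ?_ (csInf_le hb ⟨D', h', rfl⟩)⟩
  have hv : Tendsto (fun n => vol (D (φ n))) atTop (𝓝 (vol E)) := by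
    simp only [vol_eq]
    exact cvg (fun n => (hD (φ n)).meas) hE.meas h (int1 continuous_const)
  rw [sub_le_iff_le_add]
  refine hE.area_le fun g hg h1 => le_of_tendsto_of_tendsto'
    (cvg (fun n => (hD (φ n)).meas) hE.meas h (int1 ?_))
    ((hu.comp hφ.tendsto_atTop).add ((continuous_Jc.tendsto _).comp hv)) fun n => ?_
  · exact continuous_finsetSum _ fun i _ =>
      ((hg i).1.continuous_fderiv one_ne_zero).clm_apply continuous_const
  · have k := (hD (φ n)).dvg_le hg h1
    have k' := e (φ n)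
    simp only [comp_apply] at k' ⊢
    linarith

end Vale.Agent.P232
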