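import Vale.Agent.P232.AFub

open MeasureTheory Set Function Filter Topology
open scoped ENNReal

namespace Vale.Agent.P232

namespace DPitAux

variable (ν : Measure ℝ) [IsFiniteMeasure ν]

theorem anti : Antitone fun t => ν.real (Ioi t) := fun _ _ h => measureReal_mono (Ioi_subset_Ioi h)

theorem right {t b : ℝ} (h : ∀ t', t < t' → ν.real (Ioi t') ≤ b) : ν.real (Ioi t) ≤ b := by
  have h1 := tendsto_measure_iUnion_atTop (μ := ν) (s := fun n : ℕ => Ioi (t + 1 / ((n : ℝ) + 1)))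
    fun m n hmn => Ioi_subset_Ioi (by gcongr)
  have e : ⋃ n : ℕ, Ioi (t + 1 / ((n : ℝ) + 1)) = Ioi t := by
    ext x
    simp only [mem_iUnion, mem_Ioi]
    refine ⟨fun ⟨n, hn⟩ => lt_trans (lt_add_of_pos_right _ Nat.one_div_pos_of_nat) hn, fun hx => ?_⟩
    obtain ⟨n, hn⟩ := exists_nat_one_div_lt (sub_pos.2 hx)
    exact ⟨n, by linarith⟩
  rw [e] at h1
  exact le_of_tendsto' ((ENNReal.tendsto_toReal (measure_ne_top _ _)).comp h1) fun n =>
    h _ (lt_add_of_pos_right _ Nat.one_div_pos_of_nat)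

theorem left {t b : ℝ} (h : ∀ t', t' < t → b ≤ ν.real (Ioi t')) : b ≤ ν.real (Ici t) := by
  have h1 := tendsto_measure_iInter_atTop (μ := ν) (s := fun n : ℕ => Ioi (t - 1 / ((n : ℝ) + 1)))
    (fun _ => measurableSet_Ioi.nullMeasurableSet) (fun m n hmn => Ioi_subset_Ioi (by gcongr))
    ⟨0, measure_ne_top _ _⟩
  have e : ⋂ n : ℕ, Ioi (t - 1 / ((n : ℝ) + 1)) = Ici t := by
    ext x
    simp only [mem_iInter, mem_Ioi, mem_Ici]
    refine ⟨fun hx => by_contra fun h0 => ?_,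
      fun hx n => lt_of_lt_of_le (sub_lt_self _ Nat.one_div_pos_of_nat) hx⟩
    obtain ⟨n, hn⟩ := exists_nat_one_div_lt (sub_pos.2 (not_le.1 h0))
    linarith [hx n]
  rw [e] at h1
  exact ge_of_tendsto' ((ENNReal.tendsto_toReal (measure_ne_top _ _)).comp h1) fun n =>
    h _ (sub_lt_self _ Nat.one_div_pos_of_nat)

/-- the quantile function -/
noncomputable def tau (b : ℝ) : ℝ := sInf {t | 0 ≤ t ∧ (ν.real (Ioi t) ≤ b ∨ 1 ≤ t)}

theorem tau_le {t b : ℝ} (h0 : 0 ≤ t) (h : ν.real (Ioi t) ≤ b ∨ 1 ≤ t) : tau ν b ≤ t :=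
  csInf_le ⟨0, fun _ h => h.1⟩ ⟨h0, h⟩

theorem tau_nonneg (b : ℝ) : 0 ≤ tau ν b := le_csInf ⟨1, zero_le_one, Or.inr le_rfl⟩ fun _ h => h.1

theorem tau_anti : Antitone (tau ν) := fun _ _ h =>
  csInf_le_csInf ⟨0, fun _ h => h.1⟩ ⟨1, zero_le_one, Or.inr le_rfl⟩
    fun _ ht => ⟨ht.1, ht.2.imp_left fun h' => h'.trans h⟩

theorem le_of_tau {t b : ℝ} (h1 : t < 1) (h : tau ν b ≤ t) : ν.real (Ioi t) ≤ b := by
  refine right ν fun t' ht => ?_
  obtain ⟨x, hx, hx'⟩ := exists_lt_of_csInf_lt (s := {t | 0 ≤ t ∧ (ν.real (Ioi t) ≤ b ∨ 1 ≤ t)})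
    ⟨1, zero_le_one, Or.inr le_rfl⟩ (h.trans_lt (lt_min ht h1))
  exact (anti ν (hx'.le.trans (min_le_left _ _))).trans
    (hx.2.resolve_right (not_le.2 (hx'.trans_le (min_le_right _ _))))

theorem tau_lt {b : ℝ} (h : ν.real (Ici 1) < b) : tau ν b < 1 := by
  by_contra h1
  refine not_le.2 h (left ν fun t ht => by_contra fun h2 => h1 ?_)
  exact (tau_le ν (le_max_right t 0) (Or.inl ((anti ν (le_max_left _ _)).trans
    (not_le.1 h2).le))).trans_lt (max_lt ht one_pos)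

theorem tau_eq {b : ℝ} (h : b ∈ Ioo (ν.real (Ici 1)) (ν.real (Ioi 0))) (h0 : ν {tau ν b} = 0) :
    ν.real (Ioi (tau ν b)) = b := by
  refine le_antisymm (le_of_tau ν (tau_lt ν h.1) le_rfl) ?_
  have e : ν.real (Ici (tau ν b)) = ν.real (Ioi (tau ν b)) :=
    (measureReal_congr (Ioi_ae_eq_Ici' h0)).symm
  refine e ▸ left ν fun t ht => ?_
  rcases le_total t 0 with h1 | h1
  · exact h.2.le.trans (anti ν h1)
  · exact by_contra fun h2 => not_le.2 ht (tau_le ν h1 (Or.inl (not_le.1 h2).le))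

theorem map_tau : (volume.restrict (Ioo (ν.real (Ici 1)) (ν.real (Ioi 0)))).map (tau ν) =
    ν.restrict (Ioo 0 1) := by
  refine (Measure.ext_of_Iic _ _ fun t => ?_).symm
  rw [Measure.map_apply (tau_anti ν).measurable measurableSet_Iic,
    Measure.restrict_apply measurableSet_Iic,
    Measure.restrict_apply ((tau_anti ν).measurable measurableSet_Iic)]
  rcases lt_or_ge t 0 with h0 | h0
  · rw [eq_empty_of_forall_notMem (s := Iic t ∩ _) fun x hx => by linarith [hx.1.out, hx.2.1],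
      eq_empty_of_forall_notMem (s := tau ν ⁻¹' Iic t ∩ _) fun x hx =>
        not_le.2 h0 ((tau_nonneg ν x).trans hx.1), measure_empty, measure_empty]
  rcases lt_or_ge t 1 with h1 | h1
  · have e1 : Iic t ∩ Ioo 0 1 = Ioc 0 t :=
      Subset.antisymm (fun x hx => ⟨hx.2.1, hx.1⟩) fun x hx => ⟨hx.2, hx.1, hx.2.trans_lt h1⟩
    have e2 : ν.real (Ioi 0) - ν.real (Ioi t) = ν.real (Ioc 0 t) := by
      rw [← Ioc_union_Ioi_eq_Ioi h0, measureReal_union Ioc_disjoint_Ioi_same measurableSet_Ioi,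
        add_sub_cancel_right]
    have h2 : ν.real (Ici 1) ≤ ν.real (Ioi t) := measureReal_mono (Ici_subset_Ioi.2 h1)
    rw [e1, ← ofReal_measureReal, ← e2]
    refine le_antisymm ?_ ?_
    · rw [← Real.volume_Ioo]
      exact measure_mono fun b hb => ⟨tau_le ν h0 (Or.inl hb.1.le), h2.trans_lt hb.1, hb.2⟩
    · rw [← Real.volume_Ico]
      exact measure_mono fun b hb => ⟨le_of_tau ν h1 hb.1, hb.2.2⟩
  · have e2 : ν.real (Ioi 0) - ν.real (Ici 1) = ν.real (Ioo 0 1) := by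
      have h2 : Disjoint (Ioo (0 : ℝ) 1) (Ici 1) := disjoint_left.2 fun x hx hx' => not_le.2 hx.2 hx'
      rw [← Ioo_union_Ici_eq_Ioi one_pos, measureReal_union h2 measurableSet_Ici,
        add_sub_cancel_right]
    have h3 : Ioo 0 1 ⊆ Iic t := fun x hx => hx.2.le.trans h1
    have h4 : Ioo (ν.real (Ici 1)) (ν.real (Ioi 0)) ⊆ tau ν ⁻¹' Iic t := fun x hx =>
      (tau_lt ν hx.1).le.trans h1
    rw [inter_eq_right.2 h3, inter_eq_right.2 h4, Real.volume_Ioo, e2, ofReal_measureReal]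

theorem atoms : {t | ν {t} ≠ 0}.Countable := by
  simpa only [pos_iff_ne_zero, id, setOf_eq_eq_singleton] using
    Measure.countable_meas_level_set_pos (μ := ν) measurable_id

end DPitAux

/-- probability integral transform, with atoms -/
theorem pit (ν : Measure ℝ) [IsFiniteMeasure ν] {s : ℝ → ℝ} (hs : Measurable s)
    (h01 : ∀ a, 0 ≤ s a ∧ s a ≤ 1) :
    ∫ b in Ioo (ν.real (Ici 1)) (ν.real (Ioi 0)), s b ≤
      ∫ t in Ioo (0 : ℝ) 1, (if ν {t} = 0 then s (ν.real (Ioi t)) else 1) ∂ν := by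
  have h1 : MeasurableSet {t | ν {t} = 0} := by
    simpa only [compl_setOf, not_not] using (DPitAux.atoms ν).measurableSet.compl
  have h2 : Measurable fun t => if ν {t} = 0 then s (ν.real (Ioi t)) else 1 :=
    Measurable.ite h1 (hs.comp (DPitAux.anti ν).measurable) measurable_const
  have h3 := (DPitAux.tau_anti ν).measurable
  rw [← DPitAux.map_tau, integral_map h3.aemeasurable h2.aestronglyMeasurable]
  refine integral_mono_of_nonneg (Eventually.of_forall fun b => (h01 b).1)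
    (Integrable.of_bound (h2.comp h3).aestronglyMeasurable 1 (Eventually.of_forall fun b => ?_))
    ((ae_restrict_mem measurableSet_Ioo).mono fun b hb => ?_)
  · split_ifs
    · rw [Real.norm_of_nonneg (h01 _).1]
      exact (h01 _).2
    · exact norm_one.le
  · dsimp only
    split_ifs with h
    · rw [DPitAux.tau_eq ν hb h]
    · exact (h01 b).2

theorem atoms_countable (ν : Measure ℝ) [IsFiniteMeasure ν] : {t | ν {t} ≠ 0}.Countable :=
  DPitAux.atoms ν

end Vale.Agent.P232
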