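import Vale.Agent.P232.DSig
import Vale.Agent.P232.DIso

open MeasureTheory Set Function Filter Topology
open scoped ENNReal

namespace Vale.Agent.P232

/-- the open box -/
def Bx (l r : Fin 3 → ℝ) : Set X := {x | ∀ i, l i < x i ∧ x i < r i}

namespace DRepAux

theorem pi_wd (ν : Fin 3 → Measure ℝ) [∀ i, IsFiniteMeasure (ν i)] {w : Fin 3 → ℝ → ℝ}
    (hw : ∀ i, BM (w i)) (h0 : ∀ i t, 0 ≤ w i t)
    [∀ i, SigmaFinite ((ν i).withDensity fun t => ENNReal.ofReal (w i t))] :
    Measure.pi (fun i => (ν i).withDensity fun t => ENNReal.ofReal (w i t)) =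
      (Measure.pi ν).withDensity fun x => ENNReal.ofReal (∏ i, w i (x i)) := by
  refine Measure.pi_eq fun s hs => ?_
  rw [withDensity_apply _ (MeasurableSet.univ_pi hs), Measure.restrict_pi_pi,
    ← ofReal_integral_eq_lintegral_ofReal
      (Integrable.fintype_prod fun i => (hw i).integrable _)
      (Eventually.of_forall fun x => Finset.prod_nonneg fun i _ => h0 i _),
    integral_fintype_prod_eq_prod,
    ENNReal.ofReal_prod_of_nonneg fun i _ => integral_nonneg (h0 i)]
  refine Finset.prod_congr rfl fun i _ => ?_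
  rw [withDensity_apply _ (hs i),
    ofReal_integral_eq_lintegral_ofReal ((hw i).integrable _) (Eventually.of_forall (h0 i))]

theorem Bx_eq (l r : Fin 3 → ℝ) : Bx l r = univ.pi fun i => Ioo (l i) (r i) := by
  ext x
  simp [Bx]

theorem meas_Bx (l r : Fin 3 → ℝ) : MeasurableSet (Bx l r) := by
  rw [Bx_eq]
  exact MeasurableSet.univ_pi fun _ => measurableSet_Ioo

theorem vQ_Bx {l r : Fin 3 → ℝ} (hl : ∀ i, 0 ≤ l i) (hr : ∀ i, r i ≤ 1) :
    vQ.restrict (Bx l r) = Measure.pi fun i => volume.restrict (Ioo (l i) (r i)) := by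
  have hsub : Bx l r ⊆ Q := fun x hx i => ⟨(hl i).trans_lt (hx i).1, (hx i).2.trans_le (hr i)⟩
  rw [vQ, Measure.restrict_restrict (meas_Bx l r), inter_eq_left.2 hsub, Bx_eq,
    ← Measure.restrict_pi_pi]
  rfl

theorem bm_prod {w : Fin 3 → ℝ → ℝ} (hw : ∀ i, BM (w i)) (s : Finset (Fin 3)) :
    BM (fun x : X => ∏ j ∈ s, w j (x j)) := by
  induction s using Finset.induction_on with
  | empty => simpa using BM.const (α := X) 1
  | insert a s ha ih =>
    simp only [Finset.prod_insert ha]
    exact ((hw a).comp (measurable_pi_apply a)).mul ih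

/-- coordinatewise reparametrisation -/
def G (g : Fin 3 → ℝ ≃o ℝ) (x : X) : X := fun i => g i (x i)

theorem cont_G (g : Fin 3 → ℝ ≃o ℝ) : Continuous (G g) :=
  continuous_pi fun i => (g i).continuous.comp (continuous_apply i)

theorem mono_G (g : Fin 3 → ℝ ≃o ℝ) : Monotone (G g) :=
  fun _ _ h i => (g i).monotone (h i)

theorem G_symm (g : Fin 3 → ℝ ≃o ℝ) (x : X) : G (fun i => (g i).symm) (G g x) = x := by
  funext i
  simp [G]

theorem G_update (g : Fin 3 → ℝ ≃o ℝ) (x : X) (i : Fin 3) (t : ℝ) :
    G g (update x i t) = update (G g x) i (g i t) := by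
  funext j
  by_cases h : j = i
  · subst h
    simp [G]
  · simp [G, update_of_ne h]

theorem change {w : Fin 3 → ℝ → ℝ} (hw : ∀ i, BM (w i)) (h0 : ∀ i t, 0 ≤ w i t)
    {l r : Fin 3 → ℝ} (hl : ∀ i, 0 ≤ l i) (hr : ∀ i, r i ≤ 1) {g : Fin 3 → ℝ ≃o ℝ}
    (hg : ∀ i, MeasurePreserving (g i)
      ((volume.restrict (Ioo (l i) (r i))).withDensity (fun t => ENNReal.ofReal (w i t))) vI)
    {F : X → ℝ} (hF : Measurable F) :
    ∫ y, F y ∂vQ = ∫ x, (Bx l r).indicator (fun x => (∏ i, w i (x i)) * F (G g x)) x ∂vQ := by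
  have := vI_prob
  have hfin : ∀ i, IsFiniteMeasure ((volume.restrict (Ioo (l i) (r i))).withDensity
      (fun t => ENNReal.ofReal (w i t))) := fun i =>
    isFiniteMeasure_withDensity_ofReal ((hw i).integrable _).2
  have hmp := measurePreserving_pi _ _ hg
  rw [← vQ_eq_pi, pi_wd _ hw h0, ← vQ_Bx hl hr] at hmp
  have e1 : ∫ y, F y ∂vQ = ∫ x, F (G g x) ∂((vQ.restrict (Bx l r)).withDensity
      fun x => ENNReal.ofReal (∏ i, w i (x i))) := by
    have e := integral_map (μ := (vQ.restrict (Bx l r)).withDensity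
      fun x => ENNReal.ofReal (∏ i, w i (x i))) hmp.measurable.aemeasurable
      hF.aestronglyMeasurable
    rw [hmp.map_eq] at e
    exact e
  rw [e1, integral_withDensity_eq_integral_toReal_smul (bm_prod hw _).1.ennreal_ofReal
    (Eventually.of_forall fun _ => ENNReal.ofReal_lt_top), integral_indicator (meas_Bx l r)]
  refine integral_congr_ae (Eventually.of_forall fun x => ?_)
  simp only [smul_eq_mul]
  rw [ENNReal.toReal_ofReal (Finset.prod_nonneg fun i _ => h0 i _)]

theorem vI_Iio (a : ℝ) : vI.real (Iio a) = max (min a 1) 0 := by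
  have : Iio a ∩ Ioo 0 1 = Ioo 0 (min a 1) := by
    ext t
    simp only [mem_inter_iff, mem_Iio, mem_Ioo, lt_min_iff]
    tauto
  rw [vI, measureReal_restrict_apply measurableSet_Iio, this, Real.volume_real_Ioo, sub_zero]

theorem ht_G {D : Set X} (hD : Dn D) {l r : Fin 3 → ℝ} (hl : ∀ i, 0 ≤ l i) (hr : ∀ i, r i ≤ 1)
    {g : Fin 3 → ℝ ≃o ℝ} (g0 : ∀ i, g i (l i) = 0) (g1 : ∀ i, g i (r i) = 1) (i : Fin 3) (x : X) :
    ht (G (fun i => (g i).symm) ⁻¹' D) i (G g x) = max (min (g i (ht D i x)) 1) 0 := by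
  rw [← vI_Iio, ht]
  refine measureReal_congr ?_
  filter_upwards [ae_vI] with s hs
  have h1 : (g i).symm s ∈ Ioo (0 : ℝ) 1 := by
    constructor
    · refine (hl i).trans_lt ?_
      rw [(g i).lt_symm_apply, g0]
      exact hs.1
    · refine lt_of_lt_of_le ?_ (hr i)
      rw [(g i).symm_apply_lt, g1]
      exact hs.2
  have h2 := hD.mem_iff i x h1
  rw [(g i).symm_apply_lt] at h2
  change (G (fun i => (g i).symm) (update (G g x) i s) ∈ D) = (s < g i (ht D i x))
  rw [G_update, G_symm]
  exact propext h2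

theorem mu_G {D : Set X} (hD : Dn D) {w : Fin 3 → ℝ → ℝ} (hw : ∀ i, BM (w i))
    (h0 : ∀ i t, 0 ≤ w i t) {l r : Fin 3 → ℝ} (hl : ∀ i, 0 ≤ l i) (hr : ∀ i, r i ≤ 1)
    (h1 : ∀ i, ∫ t in Ioo (l i) (r i), w i t = 1)
    {g : Fin 3 → ℝ ≃o ℝ} (g0 : ∀ i, g i (l i) = 0) (g1 : ∀ i, g i (r i) = 1)
    (hg : ∀ i, MeasurePreserving (g i)
      ((volume.restrict (Ioo (l i) (r i))).withDensity (fun t => ENNReal.ofReal (w i t))) vI)
    (hD' : Dn (G (fun i => (g i).symm) ⁻¹' D)) (i : Fin 3) {f : X → ℝ} (hf : BM f) :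
    ∫ y, f y ∂(mu (G (fun i => (g i).symm) ⁻¹' D) i) =
      ∫ x, (Bx l r).indicator (fun x => f (G g x) * ∏ j ∈ Finset.univ.erase i, w j (x j)) x
        ∂(mu D i) := by
  have := vQ_prob
  have := vI_prob
  set D' := G (fun i => (g i).symm) ⁻¹' D with hD'def
  have hF : BM ((Bx l r).indicator
      (fun x => f (G g x) * ∏ j ∈ Finset.univ.erase i, w j (x j))) :=
    ((hf.comp (cont_G g).measurable).mul (bm_prod hw _)).indicator (meas_Bx l r)
  set F := (Bx l r).indicator
      (fun x => f (G g x) * ∏ j ∈ Finset.univ.erase i, w j (x j)) with hFdef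
  have hΨ : BM (fun x => F (update x i (ht D i x))) := hF.comp (hD.measurable_gr i)
  have hu : BM ((Ioo (l i) (r i)).indicator (w i)) := (hw i).indicator measurableSet_Ioo
  set u := (Ioo (l i) (r i)).indicator (w i) with hudef
  have hu1 : ∫ t, u t ∂vI = 1 := by
    rw [hudef, integral_indicator measurableSet_Ioo, vI,
      Measure.restrict_restrict measurableSet_Ioo,
      inter_eq_left.2 (Ioo_subset_Ioo (hl i) (hr i)), h1]
  have hR : ∫ x, F x ∂(mu D i) = ∫ x, F (update x i (ht D i x)) ∂vQ := by
    rw [hD.integral_mu i hF.1, ← integral_indicator (measurableSet_Wd hD.meas i)]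
    refine integral_congr_ae (Eventually.of_forall fun x => ?_)
    by_cases hx : x ∈ Wd D i
    · rw [indicator_of_mem hx]
    · rw [indicator_of_notMem hx]
      refine (indicator_of_notMem (fun hb => hx ?_) _).symm
      have := hb i
      rw [update_self] at this
      exact ⟨(hl i).trans_lt this.1, this.2.trans_le (hr i)⟩
  have hpt : ∀ x, (Bx l r).indicator (fun x => (∏ j, w j (x j)) *
      (Wd D' i).indicator (fun y => f (update y i (ht D' i y))) (G g x)) x =
      u (x i) * F (update x i (ht D i x)) := by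
    intro x
    have hh := ht_G hD hl hr g0 g1 i x
    rw [← hD'def] at hh
    by_cases hx : x ∈ Bx l r
    · rw [indicator_of_mem hx, hudef, indicator_of_mem (mem_Ioo.2 (hx i))]
      by_cases hm : l i < ht D i x ∧ ht D i x < r i
      · have a0 : 0 < g i (ht D i x) := by
          rw [← g0 i]
          exact (g i).strictMono hm.1
        have a1 : g i (ht D i x) < 1 := by
          rw [← g1 i]
          exact (g i).strictMono hm.2
        rw [min_eq_left a1.le, max_eq_left a0.le] at hh
        have hw' : G g x ∈ Wd D' i := by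
          change 0 < ht D' i (G g x) ∧ ht D' i (G g x) < 1
          rw [hh]
          exact ⟨a0, a1⟩
        have hb : update x i (ht D i x) ∈ Bx l r := by
          intro j
          by_cases hj : j = i
          · subst hj
            rwa [update_self]
          · rw [update_of_ne hj]
            exact hx j
        rw [indicator_of_mem hw', hFdef, indicator_of_mem hb, hh, G_update,
          ← Finset.mul_prod_erase Finset.univ (fun j => w j (x j)) (Finset.mem_univ i)]
        have : ∏ j ∈ Finset.univ.erase i, w j (update x i (ht D i x) j) =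
            ∏ j ∈ Finset.univ.erase i, w j (x j) :=
          Finset.prod_congr rfl fun j hj => by rw [update_of_ne (Finset.ne_of_mem_erase hj)]
        rw [this]
        ring
      · have hw' : G g x ∉ Wd D' i := by
          intro hw'
          change 0 < ht D' i (G g x) ∧ ht D' i (G g x) < 1 at hw'
          rw [hh] at hw'
          simp only [lt_max_iff, lt_min_iff, max_lt_iff, min_lt_iff, lt_irrefl, or_false] at hw'
          refine hm ⟨?_, ?_⟩
          · rw [← (g i).lt_iff_lt, g0]
            exact hw'.1.1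
          · rw [← (g i).lt_iff_lt, g1]
            exact hw'.2.1
        have hb : update x i (ht D i x) ∉ Bx l r := fun hb => hm (by simpa using hb i)
        rw [indicator_of_notMem hw', hFdef, indicator_of_notMem hb, mul_zero, mul_zero]
    · rw [indicator_of_notMem hx]
      by_cases hi : x i ∈ Ioo (l i) (r i)
      · have hb : update x i (ht D i x) ∉ Bx l r := by
          intro hb
          refine hx fun j => ?_
          by_cases hj : j = i
          · subst hj
            exact hi
          · have := hb j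
            rwa [update_of_ne hj] at this
        rw [hFdef, indicator_of_notMem hb, mul_zero]
      · rw [hudef, indicator_of_notMem hi, zero_mul]
  rw [hR, hD'.integral_mu i hf.1, ← integral_indicator (measurableSet_Wd hD'.meas i),
    change hw h0 hl hr hg
      ((hf.comp (hD'.measurable_gr i)).indicator (measurableSet_Wd hD'.meas i)).1]
  simp only [hpt]
  rw [integral_update (((hu.comp (measurable_pi_apply i)).mul hΨ).integrable vQ) i]
  refine integral_congr_ae (Eventually.of_forall fun x => ?_)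
  simp only [update_self, ht_update, update_idem]
  rw [integral_mul_const, hu1, one_mul]

theorem cs (a b : Fin 3 → ℝ) (ha : ∑ i, a i ^ 2 ≤ 1) : ∑ i, a i * b i ≤ √(∑ i, b i ^ 2) := by
  refine Real.le_sqrt_of_sq_le ((Finset.sum_mul_sq_le_sq_mul_sq _ _ _).trans ?_)
  exact mul_le_of_le_one_left (Finset.sum_nonneg fun _ _ => sq_nonneg _) ha

end DRepAux

open DRepAux

theorem exists_rep {D : Set X} (hD : Dn D) {w : Fin 3 → ℝ → ℝ} (hw : ∀ i, BM (w i)) {c : ℝ}
    (hc : 0 < c) (hcw : ∀ i t, c ≤ w i t) {l r : Fin 3 → ℝ} (hl : ∀ i, 0 ≤ l i)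
    (hlr : ∀ i, l i < r i) (hr : ∀ i, r i ≤ 1) (h1 : ∀ i, ∫ t in Ioo (l i) (r i), w i t = 1) :
    ∃ D', Dn D' ∧ vol D' = ∫ x in D ∩ Bx l r, ∏ i, w i (x i) ∂vQ ∧
      area D' ≤ ∫ x in Bx l r,
        √(∑ i, (nv D i x * ∏ j ∈ Finset.univ.erase i, w j (x j)) ^ 2) ∂(sg D) := by
  have := vQ_prob
  have := sg_fin D
  choose g g0 g1 hg using fun i => exists_iso (hw i) hc (hcw i) (hlr i) (h1 i)
  have h0 : ∀ i t, 0 ≤ w i t := fun i t => hc.le.trans (hcw i t)
  have hD' : Dn (G (fun i => (g i).symm) ⁻¹' D) :=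
    ⟨hD.1.preimage (cont_G _), hD.2.preimage (mono_G _)⟩
  refine ⟨_, hD', ?_, ?_⟩
  · rw [vol, ← integral_indicator_one hD'.meas,
      change hw h0 hl hr hg (measurable_one.indicator hD'.meas),
      ← integral_indicator (hD.meas.inter (meas_Bx l r))]
    refine integral_congr_ae (Eventually.of_forall fun x => ?_)
    by_cases hx : x ∈ Bx l r
    · by_cases hxD : x ∈ D
      · have : G g x ∈ G (fun i => (g i).symm) ⁻¹' D := by
          rw [mem_preimage, G_symm]
          exact hxD
        rw [indicator_of_mem hx, indicator_of_mem this, indicator_of_mem (mem_inter hxD hx)]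
        simp
      · have : G g x ∉ G (fun i => (g i).symm) ⁻¹' D := by
          rw [mem_preimage, G_symm]
          exact hxD
        rw [indicator_of_mem hx, indicator_of_notMem this,
          indicator_of_notMem fun h : x ∈ D ∩ Bx l r => hxD h.1]
        simp
    · rw [indicator_of_notMem hx, indicator_of_notMem fun h : x ∈ D ∩ Bx l r => hx h.2]
  · obtain ⟨φ, hφ, -, hφ1, hA⟩ := exists_cal (G (fun i => (g i).symm) ⁻¹' D)
    have hF : ∀ i, BM ((Bx l r).indicator
        (fun x => φ i (G g x) * ∏ j ∈ Finset.univ.erase i, w j (x j))) := fun i =>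
      (((hφ i).comp (cont_G g).measurable).mul (bm_prod hw _)).indicator (meas_Bx l r)
    have hint : ∀ i {F : X → ℝ}, BM F → Integrable (fun x => F x * nv D i x) (sg D) := by
      rintro i F ⟨hm, C, hC⟩
      refine integrable_of_le_nn D (hm.mul (measurable_nv D i)) C fun x => ?_
      rw [abs_mul, abs_of_nonneg (nv_nonneg D i x)]
      exact mul_le_mul (hC x) (nv_le_nn D i x) (nv_nonneg D i x) ((abs_nonneg _).trans (hC x))
    rw [hA]
    simp only [mu_G hD hw h0 hl hr h1 g0 g1 hg hD' _ (hφ _), integral_mu_eq D _ (hF _)]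
    rw [← integral_finsetSum _ fun i _ => hint i (hF i), ← integral_indicator (meas_Bx l r)]
    refine integral_mono (integrable_finsetSum _ fun i _ => hint i (hF i)) ?_ fun x => ?_
    · refine Integrable.indicator ?_ (meas_Bx l r)
      refine Integrable.mono' (integrable_finsetSum Finset.univ fun i _ =>
        (hint i (bm_prod hw (Finset.univ.erase i))).abs) ?_ (Eventually.of_forall fun x => ?_)
      · exact (Finset.measurable_sum _ fun i _ =>
          ((measurable_nv D i).mul (bm_prod hw _).1).pow_const 2).sqrt.aestronglyMeasurable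
      · rw [Real.norm_eq_abs, abs_of_nonneg (Real.sqrt_nonneg _)]
        refine Real.sqrt_le_iff.2 ⟨Finset.sum_nonneg fun _ _ => abs_nonneg _, ?_⟩
        refine le_trans (le_of_eq ?_) (Finset.sum_sq_le_sq_sum_of_nonneg fun _ _ => abs_nonneg _)
        exact Finset.sum_congr rfl fun i _ => by rw [sq_abs, mul_comm]
    · by_cases hx : x ∈ Bx l r
      · simp only [indicator_of_mem hx]
        refine le_trans (le_of_eq ?_) (cs (fun i => φ i (G g x)) _ (hφ1 _))
        exact Finset.sum_congr rfl fun i _ => by ring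
      · simp [indicator_of_notMem hx]

end Vale.Agent.P232
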