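import Vale.Agent.P232.DHt

open MeasureTheory Set Function Filter Topology
open scoped ENNReal

namespace Vale.Agent.P232

variable {D : Set X}

theorem mu_fin (D : Set X) (i : Fin 3) : IsFiniteMeasure (mu D i) := by
  have := vQ_prob
  unfold mu
  infer_instance

theorem sg_fin (D : Set X) : IsFiniteMeasure (sg D) := by
  have := mu_fin D
  unfold sg
  infer_instance

theorem mu_leb (D : Set X) (i : Fin 3) : (mu D i).HaveLebesgueDecomposition (sg D) := by
  have := mu_fin D i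
  have := sg_fin D
  exact Measure.haveLebesgueDecomposition_of_finiteMeasure

theorem mu_le_sg (D : Set X) (i : Fin 3) : mu D i ≤ sg D := by
  unfold sg
  fin_cases i
  · exact Measure.le_add_right (Measure.le_add_right le_rfl)
  · exact Measure.le_add_right (Measure.le_add_left le_rfl)
  · exact Measure.le_add_left le_rfl

theorem Dn.measurable_gr (hD : Dn D) (i : Fin 3) :
    Measurable (fun x : X => update x i (ht D i x)) :=
  measurable_update'.comp (measurable_id.prodMk (measurable_ht hD.meas i))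

theorem Dn.integral_mu (hD : Dn D) (i : Fin 3) {f : X → ℝ} (hf : Measurable f) :
    ∫ x, f x ∂(mu D i) = ∫ x in Wd D i, f (update x i (ht D i x)) ∂vQ :=
  integral_map (hD.measurable_gr i).aemeasurable hf.aestronglyMeasurable

theorem Dn.ae_mu_iff (hD : Dn D) (i : Fin 3) {p : X → Prop} (hp : MeasurableSet {x | p x}) :
    (∀ᵐ x ∂(mu D i), p x) ↔ ∀ᵐ x ∂vQ, x ∈ Wd D i → p (update x i (ht D i x)) :=
  (ae_map_iff (hD.measurable_gr i).aemeasurable hp).trans
    (ae_restrict_iff' (measurableSet_Wd hD.meas i))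

theorem Dn.mu_univ (hD : Dn D) (i : Fin 3) : (mu D i).real univ = be D i - al D i := by
  rw [← hD.wd_real i, mu, map_measureReal_apply (hD.measurable_gr i) MeasurableSet.univ,
    preimage_univ, measureReal_restrict_apply_univ]

theorem Dn.ae_sg_Q (hD : Dn D) : ∀ᵐ x ∂(sg D), x ∈ Q := by
  have h : ∀ i, ∀ᵐ x ∂(mu D i), x ∈ Q := fun i => (hD.ae_mu_iff i measurableSet_Q).2 (by
    filter_upwards [ae_vQ] with x hx hW j
    by_cases hj : j = i
    · subst hj
      rw [update_self]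
      exact hW
    · rw [update_of_ne hj]
      exact hx j)
  simp only [sg, ae_add_measure_iff, h, and_self]

theorem ae_sg_iff (D : Set X) {p : X → Prop} :
    (∀ᵐ x ∂(sg D), p x) ↔ ∀ i, ∀ᵐ x ∂(mu D i), p x := by
  simp only [sg, ae_add_measure_iff, Fin.forall_fin_succ, and_assoc]
  simp

/-- the marginal of `mu D i` in another coordinate is absolutely continuous -/
theorem Dn.mu_null (hD : Dn D) {i k : Fin 3} (hik : i ≠ k) {B : Set ℝ} (hB : MeasurableSet B)
    (h0 : vI B = 0) : ∀ᵐ x ∂(mu D i), x k ∉ B := by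
  refine (hD.ae_mu_iff i (measurable_pi_apply k hB.compl)).2 ?_
  filter_upwards [(mp_eval k).quasiMeasurePreserving.ae (measure_eq_zero_iff_ae_notMem.1 h0)]
    with x hx _
  rwa [update_of_ne hik.symm]

theorem measurable_nv (D : Set X) (i : Fin 3) : Measurable (nv D i) :=
  (Measure.measurable_rnDeriv _ _).ennreal_toReal

theorem measurable_nn (D : Set X) : Measurable (nn D) :=
  (Finset.measurable_fun_sum _ fun i _ => (measurable_nv D i).pow_const 2).sqrt

theorem measurable_kap (D : Set X) (i : Fin 3) : Measurable (kap D i) :=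
  (((measurable_nn D).pow_const 2).sub ((measurable_nv D i).pow_const 2)).div (measurable_nn D)

theorem measurable_pp (D : Set X) (i : Fin 3) : Measurable (pp D i) :=
  (((measurable_nn D).pow_const 2).sub ((measurable_nv D i).pow_const 2)).sqrt

theorem nv_nonneg (D : Set X) (i : Fin 3) (x : X) : 0 ≤ nv D i x := ENNReal.toReal_nonneg

theorem nn_nonneg (D : Set X) (x : X) : 0 ≤ nn D x := Real.sqrt_nonneg _

theorem nn_sq (D : Set X) (x : X) : nn D x ^ 2 = ∑ i, nv D i x ^ 2 :=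
  Real.sq_sqrt (Finset.sum_nonneg fun _ _ => sq_nonneg _)

theorem nv_le_nn (D : Set X) (i : Fin 3) (x : X) : nv D i x ≤ nn D x :=
  Real.le_sqrt_of_sq_le (Finset.single_le_sum (f := fun i => nv D i x ^ 2)
    (fun _ _ => sq_nonneg _) (Finset.mem_univ i))

theorem pp_nonneg (D : Set X) (i : Fin 3) (x : X) : 0 ≤ pp D i x := Real.sqrt_nonneg _

theorem pp_sq (D : Set X) (i : Fin 3) (x : X) : pp D i x ^ 2 = nn D x ^ 2 - nv D i x ^ 2 :=
  Real.sq_sqrt (sub_nonneg.2 (pow_le_pow_left₀ (nv_nonneg D i x) (nv_le_nn D i x) 2))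

theorem pp_le_nn (D : Set X) (i : Fin 3) (x : X) : pp D i x ≤ nn D x :=
  Real.sqrt_le_iff.2 ⟨nn_nonneg D x, sub_le_self _ (sq_nonneg _)⟩

theorem kap_nonneg (D : Set X) (i : Fin 3) (x : X) : 0 ≤ kap D i x :=
  div_nonneg (sub_nonneg.2 (pow_le_pow_left₀ (nv_nonneg D i x) (nv_le_nn D i x) 2))
    (nn_nonneg D x)

theorem kap_le_nn (D : Set X) (i : Fin 3) (x : X) : kap D i x ≤ nn D x :=
  div_le_of_le_mul₀ (nn_nonneg D x) (nn_nonneg D x) (by nlinarith [sq_nonneg (nv D i x)])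

theorem kap_add (D : Set X) (i : Fin 3) (x : X) :
    kap D i x + nv D i x ^ 2 / nn D x = nn D x := by
  rw [kap, ← add_div, sub_add_cancel, sq, mul_self_div_self]

theorem sum_kap (D : Set X) (x : X) : ∑ i, kap D i x = 2 * nn D x := by
  have h := Finset.sum_congr rfl fun i (_ : i ∈ Finset.univ) => kap_add D i x
  rw [Finset.sum_add_distrib, ← Finset.sum_div, ← nn_sq, sq, mul_self_div_self] at h
  simp only [Finset.sum_const, Finset.card_univ, Fintype.card_fin, nsmul_eq_mul,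
    Nat.cast_ofNat] at h
  linarith

theorem ae_nv (D : Set X) :
    ∀ᵐ x ∂(sg D), ∑ i, nv D i x = 1 ∧ 1 / 2 ≤ nn D x ∧ nn D x ≤ 1 := by
  have := mu_fin D
  have := sg_fin D
  have := mu_leb D
  filter_upwards [Measure.rnDeriv_self (sg D), Measure.rnDeriv_add (mu D 0 + mu D 1) (mu D 2) (sg D),
    Measure.rnDeriv_add (mu D 0) (mu D 1) (sg D), Measure.rnDeriv_lt_top (mu D 0) (sg D),
    Measure.rnDeriv_lt_top (mu D 1) (sg D), Measure.rnDeriv_lt_top (mu D 2) (sg D)]
    with x h1 h2 h3 h4 h5 h6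
  have h7 : nv D 0 x + nv D 1 x + nv D 2 x = 1 := by
    rw [nv, nv, nv, ← ENNReal.toReal_add h4.ne h5.ne,
      ← ENNReal.toReal_add (ENNReal.add_ne_top.2 ⟨h4.ne, h5.ne⟩) h6.ne,
      ← Pi.add_apply ((mu D 0).rnDeriv (sg D)), ← h3,
      ← Pi.add_apply ((mu D 0 + mu D 1).rnDeriv (sg D)), ← h2]
    exact (congrArg ENNReal.toReal h1).trans ENNReal.toReal_one
  have h8 := nn_sq D x
  rw [Fin.sum_univ_three] at h8 ⊢
  have a0 := nv_nonneg D 0 x
  have a1 := nv_nonneg D 1 x
  have a2 := nv_nonneg D 2 x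
  refine ⟨h7, (le_abs_self _).trans (abs_le_of_sq_le_sq ?_ (nn_nonneg D x)),
    (le_abs_self _).trans (abs_le_of_sq_le_sq ?_ zero_le_one)⟩
  · nlinarith [sq_nonneg (nv D 0 x - 1 / 3), sq_nonneg (nv D 1 x - 1 / 3),
      sq_nonneg (nv D 2 x - 1 / 3)]
  · rw [h8, ← h7]
    nlinarith [mul_nonneg a0 a1, mul_nonneg a0 a2, mul_nonneg a1 a2]

/-- functions bounded by a multiple of `nn` are integrable -/
theorem integrable_of_le_nn (D : Set X) {f : X → ℝ} (hf : Measurable f) (C : ℝ)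
    (h : ∀ x, |f x| ≤ C * nn D x) : Integrable f (sg D) := by
  have := sg_fin D
  refine Integrable.of_bound hf.aestronglyMeasurable |C| ?_
  filter_upwards [ae_nv D] with x hx
  exact (h x).trans ((mul_le_mul_of_nonneg_right (le_abs_self C) (nn_nonneg D x)).trans
    (mul_le_of_le_one_right (abs_nonneg C) hx.2.2))

theorem integral_mu_eq (D : Set X) (i : Fin 3) {f : X → ℝ} (hf : BM f) :
    ∫ x, f x ∂(mu D i) = ∫ x, f x * nv D i x ∂(sg D) := by
  have _ := hf
  have := mu_fin D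
  have := sg_fin D
  have := mu_leb D
  rw [← integral_rnDeriv_smul (Measure.absolutelyContinuous_of_le (mu_le_sg D i))]
  simp only [nv, smul_eq_mul, mul_comm]

theorem mu_eq_zero_iff (D : Set X) (i : Fin 3) :
    mu D i = 0 ↔ ∀ᵐ x ∂(sg D), nv D i x = 0 := by
  have := mu_fin D
  have := sg_fin D
  have := mu_leb D
  constructor
  · intro h
    filter_upwards [Measure.rnDeriv_zero (sg D)] with x hx
    rw [nv, h, hx]
    rfl
  · intro h
    rw [← Measure.withDensity_rnDeriv_eq _ _ (Measure.absolutelyContinuous_of_le (mu_le_sg D i)),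
      ← withDensity_zero (μ := sg D)]
    refine withDensity_congr_ae ?_
    filter_upwards [h, Measure.rnDeriv_lt_top (mu D i) (sg D)] with x h1 h2
    exact ((ENNReal.toReal_eq_zero_iff _).1 h1).resolve_right h2.ne

theorem area_nonneg (D : Set X) : 0 ≤ area D := integral_nonneg (nn_nonneg D)

namespace DSigAux

theorem int_nn (D : Set X) : Integrable (nn D) (sg D) :=
  integrable_of_le_nn D (measurable_nn D) 1 fun x => by
    rw [abs_of_nonneg (nn_nonneg D x), one_mul]

theorem int_mul (D : Set X) {f : X → ℝ} (hf : BM f) (i : Fin 3) :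
    Integrable (fun x => f x * nv D i x) (sg D) := by
  obtain ⟨hm, C, hC⟩ := hf
  refine integrable_of_le_nn D (hm.mul (measurable_nv D i)) C fun x => ?_
  rw [abs_mul, abs_of_nonneg (nv_nonneg D i x)]
  exact mul_le_mul (hC x) (nv_le_nn D i x) (nv_nonneg D i x) ((abs_nonneg _).trans (hC x))

theorem int_sum (D : Set X) {g : Fin 3 → X → ℝ} (hg : ∀ i, BM (g i)) :
    Integrable (fun x => ∑ i, g i x * nv D i x) (sg D) :=
  integrable_finsetSum _ fun i _ => int_mul D (hg i) i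

theorem sum_eq (D : Set X) {g : Fin 3 → X → ℝ} (hg : ∀ i, BM (g i)) :
    ∑ i, ∫ x, g i x ∂(mu D i) = ∫ x, ∑ i, g i x * nv D i x ∂(sg D) := by
  rw [integral_finsetSum _ fun i _ => int_mul D (hg i) i]
  exact Finset.sum_congr rfl fun i _ => integral_mu_eq D i (hg i)

theorem pt_le (D : Set X) {g : Fin 3 → X → ℝ} (h1 : ∀ x, ∑ i, g i x ^ 2 ≤ 1) (x : X) :
    ∑ i, g i x * nv D i x ≤ nn D x :=
  (Real.sum_mul_le_sqrt_mul_sqrt _ _ _).trans
    (mul_le_of_le_one_left (nn_nonneg D x) (Real.sqrt_le_one.2 (h1 x)))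

end DSigAux

theorem cal_le (D : Set X) {g : Fin 3 → X → ℝ} (hg : ∀ i, BM (g i))
    (h1 : ∀ x, ∑ i, g i x ^ 2 ≤ 1) : ∑ i, ∫ x, g i x ∂(mu D i) ≤ area D := by
  rw [DSigAux.sum_eq D hg]
  exact integral_mono (DSigAux.int_sum D hg) (DSigAux.int_nn D) (DSigAux.pt_le D h1)

theorem cal_eq (D : Set X) {g : Fin 3 → X → ℝ} (hg : ∀ i, BM (g i))
    (h1 : ∀ x, ∑ i, g i x ^ 2 ≤ 1) (h : area D ≤ ∑ i, ∫ x, g i x ∂(mu D i)) :
    ∀ᵐ x ∂(sg D), ∀ i, nv D i x = nn D x * g i x := by
  have h2 := le_antisymm (cal_le D hg h1) h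
  rw [DSigAux.sum_eq D hg, area, integral_eq_iff_of_ae_le (DSigAux.int_sum D hg)
    (DSigAux.int_nn D) (ae_of_all _ (DSigAux.pt_le D h1))] at h2
  filter_upwards [h2] with x hx i
  have h3 : ∑ i, (nv D i x - nn D x * g i x) ^ 2 ≤ 0 := by
    have h4 := nn_sq D x
    have h5 := mul_le_mul_of_nonneg_left (h1 x) (sq_nonneg (nn D x))
    have h6 := congrArg (nn D x * ·) hx
    simp only [Fin.sum_univ_three] at h4 h5 h6 ⊢
    linarith
  have h4 := (Finset.single_le_sum (f := fun i => (nv D i x - nn D x * g i x) ^ 2)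
    (fun _ _ => sq_nonneg _) (Finset.mem_univ i)).trans h3
  exact sub_eq_zero.1 (pow_eq_zero_iff two_ne_zero |>.1 (le_antisymm h4 (sq_nonneg _)))

theorem exists_cal (D : Set X) : ∃ g : Fin 3 → X → ℝ, (∀ i, BM (g i)) ∧
    (∀ i x, 0 ≤ g i x) ∧ (∀ x, ∑ i, g i x ^ 2 ≤ 1) ∧
    area D = ∑ i, ∫ x, g i x ∂(mu D i) := by
  have h0 : ∀ i x, 0 ≤ nv D i x / nn D x := fun i x => div_nonneg (nv_nonneg D i x) (nn_nonneg D x)
  have hg : ∀ i, BM fun x => nv D i x / nn D x := fun i =>
    ⟨(measurable_nv D i).div (measurable_nn D), 1, fun x => by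
      rw [abs_of_nonneg (h0 i x)]
      exact div_le_one_of_le₀ (nv_le_nn D i x) (nn_nonneg D x)⟩
  refine ⟨fun i x => nv D i x / nn D x, hg, h0, fun x => ?_, ?_⟩
  · simp only [div_pow]
    rw [← Finset.sum_div, ← nn_sq]
    exact div_self_le_one _
  · rw [DSigAux.sum_eq D hg, area]
    congr 1
    funext x
    simp only [div_mul_eq_mul_div, ← sq]
    rw [← Finset.sum_div, ← nn_sq, sq, mul_self_div_self]

end Vale.Agent.P232
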