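import Vale.Agent.P232.DSig
import Vale.Agent.P232.DPit

open MeasureTheory Set Function Filter Topology
open scoped ENNReal

namespace Vale.Agent.P232

variable {D : Set X} {H : ℝ} {c : Fin 3 → ℝ}

/-- levels carrying an atom of the law of the height -/
def At (D : Set X) (i : Fin 3) : Set ℝ := {t | vQ {x | ht D i x = t} ≠ 0}

namespace DStarAux

theorem map_atom (hD : Dn D) (i : Fin 3) (t : ℝ) :
    vQ.map (ht D i) {t} = vQ {x | ht D i x = t} :=
  Measure.map_apply (measurable_ht hD.meas i) (measurableSet_singleton t)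

theorem int_nn (D : Set X) : Integrable (nn D) (sg D) :=
  integrable_of_le_nn D (measurable_nn D) 1 fun x => by
    rw [abs_of_nonneg (nn_nonneg D x), one_mul]

theorem int_mul (D : Set X) {f g : X → ℝ} (hf : BM f) (hg : Measurable g) (h0 : ∀ x, 0 ≤ g x)
    (h1 : ∀ x, g x ≤ nn D x) : Integrable (fun x => f x * g x) (sg D) := by
  obtain ⟨m, C, hC⟩ := hf
  refine integrable_of_le_nn D (m.mul hg) C fun x => ?_
  rw [abs_mul, abs_of_nonneg (h0 x)]
  exact mul_le_mul (hC x) (h1 x) (h0 x) ((abs_nonneg _).trans (hC x))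

theorem int_kap (D : Set X) (i : Fin 3) : Integrable (kap D i) (sg D) := by
  simpa using int_mul D (BM.const 1) (measurable_kap D i) (kap_nonneg D i) (kap_le_nn D i)

theorem rest_nonneg (D : Set X) (i : Fin 3) (x : X) : 0 ≤ nv D i x ^ 2 / nn D x :=
  div_nonneg (sq_nonneg _) (nn_nonneg D x)

theorem rest_eq (D : Set X) (i : Fin 3) (x : X) :
    nv D i x ^ 2 / nn D x = nn D x - kap D i x := by linarith [kap_add D i x]

theorem int_rest (D : Set X) (i : Fin 3) : Integrable (fun x => nv D i x ^ 2 / nn D x) (sg D) := by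
  simp only [rest_eq]
  exact (int_nn D).sub (int_kap D i)

end DStarAux

open DStarAux

theorem Dn.at_countable (hD : Dn D) (i : Fin 3) : (At D i).Countable := by
  have := vQ_prob
  have := atoms_countable (vQ.map (ht D i))
  simp only [map_atom hD] at this
  exact this

open Classical in
theorem Dn.pit_mu (hD : Dn D) (i : Fin 3) {s : ℝ → ℝ} (hs : Measurable s)
    (h01 : ∀ a, 0 ≤ s a ∧ s a ≤ 1) :
    ∫ b in Ioo (al D i) (be D i), s b ≤
      ∫ x, (if x i ∈ At D i then 1 else s (sl D i (x i))) ∂(mu D i) := by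
  have := vQ_prob
  have m := measurable_ht hD.meas i
  have mA := (hD.at_countable i).measurableSet
  have mg : Measurable fun t => if t ∈ At D i then 1 else s (sl D i t) :=
    Measurable.ite mA measurable_const (hs.comp (bm_sl D i).1)
  have h := pit (vQ.map (ht D i)) hs h01
  have e : ∀ t, (if vQ.map (ht D i) {t} = 0 then s ((vQ.map (ht D i)).real (Ioi t)) else 1) =
      if t ∈ At D i then 1 else s (sl D i t) := by
    intro t
    rw [map_atom hD, map_measureReal_apply m measurableSet_Ioi]
    by_cases a : vQ {x | ht D i x = t} = 0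
    · rw [if_pos a, if_neg fun b : t ∈ At D i => b a]; rfl
    · rw [if_neg a, if_pos (show t ∈ At D i from a)]
  simp only [e] at h
  rw [map_measureReal_apply m measurableSet_Ici, map_measureReal_apply m measurableSet_Ioi,
    setIntegral_map measurableSet_Ioo mg.aestronglyMeasurable m.aemeasurable] at h
  rw [hD.integral_mu i (f := fun x => if x i ∈ At D i then 1 else s (sl D i (x i)))
    (mg.comp (measurable_pi_apply i))]
  simp only [update_self]
  exact h

theorem Flux.mass (hD : Dn D) (hF : Flux D H c) (i : Fin 3) :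
    ∫ x, kap D i x ∂(sg D) = c i + H * vol D := by
  have := vI_prob
  have h := hF i (fun _ => 1) (BM.const 1)
  simp only [one_mul] at h
  rw [h, integral_add (integrable_const _) (((bm_sl D i).integrable vI).const_mul H),
    integral_const_mul, ← hD.vol_eq i]
  simp

theorem Flux.sum (hD : Dn D) (hF : Flux D H c) :
    2 * area D = c 0 + c 1 + c 2 + 3 * H * vol D := by
  have h : ∑ i, ∫ x, kap D i x ∂(sg D) = 2 * area D := by
    rw [← integral_finsetSum _ fun i _ => int_kap D i]
    simp only [sum_kap, integral_const_mul, area]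
  rw [Fin.sum_univ_three, hF.mass hD, hF.mass hD, hF.mass hD] at h
  linarith

theorem Flux.rest (hD : Dn D) (hF : Flux D H c) (i : Fin 3) :
    area D - (c i + H * vol D) = ∫ x, nv D i x ^ 2 / nn D x ∂(sg D) := by
  simp only [rest_eq]
  rw [integral_sub (int_nn D) (int_kap D i), hF.mass hD, area]

theorem Flux.le_area (hD : Dn D) (hF : Flux D H c) (i : Fin 3) : c i + H * vol D ≤ area D := by
  have : 0 ≤ ∫ x, nv D i x ^ 2 / nn D x ∂(sg D) := integral_nonneg (rest_nonneg D i)
  linarith [hF.rest hD i]

theorem Flux.cs (hD : Dn D) (hF : Flux D H c) (i : Fin 3) :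
    (be D i - al D i) ^ 2 ≤ area D * (area D - (c i + H * vol D)) := by
  have e : be D i - al D i = ∫ x, nv D i x ∂(sg D) := by
    have := integral_mu_eq D i (BM.const 1)
    simpa [hD.mu_univ i] using this
  have iv : Integrable (nv D i) (sg D) := by
    simpa using int_mul D (BM.const 1) (measurable_nv D i) (nv_nonneg D i) (nv_le_nn D i)
  rw [hF.rest hD i, e]
  have key : ∀ l : ℝ, 0 ≤ area D * (l * l) + (-2 * ∫ x, nv D i x ∂(sg D)) * l +
      ∫ x, nv D i x ^ 2 / nn D x ∂(sg D) := by
    intro l
    have i1 : Integrable (fun x => nn D x * (l * l)) (sg D) := (int_nn D).mul_const _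
    have i2 : Integrable (fun x => -2 * nv D i x * l) (sg D) := (iv.const_mul _).mul_const _
    have i3 : Integrable (fun x => nn D x * (l * l) + -2 * nv D i x * l) (sg D) := i1.add i2
    rw [area, ← integral_mul_const, ← integral_const_mul, ← integral_mul_const,
      ← integral_add i1 i2, ← integral_add i3 (int_rest D i)]
    refine integral_nonneg_of_ae ((ae_nv D).mono fun x hx => ?_)
    have p : 0 < nn D x := by linarith [hx.2.1]
    have : nn D x * (l * l) + -2 * nv D i x * l + nv D i x ^ 2 / nn D x =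
        (nn D x * l - nv D i x) ^ 2 / nn D x := by field_simp; ring
    simp only [Pi.zero_apply, this]
    positivity
  have := discrim_le_zero key
  rw [discrim] at this
  nlinarith

theorem Flux.mu_zero (hD : Dn D) (hF : Flux D H c) (i : Fin 3)
    (h : area D ≤ c i + H * vol D) : mu D i = 0 := by
  have := mu_fin D i
  have a := hF.cs hD i
  have b : area D * (area D - (c i + H * vol D)) ≤ 0 :=
    mul_nonpos_of_nonneg_of_nonpos (area_nonneg D) (by linarith)
  have e : (mu D i).real univ = 0 := by
    rw [hD.mu_univ i]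
    exact pow_eq_zero_iff two_ne_zero |>.1 (le_antisymm (a.trans b) (sq_nonneg _))
  rwa [measureReal_eq_zero_iff, Measure.measure_univ_eq_zero] at e

theorem star_raw (hD : Dn D) (hF : Flux D H c) (i : Fin 3) {f : ℝ → ℝ} (hf : BM f)
    (hL : LB D i f) {G : Set ℝ} (hG : MeasurableSet G) {ρ s : ℝ → ℝ} (hρ : BM ρ) (hs : BM s)
    (h0 : ∀ t, 0 ≤ ρ t) (h1 : ∀ t, ρ t ^ 2 + s t ^ 2 ≤ 1)
    (h : ∀ᵐ t ∂vI, t ∈ G → c i + H * sl D i t ≤ ρ t * f t) :
    c i + H * vol D + ∫ x in {x | x i ∈ G}, s (x i) ∂(mu D i) +
      ∫ x in {x | x i ∉ G}, nv D i x ^ 2 / nn D x ∂(sg D) ≤ area D := by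
  have := vI_prob
  have mi := measurable_pi_apply (X := fun _ : Fin 3 => ℝ) i
  have mG : MeasurableSet {x : X | x i ∈ G} := mi hG
  have b1 : BM (G.indicator fun _ => (1 : ℝ)) := (BM.const 1).indicator hG
  have a1 := hF i _ b1
  have a2 := hL _ (hρ.indicator hG) fun t => indicator_nonneg (fun t _ => h0 t) t
  have a3 : ∫ t, G.indicator (fun _ => 1) t * (c i + H * sl D i t) ∂vI ≤
      ∫ t, G.indicator ρ t * f t ∂vI := by
    refine integral_mono_ae ((b1.mul ((BM.const _).add ((BM.const _).mul (bm_sl D i)))).integrable _)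
      (((hρ.indicator hG).mul hf).integrable _) (h.mono fun t ht => ?_)
    by_cases m : t ∈ G
    · simpa [indicator_of_mem m] using ht m
    · simp [indicator_of_notMem m]
  have a4 := integral_mu_eq D i ((hs.indicator hG).comp mi)
  have e4 : ∫ x in {x | x i ∈ G}, s (x i) ∂(mu D i) = ∫ x, G.indicator s (x i) ∂(mu D i) := by
    rw [← integral_indicator mG]; rfl
  have i1 := int_mul D (b1.comp mi) (measurable_kap D i) (kap_nonneg D i) (kap_le_nn D i)
  have i2 := int_mul D ((hρ.indicator hG).comp mi) (measurable_pp D i) (pp_nonneg D i) (pp_le_nn D i)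
  have i3 := int_mul D ((hs.indicator hG).comp mi) (measurable_nv D i) (nv_nonneg D i) (nv_le_nn D i)
  have i4 := (int_rest D i).indicator mG.compl
  have i5 : Integrable (fun x => kap D i x - G.indicator (fun _ => 1) (x i) * kap D i x) (sg D) :=
    (int_kap D i).sub i1
  have i6 : Integrable (fun x => kap D i x - G.indicator (fun _ => 1) (x i) * kap D i x +
    G.indicator ρ (x i) * pp D i x) (sg D) := i5.add i2
  have i7 : Integrable (fun x => kap D i x - G.indicator (fun _ => 1) (x i) * kap D i x +
    G.indicator ρ (x i) * pp D i x + G.indicator s (x i) * nv D i x) (sg D) := i6.add i3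
  have key := integral_mono (i7.add i4) (int_nn D) fun x => by
    by_cases m : x i ∈ G
    · simp only [Pi.add_apply, indicator_of_mem m,
        indicator_of_notMem (show x ∉ {x : X | x i ∈ G}ᶜ from fun a => a m)]
      refine le_of_sq_le_sq ?_ (nn_nonneg D x)
      nlinarith [pp_sq D i x, h1 (x i), sq_nonneg (ρ (x i) * nv D i x - s (x i) * pp D i x),
        mul_le_mul_of_nonneg_right (h1 (x i)) (sq_nonneg (nn D x))]
    · simp only [Pi.add_apply, indicator_of_notMem m,
        indicator_of_mem (show x ∈ {x : X | x i ∈ G}ᶜ from m)]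
      linarith [kap_add D i x]
  simp only [Pi.add_apply] at key
  rw [integral_add i7 i4, integral_add i6 i3, integral_add i5 i2, integral_sub (int_kap D i) i1,
    integral_indicator mG.compl, hF.mass hD] at key
  rw [e4, a4, area]
  change _ + ∫ x in {x : X | x i ∈ G}ᶜ, _ ∂_ ≤ _
  linarith

theorem star (hD : Dn D) (hF : Flux D H c) (i : Fin 3) {I : ℝ → ℝ} (hI : Continuous I)
    (hI0 : ∀ a, 0 ≤ a → a ≤ 1 → 0 ≤ I a) (hL : LB D i (fun t => I (sl D i t))) :
    StarP (area D) (c i + H * vol D) (c i) H (al D i) (be D i) I := by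
  classical
  intro s ms s01 hs
  obtain ⟨u, hu⟩ : ∃ u, u = (Ioo (al D i) (be D i)).indicator s := ⟨_, rfl⟩
  have mu' : Measurable u := hu ▸ ms.indicator measurableSet_Ioo
  have u01 : ∀ a, 0 ≤ u a ∧ u a ≤ 1 := fun a => by
    rw [hu]
    by_cases m : a ∈ Ioo (al D i) (be D i)
    · rw [indicator_of_mem m]; exact s01 a
    · rw [indicator_of_notMem m]; exact ⟨le_rfl, zero_le_one⟩
  have cA := hD.at_countable i
  have mA := cA.measurableSet
  have ml : Measurable fun t => u (sl D i t) := mu'.comp (bm_sl D i).1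
  have bI : BM fun t => I (sl D i t) := by
    obtain ⟨C, hC⟩ := isCompact_Icc.exists_bound_of_continuousOn (s := Icc (0 : ℝ) 1) hI.continuousOn
    exact ⟨hI.measurable.comp (bm_sl D i).1, C, fun t => hC _ (sl_mem D i t)⟩
  have mG : MeasurableSet {t | t ∈ At D i ∨ u (sl D i t) ≠ 0} :=
    mA.union (ml (measurableSet_singleton 0)).compl
  have q : ∀ a, 0 ≤ 1 - u a ^ 2 := fun a => by nlinarith [(u01 a).1, (u01 a).2]
  have key := star_raw hD hF i bI hL mG
    (ρ := fun t => if t ∈ At D i then 0 else √(1 - u (sl D i t) ^ 2))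
    (s := fun t => if t ∈ At D i then 1 else u (sl D i t))
    ⟨Measurable.ite mA measurable_const (measurable_const.sub (ml.pow_const 2)).sqrt, 1, fun t => by
      dsimp only
      split_ifs
      · simp
      · rw [abs_of_nonneg (Real.sqrt_nonneg _), Real.sqrt_le_one]
        linarith [sq_nonneg (u (sl D i t))]⟩
    ⟨Measurable.ite mA measurable_const ml, 1, fun t => by
      dsimp only
      split_ifs
      · simp
      · rw [abs_of_nonneg (u01 _).1]; exact (u01 _).2⟩
    (fun t => by split_ifs; exacts [le_rfl, Real.sqrt_nonneg _])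
    (fun t => by
      split_ifs
      · simp
      · rw [Real.sq_sqrt (q _)]; linarith)
    (by
      have z : ∀ᵐ t ∂vI, t ∉ At D i :=
        ae_restrict_of_ae (compl_mem_ae_iff.2 (cA.measure_zero volume))
      filter_upwards [z] with t ht hG
      have n : u (sl D i t) ≠ 0 := hG.resolve_left ht
      have m : sl D i t ∈ Ioo (al D i) (be D i) := by
        by_contra m
        exact n (by rw [hu, indicator_of_notMem m])
      have e : u (sl D i t) = s (sl D i t) := by rw [hu, indicator_of_mem m]
      rw [if_neg ht]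
      refine le_of_sq_le_sq ?_ (mul_nonneg (Real.sqrt_nonneg _)
        (hI0 _ (sl_mem D i t).1 (sl_mem D i t).2))
      rw [mul_pow, Real.sq_sqrt (q _), e]
      exact (hs _ m).resolve_left (e ▸ n))
  have p := hD.pit_mu i mu' u01
  have e1 : ∫ a in Ioo (al D i) (be D i), s a = ∫ a in Ioo (al D i) (be D i), u a :=
    setIntegral_congr_fun measurableSet_Ioo fun a m => by rw [hu, indicator_of_mem m]
  rw [setIntegral_eq_integral_of_forall_compl_eq_zero fun x hx => by
    have hx' : ¬ (x i ∈ At D i ∨ u (sl D i (x i)) ≠ 0) := hx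
    push Not at hx'
    rw [if_neg hx'.1, hx'.2]] at key
  have z : 0 ≤ ∫ x in {x | x i ∉ {t | t ∈ At D i ∨ u (sl D i t) ≠ 0}},
      nv D i x ^ 2 / nn D x ∂(sg D) := integral_nonneg (rest_nonneg D i)
  linarith

end Vale.Agent.P232
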