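import Mathlib

/-! # P232: definitions used in the final statements -/

open MeasureTheory Set
open scoped ENNReal

namespace Vale.Agent.P232

/-- the covering map from Euclidean 3-space onto the cubic torus -/
noncomputable def proj (x : Fin 3 → ℝ) : Fin 3 → UnitAddCircle :=
  fun i => (x i : UnitAddCircle)

/-- the fundamental domain `[0,1)^3` -/
def cell : Set (Fin 3 → ℝ) := {x | ∀ i, 0 ≤ x i ∧ x i < 1}

/-- a `C^1` vector field on the torus (periodic components) of Euclidean length at most one -/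
def IsField (Y : Fin 3 → (Fin 3 → ℝ) → ℝ) : Prop :=
  (∀ i, ContDiff ℝ 1 (Y i)) ∧
  (∀ (i : Fin 3) (x : Fin 3 → ℝ) (k : Fin 3 → ℤ), Y i (fun j => x j + (k j : ℝ)) = Y i x) ∧
  ∀ x, ∑ i, Y i x ^ 2 ≤ 1

/-- the divergence -/
noncomputable def dvg (Y : Fin 3 → (Fin 3 → ℝ) → ℝ) (x : Fin 3 → ℝ) : ℝ :=
  ∑ i, fderiv ℝ (Y i) x (Pi.single i 1)

/-- De Giorgi perimeter in the flat torus -/
noncomputable def perim (E : Set (Fin 3 → UnitAddCircle)) : ℝ≥0∞ :=
  ⨆ (Y : Fin 3 → (Fin 3 → ℝ) → ℝ) (_ : IsField Y),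
    ENNReal.ofReal (∫ x in cell ∩ proj ⁻¹' E, dvg Y x)

/-- the isoperimetric profile -/
noncomputable def profile (V : ℝ) : ℝ≥0∞ :=
  ⨅ (E : Set (Fin 3 → UnitAddCircle)) (_ : NullMeasurableSet E volume)
    (_ : volume E = ENNReal.ofReal V), perim E

/-- the conjectured profile -/
noncomputable def Jt (V : ℝ) : ℝ :=
  min ((36 * Real.pi) ^ (1 / 3 : ℝ) * (min V (1 - V)) ^ (2 / 3 : ℝ))
    (min (2 * √(Real.pi * min V (1 - V))) 2)

/-- geodesic ball of centre `c` and radius `r` -/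
def ball (c : Fin 3 → UnitAddCircle) (r : ℝ) : Set (Fin 3 → UnitAddCircle) :=
  {x | ∑ i, ‖x i - c i‖ ^ 2 < r ^ 2}

/-- solid tube of radius `r` about the closed geodesic through `c` parallel to axis `k` -/
def tube (k : Fin 3) (c : Fin 3 → UnitAddCircle) (r : ℝ) : Set (Fin 3 → UnitAddCircle) :=
  {x | ∑ i ∈ Finset.univ.erase k, ‖x i - c i‖ ^ 2 < r ^ 2}

/-- slab of half-width `r` about the coordinate torus `x k = c k` -/
def slab (k : Fin 3) (c : Fin 3 → UnitAddCircle) (r : ℝ) : Set (Fin 3 → UnitAddCircle) :=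
  {x | ‖x k - c k‖ < r}

end Vale.Agent.P232
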