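import Vale.Agent.P232.TMain

open MeasureTheory Set Function Filter Topology
open scoped ENNReal

namespace Vale.Agent.P232

namespace MainAux

theorem measurableSet_cell : MeasurableSet cell := by
  have e : cell = ⋂ i, ({x : X | 0 ≤ x i} ∩ {x : X | x i < 1}) := by
    ext x
    simp [cell]
  rw [e]
  exact MeasurableSet.iInter fun i =>
    (measurableSet_le measurable_const (measurable_pi_apply i)).inter
      (measurableSet_lt (measurable_pi_apply i) measurable_const)

theorem int_eq (S : Set X) (f : X → ℝ) : ∫ x in cell ∩ S, f x = ∫ x in S, f x ∂vQ := by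
  rw [← restrict_cell, Measure.restrict_restrict' measurableSet_cell, inter_comm]

theorem perSet_proj (E : Set (Fin 3 → UnitAddCircle)) : PerSet (proj ⁻¹' E) := by
  intro x k
  have e : proj (fun j => x j + (k j : ℝ)) = proj x := by
    funext j
    have h : ((k j : ℝ) : UnitAddCircle) = 0 := (AddCircle.coe_eq_zero_iff 1).2 ⟨k j, by simp⟩
    simp only [proj, AddCircle.coe_add, h, add_zero]
  rw [mem_preimage, mem_preimage, e]

theorem vol_proj {E : Set (Fin 3 → UnitAddCircle)} (hE : MeasurableSet E) {V : ℝ} (h0 : 0 ≤ V)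
    (hV : volume E = ENNReal.ofReal V) : vQ.real (proj ⁻¹' E) = V := by
  rw [Measure.real, mp_proj.measure_preimage hE.nullMeasurableSet, hV, ENNReal.toReal_ofReal h0]

/-- the model sets in the torus -/
def MM (I : Finset (Fin 3)) (c : Fin 3 → UnitAddCircle) (r : ℝ) : Set (Fin 3 → UnitAddCircle) :=
  {x | ∑ i ∈ I, ‖x i - c i‖ ^ 2 < r ^ 2}

theorem measurableSet_MM (I : Finset (Fin 3)) (c : Fin 3 → UnitAddCircle) (r : ℝ) :
    MeasurableSet (MM I c r) :=
  (isOpen_lt (by fun_prop) continuous_const).measurableSet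

theorem proj_MM (I : Finset (Fin 3)) (c : X) (r : ℝ) : proj ⁻¹' MM I (proj c) r = Mod I c r := by
  ext x
  simp only [MM, Mod, mem_preimage, mem_ofPred_eq, proj, nd_eq_norm, AddCircle.coe_sub]

theorem MM_cases {I : Finset (Fin 3)} (hI : I.Nonempty) (c : Fin 3 → UnitAddCircle) {r : ℝ}
    (hr : 0 < r) : MM I c r = ball c r ∨ ∃ k, MM I c r = tube k c r ∨ MM I c r = slab k c r := by
  have h : ∀ I : Finset (Fin 3), I.Nonempty →
      I = Finset.univ ∨ ∃ k, I = Finset.univ.erase k ∨ I = {k} := by decide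
  rcases h I hI with rfl | ⟨k, rfl | rfl⟩
  · exact Or.inl rfl
  · exact Or.inr ⟨k, Or.inl rfl⟩
  · refine Or.inr ⟨k, Or.inr ?_⟩
    ext x
    simp only [MM, slab, mem_ofPred_eq, Finset.sum_singleton]
    exact sq_lt_sq₀ (norm_nonneg _) hr.le

theorem descend {E M : Set (Fin 3 → UnitAddCircle)} (hE : MeasurableSet E) (hM : MeasurableSet M)
    (h : proj ⁻¹' E =ᵐ[vQ] proj ⁻¹' M) : E =ᵐ[volume] M := by
  rw [← measure_symmDiff_eq_zero_iff] at h ⊢
  rw [← mp_proj.measure_preimage (hE.symmDiff hM).nullMeasurableSet, preimage_symmDiff, h]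

theorem rigid {E : Set (Fin 3 → UnitAddCircle)} (hE : MeasurableSet E) {V : ℝ} (h0 : 0 < V)
    (h1 : V ≤ 1 / 2) (hV : vQ.real (proj ⁻¹' E) = V) (h : PerLe (proj ⁻¹' E) (Jt V)) :
    ∃ (c : Fin 3 → UnitAddCircle) (r : ℝ) (M : Set (Fin 3 → UnitAddCircle)),
      0 < r ∧ r < 1 / 2 ∧ (M = ball c r ∨ ∃ k, M = tube k c r ∨ M = slab k c r) ∧
      E =ᵐ[volume] M := by
  subst hV
  obtain ⟨I, hI, c, r, hr, hr', he⟩ :=
    per_rigid (mp_proj.measurable hE) (perSet_proj E) h0 h1 h
  rw [← proj_MM] at he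
  exact ⟨proj c, r, _, hr, hr', MM_cases hI _ hr, descend hE (measurableSet_MM _ _ _) he⟩

end MainAux

open MainAux

theorem perim_le_iff {E : Set (Fin 3 → UnitAddCircle)} (hE : MeasurableSet E) {p : ℝ}
    (hp : 0 ≤ p) : perim E ≤ ENNReal.ofReal p ↔ PerLe (proj ⁻¹' E) p := by
  simp only [perim, iSup_le_iff, ENNReal.ofReal_le_ofReal_iff hp, int_eq, PerLe]

theorem perim_congr {E F : Set (Fin 3 → UnitAddCircle)} (h : E =ᵐ[volume] F) :
    perim E = perim F := by
  simp only [perim, int_eq,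
    setIntegral_congr_set (mp_proj.quasiMeasurePreserving.preimage_ae_eq h)]

theorem profile_eq {V : ℝ} (h0 : 0 < V) (h1 : V < 1) : profile V = ENNReal.ofReal (Jt V) := by
  refine le_antisymm ?_ (le_iInf fun E => le_iInf fun hE => le_iInf fun hV => ?_)
  · obtain ⟨M, hM, hV, hp⟩ := per_upper h0 h1
    have := vQ_prob
    refine iInf_le_of_le M (iInf_le_of_le hM.nullMeasurableSet (iInf_le_of_le ?_
      ((perim_le_iff hM hp.nonneg).2 hp)))
    rw [← mp_proj.measure_preimage hM.nullMeasurableSet, ← hV, ofReal_measureReal]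
  · have hm := measurableSet_toMeasurable volume E
    rw [← perim_congr hE.toMeasurable_ae_eq]
    by_cases ht : perim (toMeasurable volume E) = ⊤
    · rw [ht]; exact le_top
    have k := per_lower (mp_proj.measurable hm) (perSet_proj _)
      ((perim_le_iff hm ENNReal.toReal_nonneg).1 (ENNReal.ofReal_toReal ht).ge)
    rw [vol_proj hm h0.le (by rw [measure_toMeasurable, hV])] at k
    exact ENNReal.ofReal_le_of_le_toReal k

theorem classify {V : ℝ} (h0 : 0 < V) (h1 : V < 1) (E : Set (Fin 3 → UnitAddCircle))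
    (hE : NullMeasurableSet E volume) (hV : volume E = ENNReal.ofReal V)
    (hm : perim E = profile V) :
    ∃ (c : Fin 3 → UnitAddCircle) (r : ℝ) (M : Set (Fin 3 → UnitAddCircle)),
      0 < r ∧ r < 1 / 2 ∧ (M = ball c r ∨ ∃ k, M = tube k c r ∨ M = slab k c r) ∧
      (E =ᵐ[volume] M ∨ E =ᵐ[volume] (Mᶜ : Set (Fin 3 → UnitAddCircle))) := by
  have hme := measurableSet_toMeasurable volume E
  have hae := hE.toMeasurable_ae_eq
  have hv := vol_proj hme h0.le (by rw [measure_toMeasurable, hV])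
  obtain ⟨_, -, -, hp⟩ := per_upper h0 h1
  have hP : PerLe (proj ⁻¹' toMeasurable volume E) (Jt V) :=
    (perim_le_iff hme hp.nonneg).1 (by rw [perim_congr hae, hm, profile_eq h0 h1])
  rcases le_total V (1 / 2) with h | h
  · obtain ⟨c, r, M, k1, k2, k3, k4⟩ := rigid hme h0 h hv hP
    exact ⟨c, r, M, k1, k2, k3, Or.inl (hae.symm.trans k4)⟩
  · have := vQ_prob
    have e : Jt (1 - V) = Jt V := by
      have := Jc_symm V
      unfold Jc at this
      linarith
    obtain ⟨c, r, M, k1, k2, k3, k4⟩ := rigid (V := 1 - V) hme.compl (by linarith) (by linarith)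
      (by rw [preimage_compl, measureReal_compl (mp_proj.measurable hme), hv, probReal_univ])
      (by rw [e, preimage_compl]; exact hP.compl (mp_proj.measurable hme))
    refine ⟨c, r, M, k1, k2, k3, Or.inr (hae.symm.trans ?_)⟩
    simpa using k4.compl

end Vale.Agent.P232
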