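import Vale.Agent.P232.NLeaf

open MeasureTheory Set Function Filter Topology
open scoped ENNReal

namespace Vale.Agent.P232

variable {m k e : ℕ} {B : Bo} {A v H c α β L L' lam mu : ℝ}

namespace NBoxAux

theorem max_le {l : ℕ} (h : L ≤ (l : ℝ) / NN) : max L (1 / 8) ≤ ((max l 2097152 : ℕ) : ℝ) / NN := by
  refine _root_.max_le (h.trans (div_le_div_of_nonneg_right ?_ NN_pos.le)) ?_
  · exact Nat.cast_le.2 (le_max_left _ _)
  · refine le_trans (by norm_num [NN]) (div_le_div_of_nonneg_right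
      (Nat.cast_le.2 (le_max_right l 2097152)) NN_pos.le)

theorem bil_mono (hB : InB B lam mu c H) {r0 r1 r2 r3 t0 t1 t2 t3 : ℕ} (h0 : r0 ≤ t0) (h1 : r1 ≤ t1)
    (h2 : r2 ≤ t2) (h3 : r3 ≤ t3) : bil lam mu r0 r1 r2 r3 / (2 * (NN : ℝ) ^ 2) ≤
      bil lam mu t0 t1 t2 t3 / (2 * (NN : ℝ) ^ 2) := by
  have := hB.l0
  have := hB.m0
  have := sub_nonneg.2 hB.l1
  have := sub_nonneg.2 hB.m1
  unfold bil
  gcongr

theorem exists_par {a b x : ℝ} (hab : a < b) (ha : a ≤ x) (hb : x ≤ b) :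
    ∃ t, 0 ≤ t ∧ t ≤ 1 ∧ x = (1 - t) * a + t * b := by
  have := sub_pos.2 hab
  refine ⟨(x - a) / (b - a), div_nonneg (sub_nonneg.2 ha) this.le,
    (div_le_one this).2 (by linarith), ?_⟩
  field_simp
  ring

theorem top (hy : Hyp m k e A v H c α β L L') {H0 H1 ca cb : ℕ} (h0 : 0 < H0 ∧ H0 < H1)
    (h4 : H1 ≤ 4 * NN) (m0 : 0 ≤ mu) (m1 : mu ≤ 1)
    (hH : H = (1 - mu) * ((H0 : ℝ) / NN) + mu * ((H1 : ℝ) / NN)) (h1 : H ≤ (H1 : ℝ) / NN)
    (hc : (1 - mu) * ((ca : ℝ) / NN) + mu * ((cb : ℝ) / NN) ≤ c)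
    (h : topok m ca cb H0 H1 = true) : False := by
  have n := NN_pos
  have m2 := sub_nonneg.2 m1
  simp only [topok, Bool.or_eq_true, Bool.and_eq_true, Nat.ble_eq, Nat.blt_eq] at h
  rcases h with ⟨a, b⟩ | ⟨a, b⟩
  · have a1 := (tauN_sound hy.g.1 hy.g.2.1 h0.1 (by omega)).trans
      (div_le_div_of_nonneg_right (Nat.cast_le.2 a) n.le)
    have b1 := (tauN_sound hy.g.1 hy.g.2.1 (h0.1.trans h0.2) h4).trans
      (div_le_div_of_nonneg_right (Nat.cast_le.2 b) n.le)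
    have g := hy.gap
    rw [hH] at g
    nlinarith [mul_le_mul_of_nonneg_left a1 m2, mul_le_mul_of_nonneg_left b1 m0]
  · have w := vlo_sound hy.g h1
    have key : ∀ x y : ℕ, 2 * NN * NN < m * x * NN + 3 * y * vlo H1 →
        (2 : ℝ) < m * ((x : ℝ) / NN) + 3 * ((y : ℝ) / NN) * v := fun x y q => by
      have q' : (2 : ℝ) * NN * NN < m * x * NN + 3 * y * vlo H1 := by exact_mod_cast q
      have e : m * ((x : ℝ) / NN) + 3 * ((y : ℝ) / NN) * ((vlo H1 : ℝ) / NN) =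
          (m * x * NN + 3 * y * vlo H1) / (NN * NN) := by field_simp
      have : (2 : ℝ) < (m * x * NN + 3 * y * vlo H1) / (NN * NN) := by
        rw [lt_div_iff₀ (by positivity)]
        linarith
      have := mul_le_mul_of_nonneg_left w (show 0 ≤ 3 * ((y : ℝ) / NN) by positivity)
      linarith
    have a1 := key _ _ a
    have b1 := key _ _ b
    have s : √(Real.pi * v) ≤ 1 := Real.sqrt_le_one.2 (by
      have := hy.g.2.1
      rwa [le_div_iff₀ Real.pi_pos, mul_comm] at this)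
    have g := hy.lo
    have g' := hy.hA
    have g2 := mul_le_mul_of_nonneg_left hc (Nat.cast_nonneg (α := ℝ) m)
    rw [hH] at g
    rcases m0.eq_or_lt with rfl | m3
    · linarith
    · nlinarith [mul_le_mul_of_nonneg_left a1.le m2, mul_lt_mul_of_pos_left b1 m3]

end NBoxAux

theorem lefts_sound (hy : Hyp m k e A v H c α β L L') (hB : InB B lam mu c H)
    (h4 : B.H1 ≤ 4 * NN) {hasR : Bool} {R0 R1 R2 R3 : ℕ}
    (hR : RP hasR lam mu c H L L' R0 R1 R2 R3) (ls : List (ℕ × Lf)) (l0 : ℕ)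
    (hl : (l0 : ℝ) / NN ≤ L) (hne : ls ≠ [] ∨ l0 < NN)
    (h : lefts k e B hasR R0 R1 R2 R3 l0 ls = true) : False := by
  induction ls generalizing l0 with
  | nil =>
    rw [lefts, Nat.ble_eq] at h
    exact hne.elim (fun q => q rfl) (by omega)
  | cons p t ih =>
    obtain ⟨l1, f⟩ := p
    simp only [lefts, Bool.and_eq_true] at h
    rcases le_or_gt L ((l1 : ℝ) / NN) with q | q
    · cases f with
      | exc => exact excok_sound hy hB hl h.1.2
      | cyl b => exact cylok_sound hy hB hl h.1.2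
      | num a0 w n two th useR => exact numok_sound hy hB h4 hl q hR h.1.2
    · refine ih l1 q.le (Or.inr ?_) h.2
      exact_mod_cast (div_lt_one NN_pos).1 (q.trans_le hy.d.L1)

theorem rights_le (rs : List (ℕ × ℕ × ℕ)) (l0 m0 m1 m2 m3 : ℕ) {K : ℕ → ℕ → ℕ → ℕ → Bool}
    (hB : InB B lam mu c H) (h : rights B l0 rs m0 m1 m2 m3 K = true) :
    ∃ r0 r1 r2 r3 : ℕ, K r0 r1 r2 r3 = true ∧ r0 ≤ m0 ∧ r1 ≤ m1 ∧ r2 ≤ m2 ∧ r3 ≤ m3 ∧
      (rs ≠ [] → (l0 : ℝ) / NN ≤ L' → L' ≤ 1 → RP true lam mu c H L L' r0 r1 r2 r3) := by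
  induction rs generalizing l0 m0 m1 m2 m3 with
  | nil =>
    rw [rights, Bool.and_eq_true] at h
    exact ⟨m0, m1, m2, m3, h.2, le_rfl, le_rfl, le_rfl, le_rfl, fun q => absurd rfl q⟩
  | cons p t ih =>
    obtain ⟨l1, x0, n⟩ := p
    simp only [rights, Bool.and_eq_true, Nat.ble_eq, Nat.blt_eq, Nat.beq_eq] at h
    obtain ⟨⟨⟨a1, a2⟩, a3⟩, a4⟩ := h
    obtain ⟨n, rfl⟩ : ∃ j, n = j + 1 := ⟨n - 1, by omega⟩
    by_cases q : (l0 : ℝ) / NN ≤ L' ∧ L' ≤ (l1 : ℝ) / NN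
    · obtain ⟨t0, t1, t2, t3, b1, -, b2⟩ := run_sound (L' := L) hB q.1 (NBoxAux.max_le q.2) n _ _ _ _ a4
      obtain ⟨r0, r1, r2, r3, c0, c1, c2, c3, c4, -⟩ := ih _ _ _ _ _ b1
      have e : ((node x0 (8388608 - x0) (n + 1) false (n + 1) : ℕ) : ℝ) / NN = 1 / 2 := by
        rw [div_eq_div_iff NN_pos.ne' two_ne_zero, ← a3]
        push_cast
        ring
      rw [e] at b2
      exact ⟨r0, r1, r2, r3, c0, by omega, by omega, by omega, by omega, fun _ _ _ _ =>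
        ⟨_, b2.mono (NBoxAux.bil_mono hB (by omega) (by omega) (by omega) (by omega))⟩⟩
    · obtain ⟨t0, t1, t2, t3, b1, -⟩ := run_sound (L' := L) hB le_rfl (NBoxAux.max_le
        (div_le_div_of_nonneg_right (Nat.cast_le.2 a1) NN_pos.le)) n _ _ _ _ a4
      obtain ⟨r0, r1, r2, r3, c0, c1, c2, c3, c4, c5⟩ := ih _ _ _ _ _ b1
      refine ⟨r0, r1, r2, r3, c0, by omega, by omega, by omega, by omega, fun _ d1 d2 => ?_⟩
      have d3 := not_le.1 fun d => q ⟨d1, d⟩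
      refine c5 (fun d => ?_) d3.le d2
      rw [d, rights, Bool.and_eq_true, Nat.ble_eq] at b1
      exact b1.1.not_gt (by exact_mod_cast (div_lt_one NN_pos).1 (d3.trans_le d2))

theorem boxok_sound (hy : Hyp m k e A v H c α β L L') (hB : InB B lam mu c H)
    (h4 : B.H1 ≤ 4 * NN) {rs : List (ℕ × ℕ × ℕ)} {ls : List (ℕ × Lf)}
    (h : boxok k e B rs ls = true) : False := by
  have z : ∀ x : ℝ, 0 ≤ x → ((0 : ℕ) : ℝ) / NN ≤ x := fun x hx => by rwa [Nat.cast_zero, zero_div]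
  have n : 0 < NN := by exact_mod_cast NN_pos
  cases rs with
  | nil => exact lefts_sound hy hB h4 (fun q => absurd q Bool.false_ne_true) ls 0 (z _ hy.d.L0) (Or.inr n) h
  | cons r rs =>
    obtain ⟨r0, r1, r2, r3, c0, -, -, -, -, c5⟩ := rights_le (L := L) (L' := L') _ _ _ _ _ _ hB h
    exact lefts_sound hy hB h4 (c5 (List.cons_ne_nil _ _) (z _ hy.d.M0) hy.d.M1) ls 0
      (z _ hy.d.L0) (Or.inr n) c0

theorem strip_sound {m k e H0 H1 cs : ℕ}
    {d : List (ℕ × ℕ × List (ℕ × ℕ × ℕ) × List (ℕ × Lf))}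
    (h0 : 0 < H0 ∧ H0 < H1) (h4 : H1 ≤ 67108864) (h : stripok m k e H0 H1 cs cs d = true) :
    StripP m k e cs H0 H1 := by
  intro A v H c α β L L' hy hc k0 k1
  obtain ⟨mu, m0, m1, hH⟩ := NBoxAux.exists_par
    (div_lt_div_of_pos_right (Nat.cast_lt.2 h0.2) NN_pos) k0 k1
  have key : ∀ ca cb : ℕ, (1 - mu) * ((ca : ℝ) / NN) + mu * ((cb : ℝ) / NN) ≤ c →
      stripok m k e H0 H1 ca cb d = true → False := by
    clear h
    induction d with
    | nil => exact fun ca cb q h => NBoxAux.top hy h0 h4 m0 m1 hH k1 q h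
    | cons p t ih =>
      obtain ⟨c1, c3, rs, ls⟩ := p
      intro ca cb q h
      simp only [stripok, Bool.and_eq_true, Nat.ble_eq] at h
      rcases le_or_gt ((1 - mu) * ((c1 : ℝ) / NN) + mu * ((c3 : ℝ) / NN)) c with r | r
      · exact ih c1 c3 r h.2
      obtain ⟨lam, l0, l1, e⟩ := NBoxAux.exists_par (q.trans_lt r) q r.le
      refine boxok_sound (lam := lam) (mu := mu) hy
        ⟨l0, l1, m0, m1, ?_, ?_, h.1.1.1, h.1.1.2, h0.1, h0.2.le⟩ h4 h.1.2
      · rw [e, bil]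
        ring
      · rw [hH]
        ring
  exact key cs cs (by linarith) h

end Vale.Agent.P232
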