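import Vale.Agent.P232.NData0
import Vale.Agent.P232.NData1
import Vale.Agent.P232.NData2
import Vale.Agent.P232.NData3
import Vale.Agent.P232.NData4
import Vale.Agent.P232.NData5
import Vale.Agent.P232.NData6
import Vale.Agent.P232.NBox

namespace Vale.Agent.P232

theorem cover_a : StripP 3 0 167772160 0 5033164 23236444 :=
  ((((((((((((((((((((((((((((strip_sound (by norm_num) (by norm_num) ND.sa0).join
    (strip_sound (by norm_num) (by norm_num) ND.sa1)).join
    (strip_sound (by norm_num) (by norm_num) ND.sa2)).join
    (strip_sound (by norm_num) (by norm_num) ND.sa3)).join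
    (strip_sound (by norm_num) (by norm_num) ND.sa4)).join
    (strip_sound (by norm_num) (by norm_num) ND.sa5)).join
    (strip_sound (by norm_num) (by norm_num) ND.sa6)).join
    (strip_sound (by norm_num) (by norm_num) ND.sa7)).join
    (strip_sound (by norm_num) (by norm_num) ND.sa8)).join
    (strip_sound (by norm_num) (by norm_num) ND.sa9)).join
    (strip_sound (by norm_num) (by norm_num) ND.sa10)).join
    (strip_sound (by norm_num) (by norm_num) ND.sa11)).join
    (strip_sound (by norm_num) (by norm_num) ND.sa12)).join
    (strip_sound (by norm_num) (by norm_num) ND.sa13)).join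
    (strip_sound (by norm_num) (by norm_num) ND.sa14)).join
    (strip_sound (by norm_num) (by norm_num) ND.sa15)).join
    (strip_sound (by norm_num) (by norm_num) ND.sa16)).join
    (strip_sound (by norm_num) (by norm_num) ND.sa17)).join
    (strip_sound (by norm_num) (by norm_num) ND.sa18)).join
    (strip_sound (by norm_num) (by norm_num) ND.sa19)).join
    (strip_sound (by norm_num) (by norm_num) ND.sa20)).join
    (strip_sound (by norm_num) (by norm_num) ND.sa21)).join
    (strip_sound (by norm_num) (by norm_num) ND.sa22)).join
    (strip_sound (by norm_num) (by norm_num) ND.sa23)).join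
    (strip_sound (by norm_num) (by norm_num) ND.sa24)).join
    (strip_sound (by norm_num) (by norm_num) ND.sa25)).join
    (strip_sound (by norm_num) (by norm_num) ND.sa26)).join
    (strip_sound (by norm_num) (by norm_num) ND.sa27)).join
    (strip_sound (by norm_num) (by norm_num) ND.sa28)

theorem cover_b : StripP 2 0 167772160 671088 23236444 24326963 :=
  ((strip_sound (by norm_num) (by norm_num) ND.sb0).join
    (strip_sound (by norm_num) (by norm_num) ND.sb1)).join
    (strip_sound (by norm_num) (by norm_num) ND.sb2)

theorem cover_c : StripP 1 1 1342177 0 23236444 24326963 :=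
  ((strip_sound (by norm_num) (by norm_num) ND.sc0).join
    (strip_sound (by norm_num) (by norm_num) ND.sc1)).join
    (strip_sound (by norm_num) (by norm_num) ND.sc2)

theorem cover_d : StripP 1 3 0 0 24326963 50331648 :=
  ((((((((((((((strip_sound (by norm_num) (by norm_num) ND.sd0).join
    (strip_sound (by norm_num) (by norm_num) ND.sd1)).join
    (strip_sound (by norm_num) (by norm_num) ND.sd2)).join
    (strip_sound (by norm_num) (by norm_num) ND.sd3)).join
    (strip_sound (by norm_num) (by norm_num) ND.sd4)).join
    (strip_sound (by norm_num) (by norm_num) ND.sd5)).join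
    (strip_sound (by norm_num) (by norm_num) ND.sd6)).join
    (strip_sound (by norm_num) (by norm_num) ND.sd7)).join
    (strip_sound (by norm_num) (by norm_num) ND.sd8)).join
    (strip_sound (by norm_num) (by norm_num) ND.sd9)).join
    (strip_sound (by norm_num) (by norm_num) ND.sd10)).join
    (strip_sound (by norm_num) (by norm_num) ND.sd11)).join
    (strip_sound (by norm_num) (by norm_num) ND.sd12)).join
    (strip_sound (by norm_num) (by norm_num) ND.sd13)).join
    (strip_sound (by norm_num) (by norm_num) ND.sd14)

end Vale.Agent.P232
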