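import Vale.Agent.P232.NNum

open MeasureTheory Set Function Filter Topology
open scoped ENNReal

namespace Vale.Agent.P232.NCellAux

theorem bern {b0 c b2 t : ℝ} (h0 : 0 ≤ b0) (h2 : 0 ≤ b2) (h3 : 0 ≤ c + 2 * b0)
    (h4 : 0 ≤ c + 2 * b2) (t0 : 0 ≤ t) (t1 : t ≤ 1) :
    0 ≤ (1 - t) ^ 2 * b0 + t * (1 - t) * c + t ^ 2 * b2 := by
  have s0 : 0 ≤ 1 - t := sub_nonneg.2 t1
  rcases le_total b0 b2 with h | h
  · have := sub_nonneg.2 h
    calc 0 ≤ (1 - 2 * t) ^ 2 * b0 + t * (1 - t) * (c + 2 * b0) + t ^ 2 * (b2 - b0) := by positivity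
      _ = _ := by ring
  · have := sub_nonneg.2 h
    calc 0 ≤ (1 - 2 * t) ^ 2 * b2 + t * (1 - t) * (c + 2 * b2) + (1 - t) ^ 2 * (b0 - b2) := by
          positivity
      _ = _ := by ring

theorem disc {r : ℕ} (h : r < NN) :
    ((r : ℝ) / NN) ^ 2 + ((sqN (NN * NN - r * r) : ℝ) / NN) ^ 2 ≤ 1 := by
  have h1 := sqN_sq_le (NN * NN - r * r)
  have h2 : r * r ≤ NN * NN := Nat.mul_le_mul h.le h.le
  have h3 : r * r + sqN (NN * NN - r * r) * sqN (NN * NN - r * r) ≤ NN * NN :=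
    (Nat.add_le_add_left h1 _).trans (Nat.add_sub_cancel' h2).le
  rw [div_pow, div_pow, ← add_div, div_le_one (pow_pos NN_pos 2), sq, sq, sq]
  exact_mod_cast h3

theorem vtx_a {ia ib Fa Fb : ℕ} (h : 0 < vtx ia ib Fa Fb) : ∃ ra rb sa sb : ℝ,
    ((vtx ia ib Fa Fb - 1 : ℕ) : ℝ) = (sa + sb) * NN ∧ 0 ≤ sa ∧ 0 ≤ sb ∧ 0 ≤ ra ∧ 0 ≤ rb ∧
    ra < 1 ∧ rb < 1 ∧ ra ^ 2 + sa ^ 2 ≤ 1 ∧ rb ^ 2 + sb ^ 2 ≤ 1 ∧
    ∀ t : ℝ, 0 ≤ t → t ≤ 1 → ((1 - t) * Fa + t * Fb) / (NN : ℝ) ^ 2 ≤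
      ((1 - t) * ra + t * rb) * (((1 - t) * ia + t * ib) / NN) := by
  unfold vtx at h ⊢
  extract_lets ra0 rb0 e ra rb Y at h ⊢
  have hY : Y = ra * ib + rb * ia := rfl
  clear_value Y ra rb
  generalize hc : (Nat.blt ra NN && Nat.blt rb NN && Nat.ble Fa (ra * ia) && Nat.ble Fb (rb * ib) &&
    Nat.ble (3 * Fa + Fb) (Y + 2 * ra * ia) && Nat.ble (Fa + 3 * Fb) (Y + 2 * rb * ib)) = q at h ⊢
  cases q
  · exact absurd h (lt_irrefl 0)
  simp only [Bool.and_eq_true, Nat.blt_eq, Nat.ble_eq, hY] at hc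
  obtain ⟨⟨⟨⟨⟨h1, h2⟩, h3⟩, h4⟩, h5⟩, h6⟩ := hc
  have N := NN_pos
  refine ⟨ra / NN, rb / NN, sqN (NN * NN - ra * ra) / NN, sqN (NN * NN - rb * rb) / NN, ?_,
    by positivity, by positivity, by positivity, by positivity,
    (div_lt_one N).2 (Nat.cast_lt.2 h1), (div_lt_one N).2 (Nat.cast_lt.2 h2), disc h1, disc h2,
    fun t t0 t1 => ?_⟩
  · rw [cond_true, Nat.add_sub_cancel, Nat.cast_add, ← add_div, div_mul_cancel₀ _ N.ne']
  · have k3 : (Fa : ℝ) ≤ ra * ia := by exact_mod_cast h3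
    have k4 : (Fb : ℝ) ≤ rb * ib := by exact_mod_cast h4
    have k5 : (3 * Fa + Fb : ℝ) ≤ ra * ib + rb * ia + 2 * ra * ia := by exact_mod_cast h5
    have k6 : (Fa + 3 * Fb : ℝ) ≤ ra * ib + rb * ia + 2 * rb * ib := by exact_mod_cast h6
    have := bern (c := ra * ib + rb * ia - Fa - Fb) (sub_nonneg.2 k3) (sub_nonneg.2 k4)
      (by linarith) (by linarith) t0 t1
    have e2 : ((1 - t) * (ra / NN) + t * (rb / NN)) * (((1 - t) * ia + t * ib) / NN) =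
        (((1 - t) * ra + t * rb) * ((1 - t) * ia + t * ib)) / (NN : ℝ) ^ 2 := by
      field_simp
    rw [e2]
    exact div_le_div_of_nonneg_right (by linarith) (by positivity)

theorem Dq_conc {L A B t : ℝ} (hL : 0 < L) (hA : 0 ≤ A) (hB : 0 ≤ B) (t0 : 0 ≤ t) (t1 : t ≤ 1) :
    (1 - t) * Dq L A + t * Dq L B ≤ Dq L ((1 - t) * A + t * B) := by
  have s0 : 0 ≤ 1 - t := sub_nonneg.2 t1
  have a0 := mul_nonneg s0 hA
  have b0 := mul_nonneg t0 hB
  rcases (add_nonneg a0 b0).eq_or_lt with h | h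
  · have key : ∀ s C : ℝ, s * C = 0 → s * Dq L C = 0 := fun s C e => by
      rcases mul_eq_zero.1 e with e | e
      · rw [e, zero_mul]
      · rw [e, Dq_zero, mul_zero]
    rw [← h, Dq_zero, key _ A (by linarith), key _ B (by linarith), add_zero]
  · obtain ⟨R, R0, RL, e⟩ := Dq_attained hL h
    rw [e]
    refine (add_le_add (mul_le_mul_of_nonneg_left (Dq_le hA R0 RL) s0)
      (mul_le_mul_of_nonneg_left (Dq_le hB R0 RL) t0)).trans (le_of_eq ?_)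
    ring

theorem chord_a {l Lp a b : ℕ} (hab : a ≤ b) (hb : 2 * b ≤ NN) {L L' : ℝ}
    (hl : (l : ℝ) / NN ≤ L) (hL : max L (1 / 8) ≤ (Lp : ℝ) / NN) {t : ℝ} (h0 : 0 ≤ t)
    (h1 : t ≤ 1) :
    ((1 - t) * ilow (msel (l - b)) l Lp a + t * ilow (msel (l - b)) l Lp b) / NN ≤
      In L L' (((1 - t) * a + t * b) / NN) := by
  have N := NN_pos
  have s0 : 0 ≤ 1 - t := sub_nonneg.2 h1
  have g1 : (0 : ℝ) < max L (1 / 8) := lt_of_lt_of_le (by norm_num) (le_max_right _ _)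
  have g2 : (0 : ℝ) < max L' (1 / 8) := lt_of_lt_of_le (by norm_num) (le_max_right _ _)
  have g3 := g1.trans_le hL
  have Lp0 : 0 < Lp := Nat.cast_pos.1 ((div_pos_iff_of_pos_right N).1 g3)
  have a0 : 0 ≤ (a : ℝ) / NN := by positivity
  have ab : (a : ℝ) / NN ≤ b / NN := div_le_div_of_nonneg_right (Nat.cast_le.2 hab) N.le
  have b1 : (b : ℝ) / NN ≤ 1 / 2 := by
    rw [div_le_div_iff₀ N two_pos, one_mul, mul_comm]
    exact_mod_cast hb
  have comb : ∀ u v : ℝ, (ilow (msel (l - b)) l Lp a : ℝ) / NN ≤ u →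
      (ilow (msel (l - b)) l Lp b : ℝ) / NN ≤ v →
      ((1 - t) * ilow (msel (l - b)) l Lp a + t * ilow (msel (l - b)) l Lp b) / NN ≤
        (1 - t) * u + t * v := fun u v hu hv => by
    rw [add_div, mul_div_assoc, mul_div_assoc]
    gcongr
  have dv : ∀ {p q : ℕ}, p ≤ q → (p : ℝ) / NN ≤ q / NN := fun h =>
    div_le_div_of_nonneg_right (Nat.cast_le.2 h) N.le
  rw [add_div ((1 - t) * (a : ℝ)), mul_div_assoc, mul_div_assoc t (b : ℝ)]
  have x0 : 0 ≤ (1 - t) * (a / NN) + t * (b / NN) :=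
    add_nonneg (mul_nonneg s0 a0) (mul_nonneg h0 (a0.trans ab))
  have x1 : (1 - t) * (a / NN) + t * (b / NN) ≤ 1 / 2 := by
    have := add_le_add (mul_le_mul_of_nonneg_left (ab.trans b1) s0)
      (mul_le_mul_of_nonneg_left b1 h0)
    linarith
  refine le_min ?_ (le_min (le_max_of_le_left ?_) ?_)
  · exact ((comb _ _ ((dv (min_le_left _ _)).trans (dlow_le Lp0))
      ((dv (min_le_left _ _)).trans (dlow_le Lp0))).trans
        (Dq_conc g3 a0 (a0.trans ab) h0 h1)).trans (Dq_anti g1 hL x0)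
  · refine (comb _ _ ((dv ((min_le_right _ _).trans (min_le_left _ _))).trans (line_le hab))
      ((dv ((min_le_right _ _).trans (min_le_left _ _))).trans (line_le le_rfl))).trans
        (le_trans ?_ (le_Sq (msel_le (l - b)) _))
    have := mul_le_mul_of_nonneg_left hl (show 0 ≤ (msel (l - b) : ℝ) / 32 by positivity)
    linarith
  · have e : ((20971520 : ℕ) : ℝ) / NN = 5 / 4 := by
      rw [NN]
      norm_num
    refine (comb _ _ ((dv ((min_le_right _ _).trans (min_le_right _ _))).trans e.le)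
      ((dv ((min_le_right _ _).trans (min_le_right _ _))).trans e.le)).trans
        (le_trans ?_ (sqrt_le_Dq g2 (by linarith)))
    refine Real.le_sqrt_of_sq_le ?_
    have := Real.pi_gt_d2
    nlinarith

end Vale.Agent.P232.NCellAux
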