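import Vale.Agent.P232.NNum

open MeasureTheory Set Function Filter Topology
open scoped ENNReal

namespace Vale.Agent.P232

namespace NCellB

/-- the data produced at one vertex -/
def V (N ia ib Fa Fb r : ℝ) : Prop := ∃ ra rb sa sb : ℝ,
    r = (sa + sb) * N ∧ 0 ≤ sa ∧ 0 ≤ sb ∧ 0 ≤ ra ∧ 0 ≤ rb ∧
    ra < 1 ∧ rb < 1 ∧ ra ^ 2 + sa ^ 2 ≤ 1 ∧ rb ^ 2 + sb ^ 2 ≤ 1 ∧
    ∀ t : ℝ, 0 ≤ t → t ≤ 1 → ((1 - t) * Fa + t * Fb) / N ^ 2 ≤
      ((1 - t) * ra + t * rb) * (((1 - t) * ia + t * ib) / N)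

theorem cnn {w x y : ℝ} (h0 : 0 ≤ w) (h1 : w ≤ 1) (hx : 0 ≤ x) (hy : 0 ≤ y) :
    0 ≤ (1 - w) * x + w * y :=
  add_nonneg (mul_nonneg (sub_nonneg.2 h1) hx) (mul_nonneg h0 hy)

theorem cpos {w x y : ℝ} (h0 : 0 ≤ w) (h1 : w ≤ 1) (hx : 0 < x) (hy : 0 < y) :
    0 < (1 - w) * x + w * y := by
  rcases h0.eq_or_lt with rfl | h
  · simpa using hx
  · exact add_pos_of_nonneg_of_pos (mul_nonneg (sub_nonneg.2 h1) hx.le) (mul_pos h hy)

theorem clt {w x y : ℝ} (h0 : 0 ≤ w) (h1 : w ≤ 1) (hx : x < 1) (hy : y < 1) :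
    (1 - w) * x + w * y < 1 := by
  have := cpos h0 h1 (sub_pos.2 hx) (sub_pos.2 hy)
  linarith

theorem cdisc {w r s r' s' : ℝ} (h0 : 0 ≤ w) (h1 : w ≤ 1) (h : r ^ 2 + s ^ 2 ≤ 1)
    (h' : r' ^ 2 + s' ^ 2 ≤ 1) : ((1 - w) * r + w * r') ^ 2 + ((1 - w) * s + w * s') ^ 2 ≤ 1 := by
  have e1 := cnn h0 h1 (sub_nonneg.2 h) (sub_nonneg.2 h')
  have e2 := mul_nonneg (mul_nonneg h0 (sub_nonneg.2 h1))
    (add_nonneg (sq_nonneg (r - r')) (sq_nonneg (s - s')))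
  linarith

theorem V.mix {N ia ib Fa Fb r Fa' Fb' r' w : ℝ} (h : V N ia ib Fa Fb r)
    (h' : V N ia ib Fa' Fb' r') (h0 : 0 ≤ w) (h1 : w ≤ 1) :
    V N ia ib ((1 - w) * Fa + w * Fa') ((1 - w) * Fb + w * Fb') ((1 - w) * r + w * r') := by
  obtain ⟨ra, rb, sa, sb, e, a1, a2, a3, a4, a5, a6, a7, a8, a9⟩ := h
  obtain ⟨ra', rb', sa', sb', e', b1, b2, b3, b4, b5, b6, b7, b8, b9⟩ := h'
  refine ⟨(1 - w) * ra + w * ra', (1 - w) * rb + w * rb', (1 - w) * sa + w * sa',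
    (1 - w) * sb + w * sb', by rw [e, e']; ring, cnn h0 h1 a1 b1, cnn h0 h1 a2 b2,
    cnn h0 h1 a3 b3, cnn h0 h1 a4 b4, clt h0 h1 a5 b5, clt h0 h1 a6 b6, cdisc h0 h1 a7 b7,
    cdisc h0 h1 a8 b8, fun t t0 t1 => ?_⟩
  have := cnn h0 h1 (sub_nonneg.2 (a9 t t0 t1)) (sub_nonneg.2 (b9 t t0 t1))
  refine sub_nonneg.1 (le_of_le_of_eq this ?_)
  ring

theorem V.bil {N ia ib A0 A1 A2 A3 B0 B1 B2 B3 r0 r1 r2 r3 lam mu : ℝ} (h0 : V N ia ib A0 B0 r0)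
    (h1 : V N ia ib A1 B1 r1) (h2 : V N ia ib A2 B2 r2) (h3 : V N ia ib A3 B3 r3)
    (l0 : 0 ≤ lam) (l1 : lam ≤ 1) (m0 : 0 ≤ mu) (m1 : mu ≤ 1) :
    V N ia ib (bil lam mu A0 A1 A2 A3) (bil lam mu B0 B1 B2 B3) (bil lam mu r0 r1 r2 r3) := by
  have e : ∀ x0 x1 x2 x3 : ℝ, P232.bil lam mu x0 x1 x2 x3 =
      (1 - mu) * ((1 - lam) * x0 + lam * x1) + mu * ((1 - lam) * x2 + lam * x3) := fun _ _ _ _ => by
    unfold P232.bil
    ring
  rw [e, e, e]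
  exact (h0.mix h1 l0 l1).mix (h2.mix h3 l0 l1) m0 m1

theorem bil_nonneg {x0 x1 x2 x3 lam mu : ℝ} (h0 : 0 ≤ x0) (h1 : 0 ≤ x1) (h2 : 0 ≤ x2)
    (h3 : 0 ≤ x3) (l0 : 0 ≤ lam) (l1 : lam ≤ 1) (m0 : 0 ≤ mu) (m1 : mu ≤ 1) :
    0 ≤ bil lam mu x0 x1 x2 x3 := by
  refine le_of_le_of_eq (cnn m0 m1 (cnn l0 l1 h0 h1) (cnn l0 l1 h2 h3)) ?_
  unfold bil
  ring

theorem point {F I i ρ s : ℝ} (hF : 0 ≤ F) (hi : 0 < i) (hI : i ≤ I) (h0 : 0 ≤ ρ) (h1 : ρ < 1)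
    (h : F ≤ ρ * i) (hs : ρ ^ 2 + s ^ 2 ≤ 1) : F < I ∧ s ≤ √(1 - (F / I) ^ 2) := by
  have hI0 : 0 < I := hi.trans_le hI
  refine ⟨by nlinarith, Real.le_sqrt_of_sq_le ?_⟩
  have e1 : F / I ≤ ρ := (div_le_iff₀ hI0).2 (h.trans (mul_le_mul_of_nonneg_left hI h0))
  have e2 := pow_le_pow_left₀ (div_nonneg hF hI0.le) e1 2
  linarith

theorem seg {I F : ℝ → ℝ} (hI : Continuous I) (hF : Continuous F) {N a b ia ib Fa Fb r : ℝ}
    (hN : 0 < N) (hab : a ≤ b) (hia : 0 < ia) (hib : 0 < ib) (hFa : 0 ≤ Fa) (hFb : 0 ≤ Fb)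
    (hV : V N ia ib Fa Fb r)
    (hFx : ∀ t, F (((1 - t) * a + t * b) / N) = ((1 - t) * Fa + t * Fb) / N ^ 2)
    (hIx : ∀ t, 0 ≤ t → t ≤ 1 → ((1 - t) * ia + t * ib) / N ≤ I (((1 - t) * a + t * b) / N)) :
    Seg I F (a / N) (b / N) (r * (b - a) / (2 * N ^ 2)) := by
  obtain ⟨ra, rb, sa, sb, e, a1, a2, a3, a4, a5, a6, a7, a8, a9⟩ := hV
  have hab' : a / N ≤ b / N := div_le_div_of_nonneg_right hab hN.le
  have key : ∀ t, 0 ≤ t → t ≤ 1 → 0 ≤ F (((1 - t) * a + t * b) / N) ∧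
      F (((1 - t) * a + t * b) / N) < I (((1 - t) * a + t * b) / N) ∧ (1 - t) * sa + t * sb ≤
        √(1 - (F (((1 - t) * a + t * b) / N) / I (((1 - t) * a + t * b) / N)) ^ 2) :=
    fun t t0 t1 => by
      have p : 0 ≤ F (((1 - t) * a + t * b) / N) := by
        rw [hFx]
        exact div_nonneg (cnn t0 t1 hFa hFb) (sq_nonneg _)
      exact ⟨p, point p (div_pos (cpos t0 t1 hia hib) hN) (hIx t t0 t1) (cnn t0 t1 a3 a4)
        (clt t0 t1 a5 a6) (by rw [hFx]; exact a9 t t0 t1) (cdisc t0 t1 a7 a8)⟩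
  refine ⟨hab', fun x hx => ?_, ?_⟩
  · obtain ⟨p, t, hp, t0, hpt, rfl⟩ := (Convex.mem_Icc hab').1 hx
    have e1 : p * (a / N) + t * (b / N) = ((1 - t) * a + t * b) / N := by
      rw [eq_sub_of_add_eq hpt]
      ring
    rw [e1]
    exact ⟨(key t t0 (by linarith)).1, (key t t0 (by linarith)).2.1⟩
  · have e1 := intervalIntegral.smul_integral_comp_mul_add (a := 0) (b := 1)
      (fun x => √(1 - (F x / I x) ^ 2)) ((b - a) / N) (a / N)
    have e2 : ∀ t, (b - a) / N * t + a / N = ((1 - t) * a + t * b) / N := fun t => by ring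
    simp only [e2, sub_zero, one_mul, zero_mul, add_zero, sub_self, zero_add, smul_eq_mul] at e1
    rw [← e1]
    have hx : Continuous fun t : ℝ => ((1 - t) * a + t * b) / N := by fun_prop
    have hc : ContinuousOn (fun t : ℝ =>
        √(1 - (F (((1 - t) * a + t * b) / N) / I (((1 - t) * a + t * b) / N)) ^ 2)) (Icc 0 1) :=
      (continuousOn_const.sub (((hF.comp hx).continuousOn.div (hI.comp hx).continuousOn
        fun t ht => ((key t ht.1 ht.2).1.trans_lt (key t ht.1 ht.2).2.1).ne').pow 2)).sqrt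
    have e3 := intervalIntegral.integral_mono_on (μ := volume) zero_le_one
      ((by fun_prop : Continuous fun t : ℝ => (1 - t) * sa + t * sb).intervalIntegrable 0 1)
      (hc.intervalIntegrable_of_Icc zero_le_one) fun t ht => (key t ht.1 ht.2).2.2
    have e4 : ∫ t in (0 : ℝ)..1, ((1 - t) * sa + t * sb) = (sa + sb) / 2 := by
      have e5 : ∀ t : ℝ, (1 - t) * sa + t * sb = sa + (sb - sa) * t := fun t => by ring
      simp only [e5]
      rw [intervalIntegral.integral_add (by simp)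
        ((by fun_prop : Continuous fun t : ℝ => (sb - sa) * t).intervalIntegrable 0 1),
        intervalIntegral.integral_const_mul, integral_id]
      simp
      ring
    rw [e4] at e3
    refine le_of_eq_of_le ?_ (mul_le_mul_of_nonneg_left e3 (div_nonneg (sub_nonneg.2 hab) hN.le))
    rw [e]
    field_simp

theorem yy_cast (side : Bool) {x : ℕ} (hx : x ≤ NN) :
    ((yy side x : ℕ) : ℝ) = bif side then (NN : ℝ) - x else x := by
  cases side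
  · rfl
  · exact Nat.cast_sub hx

theorem continuous_Fs (side : Bool) (c H : ℝ) : Continuous (Fs side c H) := by
  unfold Fs
  cases side
  · simp only [cond_false]
    fun_prop
  · simp only [cond_true]
    fun_prop

end NCellB

open NCellB in
theorem cellK_sound_b
    (hv : ∀ {ia ib Fa Fb : ℕ}, 0 < vtx ia ib Fa Fb →
      V NN ia ib Fa Fb ((vtx ia ib Fa Fb - 1 : ℕ) : ℝ))
    {side : Bool} {l Lp : ℕ} {B : Bo} {a b : ℕ} {K : ℕ → ℕ → ℕ → ℕ → Bool}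
    (h : cellK side l Lp B a b K = true) {lam mu c H L L' : ℝ} (hB : InB B lam mu c H)
    (hc : a ≤ b → 2 * b ≤ NN → ∀ t : ℝ, 0 ≤ t → t ≤ 1 →
      ((1 - t) * ilow (msel (l - b)) l Lp a + t * ilow (msel (l - b)) l Lp b) / NN ≤
        In L L' (((1 - t) * a + t * b) / NN)) :
    ∃ t0 t1 t2 t3 : ℕ, K t0 t1 t2 t3 = true ∧
      Seg (In L L') (Fs side c H) ((a : ℝ) / NN) ((b : ℝ) / NN)
        (bil lam mu t0 t1 t2 t3 / (2 * (NN : ℝ) ^ 2)) := by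
  simp only [cellK, Bool.and_eq_true, Nat.ble_eq, Nat.blt_eq] at h
  obtain ⟨⟨⟨⟨⟨⟨⟨⟨hab, hb⟩, hia⟩, hib⟩, h0⟩, h1⟩, h2⟩, h3⟩, hK⟩ := h
  refine ⟨_, _, _, _, hK, ?_⟩
  have hV := V.bil (hv h0) (hv h1) (hv h2) (hv h3) hB.l0 hB.l1 hB.m0 hB.m1
  have hN := NN_pos
  have := seg (continuous_In L L') (continuous_Fs side c H) hN (Nat.cast_le.2 hab)
    (Nat.cast_pos.2 hia) (Nat.cast_pos.2 hib)
    (bil_nonneg (Nat.cast_nonneg _) (Nat.cast_nonneg _) (Nat.cast_nonneg _) (Nat.cast_nonneg _)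
      hB.l0 hB.l1 hB.m0 hB.m1)
    (bil_nonneg (Nat.cast_nonneg _) (Nat.cast_nonneg _) (Nat.cast_nonneg _) (Nat.cast_nonneg _)
      hB.l0 hB.l1 hB.m0 hB.m1) hV (fun t => by
      have ea := yy_cast side (x := a) (by omega)
      have eb := yy_cast side (x := b) (by omega)
      simp only [Nat.cast_add, Nat.cast_mul, ea, eb, Fs, hB.hc, hB.hH, bil]
      generalize (NN : ℝ) = N at hN ⊢
      cases side
      · simp only [cond_false]
        field_simp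
        ring
      · simp only [cond_true]
        field_simp
        ring) (hc hab hb)
  simp only [Nat.cast_mul, Nat.cast_sub hab]
  refine cast (congrArg _ ?_) this
  unfold bil
  ring

end Vale.Agent.P232
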