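import Vale.Agent.P232.NNum
import Vale.Agent.P232.NCellA
import Vale.Agent.P232.NCellB

open MeasureTheory Set Function Filter Topology
open scoped ENNReal

namespace Vale.Agent.P232

/-- one vertex, one point `t` of the cell -/
theorem vtx_sound {ia ib Fa Fb : ℕ} (h : 0 < vtx ia ib Fa Fb) : ∃ ra rb sa sb : ℝ,
    ((vtx ia ib Fa Fb - 1 : ℕ) : ℝ) = (sa + sb) * NN ∧ 0 ≤ sa ∧ 0 ≤ sb ∧ 0 ≤ ra ∧ 0 ≤ rb ∧
    ra < 1 ∧ rb < 1 ∧ ra ^ 2 + sa ^ 2 ≤ 1 ∧ rb ^ 2 + sb ^ 2 ≤ 1 ∧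
    ∀ t : ℝ, 0 ≤ t → t ≤ 1 → ((1 - t) * Fa + t * Fb) / (NN : ℝ) ^ 2 ≤
      ((1 - t) * ra + t * rb) * (((1 - t) * ia + t * ib) / NN) := NCellAux.vtx_a h

/-- the chord lies below the nested profile -/
theorem chord_le {l Lp a b : ℕ} (hab : a ≤ b) (hb : 2 * b ≤ NN) {L L' : ℝ}
    (hl : (l : ℝ) / NN ≤ L) (hL : max L (1 / 8) ≤ (Lp : ℝ) / NN) {t : ℝ} (h0 : 0 ≤ t)
    (h1 : t ≤ 1) :
    ((1 - t) * ilow (msel (l - b)) l Lp a + t * ilow (msel (l - b)) l Lp b) / NN ≤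
      In L L' (((1 - t) * a + t * b) / NN) := NCellAux.chord_a hab hb hl hL h0 h1

theorem cellK_sound {side : Bool} {l Lp : ℕ} {B : Bo} {a b : ℕ} {K : ℕ → ℕ → ℕ → ℕ → Bool}
    (h : cellK side l Lp B a b K = true) {lam mu c H L L' : ℝ} (hB : InB B lam mu c H)
    (hl : (l : ℝ) / NN ≤ L) (hL : max L (1 / 8) ≤ (Lp : ℝ) / NN) :
    ∃ t0 t1 t2 t3 : ℕ, K t0 t1 t2 t3 = true ∧
      Seg (In L L') (Fs side c H) ((a : ℝ) / NN) ((b : ℝ) / NN)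
        (bil lam mu t0 t1 t2 t3 / (2 * (NN : ℝ) ^ 2)) :=
  cellK_sound_b (fun h0 => vtx_sound h0) h hB fun hab hb _ h0 h1 => chord_le hab hb hl hL h0 h1

end Vale.Agent.P232
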