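import Vale.Agent.P232.NBase

open MeasureTheory Set Function Filter Topology
open scoped ENNReal

namespace Vale.Agent.P232

/-! ### the integer checker; all lengths are in units of `1 / NN` -/

def NN : ℕ := 16777216
def pl : ℕ := 52707178
def pu : ℕ := 52707179

/-- lower bound for the square root -/
def sqN (y : ℕ) : ℕ :=
  let g0 := 2 ^ ((Nat.log2 y + 2) / 2)
  let g1 := (g0 + y / g0) / 2
  let g2 := (g1 + y / g1) / 2
  let g3 := (g2 + y / g2) / 2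
  let g4 := (g3 + y / g3) / 2
  let s := y / (g4 + 1)
  bif Nat.ble (s * s) y then s else 0

def dlow (L x : ℕ) : ℕ :=
  bif Nat.ble (pu * L * L) (4 * x * NN * NN) then x * NN / L + pl * L / (4 * NN) else sqN (pl * x)

def ghN (m : ℕ) : ℕ :=
  (901943132160 - 146800640 * (m * m) - 21504 * (m * m * (m * m)) -
    45 * (m * m * (m * m) * (m * m))) / 53760

def msel (d : ℕ) : ℕ :=
  min (min ((NN + 192 * d) / (2 * NN)) ((3 * NN + 72 * d) / NN))
    (min (min ((8 * NN + 48 * d) / NN) ((13 * NN + 30 * d) / NN)) 32)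

def ilow (m l L x : ℕ) : ℕ := min (dlow L x) (min (ghN m + m * (l - x) / 32) 20971520)

def vtx (ia ib Fa Fb : ℕ) : ℕ :=
  let ra0 := Fa / ia
  let rb0 := Fb / ib
  let e := ((rb0 - ra0) * (ib - ia) + (ra0 - rb0) * (ia - ib)) * 9 / 32
  let ra := (Fa + e) / ia + 1
  let rb := (Fb + e) / ib + 1
  let Y := ra * ib + rb * ia
  bif Nat.blt ra NN && Nat.blt rb NN && Nat.ble Fa (ra * ia) && Nat.ble Fb (rb * ib) &&
      Nat.ble (3 * Fa + Fb) (Y + 2 * ra * ia) && Nat.ble (Fa + 3 * Fb) (Y + 2 * rb * ib) then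
    sqN (NN * NN - ra * ra) + sqN (NN * NN - rb * rb) + 1
  else 0

def node (x0 w n : ℕ) (two : Bool) (k : ℕ) : ℕ :=
  bif two then x0 + w * (k * k * (3 * n - 2 * k)) / (n * n * n)
  else x0 + w * (k * k * (3 * n - k)) / (2 * n * n * n)

/-- trapezoid with vertices `(c00,H0) (c10,H0) (c01,H1) (c11,H1)` -/
structure Bo where
  c00 : ℕ
  c10 : ℕ
  c01 : ℕ
  c11 : ℕ
  H0 : ℕ
  H1 : ℕ

def yy (side : Bool) (x : ℕ) : ℕ := bif side then NN - x else x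

def cellK (side : Bool) (l L : ℕ) (B : Bo) (a b : ℕ) (K : ℕ → ℕ → ℕ → ℕ → Bool) : Bool :=
  let m := msel (l - b)
  let ia := ilow m l L a
  let ib := ilow m l L b
  let ya := yy side a
  let yb := yy side b
  let r0 := vtx ia ib (B.c00 * NN + B.H0 * ya) (B.c00 * NN + B.H0 * yb)
  let r1 := vtx ia ib (B.c10 * NN + B.H0 * ya) (B.c10 * NN + B.H0 * yb)
  let r2 := vtx ia ib (B.c01 * NN + B.H1 * ya) (B.c01 * NN + B.H1 * yb)
  let r3 := vtx ia ib (B.c11 * NN + B.H1 * ya) (B.c11 * NN + B.H1 * yb)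
  Nat.ble a b && Nat.ble (2 * b) NN && Nat.blt 0 ia && Nat.blt 0 ib && Nat.blt 0 r0 &&
    Nat.blt 0 r1 && Nat.blt 0 r2 && Nat.blt 0 r3 &&
    K ((r0 - 1) * (b - a)) ((r1 - 1) * (b - a)) ((r2 - 1) * (b - a)) ((r3 - 1) * (b - a))

def run (side : Bool) (l L : ℕ) (B : Bo) (g : ℕ → ℕ) :
    ℕ → ℕ → ℕ → ℕ → ℕ → (ℕ → ℕ → ℕ → ℕ → Bool) → Bool
  | 0, s0, s1, s2, s3, K => K s0 s1 s2 s3
  | k + 1, s0, s1, s2, s3, K => cellK side l L B (g k) (g (k + 1))
      (fun t0 t1 t2 t3 => run side l L B g k (s0 + t0) (s1 + t1) (s2 + t2) (s3 + t3) K)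

def tauN (H : ℕ) : ℕ :=
  bif Nat.ble (2 * H) pl then NN - H * NN / pu
  else bif Nat.ble (9 * NN) (4 * H) then 2 * pu * (9 * NN - 2 * H) / (81 * NN) + 1
  else pu * NN / (4 * H) + 1

def vup (H : ℕ) : ℕ :=
  min (NN * NN / pl + 1) (max (pu * NN * NN / (4 * H * H) + 1) (4 * pu / 81 + 1))

def vlo (H : ℕ) : ℕ := max (4 * pl / 81) (min (pl * NN * NN / (4 * H * H)) (NN * NN / pu))

def sok (l b : ℕ) : Bool :=
  let m := msel (l - b)
  let s := ghN m + m * (l - b) / 32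
  Nat.ble (pu * b) (s * s)

def below (c H a : ℕ) : Bool :=
  Nat.blt ((c * NN + H * a) * (c * NN + H * a)) (pl * a * NN * NN)

def above (c H a : ℕ) : Bool :=
  Nat.ble (pu * a * NN * NN) ((c * NN + H * a) * (c * NN + H * a))

def belowT (B : Bo) (a : ℕ) : Bool := below B.c10 B.H0 a && below B.c11 B.H1 a

def tgt (k e th vb c H S : ℕ) : Bool :=
  Nat.blt (th * (2 * NN * tauN H) + (4 - th) * ((k * c + e) * NN + H * vb)) (4 * (S + 2 * c * NN))

def allT (k e th : ℕ) (B : Bo) (s0 s1 s2 s3 : ℕ) : Bool :=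
  Nat.ble th 4 && tgt k e th (vup B.H0) B.c00 B.H0 s0 && tgt k e th (vup B.H0) B.c10 B.H0 s1 &&
    tgt k e th (vup B.H0) B.c01 B.H1 s2 && tgt k e th (vup B.H0) B.c11 B.H1 s3

def cylok (B : Bo) (l b : ℕ) : Bool :=
  Nat.ble (2 * b) NN && Nat.ble (vup B.H0) b && sok l b && above B.c00 B.H0 b &&
    above B.c01 B.H1 b &&
    Nat.blt (2 * NN * NN / pl + 1)
      (NN * NN / B.H1 + sqN (4 * min B.c00 B.c01 * NN * NN * NN / (pu * B.H1)))

/-- the region left to the analytic lemma near the ball -/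
def excok (B : Bo) (l : ℕ) : Bool :=
  Nat.ble 49828331 B.H0 && Nat.ble B.c10 251658 && Nat.ble B.c11 251658 && Nat.ble 9437184 l

inductive Lf where
  | exc : Lf
  | cyl (b : ℕ) : Lf
  | num (a0 w n : ℕ) (two : Bool) (th : ℕ) (useR : Bool) : Lf

def numok (k e : ℕ) (B : Bo) (hasR : Bool) (R0 R1 R2 R3 l0 l1 a0 w n : ℕ) (two : Bool) (th : ℕ)
    (useR : Bool) : Bool :=
  let L := max l1 2097152
  let g := node a0 w n two
  let a := g 0
  let a1 := g n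
  Nat.blt 0 n && (Nat.ble a (vlo B.H1) || (belowT B a && sok l0 a)) &&
    (Nat.ble (vup B.H0) a1 || belowT B a1 || Nat.ble NN (dlow L a1)) &&
    (bif useR then hasR && Nat.beq (2 * a1) NN && run false l0 L B g n R0 R1 R2 R3 (allT k e th B)
      else run false l0 L B g n 0 0 0 0 (allT k e th B))

def leafok (k e : ℕ) (B : Bo) (hasR : Bool) (R0 R1 R2 R3 l0 l1 : ℕ) : Lf → Bool
  | .exc => excok B l0
  | .cyl b => cylok B l0 b
  | .num a0 w n two th useR => numok k e B hasR R0 R1 R2 R3 l0 l1 a0 w n two th useR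

def lefts (k e : ℕ) (B : Bo) (hasR : Bool) (R0 R1 R2 R3 : ℕ) : ℕ → List (ℕ × Lf) → Bool
  | l0, [] => Nat.ble NN l0
  | l0, (l1, f) :: t =>
      Nat.ble l0 l1 && leafok k e B hasR R0 R1 R2 R3 l0 l1 f && lefts k e B hasR R0 R1 R2 R3 l1 t

def rights (B : Bo) :
    ℕ → List (ℕ × ℕ × ℕ) → ℕ → ℕ → ℕ → ℕ → (ℕ → ℕ → ℕ → ℕ → Bool) → Bool
  | l0, [], m0, m1, m2, m3, K => Nat.ble NN l0 && K m0 m1 m2 m3
  | l0, (l1, x0, n) :: t, m0, m1, m2, m3, K =>
      Nat.ble l0 l1 && Nat.blt 0 n && Nat.beq (2 * node x0 (8388608 - x0) n false n) NN &&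
      run true l0 (max l1 2097152) B (node x0 (8388608 - x0) n false) n 0 0 0 0
        (fun s0 s1 s2 s3 => rights B l1 t (min m0 s0) (min m1 s1) (min m2 s2) (min m3 s3) K)

def boxok (k e : ℕ) (B : Bo) (rs : List (ℕ × ℕ × ℕ)) (ls : List (ℕ × Lf)) : Bool :=
  match rs with
  | [] => lefts k e B false 0 0 0 0 0 ls
  | r :: rs' => rights B 0 (r :: rs') (2 * NN * NN) (2 * NN * NN) (2 * NN * NN) (2 * NN * NN)
      (fun m0 m1 m2 m3 => lefts k e B true m0 m1 m2 m3 0 ls)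

def topok (m ca cb H0 H1 : ℕ) : Bool :=
  (Nat.ble (tauN H0) ca && Nat.ble (tauN H1) cb) ||
    (Nat.blt (2 * NN * NN) (m * ca * NN + 3 * H0 * vlo H1) &&
      Nat.blt (2 * NN * NN) (m * cb * NN + 3 * H1 * vlo H1))

def stripok (m k e H0 H1 : ℕ) :
    ℕ → ℕ → List (ℕ × ℕ × List (ℕ × ℕ × ℕ) × List (ℕ × Lf)) → Bool
  | ca, cb, [] => topok m ca cb H0 H1
  | ca, cb, (c1, c3, rs, ls) :: t =>
      Nat.ble ca c1 && Nat.ble cb c3 && boxok k e ⟨ca, c1, cb, c3, H0, H1⟩ rs ls &&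
        stripok m k e H0 H1 c1 c3 t

/-! ### real-variable meaning -/

/-- bilinear interpolation -/
noncomputable def bil (lam mu f00 f10 f01 f11 : ℝ) : ℝ :=
  (1 - lam) * (1 - mu) * f00 + lam * (1 - mu) * f10 + (1 - lam) * mu * f01 + lam * mu * f11

/-- `(c,H)` is the point of the trapezoid with parameters `(lam,mu)` -/
structure InB (B : Bo) (lam mu c H : ℝ) : Prop where
  l0 : 0 ≤ lam
  l1 : lam ≤ 1
  m0 : 0 ≤ mu
  m1 : mu ≤ 1
  hc : c = bil lam mu B.c00 B.c10 B.c01 B.c11 / NN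
  hH : H = ((1 - mu) * B.H0 + mu * B.H1) / NN
  o0 : B.c00 ≤ B.c10
  o1 : B.c01 ≤ B.c11
  p0 : 0 < B.H0
  p1 : B.H0 ≤ B.H1

/-- the affine flux, read from the left or from the right end -/
noncomputable def Fs (side : Bool) (c H x : ℝ) : ℝ := c + H * (bif side then 1 - x else x)

/-- `[a,b]` lies in the gap and carries at least `T` -/
def Seg (I F : ℝ → ℝ) (a b T : ℝ) : Prop :=
  a ≤ b ∧ (∀ x ∈ Icc a b, 0 ≤ F x ∧ F x < I x) ∧ T ≤ ∫ x in a..b, √(1 - (F x / I x) ^ 2)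

/-- the part of `Gam` treated numerically -/
def G2 (v H : ℝ) : Prop :=
  4 * Real.pi / 81 ≤ v ∧ v ≤ 1 / Real.pi ∧ 0 < H ∧ H ≤ 3 ∧
    ((v = 4 * Real.pi / 81 ∧ 9 / 4 ≤ H) ∨ v = Real.pi / (4 * H ^ 2) ∨
      (v = 1 / Real.pi ∧ H ≤ Real.pi / 2))

/-- the body of `DirP` -/
structure DirW (A v H c α β L L' : ℝ) : Prop where
  a0 : 0 ≤ α
  av : α ≤ v
  vb : v ≤ β
  b1 : β ≤ 1
  L0 : 0 ≤ L
  L1 : L ≤ 1
  M0 : 0 ≤ L'
  M1 : L' ≤ 1
  fa : In L L' α ≤ c + H * α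
  fb : In L L' β ≤ c + H * β
  star : StarP A (c + H * v) c H α β (In L L')

/-- one direction of a potential counterexample -/
structure Hyp (m k e : ℕ) (A v H c α β L L' : ℝ) : Prop where
  g : G2 v H
  hA : A ≤ √(Real.pi * v)
  d : DirW A v H c α β L L'
  c0 : 0 ≤ c
  gap : c + H * v < √(Real.pi * v)
  lo : m * c + 3 * H * v ≤ 2 * A
  up : 2 * A ≤ k * c + (e : ℝ) / NN + 3 * H * v
  nexc : ¬ ((49828331 : ℝ) / NN ≤ H ∧ c ≤ 251658 / NN ∧ 9 / 16 ≤ L)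

/-- meaning of the right-hand sums -/
def RP (hasR : Bool) (lam mu c H L L' : ℝ) (R0 R1 R2 R3 : ℕ) : Prop :=
  hasR = true → ∃ x : ℝ,
    Seg (In L' L) (Fs true c H) x (1 / 2) (bil lam mu R0 R1 R2 R3 / (2 * (NN : ℝ) ^ 2))

/-- no counterexample direction with `c ≥ cs` and `H` in the strip -/
def StripP (m k e cs H0 H1 : ℕ) : Prop :=
  ∀ A v H c α β L L' : ℝ, Hyp m k e A v H c α β L L' → (cs : ℝ) / NN ≤ c →
    (H0 : ℝ) / NN ≤ H → H ≤ (H1 : ℝ) / NN → False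

theorem StripP.join {m k e cs H0 H1 H2 : ℕ} (h : StripP m k e cs H0 H1)
    (h' : StripP m k e cs H1 H2) : StripP m k e cs H0 H2 := by
  intro A v H c α β L L' hy hc h0 h2
  rcases le_total H ((H1 : ℝ) / NN) with h1 | h1
  · exact h A v H c α β L L' hy hc h0 h1
  · exact h' A v H c α β L L' hy hc h1 h2

end Vale.Agent.P232
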