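import Vale.Agent.P232.NRoot

open MeasureTheory Set Function Filter Topology
open scoped ENNReal

namespace Vale.Agent.P232

namespace NCylAux

theorem odd0 : ∫ x in (-1 : ℝ)..1, x * √(1 - x ^ 2) = 0 := by
  have := intervalIntegral.integral_comp_neg (a := -1) (b := 1) fun x : ℝ => x * √(1 - x ^ 2)
  simp only [neg_neg, neg_mul, even_two, Even.neg_pow, intervalIntegral.integral_neg] at this
  linarith

theorem semi {p q : ℝ} (h : p < q) (g : ℝ) :
    ∫ u in p..q, √((u - p) * (q - u)) * (u + g) = Real.pi * (q - p) ^ 2 / 8 * ((p + q) / 2 + g) := by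
  have r0 : 0 < (q - p) / 2 := by linarith
  have := intervalIntegral.smul_integral_comp_mul_add (a := -1) (b := 1)
    (fun u => √((u - p) * (q - u)) * (u + g)) ((q - p) / 2) ((p + q) / 2)
  rw [show (q - p) / 2 * -1 + (p + q) / 2 = p by ring,
    show (q - p) / 2 * 1 + (p + q) / 2 = q by ring] at this
  rw [← this]
  have e : ∀ x : ℝ, √(((q - p) / 2 * x + (p + q) / 2 - p) * (q - ((q - p) / 2 * x + (p + q) / 2))) *
      ((q - p) / 2 * x + (p + q) / 2 + g) = (q - p) / 2 * ((p + q) / 2 + g) * √(1 - x ^ 2) +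
        ((q - p) / 2) ^ 2 * (x * √(1 - x ^ 2)) := fun x => by
    rw [show ((q - p) / 2 * x + (p + q) / 2 - p) * (q - ((q - p) / 2 * x + (p + q) / 2)) =
      ((q - p) / 2) ^ 2 * (1 - x ^ 2) by ring, Real.sqrt_mul (sq_nonneg _), Real.sqrt_sq r0.le]
    ring
  simp only [e]
  rw [intervalIntegral.integral_add (Continuous.intervalIntegrable (by fun_prop) _ _)
    (Continuous.intervalIntegrable (by fun_prop) _ _), intervalIntegral.integral_const_mul,
    intervalIntegral.integral_const_mul, odd0, integral_sqrt_one_sub_sq, smul_eq_mul]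
  ring

end NCylAux

/-- stability of the cylinder -/
theorem cyl_raw {A c H α β v b : ℝ} {I : ℝ → ℝ} (hc : 0 ≤ c) (hH : 0 < H) (h0 : 0 ≤ α)
    (hα : α ≤ v) (hβ : v ≤ β) (hvb : v ≤ b) (hI : ∀ a, 0 ≤ a → a ≤ b → √(Real.pi * a) ≤ I a)
    (fα : I α ≤ c + H * α) (fβ : I β ≤ c + H * β) (fv : c + H * v < √(Real.pi * v))
    (fb : √(Real.pi * b) ≤ c + H * b) (hs : StarP A (c + H * v) c H α β I)
    (hk : 2 / Real.pi < 1 / H + √(4 * c / (Real.pi * H))) : √(Real.pi * v) < A := by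
  obtain ⟨p, q, p0, pv, vq, e1, e2, h⟩ := roots_star hc hH h0 hα hβ hvb hI fα fβ fv fb hs
  have pi0 := Real.pi_pos
  have pq := pv.trans vq
  have v0 : 0 ≤ v := h0.trans hα
  obtain ⟨w, hw⟩ : ∃ w, w = √Real.pi := ⟨_, rfl⟩
  have w0 : 0 < w := hw ▸ Real.sqrt_pos.2 pi0
  have w2 : w ^ 2 = Real.pi := hw ▸ Real.sq_sqrt pi0.le
  obtain ⟨g, hg⟩ : ∃ g, g = √(p * q) := ⟨_, rfl⟩
  have g0 : 0 ≤ g := hg ▸ Real.sqrt_nonneg _
  have g2 : g ^ 2 = p * q := hg ▸ Real.sq_sqrt (mul_nonneg p0 (p0.trans pq.le))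
  have lo : ∫ u in p..q, √((u - p) * (q - u)) * (u + g) ≤
      ∫ u in p..q, √((u ^ 2 - p ^ 2) * (q ^ 2 - u ^ 2)) := by
    refine intervalIntegral.integral_mono_on pq.le (Continuous.intervalIntegrable (by fun_prop) _ _)
      (Continuous.intervalIntegrable (by fun_prop) _ _) fun u hu => Real.le_sqrt_of_sq_le ?_
    have u0 : 0 ≤ u := p0.trans hu.1
    have a : 0 ≤ (u - p) * (q - u) := mul_nonneg (sub_nonneg.2 hu.1) (sub_nonneg.2 hu.2)
    have b : 2 * g ≤ p + q := le_of_sq_le_sq (by linarith [sq_nonneg (p - q)]) (by linarith)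
    rw [mul_pow, Real.sq_sqrt a, show (u ^ 2 - p ^ 2) * (q ^ 2 - u ^ 2) =
      (u - p) * (q - u) * ((u + p) * (u + q)) by ring]
    refine mul_le_mul_of_nonneg_left ?_ a
    have := mul_le_mul_of_nonneg_left b u0
    linarith
  rw [NCylAux.semi pq] at lo
  rw [← hw] at e1 h
  have k : √(4 * c / (Real.pi * H)) = 2 * g / w := by
    rw [Real.sqrt_eq_iff_mul_self_eq (by positivity) (by positivity), ← e2, ← w2, ← g2]
    field_simp
    ring
  have k2 : 1 < w * ((p + q) / 2 + g) := by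
    have e : 1 / H = (p + q) / w := by rw [← e1]; field_simp [(by linarith : p + q ≠ 0)]
    rw [k, e, ← w2, ← add_div, div_lt_div_iff₀ (by positivity) w0] at hk
    have : w * 1 < w * (w * ((p + q) / 2 + g)) := by linarith
    exact lt_of_mul_lt_mul_left this w0.le
  have hv := Real.sq_sqrt v0
  have top : √(Real.pi * v) - (c + H * v) ≤ H * (q - p) ^ 2 / 4 := by
    rw [Real.sqrt_mul pi0.le, ← hw, ← e1, ← e2]
    have : H * (p + q) * √v - (H * (p * q) + H * v) =
        H * (q - p) ^ 2 / 4 - H * (√v - (p + q) / 2) ^ 2 := by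
      linear_combination H * hv
    rw [this]
    linarith [mul_nonneg hH.le (sq_nonneg (√v - (p + q) / 2))]
  have e3 : 2 * H / w * (Real.pi * (q - p) ^ 2 / 8 * ((p + q) / 2 + g)) =
      H * (q - p) ^ 2 / 4 * (w * ((p + q) / 2 + g)) := by rw [← w2]; field_simp; ring
  have p1 : 0 < H * (q - p) ^ 2 / 4 := by have := sub_pos.2 pq; positivity
  have := mul_le_mul_of_nonneg_left lo (by positivity : 0 ≤ 2 * H / w)
  have := mul_lt_mul_of_pos_left k2 p1
  linarith

end Vale.Agent.P232
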