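import Vale.Agent.P232.NChk
import Vale.Agent.P232.NCylA

open MeasureTheory Set Function Filter Topology
open scoped ENNReal

namespace Vale.Agent.P232

theorem ncyl {A v H c α β L L' b : ℝ} (h : DirW A v H c α β L L') (hH : 0 < H) (hc : 0 ≤ c)
    (hv : 0 < v) (hvb : v ≤ b) (hI : ∀ a, 0 ≤ a → a ≤ b → √(Real.pi * a) ≤ In L L' a)
    (hgap : c + H * v < √(Real.pi * v)) (hb : √(Real.pi * b) ≤ c + H * b)
    (hq : 2 / Real.pi < 1 / H + √(4 * c / (Real.pi * H))) : √(Real.pi * v) < A :=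
  cyl_raw hc hH h.a0 h.av h.vb hvb hI h.fa h.fb hgap hb h.star hq

end Vale.Agent.P232
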