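import Vale.Agent.P232.NRun
import Vale.Agent.P232.NCyl

open MeasureTheory Set Function Filter Topology
open scoped ENNReal

namespace Vale.Agent.P232

namespace NLeafA

variable {m k e : ℕ} {B : Bo} {A v H c α β L L' lam mu : ℝ}

theorem cvx {t a b c d : ℝ} (h0 : 0 ≤ t) (h1 : t ≤ 1) (h : a < b) (h' : c < d) :
    (1 - t) * a + t * c < (1 - t) * b + t * d := by
  rcases h0.eq_or_lt with rfl | h0
  · simpa using h
  · nlinarith

theorem cvx' {t a b c d : ℝ} (h0 : 0 ≤ t) (h1 : t ≤ 1) (h : a ≤ b) (h' : c ≤ d) :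
    (1 - t) * a + t * c ≤ (1 - t) * b + t * d := by nlinarith

theorem c_bd (hB : InB B lam mu c H) : (1 - mu) * (B.c00 / NN) + mu * (B.c01 / NN) ≤ c ∧
    c ≤ (1 - mu) * (B.c10 / NN) + mu * (B.c11 / NN) := by
  have hN := NN_pos
  have h0 : (B.c00 : ℝ) / NN ≤ B.c10 / NN := by gcongr; exact hB.o0
  have h1 : (B.c01 : ℝ) / NN ≤ B.c11 / NN := by gcongr; exact hB.o1
  have e : c = (1 - mu) * ((1 - lam) * (B.c00 / NN) + lam * (B.c10 / NN)) +
      mu * ((1 - lam) * (B.c01 / NN) + lam * (B.c11 / NN)) := by rw [hB.hc, bil]; ring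
  have l0 := hB.l0
  have l1 := hB.l1
  rw [e]
  exact ⟨cvx' hB.m0 hB.m1 (by nlinarith) (by nlinarith),
    cvx' hB.m0 hB.m1 (by nlinarith) (by nlinarith)⟩

theorem H_eq (hB : InB B lam mu c H) : H = (1 - mu) * (B.H0 / NN) + mu * (B.H1 / NN) := by
  rw [hB.hH]; ring

theorem H_bd (hB : InB B lam mu c H) : (B.H0 : ℝ) / NN ≤ H ∧ H ≤ B.H1 / NN := by
  have hN := NN_pos
  have h0 : (B.H0 : ℝ) / NN ≤ B.H1 / NN := by gcongr; exact hB.p1
  have := hB.m0
  have := hB.m1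
  rw [H_eq hB]
  constructor <;> nlinarith

theorem le_top (hB : InB B lam mu c H) {a : ℕ} (h : belowT B a = true) :
    c + H * ((a : ℝ) / NN) < √(Real.pi * ((a : ℝ) / NN)) := by
  rw [belowT, Bool.and_eq_true] at h
  have h1 := cvx hB.m0 hB.m1 (below_sound h.1) (below_sound h.2)
  have h2 := (c_bd hB).2
  rw [H_eq hB]
  linarith

theorem tgt_sound {th vb c H S : ℕ} (h4 : th ≤ 4) (h : tgt k e th vb c H S = true) :
    (th : ℝ) * (2 * NN * tauN H) + (4 - th) * ((k * c + e) * NN + H * vb) < 4 * (S + 2 * c * NN) := by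
  rw [tgt, Nat.blt_eq] at h
  have h1 := (Nat.cast_lt (α := ℝ)).2 h
  simpa only [Nat.cast_add, Nat.cast_mul, Nat.cast_sub h4, Nat.cast_ofNat] using h1

theorem allT_sound (hy : Hyp m k e A v H c α β L L') (hB : InB B lam mu c H)
    (h4 : B.H1 ≤ 4 * NN) {th s0 s1 s2 s3 : ℕ} (h : allT k e th B s0 s1 s2 s3 = true) :
    A < c + H * v + bil lam mu s0 s1 s2 s3 / (2 * (NN : ℝ) ^ 2) := by
  simp only [allT, Bool.and_eq_true, Nat.ble_eq] at h
  obtain ⟨⟨⟨⟨ht, t0⟩, t1⟩, t2⟩, t3⟩ := h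
  have hN := NN_pos
  have k1 := cvx hB.m0 hB.m1 (cvx hB.l0 hB.l1 (tgt_sound ht t0) (tgt_sound ht t1))
    (cvx hB.l0 hB.l1 (tgt_sound ht t2) (tgt_sound ht t3))
  have k2 := cvx' hB.m0 hB.m1 (tauN_sound hy.g.1 hy.g.2.1 hB.p0 (hB.p1.trans h4))
    (tauN_sound hy.g.1 hy.g.2.1 (hB.p0.trans_le hB.p1) h4)
  have k3 := mul_le_mul_of_nonneg_left (vup_sound hy.g hB.p0 (H_bd hB).1) hy.g.2.2.1.le
  have a1 : A - H * v ≤ (1 - mu) * (tauN B.H0 / NN) + mu * (tauN B.H1 / NN) := by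
    rw [H_eq hB]
    linarith [hy.hA]
  have a2 : A - H * v ≤ (k * c + e / NN + H * (vup B.H0 / NN)) / 2 := by linarith [hy.up]
  have a3 := add_le_add (mul_le_mul_of_nonneg_left a1 (Nat.cast_nonneg th))
    (mul_le_mul_of_nonneg_left a2 (sub_nonneg.2 (show (th : ℝ) ≤ 4 by exact_mod_cast ht)))
  have a4 := mul_le_mul_of_nonneg_left a3 (show 0 ≤ 2 * (NN : ℝ) ^ 2 by positivity)
  have ec : bil lam mu B.c00 B.c10 B.c01 B.c11 = c * NN := by rw [hB.hc]; field_simp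
  have eH : (1 - mu) * B.H0 + mu * B.H1 = H * NN := by rw [hB.hH]; field_simp
  have e1 : 2 * (NN : ℝ) ^ 2 * (th * ((1 - mu) * (tauN B.H0 / NN) + mu * (tauN B.H1 / NN)) +
      (4 - th) * ((k * c + e / NN + H * (vup B.H0 / NN)) / 2)) =
      th * (2 * NN * ((1 - mu) * tauN B.H0 + mu * tauN B.H1)) +
        (4 - th) * ((k * (c * NN) + e) * NN + H * NN * vup B.H0) := by field_simp
  rw [e1, ← ec, ← eH] at a4
  rw [← sub_lt_iff_lt_add', lt_div_iff₀ (by positivity)]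
  have e2 : c * (NN : ℝ) ^ 2 = bil lam mu B.c00 B.c10 B.c01 B.c11 * NN := by rw [ec]; ring
  simp only [bil] at a4 e2 ⊢
  linarith

theorem excok_sound (hy : Hyp m k e A v H c α β L L') (hB : InB B lam mu c H) {l0 : ℕ}
    (hl : (l0 : ℝ) / NN ≤ L) (h : excok B l0 = true) : False := by
  simp only [excok, Bool.and_eq_true, Nat.ble_eq] at h
  obtain ⟨⟨⟨h0, h1⟩, h2⟩, h3⟩ := h
  have hN := NN_pos
  have k0 : (49828331 : ℝ) / NN ≤ B.H0 / NN := by gcongr; exact_mod_cast h0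
  have k1 : (B.c10 : ℝ) / NN ≤ 251658 / NN := by gcongr; exact_mod_cast h1
  have k2 : (B.c11 : ℝ) / NN ≤ 251658 / NN := by gcongr; exact_mod_cast h2
  have k3 : (9437184 : ℝ) / NN ≤ l0 / NN := by gcongr; exact_mod_cast h3
  have k4 : (9437184 : ℝ) / NN = 9 / 16 := by rw [NN]; norm_num
  have k5 := cvx' hB.m0 hB.m1 k1 k2
  exact hy.nexc ⟨k0.trans (H_bd hB).1, by linarith [(c_bd hB).2], by linarith⟩

theorem cylok_sound (hy : Hyp m k e A v H c α β L L') (hB : InB B lam mu c H) {l0 b : ℕ}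
    (hl : (l0 : ℝ) / NN ≤ L) (h : cylok B l0 b = true) : False := by
  simp only [cylok, Bool.and_eq_true, Nat.ble_eq, Nat.blt_eq] at h
  obtain ⟨⟨⟨⟨⟨h0, h1⟩, h2⟩, h3⟩, h4⟩, h5⟩ := h
  have hN := NN_pos
  have hp := Real.pi_pos
  have hH := hy.g.2.2.1
  have hH1 : (0 : ℝ) < B.H1 := by exact_mod_cast hB.p0.trans_le hB.p1
  have hpl : 0 < pl := by rw [pl]; norm_num
  have hpl' : (0 : ℝ) < pl := by exact_mod_cast hpl
  have hpu : (0 : ℝ) < pu := by rw [pu]; norm_num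
  refine (ncyl (b := (b : ℝ) / NN) hy.d hH hy.c0 (lt_of_lt_of_le (by positivity) hy.g.1)
    ((vup_sound hy.g hB.p0 (H_bd hB).1).trans (by gcongr)) (fun a => sqrt_le_In ?_ (sok_sound h2 hl))
    hy.gap ?_ ?_).not_ge hy.hA
  · rw [div_le_div_iff₀ hN two_pos, one_mul, mul_comm]
    exact_mod_cast h0
  · have k1 := cvx' hB.m0 hB.m1 (above_sound h3) (above_sound h4)
    have k2 := (c_bd hB).1
    rw [H_eq hB]
    linarith
  · generalize hy' : 4 * min B.c00 B.c01 * NN * NN * NN / (pu * B.H1) = y at h5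
    have k0 := (Nat.cast_lt (α := ℝ)).2 h5
    rw [Nat.cast_add, Nat.cast_add, Nat.cast_one] at k0
    have k1 : 2 / Real.pi * NN < ((2 * NN * NN / pl : ℕ) : ℝ) + 1 := by
      have j1 := (Nat.cast_lt (α := ℝ)).2 (Nat.lt_mul_div_succ (2 * NN * NN) hpl)
      have j2 := (div_lt_iff₀ hN).1 pl_lt
      push_cast at j1
      rw [div_mul_eq_mul_div, div_lt_iff₀ hp]
      refine lt_of_mul_lt_mul_left ?_ hN.le
      have j3 := mul_le_mul_of_nonneg_right j2.le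
        (add_nonneg (Nat.cast_nonneg (α := ℝ) (2 * NN * NN / pl)) zero_le_one)
      linarith
    have k2 : ((NN * NN / B.H1 : ℕ) : ℝ) ≤ 1 / H * NN := by
      refine Nat.cast_div_le.trans ?_
      have j1 := (le_div_iff₀ hN).1 (H_bd hB).2
      rw [div_mul_eq_mul_div, div_le_div_iff₀ hH1 hH]
      push_cast
      nlinarith
    have k3 : (sqN y : ℝ) / NN ≤ √(4 * c / (Real.pi * H)) := by
      refine Real.le_sqrt_of_sq_le ?_
      have j1 : (sqN y : ℝ) * sqN y ≤ y := by exact_mod_cast sqN_sq_le y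
      have j2 : (y : ℝ) ≤ 4 * (min B.c00 B.c01 : ℕ) * NN * NN * NN / (pu * B.H1) := by
        rw [← hy']
        simpa only [Nat.cast_mul, Nat.cast_ofNat] using
          Nat.cast_div_le (α := ℝ) (m := 4 * min B.c00 B.c01 * NN * NN * NN) (n := pu * B.H1)
      have j3 : ((min B.c00 B.c01 : ℕ) : ℝ) / NN ≤ c := by
        have i1 : ((min B.c00 B.c01 : ℕ) : ℝ) / NN ≤ B.c00 / NN := by gcongr; exact min_le_left _ _
        have i2 : ((min B.c00 B.c01 : ℕ) : ℝ) / NN ≤ B.c01 / NN := by gcongr; exact min_le_right _ _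
        linarith [cvx' hB.m0 hB.m1 i1 i2, (c_bd hB).1]
      generalize ((min B.c00 B.c01 : ℕ) : ℝ) = z at j2 j3
      calc ((sqN y : ℝ) / NN) ^ 2 = (sqN y : ℝ) * sqN y / NN ^ 2 := by ring
        _ ≤ 4 * z * NN * NN * NN / (pu * B.H1) / NN ^ 2 :=
          div_le_div_of_nonneg_right (j1.trans j2) (sq_nonneg _)
        _ = 4 * (z / NN) / (pu / NN * (B.H1 / NN)) := by field_simp
        _ ≤ 4 * c / (Real.pi * H) := by
          have := hy.c0
          gcongr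
          exacts [lt_pu.le, (H_bd hB).2]
    rw [div_le_iff₀ hN] at k3
    refine lt_of_mul_lt_mul_right ?_ hN.le
    linarith

end NLeafA

end Vale.Agent.P232
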