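import Vale.Agent.P232.NRun
import Vale.Agent.P232.NCyl
import Vale.Agent.P232.NLeafA

open MeasureTheory Set Function Filter Topology
open scoped ENNReal

namespace Vale.Agent.P232

variable {m k e : ℕ} {B : Bo} {A v H c α β L L' lam mu : ℝ}

theorem InB.le_top (hB : InB B lam mu c H) {a : ℕ} (h : belowT B a = true) :
    c + H * ((a : ℝ) / NN) < √(Real.pi * ((a : ℝ) / NN)) := NLeafA.le_top hB h

theorem allT_sound (hy : Hyp m k e A v H c α β L L') (hB : InB B lam mu c H)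
    (h4 : B.H1 ≤ 4 * NN) {th s0 s1 s2 s3 : ℕ} (h : allT k e th B s0 s1 s2 s3 = true) :
    A < c + H * v + bil lam mu s0 s1 s2 s3 / (2 * (NN : ℝ) ^ 2) :=
  NLeafA.allT_sound hy hB h4 h

theorem excok_sound (hy : Hyp m k e A v H c α β L L') (hB : InB B lam mu c H) {l0 : ℕ}
    (hl : (l0 : ℝ) / NN ≤ L) (h : excok B l0 = true) : False := NLeafA.excok_sound hy hB hl h

theorem cylok_sound (hy : Hyp m k e A v H c α β L L') (hB : InB B lam mu c H) {l0 b : ℕ}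
    (hl : (l0 : ℝ) / NN ≤ L) (h : cylok B l0 b = true) : False := NLeafA.cylok_sound hy hB hl h

namespace NLeafAuxB

theorem conc {c H p x q : ℝ} (hH : 0 ≤ H) (h0 : 0 ≤ p) (hp : p ≤ x) (hq : x ≤ q)
    (fp : c + H * p < √(Real.pi * p)) (fq : c + H * q < √(Real.pi * q)) :
    c + H * x < √(Real.pi * x) := by
  have sq : ∀ a, √(Real.pi * a) = √Real.pi * √a := fun a => Real.sqrt_mul Real.pi_pos.le a
  rw [sq] at fp fq ⊢
  have e1 := Real.sq_sqrt h0
  have e2 := Real.sq_sqrt (h0.trans hp)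
  have e3 := Real.sq_sqrt ((h0.trans hp).trans hq)
  have l1 := Real.sqrt_le_sqrt hp
  have l2 := Real.sqrt_le_sqrt hq
  generalize √p = P at *
  generalize √x = X at *
  generalize √q = Q at *
  generalize √Real.pi = w at *
  subst e1 e2 e3
  by_contra hn
  have h1 : 0 < (X - P) * (H * (X + P) - w) := by nlinarith
  have h2 : 0 < H * (X + P) - w := (pos_iff_pos_of_mul_pos h1).1
    (lt_of_le_of_ne (sub_nonneg.2 l1) fun h => by rw [← h, zero_mul] at h1; exact h1.false)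
  have h3 : 0 ≤ H * (Q - P) := mul_nonneg hH (by linarith)
  have h4 : 0 ≤ (Q - X) * (H * (Q + X) - w) := mul_nonneg (sub_nonneg.2 l2) (by linarith)
  nlinarith

theorem Dq_mono {L a x : ℝ} (hL : 0 < L) (ha : 0 ≤ a) (hx : 0 < x) (h : a ≤ x) :
    Dq L a ≤ Dq L x := by
  obtain ⟨R, hR, hRL, he⟩ := Dq_attained hL hx
  rw [he]
  refine (Dq_le ha hR hRL).trans ?_
  gcongr

theorem max_le_Lp {L : ℝ} {l1 : ℕ} (h : L ≤ (l1 : ℝ) / NN) :
    max L (1 / 8) ≤ ((max l1 2097152 : ℕ) : ℝ) / NN := by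
  refine max_le (h.trans (div_le_div_of_nonneg_right ?_ NN_pos.le)) ?_
  · exact Nat.cast_le.2 (le_max_left _ _)
  · have h1 : ((2097152 : ℕ) : ℝ) ≤ ((max l1 2097152 : ℕ) : ℝ) := Nat.cast_le.2 (le_max_right _ _)
    refine le_trans (le_of_eq ?_) (div_le_div_of_nonneg_right h1 NN_pos.le)
    norm_num [NN]

theorem H_le {B : Bo} {lam mu c H : ℝ} (hB : InB B lam mu c H) :
    (B.H0 : ℝ) / NN ≤ H ∧ H ≤ (B.H1 : ℝ) / NN := by
  have h1 : (B.H0 : ℝ) ≤ B.H1 := Nat.cast_le.2 hB.p1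
  have h2 := mul_nonneg hB.m0 (sub_nonneg.2 h1)
  have h3 := mul_nonneg (sub_nonneg.2 hB.m1) (sub_nonneg.2 h1)
  rw [hB.hH]
  exact ⟨div_le_div_of_nonneg_right (by linarith) NN_pos.le,
    div_le_div_of_nonneg_right (by linarith) NN_pos.le⟩

end NLeafAuxB

/-- the end rules put `[a, b]` inside `(α,β)` -/
theorem rules_sound (hy : Hyp m k e A v H c α β L L') (hB : InB B lam mu c H) {l0 l1 a a1 : ℕ}
    (hl : (l0 : ℝ) / NN ≤ L) (hl1 : L ≤ (l1 : ℝ) / NN) (ha1 : 2 * a1 ≤ NN)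
    (hL : (Nat.ble a (vlo B.H1) || (belowT B a && sok l0 a)) = true)
    (hR : (Nat.ble (vup B.H0) a1 || belowT B a1 || Nat.ble NN (dlow (max l1 2097152) a1)) = true)
    {b : ℝ} (haa : a ≤ a1) (hb : (a1 : ℝ) / NN ≤ b)
    (hg : ∀ x ∈ Icc ((a : ℝ) / NN) b, c + H * x < In L L' x) :
    α ≤ (a : ℝ) / NN ∧ b ≤ β := by
  have pi0 := Real.pi_pos
  have pi3 := Real.pi_gt_three
  obtain ⟨hH0, hH1⟩ := NLeafAuxB.H_le hB
  have v0 : 0 < v := lt_of_lt_of_le (by positivity) hy.g.1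
  have vp : Real.pi * v ≤ 1 := by
    have := hy.g.2.1
    rwa [le_div_iff₀ pi0, mul_comm] at this
  have v2 : v ≤ 1 / 2 := by nlinarith
  have s1 : √(Real.pi * v) ≤ 1 := Real.sqrt_le_one.2 vp
  have Hp : 0 < H := hy.g.2.2.1
  have a0 : (0 : ℝ) ≤ (a1 : ℝ) / NN := div_nonneg (Nat.cast_nonneg _) NN_pos.le
  have key : ∀ x ∈ Icc (min v ((a : ℝ) / NN)) (max v b), c + H * x < In L L' x := by
    intro x hx
    rcases lt_or_ge x ((a : ℝ) / NN) with h1 | h1
    · have hv : v ≤ x := (min_le_iff.1 hx.1).resolve_right (not_le.2 h1)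
      rcases Bool.or_eq_true_iff.1 hL with h | h
      · have h2 : (a : ℝ) ≤ vlo B.H1 := Nat.cast_le.2 (Nat.ble_eq ▸ h)
        have h3 := div_le_div_of_nonneg_right h2 NN_pos.le
        linarith [vlo_sound hy.g hH1]
      · obtain ⟨h2, h3⟩ := Bool.and_eq_true_iff.1 h
        have h4 : (a : ℝ) / NN ≤ 1 / 2 := by
          have h5 : ((2 * a : ℕ) : ℝ) ≤ NN := Nat.cast_le.2 (by omega)
          rw [Nat.cast_mul, Nat.cast_two] at h5
          rw [div_le_iff₀ NN_pos]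
          linarith
        exact (NLeafAuxB.conc Hp.le v0.le hv h1.le hy.gap (hB.le_top h2)).trans_le
          (sqrt_le_In h4 (sok_sound h3 hl) (v0.le.trans hv) h1.le)
    rcases le_or_gt x b with h2 | h2
    · exact hg x ⟨h1, h2⟩
    have hv : x ≤ v := (le_max_iff.1 hx.2).resolve_right (not_le.2 h2)
    have h3 : (a1 : ℝ) / NN < x := hb.trans_lt h2
    have x0 : 0 < x := a0.trans_lt h3
    rcases Bool.or_eq_true_iff.1 hR with h | h
    · rcases Bool.or_eq_true_iff.1 h with h | h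
      · have h4 : (vup B.H0 : ℝ) ≤ a1 := Nat.cast_le.2 (Nat.ble_eq ▸ h)
        have h5 := div_le_div_of_nonneg_right h4 NN_pos.le
        linarith [vup_sound hy.g hB.p0 hH0]
      · exact (NLeafAuxB.conc Hp.le a0 h3.le hv (hB.le_top h) hy.gap).trans_le
          (sqrt_le_In v2 (s1.trans (one_le_Sq _)) x0.le hv)
    · have h4 : (NN : ℝ) ≤ dlow (max l1 2097152) a1 := Nat.cast_le.2 (Nat.ble_eq ▸ h)
      have h5 : 0 < max l1 2097152 := lt_of_lt_of_le (by norm_num) (le_max_right _ _)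
      have g1 : (0 : ℝ) < max L (1 / 8) := lt_of_lt_of_le (by norm_num) (le_max_right _ _)
      have g2 : (0 : ℝ) < max L' (1 / 8) := lt_of_lt_of_le (by norm_num) (le_max_right _ _)
      have h6 : 1 ≤ Dq (max L (1 / 8)) x :=
        ((((one_le_div NN_pos).2 h4).trans (dlow_le h5)).trans
          (Dq_anti g1 (NLeafAuxB.max_le_Lp hl1) a0)).trans (NLeafAuxB.Dq_mono g1 a0 x0 h3.le)
      have h7 : 1 ≤ Dq (max L' (1 / 8)) (1 - x) :=
        le_trans (Real.one_le_sqrt.2 (by nlinarith)) (sqrt_le_Dq g2 (by linarith))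
      have h8 : 1 ≤ In L L' x := le_min h6 (le_min ((one_le_Sq _).trans (le_max_left _ _)) h7)
      have h9 := mul_le_mul_of_nonneg_left hv Hp.le
      linarith [hy.gap]
  obtain ⟨k1, k2⟩ := hy.d.inside (min_le_left _ _) (le_max_left _ _) key
  exact ⟨k1.le.trans (min_le_right _ _), (le_max_right _ _).trans k2.le⟩

theorem numok_sound (hy : Hyp m k e A v H c α β L L') (hB : InB B lam mu c H)
    (h4 : B.H1 ≤ 4 * NN) {hasR : Bool} {R0 R1 R2 R3 l0 l1 a0 w n th : ℕ} {two useR : Bool}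
    (hl : (l0 : ℝ) / NN ≤ L) (hl1 : L ≤ (l1 : ℝ) / NN)
    (hR : RP hasR lam mu c H L L' R0 R1 R2 R3)
    (h : numok k e B hasR R0 R1 R2 R3 l0 l1 a0 w n two th useR = true) : False := by
  simp only [numok, Bool.and_eq_true, Nat.blt_eq] at h
  obtain ⟨⟨⟨hn, h1⟩, h2⟩, h3⟩ := h
  generalize node a0 w n two = g at h1 h2 h3
  obtain ⟨n, rfl⟩ : ∃ n', n = n' + 1 := ⟨n - 1, by omega⟩
  have hL := NLeafAuxB.max_le_Lp hl1
  have fin : ∀ (b : ℝ) (s0 s1 s2 s3 : ℕ), 2 * g (n + 1) ≤ NN → g 0 ≤ g (n + 1) →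
      (g (n + 1) : ℝ) / NN ≤ b → allT k e th B s0 s1 s2 s3 = true →
      Seg (In L L') (Fs false c H) ((g 0 : ℝ) / NN) b
        (bil lam mu s0 s1 s2 s3 / (2 * (NN : ℝ) ^ 2)) → False := by
    intro b s0 s1 s2 s3 k1 k2 k3 k4 k5
    obtain ⟨r1, r2⟩ := rules_sound hy hB hl hl1 k1 h1 h2 k2 k3 fun x hx => (k5.2.1 x hx).2
    linarith [hy.d.seg_le k5 r1 r2, allT_sound hy hB h4 k4]
  have le : (g 0 : ℝ) / NN ≤ (g (n + 1) : ℝ) / NN → g 0 ≤ g (n + 1) := fun h =>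
    Nat.cast_le.1 ((div_le_div_iff_of_pos_right NN_pos).1 h)
  cases useR
  · obtain ⟨t0, t1, t2, t3, k1, k2, k3⟩ := run_sound hB hl hL n 0 0 0 0 h3
    simp only [zero_add] at k1
    exact fin _ _ _ _ _ k2 (le k3.1) le_rfl k1 k3
  · simp only [cond_true, Bool.and_eq_true, Nat.beq_eq] at h3
    obtain ⟨⟨r1, r2⟩, r3⟩ := h3
    obtain ⟨t0, t1, t2, t3, k1, k2, k3⟩ := run_sound hB hl hL n R0 R1 R2 R3 r3
    obtain ⟨x, hx⟩ := hR r1
    have e1 : (g (n + 1) : ℝ) / NN = 1 / 2 := by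
      have h5 : ((2 * g (n + 1) : ℕ) : ℝ) = NN := congrArg _ r2
      rw [Nat.cast_mul, Nat.cast_two] at h5
      rw [div_eq_iff NN_pos.ne']
      linarith
    have k4 := hx.flip
    rw [← e1] at k4
    refine fin _ _ _ _ _ k2 (le k3.1) k4.1 k1
      ((k3.join (continuous_In _ _) (continuous_Fs _ _ _) k4).mono (le_of_eq ?_))
    simp only [bil, Nat.cast_add]
    ring

end Vale.Agent.P232
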