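import Vale.Agent.P232.NChk

open MeasureTheory Set Function Filter Topology
open scoped ENNReal

namespace Vale.Agent.P232

namespace NNumAux

theorem up (x : ℕ) {y : ℕ} (hy : 0 < y) : (x : ℝ) / y ≤ ((x / y + 1 : ℕ) : ℝ) := by
  have hy' : (0 : ℝ) < y := by exact_mod_cast hy
  rw [div_le_iff₀ hy']
  have h : x ≤ (x / y + 1) * y := by
    have := Nat.lt_div_mul_add (a := x) hy
    rw [Nat.add_mul, Nat.one_mul]
    exact this.le
  exact_mod_cast h

theorem sq_aux (s y : ℕ) : (bif Nat.ble (s * s) y then s else 0) *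
    (bif Nat.ble (s * s) y then s else 0) ≤ y := by
  cases h : Nat.ble (s * s) y
  · simp
  · simpa using Nat.le_of_ble_eq_true h

theorem NN_pos' : 0 < NN := by unfold NN; norm_num

theorem pl_pos' : 0 < pl := by unfold pl; norm_num

theorem pu_pos' : 0 < pu := by unfold pu; norm_num

theorem sub_ge (a b : ℕ) : (a : ℝ) - b ≤ ((a - b : ℕ) : ℝ) := by
  rcases le_total b a with h | h
  · rw [Nat.cast_sub h]
  · have h1 : (a : ℝ) ≤ b := by exact_mod_cast h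
    have h2 : (0 : ℝ) ≤ ((a - b : ℕ) : ℝ) := Nat.cast_nonneg _
    linarith

theorem tau1 {p s h : ℝ} (hp : 0 < p) (s0 : 0 ≤ s) (s1 : s ≤ 1) (h0 : 0 ≤ h) (h1 : 2 * h ≤ p) :
    s - h * (s ^ 2 / p) ≤ 1 - h / p := by
  have e : 1 - h / p - (s - h * (s ^ 2 / p)) = (1 - s) * (p - h * (1 + s)) / p := by
    field_simp; ring
  have g : 0 ≤ (1 - s) * (p - h * (1 + s)) / p := by
    apply div_nonneg _ hp.le
    apply mul_nonneg (by linarith)
    nlinarith [mul_nonneg h0 (sub_nonneg.2 s1)]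
  linarith

theorem tau2 {p s h : ℝ} (hp : 0 < p) (s0 : 2 * p / 9 ≤ s) (h0 : 9 / 4 ≤ h) :
    s - h * (s ^ 2 / p) ≤ 2 * p * (9 - 2 * h) / 81 := by
  have e : 2 * p * (9 - 2 * h) / 81 - (s - h * (s ^ 2 / p)) =
      (s - 2 * p / 9) * (h * (s + 2 * p / 9) - p) / p := by
    field_simp; ring
  have g : 0 ≤ (s - 2 * p / 9) * (h * (s + 2 * p / 9) - p) / p := by
    apply div_nonneg _ hp.le
    apply mul_nonneg (by linarith)
    have h1 : 9 / 4 * (4 * p / 9) ≤ h * (s + 2 * p / 9) :=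
      mul_le_mul h0 (by linarith) (by positivity) (by linarith)
    linarith
  linarith

theorem tau3 {p s h : ℝ} (hp : 0 < p) (h0 : 0 < h) :
    s - h * (s ^ 2 / p) ≤ p / (4 * h) := by
  have e : p / (4 * h) - (s - h * (s ^ 2 / p)) = (p - 2 * h * s) ^ 2 / (4 * h * p) := by
    field_simp; ring
  have g : 0 ≤ (p - 2 * h * s) ^ 2 / (4 * h * p) := by positivity
  linarith

end NNumAux

theorem NN_pos : (0 : ℝ) < NN := by exact_mod_cast NNumAux.NN_pos'

theorem pl_lt : (pl : ℝ) / NN < Real.pi := by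
  refine lt_trans ?_ Real.pi_gt_d20
  unfold pl NN
  norm_num

theorem lt_pu : Real.pi < (pu : ℝ) / NN := by
  refine lt_trans Real.pi_lt_d20 ?_
  unfold pu NN
  norm_num

theorem sqN_sq_le (y : ℕ) : sqN y * sqN y ≤ y := NNumAux.sq_aux _ y

theorem dlow_le {L x : ℕ} (hL : 0 < L) :
    (dlow L x : ℝ) / NN ≤ Dq ((L : ℝ) / NN) ((x : ℝ) / NN) := by
  have hN := NN_pos
  have hP := pl_lt
  have hU := lt_pu
  have hL' : (0 : ℝ) < L := by exact_mod_cast hL
  have hx : (0 : ℝ) ≤ x := Nat.cast_nonneg _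
  unfold dlow
  cases h : Nat.ble (pu * L * L) (4 * x * NN * NN)
  · rw [cond_false]
    refine le_trans ?_ (sqrt_le_Dq (div_pos hL' hN) (div_nonneg hx hN.le))
    apply Real.le_sqrt_of_sq_le
    have h1 : (sqN (pl * x) : ℝ) * sqN (pl * x) ≤ pl * x := by exact_mod_cast sqN_sq_le (pl * x)
    generalize (sqN (pl * x) : ℝ) = s at h1
    have e : (s / NN) ^ 2 = s * s / (NN : ℝ) ^ 2 := by ring
    have e2 : (pl : ℝ) / NN * ((x : ℝ) / NN) = pl * x / (NN : ℝ) ^ 2 := by ring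
    have g1 : s * s / (NN : ℝ) ^ 2 ≤ pl * x / (NN : ℝ) ^ 2 :=
      div_le_div_of_nonneg_right h1 (by positivity)
    have g2 : (pl : ℝ) / NN * ((x : ℝ) / NN) ≤ Real.pi * ((x : ℝ) / NN) :=
      mul_le_mul_of_nonneg_right hP.le (div_nonneg hx hN.le)
    linarith
  · rw [cond_true]
    have h1 : (pu : ℝ) * L * L ≤ 4 * x * NN * NN := by
      exact_mod_cast Nat.le_of_ble_eq_true h
    have hlt : Real.pi * ((L : ℝ) / NN) ^ 2 < 4 * ((x : ℝ) / NN) := by
      have g1 : Real.pi * ((L : ℝ) / NN) ^ 2 < (pu : ℝ) / NN * ((L : ℝ) / NN) ^ 2 :=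
        mul_lt_mul_of_pos_right hU (by positivity)
      have e1 : (pu : ℝ) / NN * ((L : ℝ) / NN) ^ 2 = pu * L * L / (NN : ℝ) ^ 3 := by ring
      have e2 : 4 * ((x : ℝ) / NN) = 4 * x * NN * NN / (NN : ℝ) ^ 3 := by field_simp
      have g2 : (pu : ℝ) * L * L / (NN : ℝ) ^ 3 ≤ 4 * x * NN * NN / (NN : ℝ) ^ 3 :=
        div_le_div_of_nonneg_right h1 (by positivity)
      linarith
    unfold Dq
    rw [if_neg (not_le.2 hlt), Nat.cast_add, add_div]
    have a1 : ((x * NN / L : ℕ) : ℝ) ≤ ((x * NN : ℕ) : ℝ) / (L : ℝ) := Nat.cast_div_le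
    have a2 : ((pl * L / (4 * NN) : ℕ) : ℝ) ≤ ((pl * L : ℕ) : ℝ) / ((4 * NN : ℕ) : ℝ) :=
      Nat.cast_div_le
    have b1 : ((x * NN / L : ℕ) : ℝ) / NN ≤ ((x * NN : ℕ) : ℝ) / (L : ℝ) / NN :=
      div_le_div_of_nonneg_right a1 hN.le
    have b2 : ((pl * L / (4 * NN) : ℕ) : ℝ) / NN ≤
        ((pl * L : ℕ) : ℝ) / ((4 * NN : ℕ) : ℝ) / NN := div_le_div_of_nonneg_right a2 hN.le
    have e1 : ((x * NN : ℕ) : ℝ) / (L : ℝ) / NN = (x : ℝ) / NN / ((L : ℝ) / NN) := by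
      push_cast; field_simp
    have e2 : ((pl * L : ℕ) : ℝ) / ((4 * NN : ℕ) : ℝ) / NN =
        (pl : ℝ) / NN * ((L : ℝ) / NN) / 4 := by
      push_cast; field_simp
    have g : (pl : ℝ) / NN * ((L : ℝ) / NN) ≤ Real.pi * ((L : ℝ) / NN) :=
      mul_le_mul_of_nonneg_right hP.le (div_nonneg hL'.le hN.le)
    linarith

theorem ghN_le {m : ℕ} (hm : m ≤ 32) : (ghN m : ℝ) / NN ≤ gh ((m : ℝ) / 32) := by
  interval_cases m <;> norm_num [ghN, gh, NN]

theorem msel_le (d : ℕ) : msel d ≤ 32 :=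
  le_trans (min_le_right _ _) (min_le_right _ _)

theorem msel_zero : msel 0 = 0 := by
  norm_num [msel, NN]

/-- the line selected for a cell with right end `b` -/
theorem line_le {l b x : ℕ} (hx : x ≤ b) :
    ((ghN (msel (l - b)) + msel (l - b) * (l - x) / 32 : ℕ) : ℝ) / NN ≤
      gh ((msel (l - b) : ℝ) / 32) + (msel (l - b) : ℝ) / 32 * ((l : ℝ) / NN - (x : ℝ) / NN) := by
  have hN := NN_pos
  have hg := ghN_le (msel_le (l - b))
  rw [Nat.cast_add, add_div]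
  rcases le_total x l with h | h
  · generalize msel (l - b) = m at hg
    have a1 : ((m * (l - x) / 32 : ℕ) : ℝ) ≤ ((m * (l - x) : ℕ) : ℝ) / ((32 : ℕ) : ℝ) :=
      Nat.cast_div_le
    have b1 : ((m * (l - x) / 32 : ℕ) : ℝ) / NN ≤
        ((m * (l - x) : ℕ) : ℝ) / ((32 : ℕ) : ℝ) / NN := div_le_div_of_nonneg_right a1 hN.le
    have e1 : ((m * (l - x) : ℕ) : ℝ) / ((32 : ℕ) : ℝ) / NN =
        (m : ℝ) / 32 * ((l : ℝ) / NN - (x : ℝ) / NN) := by
      rw [Nat.cast_mul, Nat.cast_sub h]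
      push_cast
      ring
    linarith
  · have h0 : l - b = 0 := Nat.sub_eq_zero_of_le (le_trans h hx)
    rw [h0, msel_zero] at hg ⊢
    simpa using hg

theorem sok_sound {l b : ℕ} (h : sok l b = true) {L : ℝ} (hl : (l : ℝ) / NN ≤ L) :
    √(Real.pi * ((b : ℝ) / NN)) ≤ Sq (L - (b : ℝ) / NN) := by
  have hN := NN_pos
  have hU := lt_pu
  have hb : (0 : ℝ) ≤ b := Nat.cast_nonneg _
  have h1 : pu * b ≤ (ghN (msel (l - b)) + msel (l - b) * (l - b) / 32) *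
      (ghN (msel (l - b)) + msel (l - b) * (l - b) / 32) := Nat.le_of_ble_eq_true h
  have h2 := line_le (l := l) (b := b) (x := b) le_rfl
  have h3 := le_Sq (msel_le (l - b)) ((l : ℝ) / NN - (b : ℝ) / NN)
  have h4 : Sq ((l : ℝ) / NN - (b : ℝ) / NN) ≤ Sq (L - (b : ℝ) / NN) :=
    monotone_Sq (by linarith)
  refine le_trans ?_ (le_trans h2 (le_trans h3 h4))
  generalize ghN (msel (l - b)) + msel (l - b) * (l - b) / 32 = s at h1
  have h5 : (pu : ℝ) * b ≤ (s : ℝ) * s := by exact_mod_cast h1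
  apply Real.sqrt_le_iff.2 ⟨by positivity, ?_⟩
  have e : ((s : ℝ) / NN) ^ 2 = s * s / (NN : ℝ) ^ 2 := by ring
  have e2 : (pu : ℝ) / NN * ((b : ℝ) / NN) = pu * b / (NN : ℝ) ^ 2 := by ring
  have g1 : (pu : ℝ) * b / (NN : ℝ) ^ 2 ≤ s * s / (NN : ℝ) ^ 2 :=
    div_le_div_of_nonneg_right h5 (by positivity)
  have g2 : Real.pi * ((b : ℝ) / NN) ≤ (pu : ℝ) / NN * ((b : ℝ) / NN) :=
    mul_le_mul_of_nonneg_right hU.le (div_nonneg hb hN.le)
  linarith

theorem below_sound {c H a : ℕ} (h : below c H a = true) :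
    (c : ℝ) / NN + (H : ℝ) / NN * ((a : ℝ) / NN) < √(Real.pi * ((a : ℝ) / NN)) := by
  have hN := NN_pos
  have hP := pl_lt
  have ha : (0 : ℝ) ≤ a := Nat.cast_nonneg _
  have h1 : (c * NN + H * a) * (c * NN + H * a) < pl * a * NN * NN := by
    have := h
    unfold below at this
    rwa [Nat.blt_eq] at this
  have h2 : ((c : ℝ) * NN + H * a) * (c * NN + H * a) < pl * a * NN * NN := by exact_mod_cast h1
  apply Real.lt_sqrt_of_sq_lt
  have e : ((c : ℝ) / NN + (H : ℝ) / NN * ((a : ℝ) / NN)) ^ 2 =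
      ((c : ℝ) * NN + H * a) * (c * NN + H * a) / (NN : ℝ) ^ 4 := by field_simp
  have e2 : (pl : ℝ) / NN * ((a : ℝ) / NN) = pl * a * NN * NN / (NN : ℝ) ^ 4 := by field_simp
  have g1 : ((c : ℝ) * NN + H * a) * (c * NN + H * a) / (NN : ℝ) ^ 4 <
      pl * a * NN * NN / (NN : ℝ) ^ 4 := div_lt_div_of_pos_right h2 (by positivity)
  have g2 : (pl : ℝ) / NN * ((a : ℝ) / NN) ≤ Real.pi * ((a : ℝ) / NN) :=
    mul_le_mul_of_nonneg_right hP.le (div_nonneg ha hN.le)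
  linarith

theorem above_sound {c H a : ℕ} (h : above c H a = true) :
    √(Real.pi * ((a : ℝ) / NN)) ≤ (c : ℝ) / NN + (H : ℝ) / NN * ((a : ℝ) / NN) := by
  have hN := NN_pos
  have hU := lt_pu
  have ha : (0 : ℝ) ≤ a := Nat.cast_nonneg _
  have h1 : pu * a * NN * NN ≤ (c * NN + H * a) * (c * NN + H * a) := Nat.le_of_ble_eq_true h
  have h2 : (pu : ℝ) * a * NN * NN ≤ ((c : ℝ) * NN + H * a) * (c * NN + H * a) := by
    exact_mod_cast h1
  apply Real.sqrt_le_iff.2 ⟨by positivity, ?_⟩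
  have e : ((c : ℝ) / NN + (H : ℝ) / NN * ((a : ℝ) / NN)) ^ 2 =
      ((c : ℝ) * NN + H * a) * (c * NN + H * a) / (NN : ℝ) ^ 4 := by field_simp
  have e2 : (pu : ℝ) / NN * ((a : ℝ) / NN) = pu * a * NN * NN / (NN : ℝ) ^ 4 := by field_simp
  have g1 : (pu : ℝ) * a * NN * NN / (NN : ℝ) ^ 4 ≤
      ((c : ℝ) * NN + H * a) * (c * NN + H * a) / (NN : ℝ) ^ 4 :=
    div_le_div_of_nonneg_right h2 (by positivity)
  have g2 : Real.pi * ((a : ℝ) / NN) ≤ (pu : ℝ) / NN * ((a : ℝ) / NN) :=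
    mul_le_mul_of_nonneg_right hU.le (div_nonneg ha hN.le)
  linarith

theorem tauN_sound {v : ℝ} (h0 : 4 * Real.pi / 81 ≤ v) (h1 : v ≤ 1 / Real.pi) {H : ℕ}
    (hH : 0 < H) (hH3 : H ≤ 4 * NN) :
    √(Real.pi * v) - (H : ℝ) / NN * v ≤ (tauN H : ℝ) / NN := by
  have hN := NN_pos
  have hP := pl_lt
  have hU := lt_pu
  have hp := Real.pi_pos
  have hH' : (0 : ℝ) < H := by exact_mod_cast hH
  have hU0 : (0 : ℝ) < pu := by exact_mod_cast NNumAux.pu_pos'
  have hv0 : 0 ≤ v := le_trans (by positivity) h0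
  have hs0 : 0 ≤ √(Real.pi * v) := Real.sqrt_nonneg _
  have hs1 : √(Real.pi * v) ≤ 1 := by
    apply Real.sqrt_le_iff.2 ⟨zero_le_one, ?_⟩
    have := mul_le_mul_of_nonneg_left h1 hp.le
    rw [mul_one_div_cancel hp.ne'] at this
    linarith
  have hs2 : 2 * Real.pi / 9 ≤ √(Real.pi * v) := by
    apply Real.le_sqrt_of_sq_le
    have := mul_le_mul_of_nonneg_left h0 hp.le
    linarith
  have hv : v = √(Real.pi * v) ^ 2 / Real.pi := by
    rw [Real.sq_sqrt (by positivity)]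
    field_simp
  generalize √(Real.pi * v) = s at hs0 hs1 hs2 hv
  subst hv
  have hh : 0 < (H : ℝ) / NN := div_pos hH' hN
  unfold tauN
  cases c1 : Nat.ble (2 * H) pl
  · rw [cond_false]
    cases c2 : Nat.ble (9 * NN) (4 * H)
    · rw [cond_false]
      refine le_trans (NNumAux.tau3 hp hh) ?_
      have a1 := NNumAux.up (pu * NN) (y := 4 * H) (by omega)
      have b1 := div_le_div_of_nonneg_right a1 hN.le
      refine le_trans ?_ b1
      have e1 : ((pu * NN : ℕ) : ℝ) / ((4 * H : ℕ) : ℝ) / NN =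
          (pu : ℝ) / NN / (4 * ((H : ℝ) / NN)) := by
        push_cast; field_simp
      rw [e1]
      exact div_le_div_of_nonneg_right hU.le (by positivity)
    · rw [cond_true]
      have d1 : (9 : ℝ) * NN ≤ 4 * H := by exact_mod_cast Nat.le_of_ble_eq_true c2
      have d2 : 9 / 4 ≤ (H : ℝ) / NN := by rw [le_div_iff₀ hN]; linarith
      have d3 : (H : ℝ) ≤ 4 * NN := by exact_mod_cast hH3
      have d4 : (H : ℝ) / NN ≤ 4 := by rw [div_le_iff₀ hN]; linarith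
      refine le_trans (NNumAux.tau2 hp hs2 d2) ?_
      have a1 := NNumAux.up (2 * pu * (9 * NN - 2 * H)) (y := 81 * NN)
        (Nat.mul_pos (by norm_num) NNumAux.NN_pos')
      have b1 := div_le_div_of_nonneg_right a1 hN.le
      refine le_trans ?_ b1
      have d5 : 2 * H ≤ 9 * NN := by omega
      have e1 : ((2 * pu * (9 * NN - 2 * H) : ℕ) : ℝ) / ((81 * NN : ℕ) : ℝ) / NN =
          2 * ((pu : ℝ) / NN) * (9 - 2 * ((H : ℝ) / NN)) / 81 := by
        rw [Nat.cast_mul, Nat.cast_sub d5]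
        push_cast; field_simp
      rw [e1]
      apply div_le_div_of_nonneg_right _ (by norm_num)
      exact mul_le_mul_of_nonneg_right (by linarith) (by linarith)
  · rw [cond_true]
    have d1 : (2 : ℝ) * H ≤ pl := by exact_mod_cast Nat.le_of_ble_eq_true c1
    have d2 : 2 * ((H : ℝ) / NN) ≤ Real.pi := by
      have := div_le_div_of_nonneg_right d1 hN.le
      rw [mul_div_assoc] at this
      linarith
    refine le_trans (NNumAux.tau1 hp hs0 hs1 hh.le d2) ?_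
    have a0 := NNumAux.sub_ge NN (H * NN / pu)
    have a1 : ((H * NN / pu : ℕ) : ℝ) ≤ ((H * NN : ℕ) : ℝ) / (pu : ℝ) := Nat.cast_div_le
    have a2 : (NN : ℝ) - ((H * NN : ℕ) : ℝ) / (pu : ℝ) ≤ ((NN - H * NN / pu : ℕ) : ℝ) := by
      linarith
    have b1 := div_le_div_of_nonneg_right a2 hN.le
    refine le_trans ?_ b1
    have e1 : ((NN : ℝ) - ((H * NN : ℕ) : ℝ) / (pu : ℝ)) / NN =
        1 - (H : ℝ) / NN / ((pu : ℝ) / NN) := by
      push_cast; field_simp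
    rw [e1]
    have := div_le_div_of_nonneg_left hh.le hp hU.le
    linarith

theorem vup_sound {v H : ℝ} (h : G2 v H) {H0 : ℕ} (h0 : 0 < H0) (hH : (H0 : ℝ) / NN ≤ H) :
    v ≤ (vup H0 : ℝ) / NN := by
  have hN := NN_pos
  have hP := pl_lt
  have hU := lt_pu
  have hp := Real.pi_pos
  have hH' : (0 : ℝ) < H0 := by exact_mod_cast h0
  have hP0 : (0 : ℝ) < pl := by exact_mod_cast NNumAux.pl_pos'
  have hh : 0 < (H0 : ℝ) / NN := div_pos hH' hN
  obtain ⟨g0, g1, g2, -, g4⟩ := h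
  have A : v ≤ ((NN * NN / pl + 1 : ℕ) : ℝ) / NN := by
    have a1 := NNumAux.up (NN * NN) NNumAux.pl_pos'
    have b1 := div_le_div_of_nonneg_right a1 hN.le
    refine le_trans g1 (le_trans ?_ b1)
    have e1 : ((NN * NN : ℕ) : ℝ) / (pl : ℝ) / NN = 1 / ((pl : ℝ) / NN) := by
      push_cast; field_simp
    rw [e1]
    exact one_div_le_one_div_of_le (div_pos hP0 hN) hP.le
  have B : Real.pi / (4 * H ^ 2) ≤ ((pu * NN * NN / (4 * H0 * H0) + 1 : ℕ) : ℝ) / NN := by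
    have a1 := NNumAux.up (pu * NN * NN) (y := 4 * H0 * H0) (by positivity)
    have b1 := div_le_div_of_nonneg_right a1 hN.le
    refine le_trans ?_ b1
    have e1 : ((pu * NN * NN : ℕ) : ℝ) / ((4 * H0 * H0 : ℕ) : ℝ) / NN =
        (pu : ℝ) / NN / (4 * ((H0 : ℝ) / NN) ^ 2) := by
      push_cast; field_simp
    rw [e1]
    have d1 : ((H0 : ℝ) / NN) ^ 2 ≤ H ^ 2 := pow_le_pow_left₀ hh.le hH 2
    exact div_le_div₀ (by linarith) hU.le (by positivity) (by linarith)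
  have C : 4 * Real.pi / 81 ≤ ((4 * pu / 81 + 1 : ℕ) : ℝ) / NN := by
    have a1 := NNumAux.up (4 * pu) (y := 81) (by norm_num)
    have b1 := div_le_div_of_nonneg_right a1 hN.le
    refine le_trans ?_ b1
    have e1 : ((4 * pu : ℕ) : ℝ) / ((81 : ℕ) : ℝ) / NN = 4 * ((pu : ℝ) / NN) / 81 := by
      push_cast; field_simp
    rw [e1]
    linarith
  have mono : ∀ {a b : ℕ}, a ≤ b → (a : ℝ) / NN ≤ (b : ℝ) / NN := fun hab =>
    div_le_div_of_nonneg_right (by exact_mod_cast hab) hN.le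
  have D : v ≤ ((max (pu * NN * NN / (4 * H0 * H0) + 1) (4 * pu / 81 + 1) : ℕ) : ℝ) / NN := by
    rcases g4 with ⟨e, -⟩ | e | ⟨e, hle⟩
    · exact le_trans (e.le.trans C) (mono (le_max_right _ _))
    · exact le_trans (e.le.trans B) (mono (le_max_left _ _))
    · refine le_trans (le_trans ?_ B) (mono (le_max_left _ _))
      rw [e, div_le_div_iff₀ hp (by positivity)]
      have d1 : H ^ 2 ≤ (Real.pi / 2) ^ 2 := pow_le_pow_left₀ g2.le hle 2
      nlinarith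
  unfold vup
  rcases min_choice (NN * NN / pl + 1)
    (max (pu * NN * NN / (4 * H0 * H0) + 1) (4 * pu / 81 + 1)) with e | e
  · rw [e]; exact A
  · rw [e]; exact D

theorem vlo_sound {v H : ℝ} (h : G2 v H) {H1 : ℕ} (hH : H ≤ (H1 : ℝ) / NN) :
    (vlo H1 : ℝ) / NN ≤ v := by
  have hN := NN_pos
  have hP := pl_lt
  have hU := lt_pu
  have hp := Real.pi_pos
  obtain ⟨g0, g1, g2, -, g4⟩ := h
  have hh : 0 < (H1 : ℝ) / NN := lt_of_lt_of_le g2 hH
  have hH' : (0 : ℝ) < H1 := by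
    have := mul_pos hh hN
    rwa [div_mul_cancel₀ _ hN.ne'] at this
  have hU0 : (0 : ℝ) < pu := by exact_mod_cast NNumAux.pu_pos'
  have A : ((NN * NN / pu : ℕ) : ℝ) / NN ≤ 1 / Real.pi := by
    have a1 : ((NN * NN / pu : ℕ) : ℝ) ≤ ((NN * NN : ℕ) : ℝ) / (pu : ℝ) := Nat.cast_div_le
    have b1 := div_le_div_of_nonneg_right a1 hN.le
    refine le_trans b1 ?_
    have e1 : ((NN * NN : ℕ) : ℝ) / (pu : ℝ) / NN = 1 / ((pu : ℝ) / NN) := by
      push_cast; field_simp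
    rw [e1]
    exact one_div_le_one_div_of_le hp hU.le
  have B : ((pl * NN * NN / (4 * H1 * H1) : ℕ) : ℝ) / NN ≤ Real.pi / (4 * H ^ 2) := by
    have a1 : ((pl * NN * NN / (4 * H1 * H1) : ℕ) : ℝ) ≤
        ((pl * NN * NN : ℕ) : ℝ) / ((4 * H1 * H1 : ℕ) : ℝ) := Nat.cast_div_le
    have b1 := div_le_div_of_nonneg_right a1 hN.le
    refine le_trans b1 ?_
    have e1 : ((pl * NN * NN : ℕ) : ℝ) / ((4 * H1 * H1 : ℕ) : ℝ) / NN =
        (pl : ℝ) / NN / (4 * ((H1 : ℝ) / NN) ^ 2) := by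
      push_cast; field_simp
    rw [e1]
    have d1 : H ^ 2 ≤ ((H1 : ℝ) / NN) ^ 2 := pow_le_pow_left₀ g2.le hH 2
    exact div_le_div₀ hp.le hP.le (by positivity) (by linarith)
  have C : ((4 * pl / 81 : ℕ) : ℝ) / NN ≤ 4 * Real.pi / 81 := by
    have a1 : ((4 * pl / 81 : ℕ) : ℝ) ≤ ((4 * pl : ℕ) : ℝ) / ((81 : ℕ) : ℝ) := Nat.cast_div_le
    have b1 := div_le_div_of_nonneg_right a1 hN.le
    refine le_trans b1 ?_
    have e1 : ((4 * pl : ℕ) : ℝ) / ((81 : ℕ) : ℝ) / NN = 4 * ((pl : ℝ) / NN) / 81 := by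
      push_cast; field_simp
    rw [e1]
    linarith
  have mono : ∀ {a b : ℕ}, a ≤ b → (a : ℝ) / NN ≤ (b : ℝ) / NN := fun hab =>
    div_le_div_of_nonneg_right (by exact_mod_cast hab) hN.le
  have D : ((min (pl * NN * NN / (4 * H1 * H1)) (NN * NN / pu) : ℕ) : ℝ) / NN ≤ v := by
    rcases g4 with ⟨e, hle⟩ | e | ⟨e, -⟩
    · refine le_trans (mono (min_le_left _ _)) (le_trans B ?_)
      rw [e, div_le_div_iff₀ (by positivity) (by norm_num)]
      have d1 : (9 / 4 : ℝ) ^ 2 ≤ H ^ 2 := pow_le_pow_left₀ (by norm_num) hle 2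
      nlinarith
    · exact le_trans (mono (min_le_left _ _)) (le_trans B e.ge)
    · exact le_trans (mono (min_le_right _ _)) (le_trans A e.ge)
  unfold vlo
  rcases max_choice (4 * pl / 81)
    (min (pl * NN * NN / (4 * H1 * H1)) (NN * NN / pu)) with e | e
  · rw [e]; exact le_trans C g0
  · rw [e]; exact D

end Vale.Agent.P232
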