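import Vale.Agent.P232.NBase

open MeasureTheory Set Function Filter Topology
open scoped ENNReal

namespace Vale.Agent.P232

/-- The star inequality between the two roots of `c + H a = √(π a)`, in the variable `u = √a`. -/
theorem roots_star {A e c H α β v b : ℝ} {I : ℝ → ℝ} (hc : 0 ≤ c) (hH : 0 < H) (h0 : 0 ≤ α)
    (hα : α ≤ v) (hβ : v ≤ β) (hvb : v ≤ b) (hI : ∀ a, 0 ≤ a → a ≤ b → √(Real.pi * a) ≤ I a)
    (fα : I α ≤ c + H * α) (fβ : I β ≤ c + H * β) (fv : c + H * v < √(Real.pi * v))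
    (fb : √(Real.pi * b) ≤ c + H * b) (hs : StarP A e c H α β I) :
    ∃ p q : ℝ, 0 ≤ p ∧ p < √v ∧ √v < q ∧ H * (p + q) = √Real.pi ∧ H * (p * q) = c ∧
      e + 2 * H / √Real.pi * ∫ u in p..q, √((u ^ 2 - p ^ 2) * (q ^ 2 - u ^ 2)) ≤ A := by
  have pi0 := Real.pi_pos
  obtain ⟨w, hw⟩ : ∃ w, w = √Real.pi := ⟨_, rfl⟩
  have w0 : 0 < w := hw ▸ Real.sqrt_pos.2 pi0
  have w2 : w ^ 2 = Real.pi := hw ▸ Real.sq_sqrt pi0.le
  have sq : ∀ a, √(Real.pi * a) = w * √a := fun a => by rw [Real.sqrt_mul pi0.le, hw]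
  have v0 : 0 ≤ v := h0.trans hα
  rw [← hw]
  have hv := Real.sq_sqrt v0
  rw [sq] at fv fb
  have dpos : 0 < w ^ 2 - 4 * H * c := by
    have := mul_lt_mul_of_pos_left fv hH
    have e : (w - 2 * H * √v) ^ 2 = w ^ 2 - 4 * (H * (w * √v)) + 4 * (H * (H * v)) := by
      linear_combination 4 * H ^ 2 * hv
    nlinarith [sq_nonneg (w - 2 * H * √v)]
  obtain ⟨d, hd⟩ : ∃ d, d = √(w ^ 2 - 4 * H * c) := ⟨_, rfl⟩
  have d0 : 0 < d := hd ▸ Real.sqrt_pos.2 dpos
  have d2 : d ^ 2 = w ^ 2 - 4 * H * c := hd ▸ Real.sq_sqrt dpos.le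
  have dw : d ≤ w := le_of_sq_le_sq (by nlinarith [mul_nonneg hH.le hc]) w0.le
  obtain ⟨p, hp⟩ : ∃ p, p = (w - d) / (2 * H) := ⟨_, rfl⟩
  obtain ⟨q, hq⟩ : ∃ q, q = (w + d) / (2 * H) := ⟨_, rfl⟩
  have e1 : H * (p + q) = w := by rw [hp, hq]; field_simp; ring
  have e2 : H * (p * q) = c := by rw [hp, hq]; field_simp; linarith
  have p0 : 0 ≤ p := hp ▸ div_nonneg (by linarith) (by linarith)
  have pq : p < q := by rw [hp, hq]; gcongr; linarith
  have fac : ∀ u, w * u - (c + H * u ^ 2) = H * ((u - p) * (q - u)) := fun u => by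
    rw [← e1, ← e2]; ring
  have ins : ∀ u, c + H * u ^ 2 < w * u → p < u ∧ u < q := fun u h => by
    have : 0 < (u - p) * (q - u) := (mul_pos_iff_of_pos_left hH).1 (by linarith [fac u])
    constructor <;> by_contra h' <;> push Not at h' <;> nlinarith
  have out : ∀ u, p < u → u < q → c + H * u ^ 2 < w * u := fun u h h' => by
    have := mul_pos hH (mul_pos (sub_pos.2 h) (sub_pos.2 h'))
    linarith [fac u]
  obtain ⟨pv, vq⟩ := ins √v (by rwa [hv])
  refine ⟨p, q, p0, pv, vq, e1, e2, ?_⟩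
  have b0 : 0 ≤ b := v0.trans hvb
  have qb : q ≤ √b := by
    by_contra h
    have := out √b (pv.trans_le (Real.sqrt_le_sqrt hvb)) (not_le.1 h)
    rw [Real.sq_sqrt b0] at this
    linarith
  have a1 : α ≤ p ^ 2 := by
    by_contra h
    have := out √α (Real.lt_sqrt_of_sq_lt (not_le.1 h)) ((Real.sqrt_le_sqrt hα).trans_lt vq)
    rw [Real.sq_sqrt h0] at this
    linarith [hI α h0 (hα.trans hvb), sq α]
  have qb' : q ^ 2 ≤ b := by
    rw [← Real.sq_sqrt b0]; gcongr; linarith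
  have a2 : q ^ 2 ≤ β := by
    by_contra h
    have h' := not_le.1 h
    have := out √β (pv.trans_le (Real.sqrt_le_sqrt hβ))
      ((Real.sqrt_lt' (p0.trans_lt pq)).2 h')
    rw [Real.sq_sqrt (v0.trans hβ)] at this
    linarith [hI β (v0.trans hβ) (h'.le.trans qb'), sq β]
  obtain ⟨g, hg⟩ : ∃ g : ℝ → ℝ, g = fun a => √(1 - (c + H * a) ^ 2 / (Real.pi * a)) := ⟨_, rfl⟩
  have mg : Measurable g := by rw [hg]; fun_prop
  have key := hs ((Ioo (p ^ 2) (q ^ 2)).indicator g) (mg.indicator measurableSet_Ioo)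
    (fun a => by
      by_cases m : a ∈ Ioo (p ^ 2) (q ^ 2)
      · rw [indicator_of_mem m, hg]
        refine ⟨Real.sqrt_nonneg _, Real.sqrt_le_one.2 ?_⟩
        have : 0 < a := (sq_nonneg p).trans_lt m.1
        have : 0 ≤ (c + H * a) ^ 2 / (Real.pi * a) := by positivity
        linarith
      · rw [indicator_of_notMem m]; exact ⟨le_rfl, zero_le_one⟩)
    (fun a _ => by
      by_cases m : a ∈ Ioo (p ^ 2) (q ^ 2)
      · right
        have a0 : 0 < a := (sq_nonneg p).trans_lt m.1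
        have o := out √a (Real.lt_sqrt_of_sq_lt m.1) ((Real.sqrt_lt' (p0.trans_lt pq)).2 m.2)
        rw [Real.sq_sqrt a0.le, ← sq] at o
        have f0 : 0 ≤ c + H * a := by positivity
        have s2 := Real.sq_sqrt (by positivity : 0 ≤ Real.pi * a)
        have o2 : (c + H * a) ^ 2 ≤ Real.pi * a := by rw [← s2]; gcongr
        have i2 : Real.pi * a ≤ I a ^ 2 := by
          rw [← s2]; gcongr; exact hI a a0.le (m.2.le.trans qb')
        rw [indicator_of_mem m, hg, Real.sq_sqrt (by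
          rw [sub_nonneg, div_le_one (by positivity)]; exact o2), sub_sub_cancel,
          div_mul_eq_mul_div, le_div_iff₀ (by positivity)]
        gcongr
      · left; exact indicator_of_notMem m _)
  rw [setIntegral_indicator measurableSet_Ioo, inter_eq_right.2 (Ioo_subset_Ioo a1 a2),
    ← integral_Ioc_eq_integral_Ioo, ← intervalIntegral.integral_of_le (by gcongr),
    ← intervalIntegral.integral_comp_mul_deriv_of_deriv_nonneg (f := fun u => u ^ 2)
      (f' := fun u => 2 * u) (by fun_prop) (fun u _ => by simpa using hasDerivAt_pow 2 u)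
      (fun u hu => by
        rw [min_eq_left pq.le] at hu
        linarith [hu.1])] at key
  rw [← intervalIntegral.integral_const_mul]
  convert key using 2
  refine intervalIntegral.integral_congr_ae (Eventually.of_forall fun u hu => ?_)
  rw [uIoc_of_le pq.le] at hu
  have u0 : 0 < u := p0.trans_lt hu.1
  have e : 1 - (c + H * u ^ 2) ^ 2 / (Real.pi * u ^ 2) =
      (H / (w * u)) ^ 2 * ((u ^ 2 - p ^ 2) * (q ^ 2 - u ^ 2)) := by
    rw [← w2, ← e2]
    have : w ^ 2 = (H * (p + q)) ^ 2 := by rw [e1]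
    field_simp
    rw [this]
    ring
  simp only [comp, hg]
  rw [e, Real.sqrt_mul (sq_nonneg _), Real.sqrt_sq (by positivity)]
  field_simp

end Vale.Agent.P232
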