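import Vale.Agent.P232.NCell

open MeasureTheory Set Function Filter Topology
open scoped ENNReal

namespace Vale.Agent.P232

theorem Seg.mono {I F : ℝ → ℝ} {a b T T' : ℝ} (h : Seg I F a b T) (hT : T' ≤ T) :
    Seg I F a b T' := ⟨h.1, h.2.1, hT.trans h.2.2⟩

namespace NRunAux

theorem int {I F : ℝ → ℝ} (hI : Continuous I) (hF : Continuous F) {a b T : ℝ}
    (h : Seg I F a b T) : IntervalIntegrable (fun x => √(1 - (F x / I x) ^ 2)) volume a b :=
  ContinuousOn.intervalIntegrable_of_Icc h.1 (continuousOn_const.sub ((hF.continuousOn.div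
    hI.continuousOn fun x hx => ((h.2.1 x hx).1.trans_lt (h.2.1 x hx).2).ne').pow 2)).sqrt

theorem cell_le {side : Bool} {l Lp : ℕ} {B : Bo} {a b : ℕ} {K : ℕ → ℕ → ℕ → ℕ → Bool}
    (h : cellK side l Lp B a b K = true) : 2 * b ≤ NN := by
  simp only [cellK, Bool.and_eq_true] at h
  exact Nat.le_of_ble_eq_true h.1.1.1.1.1.1.1.2

end NRunAux

theorem Seg.join {I F : ℝ → ℝ} (hI : Continuous I) (hF : Continuous F) {a b c T T' : ℝ}
    (h : Seg I F a b T) (h' : Seg I F b c T') : Seg I F a c (T + T') := by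
  refine ⟨h.1.trans h'.1, fun x hx => ?_, ?_⟩
  · rcases le_total x b with hb | hb
    · exact h.2.1 x ⟨hx.1, hb⟩
    · exact h'.2.1 x ⟨hb, hx.2⟩
  · rw [← intervalIntegral.integral_add_adjacent_intervals (NRunAux.int hI hF h)
      (NRunAux.int hI hF h')]
    exact add_le_add h.2.2 h'.2.2

theorem continuous_Fs (side : Bool) (c H : ℝ) : Continuous (Fs side c H) := by
  unfold Fs
  cases side <;> simp only [cond_true, cond_false] <;> fun_prop

theorem Seg.flip {L L' c H x T : ℝ} (h : Seg (In L' L) (Fs true c H) x (1 / 2) T) :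
    Seg (In L L') (Fs false c H) (1 / 2) (1 - x) T := by
  have e : ∀ y, Fs true c H (1 - y) = Fs false c H y := fun y => by
    simp only [Fs, cond_true, cond_false, sub_sub_cancel]
  refine ⟨by linarith [h.1], fun y hy => ?_, ?_⟩
  · have := h.2.1 (1 - y) ⟨by linarith [hy.2], by linarith [hy.1]⟩
    rwa [e, In_symm] at this
  · have := intervalIntegral.integral_comp_sub_left
      (fun y => √(1 - (Fs true c H y / In L' L y) ^ 2)) (a := 1 / 2) (b := 1 - x) 1
    simp only [e, In_symm, sub_sub_cancel] at this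
    rw [this, show (1 : ℝ) - 1 / 2 = 1 / 2 by norm_num]
    exact h.2.2

theorem run_sound {side : Bool} {l Lp : ℕ} {B : Bo} {g : ℕ → ℕ} {lam mu c H L L' : ℝ}
    (hB : InB B lam mu c H) (hl : (l : ℝ) / NN ≤ L) (hL : max L (1 / 8) ≤ (Lp : ℝ) / NN)
    (n : ℕ) (s0 s1 s2 s3 : ℕ) {K : ℕ → ℕ → ℕ → ℕ → Bool}
    (h : run side l Lp B g (n + 1) s0 s1 s2 s3 K = true) :
    ∃ t0 t1 t2 t3 : ℕ, K (s0 + t0) (s1 + t1) (s2 + t2) (s3 + t3) = true ∧
      2 * g (n + 1) ≤ NN ∧
      Seg (In L L') (Fs side c H) ((g 0 : ℝ) / NN) ((g (n + 1) : ℝ) / NN)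
        (bil lam mu t0 t1 t2 t3 / (2 * (NN : ℝ) ^ 2)) := by
  induction n generalizing s0 s1 s2 s3 with
  | zero =>
    rw [run] at h
    obtain ⟨t0, t1, t2, t3, h1, h2⟩ := cellK_sound (L' := L') h hB hl hL
    exact ⟨t0, t1, t2, t3, h1, NRunAux.cell_le h, h2⟩
  | succ n ih =>
    rw [run] at h
    obtain ⟨t0, t1, t2, t3, h1, h2⟩ := cellK_sound (L' := L') h hB hl hL
    obtain ⟨u0, u1, u2, u3, h3, -, h4⟩ := ih _ _ _ _ h1
    refine ⟨t0 + u0, t1 + u1, t2 + u2, t3 + u3, by simpa only [add_assoc] using h3,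
      NRunAux.cell_le h, (h4.join (continuous_In L L') (continuous_Fs side c H) h2).mono
        (le_of_eq ?_)⟩
    simp only [bil, Nat.cast_add]
    ring

/-- a segment inside `(α,β)` feeds the basic inequality -/
theorem DirW.seg_le {A v H c α β L L' a b T : ℝ} (h : DirW A v H c α β L L')
    (hs : Seg (In L L') (Fs false c H) a b T) (ha : α ≤ a) (hb : b ≤ β) :
    c + H * v + T ≤ A := by
  have m : Measurable fun x => √(1 - (Fs false c H x / In L L' x) ^ 2) :=
    (measurable_const.sub (((continuous_Fs false c H).measurable.div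
      (continuous_In L L').measurable).pow_const 2)).sqrt
  have := h.star ((Ioo a b).indicator fun x => √(1 - (Fs false c H x / In L L' x) ^ 2))
    (m.indicator measurableSet_Ioo) (fun x => ?_) fun x _ => ?_
  · rw [setIntegral_indicator measurableSet_Ioo, inter_eq_right.2 (Ioo_subset_Ioo ha hb),
      ← integral_Ioc_eq_integral_Ioo, ← intervalIntegral.integral_of_le hs.1] at this
    linarith [hs.2.2]
  · by_cases hx : x ∈ Ioo a b
    · rw [indicator_of_mem hx]
      exact ⟨Real.sqrt_nonneg _, Real.sqrt_le_one.2 (sub_le_self _ (sq_nonneg _))⟩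
    · rw [indicator_of_notMem hx]
      exact ⟨le_rfl, zero_le_one⟩
  · by_cases hx : x ∈ Ioo a b
    · obtain ⟨h1, h2⟩ := hs.2.1 x (Ioo_subset_Icc_self hx)
      have h3 := h1.trans_lt h2
      rw [indicator_of_mem hx, Real.sq_sqrt (sub_nonneg.2 (pow_le_one₀ (div_nonneg h1 h3.le)
        ((div_le_one h3).2 h2.le))), sub_sub_cancel, div_pow, div_mul_cancel₀ _ (pow_pos h3 2).ne']
      exact Or.inr le_rfl
    · exact Or.inl (indicator_of_notMem hx _)

/-- an interval of the gap containing `v` lies inside `(α,β)` -/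
theorem DirW.inside {A v H c α β L L' a b : ℝ} (h : DirW A v H c α β L L') (ha : a ≤ v)
    (hb : v ≤ b) (hg : ∀ x ∈ Icc a b, c + H * x < In L L' x) : α < a ∧ b < β :=
  ⟨lt_of_not_ge fun k => (hg α ⟨k, h.av.trans hb⟩).not_ge h.fa,
    lt_of_not_ge fun k => (hg β ⟨ha.trans h.vb, k⟩).not_ge h.fb⟩

end Vale.Agent.P232
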