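import Vale.Agent.P232.APer

open MeasureTheory Set Function Filter Topology
open scoped ENNReal

namespace Vale.Agent.P232

theorem ae_dens {S : Set ℝ} (hS : MeasurableSet S) :
    ∀ᵐ t ∂(volume : Measure ℝ), t ∈ S → Dens S t := by
  filter_upwards [Besicovitch.ae_tendsto_measure_inter_div_of_measurableSet volume hS] with t ht h
  rw [indicator_of_mem h] at ht
  refine ((ENNReal.tendsto_toReal ENNReal.one_ne_top).comp ht).congr' ?_
  filter_upwards [self_mem_nhdsWithin] with δ hδ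
  have : (0 : ℝ) < δ := hδ
  simp only [Function.comp, ENNReal.toReal_div, Real.volume_closedBall]
  rw [Real.closedBall_eq_Icc, ENNReal.toReal_ofReal (by positivity)]
  rfl

namespace TArc1Aux

theorem per_int {S : Set ℝ} (hp : ∀ t, t + 1 ∈ S ↔ t ∈ S) (t : ℝ) (k : ℤ) :
    t + k ∈ S ↔ t ∈ S := by
  have : Periodic (fun t => t ∈ S) 1 := fun t => propext (hp t)
  have h := this.int_mul k t
  rw [mul_one] at h
  exact iff_of_eq h

theorem shift {S : Set ℝ} (hS : MeasurableSet S) (hp : ∀ t, t + 1 ∈ S ↔ t ∈ S) (p : ℝ) :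
    vI.real S = volume.real (S ∩ Ioc p (p + 1)) := by
  have h := integral_vI_add (g := S.indicator 1) (fun t => by
    by_cases ht : t ∈ S
    · rw [indicator_of_mem ht, indicator_of_mem ((hp t).2 ht)]; rfl
    · rw [indicator_of_notMem ht, indicator_of_notMem fun h => ht ((hp t).1 h)])
    ⟨measurable_const.indicator hS, 1, fun t => by
      by_cases ht : t ∈ S
      · simp [ht]
      · simp [ht]⟩ p
  rw [integral_indicator_one hS, intervalIntegral.integral_of_le (by linarith),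
    integral_indicator_one hS] at h
  rw [h, measureReal_restrict_apply hS]

theorem ex_dens {S U : Set ℝ} (hS : MeasurableSet S) (h : volume (S ∩ U) ≠ 0) :
    ∃ t ∈ U, Dens S t := by
  obtain ⟨t, h1, h2⟩ := Measure.exists_mem_of_measure_ne_zero_of_ae h
    (ae_restrict_of_ae (ae_dens hS))
  exact ⟨t, h1.2, h2 h1.1⟩

theorem ex_q {S : Set ℝ} (hS : MeasurableSet S) (hp : ∀ t, t + 1 ∈ S ↔ t ∈ S)
    (h1 : vI.real S < 1) (p : ℝ) : ∃ q ∈ Ioo p (p + 1), Dens Sᶜ q := by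
  refine ex_dens hS.compl fun h => h1.ne ?_
  have e : (S ∩ Ioc p (p + 1) : Set ℝ) =ᵐ[volume] Ioc p (p + 1) := by
    filter_upwards [measure_eq_zero_iff_ae_notMem.1 h, Measure.ae_ne volume (p + 1)] with t a b
    exact propext ⟨fun c => c.2, fun c => ⟨by_contra fun d => a ⟨d, c.1, c.2.lt_of_ne b⟩, c⟩⟩
  rw [shift hS hp p, measureReal_congr e, Real.volume_real_Ioc_of_le (by linarith)]
  ring

theorem ex_p {S : Set ℝ} (hS : MeasurableSet S) (h0 : 0 < vI.real S) : ∃ p, Dens S p := by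
  obtain ⟨p, -, h⟩ := ex_dens (U := Ioo 0 1) hS fun h => h0.ne' (by
    rw [vI, measureReal_restrict_apply hS, Measure.real, h, ENNReal.toReal_zero])
  exact ⟨p, h⟩

theorem nd_iff {p a b t : ℝ} (h1 : p ≤ a) (h2 : a ≤ b) (h3 : b ≤ p + 1) (h4 : p < t)
    (h5 : t < p + 1) : nd (t - (a + b + 1) / 2) < (1 - (b - a)) / 2 ↔ t < a ∨ b < t := by
  rcases le_total t ((a + b) / 2) with h | h
  · have e := nd_add_int (t - (a + b + 1) / 2) 1
    rw [← e, Int.cast_one, nd_of_abs_le (abs_le.2 ⟨by linarith, by linarith⟩), abs_lt]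
    exact ⟨fun c => Or.inl (by linarith [c.2]), fun c => c.elim
      (fun d => ⟨by linarith, by linarith⟩) fun d => absurd d (by linarith)⟩
  · rw [nd_of_abs_le (abs_le.2 ⟨by linarith, by linarith⟩), abs_lt]
    exact ⟨fun c => Or.inr (by linarith [c.1]), fun c => c.elim
      (fun d => absurd d (by linarith)) fun d => ⟨by linarith, by linarith⟩⟩

end TArc1Aux

open TArc1Aux

theorem exists_two {S : Set ℝ} (hS : MeasurableSet S) (hp : ∀ t, t + 1 ∈ S ↔ t ∈ S)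
    (h0 : 0 < vI.real S) (h1 : vI.real S < 1) :
    ∃ p q, p < q ∧ q < p + 1 ∧ Dens S p ∧ Dens Sᶜ q := by
  obtain ⟨p, h⟩ := ex_p hS h0
  obtain ⟨q, h2, h3⟩ := ex_q hS hp h1 p
  exact ⟨p, q, h2.1, h2.2, h, h3⟩

theorem exists_four {S : Set ℝ} (hS : MeasurableSet S) (hp : ∀ t, t + 1 ∈ S ↔ t ∈ S)
    (h0 : 0 < vI.real S) (h1 : vI.real S < 1) (h : ¬ ∃ θ, ArcAt S θ) :
    ∃ p q p' q', p < q ∧ q < p' ∧ p' < q' ∧ q' < p + 1 ∧
      Dens S p ∧ Dens Sᶜ q ∧ Dens S p' ∧ Dens Sᶜ q' := by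
  obtain ⟨p, hP⟩ := ex_p hS h0
  set N : Set ℝ := {q | q ∈ Ioo p (p + 1) ∧ Dens Sᶜ q} with hN
  have ne : N.Nonempty := ex_q hS hp h1 p
  have bb : BddBelow N := ⟨p, fun q hq => hq.1.1.le⟩
  have ba : BddAbove N := ⟨p + 1, fun q hq => hq.1.2.le⟩
  set a := sInf N with ha
  set b := sSup N with hb
  have a1 : p ≤ a := le_csInf ne fun q hq => hq.1.1.le
  have a2 : a ≤ b := csInf_le_csSup ne bb ba
  have a3 : b ≤ p + 1 := csSup_le ne fun q hq => hq.1.2.le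
  by_cases hc : ∃ p' ∈ Ioo a b, Dens S p'
  · obtain ⟨p', c1, c2⟩ := hc
    obtain ⟨q, d1, d2⟩ := exists_lt_of_csInf_lt ne c1.1
    obtain ⟨q', e1, e2⟩ := exists_lt_of_lt_csSup ne c1.2
    exact ⟨p, q, p', q', d1.1.1, d2, e2, e1.1.2, hP, d1.2, c2, e1.2⟩
  have key : ∀ᵐ t ∂(volume : Measure ℝ), t ≠ p ∧ t ≠ p + 1 ∧
      (t ∈ Ioo p (p + 1) → (t ∈ S ↔ t < a ∨ b < t)) := by
    filter_upwards [ae_dens hS, ae_dens hS.compl, Measure.ae_ne volume p,
      Measure.ae_ne volume (p + 1), Measure.ae_ne volume a, Measure.ae_ne volume b]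
      with t t1 t2 t3 t4 t5 t6
    refine ⟨t3, t4, fun ht => ⟨fun c => by_contra fun d => ?_, fun c => by_contra fun d => ?_⟩⟩
    · rw [not_or, not_lt, not_lt] at d
      exact hc ⟨t, ⟨d.1.lt_of_ne' t5, d.2.lt_of_ne t6⟩, t1 c⟩
    · have m : t ∈ N := ⟨ht, t2 d⟩
      exact c.elim (not_lt.2 (csInf_le bb m)) (not_lt.2 (le_csSup ba m))
  have e : (S ∩ Ioc p (p + 1) : Set ℝ) =ᵐ[volume] (Ioc p (p + 1) \ Icc a b : Set ℝ) := by
    filter_upwards [key] with t ⟨_, t2, t3⟩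
    refine propext ⟨fun c => ⟨c.2, fun d => ?_⟩, fun c => ⟨?_, c.1⟩⟩
    · exact ((t3 ⟨c.2.1, c.2.2.lt_of_ne t2⟩).1 c.1).elim (not_lt.2 d.1) (not_lt.2 d.2)
    · refine (t3 ⟨c.1.1, c.1.2.lt_of_ne t2⟩).2 (by_contra fun d => c.2 ?_)
      rw [not_or, not_lt, not_lt] at d
      exact d
  have e' : (Ioc p (p + 1) \ Icc a b : Set ℝ) =ᵐ[volume] (Ioc p (p + 1) \ Ioc a b : Set ℝ) :=
    EventuallyEq.diff EventuallyEq.rfl Ioc_ae_eq_Icc.symm
  have hv : vI.real S = 1 - (b - a) := by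
    rw [shift hS hp p, measureReal_congr (e.trans e'),
      measureReal_sdiff (Ioc_subset_Ioc a1 a3) measurableSet_Ioc (by simp),
      Real.volume_real_Ioc_of_le (by linarith), Real.volume_real_Ioc_of_le a2]
    ring
  refine absurd ⟨(a + b + 1) / 2, ?_⟩ h
  have k2 := ae_all_iff.2 fun k : ℤ =>
    (measurePreserving_add_right (volume : Measure ℝ) (k : ℝ)).quasiMeasurePreserving.ae key
  filter_upwards [k2] with t ht
  obtain ⟨t1, -, t3⟩ := ht (-⌊t - p⌋)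
  have f1 := Int.floor_le (t - p)
  have f2 := Int.lt_floor_add_one (t - p)
  have g1 : p < t + (-⌊t - p⌋ : ℤ) := lt_of_le_of_ne (by push_cast; linarith) t1.symm
  have g2 : t + (-⌊t - p⌋ : ℤ) < p + 1 := by push_cast; linarith
  rw [← per_int hp t (-⌊t - p⌋), t3 ⟨g1, g2⟩, ← nd_iff a1 a2 a3 g1 g2, hv,
    ← nd_add_int (t - (a + b + 1) / 2) (-⌊t - p⌋), sub_add_eq_add_sub]

end Vale.Agent.P232
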