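import Vale.Agent.P232.TArc1

open MeasureTheory Set Function Filter Topology
open scoped ENNReal

namespace Vale.Agent.P232

namespace TArc2Aux

/-- periodic tent kernel -/
noncomputable def tk (d t : ℝ) : ℝ := max 0 (d - nd t) / d ^ 2

theorem tk_cont (d : ℝ) : Continuous (tk d) :=
  (continuous_const.max (continuous_const.sub continuous_nd)).div_const _

theorem tk_per (d : ℝ) : Periodic (tk d) 1 := by
  intro t
  have := nd_add_int t 1
  simp only [Int.cast_one] at this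
  simp only [tk, this]

theorem tk_nonneg (d t : ℝ) : 0 ≤ tk d t := div_nonneg (le_max_left _ _) (sq_nonneg _)

theorem tk_le {d : ℝ} (hd : 0 < d) (t : ℝ) : tk d t ≤ 1 / d := by
  have h1 : max 0 (d - nd t) ≤ d := max_le hd.le (by linarith [nd_nonneg t])
  have h2 : tk d t ≤ d / d ^ 2 := div_le_div_of_nonneg_right h1 (sq_nonneg _)
  have h3 : d / d ^ 2 = 1 / d := by field_simp
  rwa [h3] at h2

theorem tk_zero {d t : ℝ} (h : d ≤ nd t) : tk d t = 0 := by
  have : max 0 (d - nd t) = 0 := max_eq_left (by linarith)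
  simp [tk, this]

theorem tk_int0 {d : ℝ} (hd : 0 < d) (hd2 : d ≤ 1 / 2) :
    ∫ t in (-(1 / 2) : ℝ)..(1 / 2), tk d t = 1 := by
  have hi : ∀ a b : ℝ, IntervalIntegrable (tk d) volume a b :=
    fun a b => (tk_cont d).intervalIntegrable a b
  have e1 : ∫ t in (-(1 / 2) : ℝ)..(-d), tk d t = 0 := by
    have : ∫ t in (-(1 / 2) : ℝ)..(-d), tk d t = ∫ t in (-(1 / 2) : ℝ)..(-d), (0 : ℝ) := by
      apply intervalIntegral.integral_congr
      intro t ht
      rw [uIcc_of_le (by linarith)] at ht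
      have h1 : |t| ≤ 1 / 2 := abs_le.2 ⟨ht.1, by linarith [ht.2]⟩
      apply tk_zero
      rw [nd_of_abs_le h1]
      exact le_abs.2 (Or.inr (by linarith [ht.2]))
    rw [this]; simp
  have e4 : ∫ t in d..(1 / 2 : ℝ), tk d t = 0 := by
    have : ∫ t in d..(1 / 2 : ℝ), tk d t = ∫ t in d..(1 / 2 : ℝ), (0 : ℝ) := by
      apply intervalIntegral.integral_congr
      intro t ht
      rw [uIcc_of_le hd2] at ht
      have h1 : |t| ≤ 1 / 2 := abs_le.2 ⟨by linarith [ht.1], ht.2⟩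
      apply tk_zero
      rw [nd_of_abs_le h1]
      exact le_abs.2 (Or.inl ht.1)
    rw [this]; simp
  have e2 : ∫ t in (-d)..(0 : ℝ), tk d t = 1 / 2 := by
    have : ∫ t in (-d)..(0 : ℝ), tk d t = ∫ t in (-d)..(0 : ℝ), (d + t) / d ^ 2 := by
      apply intervalIntegral.integral_congr
      intro t ht
      rw [uIcc_of_le (by linarith)] at ht
      have h1 : |t| ≤ 1 / 2 := abs_le.2 ⟨by linarith [ht.1], by linarith [ht.2]⟩
      have h2 : max 0 (d - nd t) = d + t := by
        rw [nd_of_abs_le h1, abs_of_nonpos ht.2, max_eq_right (by linarith [ht.1])]; ring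
      simp only [tk, h2]
    rw [this, intervalIntegral.integral_div, intervalIntegral.integral_add
      (continuous_const.intervalIntegrable _ _) (continuous_id'.intervalIntegrable _ _)]
    simp only [intervalIntegral.integral_const, integral_id, smul_eq_mul]
    field_simp
    ring
  have e3 : ∫ t in (0 : ℝ)..d, tk d t = 1 / 2 := by
    have : ∫ t in (0 : ℝ)..d, tk d t = ∫ t in (0 : ℝ)..d, (d - t) / d ^ 2 := by
      apply intervalIntegral.integral_congr
      intro t ht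
      rw [uIcc_of_le hd.le] at ht
      have h1 : |t| ≤ 1 / 2 := abs_le.2 ⟨by linarith [ht.1], by linarith [ht.2]⟩
      have h2 : max 0 (d - nd t) = d - t := by
        rw [nd_of_abs_le h1, abs_of_nonneg ht.1, max_eq_right (by linarith [ht.2])]
      simp only [tk, h2]
    rw [this, intervalIntegral.integral_div, intervalIntegral.integral_sub
      (continuous_const.intervalIntegrable _ _) (continuous_id'.intervalIntegrable _ _)]
    simp only [intervalIntegral.integral_const, integral_id, smul_eq_mul]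
    field_simp
    ring
  rw [← intervalIntegral.integral_add_adjacent_intervals (hi _ (-d)) (hi _ _),
    ← intervalIntegral.integral_add_adjacent_intervals (hi (-d) 0) (hi _ _),
    ← intervalIntegral.integral_add_adjacent_intervals (hi 0 d) (hi _ _), e1, e2, e3, e4]
  norm_num

theorem tk_int {d : ℝ} (hd : 0 < d) (hd2 : d ≤ 1 / 2) (s : ℝ) :
    ∫ t in s..(s + 1), tk d t = 1 := by
  have e : (-(1 / 2) : ℝ) + 1 = 1 / 2 := by norm_num
  rw [(tk_per d).intervalIntegral_add_eq s (-(1 / 2)), e, tk_int0 hd hd2]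

/-- primitive of the tent kernel -/
noncomputable def pr (d t : ℝ) : ℝ := ∫ x in (0 : ℝ)..t, tk d x

theorem pr_deriv (d t : ℝ) : HasDerivAt (pr d) (tk d t) t :=
  ((tk_cont d).integral_hasStrictDerivAt 0 t).hasDerivAt

theorem pr_mono (d : ℝ) : Monotone (pr d) :=
  monotone_of_deriv_nonneg (fun t => (pr_deriv d t).differentiableAt)
    (fun t => by rw [(pr_deriv d t).deriv]; exact tk_nonneg d t)

theorem pr_add_one {d : ℝ} (hd : 0 < d) (hd2 : d ≤ 1 / 2) (t : ℝ) :
    pr d (t + 1) = pr d t + 1 := by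
  have hi : ∀ a b : ℝ, IntervalIntegrable (tk d) volume a b :=
    fun a b => (tk_cont d).intervalIntegrable a b
  unfold pr
  rw [← intervalIntegral.integral_add_adjacent_intervals (hi 0 t) (hi t (t + 1)),
    tk_int hd hd2 t]

/-- the test function -/
noncomputable def th (d a b a' b' t : ℝ) : ℝ :=
  2 * (pr d (t - a) - pr d (t - b) + pr d (t - a') - pr d (t - b')) - 1

theorem th_deriv (d a b a' b' t : ℝ) : HasDerivAt (th d a b a' b')
    (2 * (tk d (t - a) - tk d (t - b) + tk d (t - a') - tk d (t - b'))) t := by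
  have h : ∀ c : ℝ, HasDerivAt (fun t => pr d (t - c)) (tk d (t - c)) t :=
    fun c => (pr_deriv d (t - c)).comp_sub_const t c
  exact (((((h a).sub (h b)).add (h a')).sub (h b')).const_mul 2).sub_const 1

theorem th_deriv_eq (d a b a' b' : ℝ) : deriv (th d a b a' b') =
    fun t => 2 * (tk d (t - a) - tk d (t - b) + tk d (t - a') - tk d (t - b')) :=
  funext fun t => (th_deriv d a b a' b' t).deriv

theorem tk_cont_sub (d c : ℝ) : Continuous fun t => tk d (t - c) :=
  (tk_cont d).comp (continuous_id.sub continuous_const)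

theorem th_contDiff (d a b a' b' : ℝ) : ContDiff ℝ 1 (th d a b a' b') := by
  rw [contDiff_one_iff_deriv, th_deriv_eq]
  refine ⟨fun t => (th_deriv d a b a' b' t).differentiableAt, ?_⟩
  exact continuous_const.mul ((((tk_cont_sub d a).sub (tk_cont_sub d b)).add
    (tk_cont_sub d a')).sub (tk_cont_sub d b'))

theorem th_per {d : ℝ} (hd : 0 < d) (hd2 : d ≤ 1 / 2) (a b a' b' : ℝ) :
    Periodic (th d a b a' b') 1 := by
  intro t
  have h : ∀ c : ℝ, pr d (t + 1 - c) = pr d (t - c) + 1 := fun c => by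
    rw [← pr_add_one hd hd2]; congr 1; ring
  simp only [th, h]
  ring

theorem th_abs {d : ℝ} (hd : 0 < d) (hd2 : d ≤ 1 / 2) {a b a' b' : ℝ} (h1 : a ≤ b)
    (h2 : b ≤ a') (h3 : a' ≤ b') (h4 : b' ≤ a + 1) (t : ℝ) : |th d a b a' b' t| ≤ 1 := by
  have e1 : pr d (t - b) ≤ pr d (t - a) := pr_mono d (by linarith)
  have e2 : pr d (t - a') ≤ pr d (t - b) := pr_mono d (by linarith)
  have e3 : pr d (t - b') ≤ pr d (t - a') := pr_mono d (by linarith)
  have e4 : pr d (t - a) ≤ pr d (t - b' + 1) := pr_mono d (by linarith)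
  rw [pr_add_one hd hd2] at e4
  unfold th
  rw [abs_le]
  constructor <;> linarith

theorem tk_integrable (d c : ℝ) : Integrable (fun t => tk d (t - c)) vI := by
  unfold vI
  exact ((tk_cont_sub d c).integrableOn_Icc (a := 0) (b := 1)).mono_set Ioo_subset_Icc_self

theorem tk_bm {d : ℝ} (hd : 0 < d) (c : ℝ) : BM fun t => tk d (t - c) :=
  ⟨(tk_cont_sub d c).measurable, 1 / d, fun t => by
    rw [abs_of_nonneg (tk_nonneg _ _)]; exact tk_le hd _⟩

theorem tk_per_sub (d c : ℝ) : Periodic (fun t => tk d (t - c)) 1 := by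
  intro t
  have := tk_per d (t - c)
  simp only
  rw [← this]; congr 1; ring

theorem tk_total {d : ℝ} (hd : 0 < d) (hd2 : d ≤ 1 / 2) (c : ℝ) :
    ∫ t, tk d (t - c) ∂vI = 1 := by
  have e : c + 1 - c = c - c + 1 := by ring
  rw [integral_vI_add (tk_per_sub d c) (tk_bm hd c) c, intervalIntegral.integral_comp_sub_right,
    e, tk_int hd hd2]

theorem tk_split {d : ℝ} (hd : 0 < d) (hd2 : d ≤ 1 / 2) (c : ℝ) {S : Set ℝ}
    (hS : MeasurableSet S) :
    ∫ t in S, tk d (t - c) ∂vI + ∫ t in Sᶜ, tk d (t - c) ∂vI = 1 := by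
  rw [integral_add_compl hS (tk_integrable d c), tk_total hd hd2]

theorem mass_le {T : Set ℝ} (hT : MeasurableSet T) (hp : ∀ t, t + 1 ∈ T ↔ t ∈ T) {d p x : ℝ}
    (hd : 0 < d) (hx : |x - p| ≤ d) :
    ∫ t in T, tk d (t - x) ∂vI ≤ volume.real (T ∩ Icc (p - 2 * d) (p + 2 * d)) / d := by
  have hper : Periodic (T.indicator fun t => tk d (t - x)) 1 := by
    intro t
    by_cases ht : t ∈ T
    · rw [indicator_of_mem ht, indicator_of_mem ((hp t).2 ht)]
      exact tk_per_sub d x t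
    · rw [indicator_of_notMem ht, indicator_of_notMem (fun h => ht ((hp t).1 h))]
  have hbm : BM (T.indicator fun t => tk d (t - x)) := by
    refine ⟨(tk_cont_sub d x).measurable.indicator hT, 1 / d, fun t => ?_⟩
    by_cases ht : t ∈ T
    · rw [indicator_of_mem ht, abs_of_nonneg (tk_nonneg _ _)]; exact tk_le hd _
    · rw [indicator_of_notMem ht, abs_zero]; positivity
  obtain ⟨A, hA⟩ : ∃ A, A = T ∩ Icc (p - 2 * d) (p + 2 * d) := ⟨_, rfl⟩
  have hAm : MeasurableSet A := hA ▸ hT.inter measurableSet_Icc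
  have hAf : volume A ≠ ∞ := by
    refine ne_top_of_le_ne_top ?_ (measure_mono (hA ▸ inter_subset_right))
    exact measure_Icc_lt_top.ne
  have hg : Integrable (A.indicator fun _ => 1 / d) (volume : Measure ℝ) :=
    (integrable_indicator_iff hAm).2 (integrableOn_const hAf)
  rw [← hA, ← integral_indicator hT, integral_vI_add hper hbm (x - 1 / 2),
    intervalIntegral.integral_of_le (by linarith)]
  have hle : ∫ t in Ioc (x - 1 / 2) (x - 1 / 2 + 1), T.indicator (fun t => tk d (t - x)) t ≤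
      ∫ t in Ioc (x - 1 / 2) (x - 1 / 2 + 1), A.indicator (fun _ => 1 / d) t := by
    apply setIntegral_mono_on
    · exact (((tk_cont_sub d x).integrableOn_Icc).mono_set Ioc_subset_Icc_self).indicator hT
    · exact hg.integrableOn
    · exact measurableSet_Ioc
    · intro t ht
      by_cases htT : t ∈ T
      · rw [indicator_of_mem htT]
        by_cases htA : t ∈ A
        · rw [indicator_of_mem htA]; exact tk_le hd _
        · rw [indicator_of_notMem htA]
          apply le_of_eq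
          apply tk_zero
          have h1 : |t - x| ≤ 1 / 2 := abs_le.2 ⟨by linarith [ht.1], by linarith [ht.2]⟩
          rw [nd_of_abs_le h1]
          by_contra hlt
          rw [not_le, abs_lt] at hlt
          rw [abs_le] at hx
          exact htA (hA ▸ ⟨htT, by linarith [hlt.1, hx.1], by linarith [hlt.2, hx.2]⟩)
      · rw [indicator_of_notMem htT]
        exact indicator_nonneg (fun _ _ => by positivity) _
  refine hle.trans ((setIntegral_le_integral hg (Eventually.of_forall fun t =>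
    indicator_nonneg (fun _ _ => by positivity) t)).trans (le_of_eq ?_))
  rw [integral_indicator hAm, setIntegral_const, smul_eq_mul]
  ring

theorem small {T : Set ℝ} (hT : MeasurableSet T) (hp : ∀ t, t + 1 ∈ T ↔ t ∈ T) {p : ℝ}
    (hD : Dens Tᶜ p) {ε : ℝ} (hε : 0 < ε) :
    ∀ᶠ d in 𝓝[>] (0 : ℝ), ∀ x, |x - p| ≤ d → ∫ t in T, tk d (t - x) ∂vI ≤ ε := by
  have h2 : Tendsto (fun d : ℝ => 2 * d) (𝓝[>] 0) (𝓝[>] 0) := by
    apply tendsto_nhdsWithin_of_tendsto_nhds_of_eventually_within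
    · have : Tendsto (fun d : ℝ => 2 * d) (𝓝 0) (𝓝 (2 * 0)) :=
        (continuous_const.mul continuous_id).tendsto 0
      rw [mul_zero] at this
      exact this.mono_left nhdsWithin_le_nhds
    · filter_upwards [self_mem_nhdsWithin] with d hd
      exact mul_pos two_pos (mem_Ioi.1 hd)
  have h3 := (hD.comp h2).eventually (lt_mem_nhds (show 1 - ε / 4 < 1 by linarith))
  filter_upwards [h3, self_mem_nhdsWithin] with d hd hd0 x hx
  have hd0' : 0 < d := hd0
  refine (mass_le hT hp hd0' hx).trans ?_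
  simp only [Function.comp] at hd
  have hI : volume.real (Icc (p - 2 * d) (p + 2 * d)) = 4 * d := by
    rw [Real.volume_real_Icc_of_le (by linarith)]; ring
  have hs : volume.real (Icc (p - 2 * d) (p + 2 * d) ∩ T) +
      volume.real (Icc (p - 2 * d) (p + 2 * d) \ T) = volume.real (Icc (p - 2 * d) (p + 2 * d)) :=
    measureReal_inter_add_sdiff hT measure_Icc_lt_top.ne
  rw [sdiff_eq, inter_comm _ T, inter_comm _ Tᶜ, hI] at hs
  rw [lt_div_iff₀ (by linarith)] at hd
  rw [div_le_iff₀ hd0']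
  nlinarith

theorem big {S : Set ℝ} (hS : MeasurableSet S) (hp : ∀ t, t + 1 ∈ S ↔ t ∈ S) {p : ℝ}
    (hD : Dens S p) {ε : ℝ} (hε : 0 < ε) :
    ∀ᶠ d in 𝓝[>] (0 : ℝ), ∀ x, |x - p| ≤ d → 1 - ε ≤ ∫ t in S, tk d (t - x) ∂vI := by
  have h := small hS.compl (fun t => not_congr (hp t)) (p := p) (by rwa [compl_compl]) hε
  filter_upwards [h, Ioc_mem_nhdsGT (show (0 : ℝ) < 1 / 2 by norm_num)] with d hd hd0 x hx
  have h1 := hd x hx
  have h2 := tk_split hd0.1 hd0.2 x hS
  linarith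

theorem int_th (d a b a' b' : ℝ) (S : Set ℝ) :
    ∫ t in S, deriv (th d a b a' b') t ∂vI = 2 * (∫ t in S, tk d (t - a) ∂vI -
      ∫ t in S, tk d (t - b) ∂vI + ∫ t in S, tk d (t - a') ∂vI - ∫ t in S, tk d (t - b') ∂vI) := by
  have hi : ∀ c, Integrable (fun t => tk d (t - c)) (vI.restrict S) :=
    fun c => (tk_integrable d c).integrableOn
  have i1 : Integrable (fun t => tk d (t - a) - tk d (t - b)) (vI.restrict S) := (hi a).sub (hi b)
  have i2 : Integrable (fun t => tk d (t - a) - tk d (t - b) + tk d (t - a')) (vI.restrict S) :=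
    i1.add (hi a')
  rw [th_deriv_eq, integral_const_mul, integral_sub i2 (hi b'), integral_add i1 (hi a'),
    integral_sub (hi a) (hi b)]

theorem exists_rat_small {P : ℝ → Prop} (h : ∀ᶠ d in 𝓝[>] (0 : ℝ), P d) :
    ∃ d : ℚ, 0 < (d : ℝ) ∧ (d : ℝ) ≤ 1 / 2 ∧ P d := by
  obtain ⟨u, hu, hsub⟩ := (mem_nhdsGT_iff_exists_Ioo_subset).1 h
  obtain ⟨d, hd1, hd2⟩ := exists_rat_btwn (show (0 : ℝ) < min u (1 / 2) from
    lt_min hu (by norm_num))
  exact ⟨d, hd1, (hd2.trans_le (min_le_right _ _)).le,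
    hsub ⟨hd1, hd2.trans_le (min_le_left _ _)⟩⟩

theorem exists_rat_near {p q d : ℝ} (hpq : p < q) (hd : 0 < d) :
    ∃ x : ℚ, p < x ∧ (x : ℝ) < q ∧ |(x : ℝ) - p| ≤ d := by
  obtain ⟨x, h1, h2⟩ := exists_rat_btwn (show p < min q (p + d) from lt_min hpq (by linarith))
  have h3 := h2.trans_le (min_le_left _ _)
  have h4 := h2.trans_le (min_le_right _ _)
  exact ⟨x, h1, h3, abs_le.2 ⟨by linarith, by linarith⟩⟩

/-- admissible parameters -/
def Adm (z : ℚ × ℚ × ℚ × ℚ × ℚ) : Prop :=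
  0 < (z.1 : ℝ) ∧ (z.1 : ℝ) ≤ 1 / 2 ∧ (z.2.1 : ℝ) ≤ z.2.2.1 ∧ (z.2.2.1 : ℝ) ≤ z.2.2.2.1 ∧
    (z.2.2.2.1 : ℝ) ≤ z.2.2.2.2 ∧ (z.2.2.2.2 : ℝ) ≤ z.2.1 + 1

theorem exists_enum : ∃ e : ℕ → ℚ × ℚ × ℚ × ℚ × ℚ, (∀ n, Adm (e n)) ∧
    ∀ z, Adm z → ∃ n, e n = z := by
  have : Nonempty {z // Adm z} := ⟨⟨(1 / 2, 0, 0, 0, 0), by norm_num [Adm]⟩⟩
  obtain ⟨f, hf⟩ := exists_surjective_nat {z // Adm z}
  refine ⟨fun n => (f n).1, fun n => (f n).2, fun z hz => ?_⟩
  obtain ⟨n, hn⟩ := hf ⟨z, hz⟩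
  exact ⟨n, by simp only [hn]⟩

end TArc2Aux

open TArc2Aux in
theorem exists_fam : ∃ θ : ℕ → ℝ → ℝ,
    (∀ n, ContDiff ℝ 1 (θ n) ∧ Periodic (θ n) 1 ∧ ∀ t, |θ n t| ≤ 1) ∧
    ∀ S : Set ℝ, MeasurableSet S → (∀ t, t + 1 ∈ S ↔ t ∈ S) → 0 < vI.real S → vI.real S < 1 →
      (∀ ε : ℝ, 0 < ε → ∃ n, 2 - ε ≤ ∫ t in S, deriv (θ n) t ∂vI) ∧
      ((¬ ∃ c, ArcAt S c) → ∃ n, 3 ≤ ∫ t in S, deriv (θ n) t ∂vI) := by
  obtain ⟨e, he, hsurj⟩ := exists_enum
  refine ⟨fun n => th (e n).1 (e n).2.1 (e n).2.2.1 (e n).2.2.2.1 (e n).2.2.2.2, fun n => ?_,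
    fun S hS hp h0 h1 => ⟨fun ε hε => ?_, fun hn => ?_⟩⟩
  · obtain ⟨h1, h2, h3, h4, h5, h6⟩ := he n
    exact ⟨th_contDiff _ _ _ _ _, th_per h1 h2 _ _ _ _, th_abs h1 h2 h3 h4 h5 h6⟩
  · obtain ⟨p, q, hpq, hqp, hDp, hDq⟩ := exists_two hS hp h0 h1
    have hε4 : 0 < ε / 4 := by linarith
    obtain ⟨d, hd0, hd2, hb, hs⟩ :=
      exists_rat_small ((big hS hp hDp hε4).and (small hS hp hDq hε4))
    obtain ⟨a, ha1, ha2, ha3⟩ := exists_rat_near hpq hd0
    obtain ⟨b, hb1, hb2, hb3⟩ := exists_rat_near hqp hd0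
    obtain ⟨n, hn⟩ := hsurj (d, a, b, b, b)
      ⟨hd0, hd2, (ha2.trans hb1).le, le_rfl, le_rfl, by simp only; linarith⟩
    refine ⟨n, ?_⟩
    simp only [hn]
    rw [int_th]
    have := hb a ha3
    have := hs b hb3
    linarith
  · obtain ⟨p, q, p', q', h12, h23, h34, h41, hDp, hDq, hDp', hDq'⟩ :=
      exists_four hS hp h0 h1 hn
    have hε : (0 : ℝ) < 1 / 8 := by norm_num
    obtain ⟨d, hd0, hd2, ⟨hb, hs⟩, hb', hs'⟩ :=
      exists_rat_small (((big hS hp hDp hε).and (small hS hp hDq hε)).and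
        ((big hS hp hDp' hε).and (small hS hp hDq' hε)))
    obtain ⟨a, ha1, ha2, ha3⟩ := exists_rat_near h12 hd0
    obtain ⟨b, hb1, hb2, hb3⟩ := exists_rat_near h23 hd0
    obtain ⟨a', ha1', ha2', ha3'⟩ := exists_rat_near h34 hd0
    obtain ⟨b', hb1', hb2', hb3'⟩ := exists_rat_near h41 hd0
    obtain ⟨n, hn⟩ := hsurj (d, a, b, a', b')
      ⟨hd0, hd2, (ha2.trans hb1).le, (hb2.trans ha1').le, (ha2'.trans hb1').le,
        by simp only; linarith⟩
    refine ⟨n, ?_⟩
    simp only [hn]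
    rw [int_th]
    have := hb a ha3
    have := hs b hb3
    have := hb' a' ha3'
    have := hs' b' hb3'
    linarith

end Vale.Agent.P232
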