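import Vale.Agent.P232.APer

open MeasureTheory Set Function Filter Topology
open scoped ENNReal

namespace Vale.Agent.P232

namespace TAvgAux

noncomputable def L (k : Fin 3) : X →L[ℝ] X :=
  ContinuousLinearMap.id ℝ X -
    (ContinuousLinearMap.proj k : X →L[ℝ] ℝ).smulRight (Pi.single k (1 : ℝ) : X)

theorem L_apply (k : Fin 3) (x : X) : L k x = update x k 0 := by
  ext j
  by_cases h : j = k
  · subst h; simp [L]
  · simp [L, h]

theorem upd (k : Fin 3) (x : X) (t : ℝ) : update x k t = L k x + Pi.single k t := by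
  ext j
  by_cases h : j = k
  · subst h; simp [L_apply]
  · simp [L_apply, h]

theorem hasF {η : X → ℝ} (hη : ContDiff ℝ 1 η) (k : Fin 3) (t : ℝ) (x : X) :
    HasFDerivAt (fun y => η (update y k t)) ((fderiv ℝ η (update x k t)).comp (L k)) x := by
  have h1 : HasFDerivAt (fun y : X => update y k t) (L k) x := by
    simp only [upd]
    exact (L k).hasFDerivAt.add_const _
  exact ((hη.differentiable one_ne_zero) _).hasFDerivAt.comp x h1

theorem bound {η : X → ℝ} (hη : PC1 η) : ∃ C : ℝ, ∀ y, ‖fderiv ℝ η y‖ ≤ C := by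
  have h1 : Per fun y => ‖fderiv ℝ η y‖ := fun x m => by
    have e : η = fun y => η (y + fun j => (m j : ℝ)) := funext fun y => (hη.2 y m).symm
    show ‖fderiv ℝ η (x + fun j => (m j : ℝ))‖ = ‖fderiv ℝ η x‖
    conv_rhs => rw [e, fderiv_comp_add_right]
  obtain ⟨-, C, hC⟩ := h1.bm (hη.1.continuous_fderiv one_ne_zero).norm
  exact ⟨C, fun y => (le_abs_self _).trans (hC y)⟩

theorem cu (k : Fin 3) (x : X) : Continuous fun t : ℝ => update x k t :=
  continuous_const.update k continuous_id

theorem cx (k : Fin 3) (t : ℝ) : Continuous fun x : X => update x k t :=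
  continuous_id.update k continuous_const

theorem main {η : X → ℝ} (hη : PC1 η) (k : Fin 3) :
    ContDiff ℝ 1 (fun x => ∫ t, η (update x k t) ∂vI) ∧ ∀ j x,
      pd j (fun x => ∫ t, η (update x k t) ∂vI) x = ∫ t, pd j η (update x k t) ∂vI := by
  have := vI_prob
  obtain ⟨C, hC⟩ := bound hη
  have hc := hη.1.continuous_fderiv one_ne_zero
  have hm : ∀ x : X, AEStronglyMeasurable
      (fun t : ℝ => (fderiv ℝ η (update x k t)).comp (L k)) vI := fun x =>
    ((hc.comp (cu k x)).clm_comp continuous_const).aestronglyMeasurable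
  have hb : ∀ (x : X) (t : ℝ), ‖(fderiv ℝ η (update x k t)).comp (L k)‖ ≤ C * ‖L k‖ := fun x t =>
    (ContinuousLinearMap.opNorm_comp_le _ _).trans
      (mul_le_mul_of_nonneg_right (hC _) (norm_nonneg _))
  have hd : ∀ x : X, HasFDerivAt (fun x => ∫ t, η (update x k t) ∂vI)
      (∫ t, (fderiv ℝ η (update x k t)).comp (L k) ∂vI) x := fun x =>
    hasFDerivAt_integral_of_dominated_of_fderiv_le (s := univ) (bound := fun _ => C * ‖L k‖)
      (F' := fun x t => (fderiv ℝ η (update x k t)).comp (L k)) univ_mem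
      (.of_forall fun y => (hη.1.continuous.comp (cu k y)).aestronglyMeasurable)
      ((hη.bm.comp (cu k x).measurable).integrable vI) (hm x)
      (.of_forall fun t y _ => hb y t) (integrable_const _)
      (.of_forall fun t y _ => hasF hη.1 k t y)
  refine ⟨contDiff_one_iff_hasFDerivAt.2 ⟨_, ?_, hd⟩, fun j x => ?_⟩
  · exact continuous_of_dominated hm (fun x => .of_forall fun t => hb x t) (integrable_const _)
      (.of_forall fun t => (hc.comp (cx k t)).clm_comp continuous_const)
  · have hi : Integrable (fun t : ℝ => (fderiv ℝ η (update x k t)).comp (L k)) vI :=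
      (integrable_const _).mono' (hm x) (.of_forall fun t => hb x t)
    rw [pd, (hd x).fderiv, ContinuousLinearMap.integral_apply hi]
    by_cases h : j = k
    · subst h
      have e : L j (Pi.single j 1) = 0 := by
        rw [L_apply]; ext i; by_cases hi : i = j <;> simp [hi]
      simp only [ContinuousLinearMap.comp_apply, e, map_zero, integral_zero]
      have h1 := intervalIntegral.integral_eq_sub_of_hasDerivAt (a := 0) (b := 1)
        (fun t _ => hasDerivAt_update hη.1 j x t)
        (((hη.continuous_pd j).comp (cu j x)).intervalIntegrable _ _)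
      rw [intervalIntegral.integral_of_le zero_le_one, integral_Ioc_eq_integral_Ioo] at h1
      have h2 := hη.2.update_add_one x j 0
      rw [zero_add] at h2
      rw [h2, sub_self] at h1
      exact h1.symm
    · have e : L k (Pi.single j 1) = Pi.single j 1 := by
        rw [L_apply]; ext i; by_cases hi : i = k
        · subst hi; simp [Ne.symm h]
        · simp [hi]
      simp only [ContinuousLinearMap.comp_apply, e, pd]

theorem rad {η : X → ℝ} (hη : Per η) {I : Finset (Fin 3)} {c : X} {r : ℝ} (h0 : 0 < r)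
    (hs : tsupport η ⊆ Mod I c r) :
    ∃ r₁ : ℝ, 0 < r₁ ∧ r₁ < r ∧ ∀ x, η x ≠ 0 → x ∈ Mod I c r₁ := by
  have hK : IsCompact (tsupport η ∩ Icc (0 : X) 1) :=
    isCompact_Icc.inter_left (isClosed_tsupport η)
  have hS : Continuous fun x : X => ∑ i ∈ I, nd (x i - c i) ^ 2 :=
    continuous_finsetSum _ fun i _ =>
      (continuous_nd.comp ((continuous_apply i).sub continuous_const)).pow 2
  obtain ⟨m, hm0, hm1, hm2⟩ : ∃ m : ℝ, 0 ≤ m ∧ m < r ^ 2 ∧
      ∀ x ∈ tsupport η ∩ Icc (0 : X) 1, ∑ i ∈ I, nd (x i - c i) ^ 2 ≤ m := by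
    rcases (tsupport η ∩ Icc (0 : X) 1).eq_empty_or_nonempty with h | h
    · exact ⟨0, le_rfl, by positivity, fun x hx => by simp [h] at hx⟩
    · obtain ⟨x₀, hx₀, hx₁⟩ := hK.exists_isMaxOn h hS.continuousOn
      exact ⟨_, Finset.sum_nonneg fun _ _ => sq_nonneg _, hs hx₀.1, fun x hx => hx₁ hx⟩
  have h1 : 0 < (m + r ^ 2) / 2 := by positivity
  refine ⟨√((m + r ^ 2) / 2), Real.sqrt_pos.2 h1, (Real.sqrt_lt' h0).2 (by linarith),
    fun x hx => ?_⟩
  refine (perSet_Mod I c _ x fun j => -⌊x j⌋).1 ?_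
  have h2 := hm2 (fun j => x j + ((-⌊x j⌋ : ℤ) : ℝ))
    ⟨subset_tsupport η (by rw [mem_support, hη x]; exact hx), fun j => by
      have := Int.floor_le (x j)
      simp only [Pi.zero_apply, Int.cast_neg]
      linarith, fun j => by
      have := Int.lt_floor_add_one (x j)
      simp only [Pi.one_apply, Int.cast_neg]
      linarith⟩
  show (_ : ℝ) < _
  rw [Real.sq_sqrt h1.le]
  linarith

end TAvgAux

/-- averaging a test function over the coordinate `k` -/
theorem exists_avg {η : X → ℝ} (hη : PC1 η) {I : Finset (Fin 3)} {k : Fin 3} (hk : k ∉ I)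
    {c : X} {r : ℝ} (h0 : 0 < r) (hs : tsupport η ⊆ Mod I c r) :
    ∃ (ζ : X → ℝ) (r₁ : ℝ), 0 < r₁ ∧ r₁ < r ∧ PC1 ζ ∧ Ind k ζ ∧
      (∀ x, x ∉ Mod I c r₁ → ζ x = 0) ∧
      ∀ f : X → ℝ, BM f → Ind k f → ∀ j, ∫ x, f x * pd j η x ∂vQ = ∫ x, f x * pd j ζ x ∂vQ := by
  have := vQ_prob
  obtain ⟨h1, h2⟩ := TAvgAux.main hη k
  obtain ⟨r₁, h3, h4, h5⟩ := TAvgAux.rad hη.2 h0 hs
  refine ⟨fun x => ∫ t, η (update x k t) ∂vI, r₁, h3, h4, ⟨h1, fun x m => ?_⟩, fun x t => ?_,
    fun x hx => ?_, fun f hf hi j => ?_⟩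
  · refine integral_congr_ae (.of_forall fun t => ?_)
    show η _ = η _
    rw [← hη.2 (update x k t) (update m k 0)]
    congr 1
    ext j
    by_cases h : j = k
    · subst h; simp
    · simp [h]
  · simp only [update_idem]
  · refine integral_eq_zero_of_ae (.of_forall fun t => ?_)
    by_contra hn
    refine hx ?_
    have h6 := h5 _ hn
    show (_ : ℝ) < _
    refine lt_of_eq_of_lt (Finset.sum_congr rfl fun i hi => ?_) h6
    rw [update_of_ne (fun e : i = k => hk (e ▸ hi))]
  · rw [integral_update ((hf.mul (hη.bm_pd j)).integrable vQ) k]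
    refine integral_congr_ae (.of_forall fun x => ?_)
    simp only [hi x, h2, integral_const_mul]

end Vale.Agent.P232
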