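import Vale.Agent.P232.APer

open MeasureTheory Set Function Filter Topology
open scoped ENNReal

namespace Vale.Agent.P232

namespace TCutAux

theorem loc {r t : ℝ} (h1 : r < 1 / 2) (ht : nd t < r) :
    ∀ᶠ y : ℝ in 𝓝 t, round y = round t ∧ |y - (round t : ℝ)| < r := by
  have hc : Continuous fun y : ℝ => |y - round t| := by fun_prop
  filter_upwards [hc.continuousAt.eventually_lt continuousAt_const ht] with y hy
  refine ⟨round_eq_iff.2 ?_, hy⟩
  have := abs_lt.1 hy
  constructor <;> linarith [this.1, this.2]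

end TCutAux

/-- periodic versions of `t` and `t ^ 2` -/
theorem exists_cut {r : ℝ} (h0 : 0 < r) (h1 : r < 1 / 2) : ∃ s d : ℝ → ℝ,
    ContDiff ℝ 1 s ∧ Periodic s 1 ∧ ContDiff ℝ 1 d ∧ Periodic d 1 ∧
    (∀ t, nd t ^ 2 ≤ d t) ∧ (∀ t, |s t| ≤ nd t) ∧
    (∀ t, nd t < r → s t = t - round t ∧ deriv s t = 1 ∧ d t = nd t ^ 2 ∧
      deriv d t = 2 * (t - round t)) := by
  let β : ContDiffBump (0 : ℝ) := ⟨r, (r + 1 / 2) / 2, h0, by linarith⟩
  have hβ : ContDiff ℝ 1 β := β.contDiff
  have b0 : ∀ t : ℝ, (r + 1 / 2) / 2 ≤ |t| → β t = 0 := fun t ht =>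
    β.zero_of_le_dist (by rwa [Real.dist_eq, sub_zero])
  have b1 : ∀ t : ℝ, |t| < r → β t = 1 := fun t ht =>
    β.one_of_mem_closedBall (by rw [Metric.mem_closedBall, Real.dist_eq, sub_zero]; exact ht.le)
  obtain ⟨s1, s2⟩ := per1 (g := fun t => t * β t) (contDiff_id.mul hβ) (r := (r + 1 / 2) / 2)
    (by linarith) fun t ht => by rw [b0 t ht, mul_zero]
  obtain ⟨d1, d2⟩ := per1 (g := fun t => (1 - t ^ 2) * β t)
    ((contDiff_const.sub (contDiff_id.pow 2)).mul hβ) (r := (r + 1 / 2) / 2)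
    (by linarith) fun t ht => by rw [b0 t ht, mul_zero]
  refine ⟨fun t => (t - round t) * β (t - round t),
    fun t => 1 - (1 - (t - round t) ^ 2) * β (t - round t), s1, s2, contDiff_const.sub d1,
    fun t => congrArg (fun z => 1 - z) (d2 t), fun t => ?_, fun t => ?_, fun t ht => ?_⟩
  · have a1 := abs_sub_round t
    have a2 : β (t - round t) ≤ 1 := β.le_one
    have a3 : (t - round t) ^ 2 ≤ 1 := by
      rw [← sq_abs]
      nlinarith [abs_nonneg (t - round t)]
    unfold nd
    rw [sq_abs]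
    nlinarith [mul_nonneg (sub_nonneg.2 a3) (sub_nonneg.2 a2)]
  · unfold nd
    rw [abs_mul, abs_of_nonneg (β.nonneg (x := t - round t))]
    exact mul_le_of_le_one_right (abs_nonneg _) β.le_one
  · have e1 : (fun y : ℝ => (y - round y) * β (y - round y)) =ᶠ[𝓝 t]
        fun y => y - round t := by
      filter_upwards [TCutAux.loc h1 ht] with y hy
      rw [hy.1, b1 _ hy.2, mul_one]
    have e2 : (fun y : ℝ => 1 - (1 - (y - round y) ^ 2) * β (y - round y)) =ᶠ[𝓝 t]
        fun y => (y - round t) ^ 2 := by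
      filter_upwards [TCutAux.loc h1 ht] with y hy
      rw [hy.1, b1 _ hy.2]
      ring
    have h3 : HasDerivAt (fun y : ℝ => y - round t) 1 t := (hasDerivAt_id t).sub_const _
    refine ⟨e1.eq_of_nhds, ?_, ?_, ?_⟩
    · rw [e1.deriv_eq, h3.deriv]
    · unfold nd
      rw [sq_abs]
      exact e2.eq_of_nhds
    · rw [e2.deriv_eq, (h3.fun_pow 2).deriv]
      simp

/-- `C^1` cut-off with almost optimal slope -/
theorem exists_step {a b η : ℝ} (hab : a < b) (hη : 0 < η) : ∃ χ : ℝ → ℝ,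
    ContDiff ℝ 1 χ ∧ (∀ t, 0 ≤ χ t ∧ χ t ≤ 1) ∧ (∀ t, t ≤ a → χ t = 1) ∧
    (∀ t, b ≤ t → χ t = 0) ∧ (∀ t, |deriv χ t| ≤ (1 + η) / (b - a)) ∧
    (∀ t, t ≤ a ∨ b ≤ t → deriv χ t = 0) := by
  have hba : 0 < b - a := sub_pos.2 hab
  obtain ⟨ρ, hρ⟩ : ∃ ρ : ℝ, ρ = (b - a) / (2 * (1 + η)) := ⟨_, rfl⟩
  have ρ0 : 0 < ρ := by rw [hρ]; positivity
  have ρe : 2 * ρ * (1 + η) = b - a := by rw [hρ]; field_simp
  have ρ1 : ρ < (b - a) / 2 := by nlinarith
  let k : ContDiffBump ((a + b) / 2) := ⟨ρ, (b - a) / 2, ρ0, ρ1⟩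
  have kc : Continuous k := k.continuous
  have k0 : ∀ t, t ≤ a ∨ b ≤ t → k t = 0 := fun t ht => k.zero_of_le_dist (by
    rw [Real.dist_eq]
    change (b - a) / 2 ≤ _
    rcases ht with h | h
    · exact le_abs.2 (Or.inr (by linarith))
    · exact le_abs.2 (Or.inl (by linarith)))
  obtain ⟨F, hF⟩ : ∃ F : ℝ → ℝ, F = fun t => ∫ x in a..t, k x := ⟨_, rfl⟩
  have dF : ∀ t, HasDerivAt F (k t) t := fun t => by
    rw [hF]
    exact (kc.integral_hasStrictDerivAt a t).hasDerivAt
  have sub : ∀ s t, F t - F s = ∫ x in s..t, k x := fun s t => by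
    rw [hF]
    exact intervalIntegral.integral_interval_sub_left (kc.intervalIntegrable _ _)
      (kc.intervalIntegrable _ _)
  have mono : Monotone F := monotone_of_deriv_nonneg (fun t => (dF t).differentiableAt)
    fun t => by rw [(dF t).deriv]; exact k.nonneg
  have Fa : F a = 0 := by rw [hF]; simp
  have Fl : ∀ t, t ≤ a → F t = 0 := fun t ht => by
    have := sub t a
    rw [intervalIntegral.integral_congr (g := fun _ => 0) fun x hx => k0 x
      (Or.inl (by rw [uIcc_of_le ht] at hx; exact hx.2))] at this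
    simp only [intervalIntegral.integral_zero] at this
    linarith
  have Fr : ∀ t, b ≤ t → F t = F b := fun t ht => by
    have := sub b t
    rw [intervalIntegral.integral_congr (g := fun _ => 0) fun x hx => k0 x
      (Or.inr (by rw [uIcc_of_le ht] at hx; exact hx.1))] at this
    simp only [intervalIntegral.integral_zero] at this
    linarith
  have big : 2 * ρ ≤ F b := by
    have h1 := sub ((a + b) / 2 - ρ) ((a + b) / 2 + ρ)
    rw [intervalIntegral.integral_congr (g := fun _ => 1) fun x hx => k.one_of_mem_closedBall (by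
      rw [uIcc_of_le (by linarith)] at hx
      rw [Real.closedBall_eq_Icc]
      exact hx)] at h1
    simp only [intervalIntegral.integral_const, smul_eq_mul, mul_one] at h1
    have h2 := mono (show a ≤ (a + b) / 2 - ρ by linarith)
    have h3 := mono (show (a + b) / 2 + ρ ≤ b by linarith)
    linarith
  have Fb : 0 < F b := by linarith
  have dχ : ∀ t, HasDerivAt (fun t => 1 - F t / F b) (-(k t / F b)) t := fun t =>
    ((dF t).div_const _).const_sub 1
  have eχ : deriv (fun t => 1 - F t / F b) = fun t => -(k t / F b) :=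
    funext fun t => (dχ t).deriv
  refine ⟨fun t => 1 - F t / F b, contDiff_one_iff_deriv.2 ⟨fun t => (dχ t).differentiableAt, ?_⟩,
    fun t => ⟨?_, ?_⟩, fun t ht => ?_, fun t ht => ?_, fun t => ?_, fun t ht => ?_⟩
  · rw [eχ]
    exact (kc.div_const _).neg
  · have := mono (le_max_left t b)
    rw [Fr _ (le_max_right t b)] at this
    exact sub_nonneg.2 ((div_le_one Fb).2 this)
  · have := mono (min_le_left t a)
    rw [Fl _ (min_le_right t a)] at this
    exact sub_le_self _ (div_nonneg this Fb.le)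
  · simp only [Fl t ht, zero_div, sub_zero]
  · simp only [Fr t ht, div_self Fb.ne', sub_self]
  · rw [eχ, abs_neg, abs_of_nonneg (div_nonneg k.nonneg Fb.le), div_le_div_iff₀ Fb hba]
    have : k t ≤ 1 := k.le_one
    nlinarith
  · rw [eχ]
    simp only [k0 t ht, zero_div, neg_zero]

end Vale.Agent.P232
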