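import Vale.Agent.P232.APer

open MeasureTheory Set Function Filter Topology
open scoped ENNReal

namespace Vale.Agent.P232

namespace TExtAux

/-- the torus -/
abbrev Tor : Type := Fin 3 → UnitAddCircle

theorem continuous_proj : Continuous proj :=
  continuous_pi fun i => (AddCircle.continuous_mk' (1 : ℝ)).comp (continuous_apply i)

theorem proj_add (x : X) (k : Fin 3 → ℤ) : proj (fun j => x j + (k j : ℝ)) = proj x := by
  funext i
  have : ((k i : ℝ) : UnitAddCircle) = 0 := by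
    rw [AddCircle.coe_eq_zero_iff]
    exact ⟨k i, by simp⟩
  simp only [proj, AddCircle.coe_add, this, add_zero]

/-- continuous functions on the torus with a smooth lift -/
def alg : Subalgebra ℝ C(Tor, ℝ) where
  carrier := {g | ContDiff ℝ 1 fun x => g (proj x)}
  mul_mem' := fun {a b} (ha : ContDiff ℝ 1 fun x => a (proj x))
    (hb : ContDiff ℝ 1 fun x => b (proj x)) => ha.mul hb
  add_mem' := fun {a b} (ha : ContDiff ℝ 1 fun x => a (proj x))
    (hb : ContDiff ℝ 1 fun x => b (proj x)) => ha.add hb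
  algebraMap_mem' := fun c => (contDiff_const : ContDiff ℝ 1 fun _ : X => c)

theorem four_mem (L : ℂ →L[ℝ] ℝ) (i : Fin 3) :
    (⟨fun y : Tor => L (fourier 1 (y i)), by fun_prop⟩ : C(Tor, ℝ)) ∈ alg := by
  have e : (fun x : X => L (fourier 1 (proj x i))) =
      fun x : X => L (Complex.exp (2 * Real.pi * Complex.I * Complex.ofRealCLM (x i))) := by
    funext x
    simp only [proj]
    rw [fourier_coe_apply]
    simp
  change ContDiff ℝ 1 fun x : X => L (fourier 1 (proj x i))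
  rw [e]
  exact L.contDiff.comp (contDiff_const.mul
    (Complex.ofRealCLM.contDiff.comp (contDiff_apply ℝ ℝ i))).cexp

theorem alg_sep : alg.SeparatesPoints := by
  intro x y hxy
  obtain ⟨i, hi⟩ := Function.ne_iff.1 hxy
  have h1 : fourier 1 (x i) ≠ fourier 1 (y i) := fun h => by
    rw [fourier_one, fourier_one] at h
    exact hi (AddCircle.injective_toCircle one_ne_zero (Subtype.ext h))
  by_cases h2 : (fourier 1 (x i)).re = (fourier 1 (y i)).re
  · exact ⟨_, ⟨_, four_mem Complex.imCLM i, rfl⟩, fun h => h1 (Complex.ext h2 h)⟩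
  · exact ⟨_, ⟨_, four_mem Complex.reCLM i, rfl⟩, h2⟩

theorem cont_le (μ₁ μ₂ : Measure Tor) [IsFiniteMeasure μ₁] [IsFiniteMeasure μ₂]
    (h : ∀ g : Tor → ℝ, Continuous g → ContDiff ℝ 1 (fun x => g (proj x)) → (∀ y, 0 ≤ g y) →
      ∫ y, g y ∂μ₁ ≤ ∫ y, g y ∂μ₂) (g : Tor → ℝ) (hg : Continuous g) (h0 : ∀ y, 0 ≤ g y) :
    ∫ y, g y ∂μ₁ ≤ ∫ y, g y ∂μ₂ := by
  have hi : ∀ (μ : Measure Tor) [IsFiniteMeasure μ] (f : Tor → ℝ), Continuous f → Integrable f μ :=
    fun μ _ f hf => hf.integrable_of_hasCompactSupport (HasCompactSupport.of_compactSpace f)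
  have key : ∀ ε : ℝ, 0 < ε → ∫ y, g y ∂μ₁ ≤ ∫ y, g y ∂μ₂ + μ₂.real univ * (2 * ε) := by
    intro ε hε
    obtain ⟨p, hp⟩ :=
      ContinuousMap.exists_mem_subalgebra_near_continuous_of_separatesPoints alg alg_sep g hg ε hε
    have hp' : ∀ y, g y ≤ p.1 y + ε ∧ p.1 y + ε ≤ g y + 2 * ε := fun y => by
      have := abs_lt.1 (hp y)
      constructor <;> linarith [this.1, this.2]
    have c1 : Continuous fun y => p.1 y + ε := p.1.continuous.add continuous_const
    have c2 : Continuous fun y => g y + 2 * ε := hg.add continuous_const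
    calc ∫ y, g y ∂μ₁ ≤ ∫ y, (p.1 y + ε) ∂μ₁ :=
          integral_mono (hi _ _ hg) (hi _ _ c1) fun y => (hp' y).1
      _ ≤ ∫ y, (p.1 y + ε) ∂μ₂ :=
          h _ c1 (ContDiff.add p.2 contDiff_const) fun y => (h0 y).trans (hp' y).1
      _ ≤ ∫ y, (g y + 2 * ε) ∂μ₂ := integral_mono (hi _ _ c1) (hi _ _ c2) fun y => (hp' y).2
      _ = _ := by
          rw [integral_add (hi _ _ hg) (integrable_const _), integral_const, smul_eq_mul]
  refine le_of_forall_pos_le_add fun ε hε => ?_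
  have hm : 0 ≤ μ₂.real univ := measureReal_nonneg
  refine (key (ε / (2 * (μ₂.real univ + 1))) (by positivity)).trans (add_le_add le_rfl ?_)
  rw [← mul_div_assoc, ← mul_div_assoc, div_le_iff₀ (by positivity)]
  nlinarith

theorem meas_le (μ₁ μ₂ : Measure Tor) [IsFiniteMeasure μ₁] [IsFiniteMeasure μ₂]
    (h : ∀ g : Tor → ℝ, Continuous g → (∀ y, 0 ≤ g y) → ∫ y, g y ∂μ₁ ≤ ∫ y, g y ∂μ₂) :
    μ₁ ≤ μ₂ := by
  refine Measure.le_iff.2 fun s hs => ?_
  rw [hs.measure_eq_iSup_isClosed_of_ne_top (measure_ne_top _ _)]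
  refine iSup₂_le fun K hK => iSup_le fun hc => le_trans ?_ (measure_mono hK)
  have hp : ∀ n : ℕ, (0 : ℝ) < 1 / ((n : ℝ) + 1) := fun _ => by positivity
  have h1 := le_of_tendsto_of_tendsto'
    (tendsto_integral_thickenedIndicator_of_isClosed μ₁ hc hp
      tendsto_one_div_add_atTop_nhds_zero_nat)
    (tendsto_integral_thickenedIndicator_of_isClosed μ₂ hc hp
      tendsto_one_div_add_atTop_nhds_zero_nat)
    fun n => h _ (NNReal.continuous_coe.comp (thickenedIndicator (hp n) K).continuous)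
      fun y => NNReal.coe_nonneg _
  exact (ENNReal.toReal_le_toReal (measure_ne_top _ _) (measure_ne_top _ _)).1 h1

/-- a measurable section of the covering map -/
noncomputable def sec (y : Tor) : X := fun i => (AddCircle.equivIco (1 : ℝ) 0 (y i) : ℝ)

theorem measurable_sec : Measurable sec :=
  measurable_pi_lambda _ fun i => measurable_subtype_coe.comp
    ((AddCircle.measurableEquivIco (1 : ℝ) 0).measurable.comp (measurable_pi_apply i))

theorem per_sec {η : X → ℝ} (hp : Per η) (x : X) : η (sec (proj x)) = η x := by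
  have e : sec (proj x) = fun j => x j + ((-⌊x j⌋ : ℤ) : ℝ) := by
    funext j
    simp only [sec, proj]
    rw [AddCircle.coe_equivIco_mk_apply, div_one, mul_one, Int.cast_neg, ← sub_eq_add_neg]
    rfl
  rw [e]
  exact hp x fun j => -⌊x j⌋

/-- the image of the positive part of a weight -/
noncomputable def wm {Ω : Type} [MeasurableSpace Ω] (m : Measure Ω) (π : Ω → X) (w : Ω → ℝ) :
    Measure X :=
  (m.withDensity fun a => ENNReal.ofReal (w a)).map π

theorem wm_fin {Ω : Type} [MeasurableSpace Ω] {m : Measure Ω} (π : Ω → X) {w : Ω → ℝ}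
    (i : Integrable w m) : IsFiniteMeasure (wm m π w) := by
  have := isFiniteMeasure_withDensity_ofReal i.2
  unfold wm
  infer_instance

theorem wm_int {Ω : Type} [MeasurableSpace Ω] {m : Measure Ω} {π : Ω → X} (hπ : Measurable π)
    {w : Ω → ℝ} (i : Integrable w m) {η : X → ℝ} (hη : BM η) :
    ∫ x, η x ∂wm m π w = ∫ a, η (π a) * max (w a) 0 ∂m := by
  unfold wm
  rw [integral_map hπ.aemeasurable hη.1.aestronglyMeasurable,
    integral_withDensity_eq_integral_toReal_smul₀ i.1.aemeasurable.ennreal_ofReal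
      (ae_of_all _ fun _ => ENNReal.ofReal_lt_top)]
  simp only [ENNReal.toReal_ofReal', smul_eq_mul, mul_comm]

theorem bm_mul {Ω : Type} [MeasurableSpace Ω] {m : Measure Ω} {π : Ω → X} (hπ : Measurable π)
    {w : Ω → ℝ} (i : Integrable w m) {η : X → ℝ} (hη : BM η) :
    Integrable (fun a => η (π a) * w a) m :=
  let ⟨C, hC⟩ := hη.2
  i.bdd_mul (c := C) (hη.1.comp hπ).aestronglyMeasurable (ae_of_all _ fun a => hC (π a))

theorem wm_sub {Ω : Type} [MeasurableSpace Ω] {m : Measure Ω} {π : Ω → X} (hπ : Measurable π)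
    {w : Ω → ℝ} (i : Integrable w m) {η : X → ℝ} (hη : BM η) :
    ∫ a, η (π a) * w a ∂m = ∫ x, η x ∂wm m π w - ∫ x, η x ∂wm m π fun a => -w a := by
  rw [wm_int hπ i hη, wm_int hπ i.fun_neg hη,
    ← integral_sub (bm_mul hπ i.pos_part hη) (bm_mul hπ i.neg_part hη)]
  refine integral_congr_ae (ae_of_all _ fun a => ?_)
  simp only
  rw [← mul_sub, max_zero_sub_max_neg_zero_eq_self]

end TExtAux

open TExtAux in
theorem ext_le (l₁ l₂ : Measure X) [IsFiniteMeasure l₁] [IsFiniteMeasure l₂]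
    (h : ∀ η, PC1 η → (∀ x, 0 ≤ η x) → ∫ x, η x ∂l₁ ≤ ∫ x, η x ∂l₂) :
    ∀ η, BM η → Per η → (∀ x, 0 ≤ η x) → ∫ x, η x ∂l₁ ≤ ∫ x, η x ∂l₂ := by
  intro η hη hp h0
  have hm : Measurable proj := continuous_proj.measurable
  have hle : l₁.map proj ≤ l₂.map proj := by
    refine meas_le _ _ (cont_le _ _ fun g hg hc h1 => ?_)
    rw [integral_map hm.aemeasurable hg.aestronglyMeasurable,
      integral_map hm.aemeasurable hg.aestronglyMeasurable]
    exact h _ ⟨hc, fun x k => by simp only [proj_add]⟩ fun x => h1 _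
  have hb : BM fun y => η (sec y) := hη.comp measurable_sec
  have := integral_mono_measure hle (ae_of_all _ fun y => h0 (sec y)) (hb.integrable _)
  rw [integral_map hm.aemeasurable hb.1.aestronglyMeasurable,
    integral_map hm.aemeasurable hb.1.aestronglyMeasurable] at this
  simpa only [per_sec hp] using this

open TExtAux in
theorem ext_le_w {Ω₁ Ω₂ : Type} [MeasurableSpace Ω₁] [MeasurableSpace Ω₂] (m₁ : Measure Ω₁)
    (m₂ : Measure Ω₂) {π₁ : Ω₁ → X} {π₂ : Ω₂ → X} (h₁ : Measurable π₁) (h₂ : Measurable π₂)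
    {w₁ : Ω₁ → ℝ} {w₂ : Ω₂ → ℝ} (i₁ : Integrable w₁ m₁) (i₂ : Integrable w₂ m₂)
    (h : ∀ η, PC1 η → (∀ x, 0 ≤ η x) →
      ∫ a, η (π₁ a) * w₁ a ∂m₁ ≤ ∫ a, η (π₂ a) * w₂ a ∂m₂) :
    ∀ η, BM η → Per η → (∀ x, 0 ≤ η x) →
      ∫ a, η (π₁ a) * w₁ a ∂m₁ ≤ ∫ a, η (π₂ a) * w₂ a ∂m₂ := by
  have f1 := wm_fin π₁ i₁
  have f2 := wm_fin π₂ i₂
  have f3 := wm_fin π₁ i₁.fun_neg
  have f4 := wm_fin π₂ i₂.fun_neg
  intro η hη hp h0
  have := ext_le (wm m₁ π₁ w₁ + wm m₂ π₂ fun a => -w₂ a) (wm m₂ π₂ w₂ + wm m₁ π₁ fun a => -w₁ a)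
    (fun ξ hξ hξ0 => by
      have hb := hξ.bm
      have := h ξ hξ hξ0
      rw [wm_sub h₁ i₁ hb, wm_sub h₂ i₂ hb] at this
      rw [integral_add_measure (hb.integrable _) (hb.integrable _),
        integral_add_measure (hb.integrable _) (hb.integrable _)]
      linarith) η hη hp h0
  rw [integral_add_measure (hη.integrable _) (hη.integrable _),
    integral_add_measure (hη.integrable _) (hη.integrable _)] at this
  rw [wm_sub h₁ i₁ hη, wm_sub h₂ i₂ hη]
  linarith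

open TExtAux in
theorem ext_eq_w {Ω₁ Ω₂ : Type} [MeasurableSpace Ω₁] [MeasurableSpace Ω₂] (m₁ : Measure Ω₁)
    (m₂ : Measure Ω₂) {π₁ : Ω₁ → X} {π₂ : Ω₂ → X} (h₁ : Measurable π₁) (h₂ : Measurable π₂)
    {w₁ : Ω₁ → ℝ} {w₂ : Ω₂ → ℝ} (i₁ : Integrable w₁ m₁) (i₂ : Integrable w₂ m₂)
    (h : ∀ η, PC1 η → ∫ a, η (π₁ a) * w₁ a ∂m₁ = ∫ a, η (π₂ a) * w₂ a ∂m₂) :
    ∀ η, BM η → Per η → ∫ a, η (π₁ a) * w₁ a ∂m₁ = ∫ a, η (π₂ a) * w₂ a ∂m₂ := by
  intro η hη hp
  obtain ⟨C, hC⟩ := hη.2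
  have hb : BM fun x => η x + C := hη.add (BM.const C)
  have hq : Per fun x => η x + C := fun x k => by simp only [hp x k]
  have h0 : ∀ x, 0 ≤ η x + C := fun x => by linarith [(abs_le.1 (hC x)).1]
  have e1 := le_antisymm (ext_le_w m₁ m₂ h₁ h₂ i₁ i₂ (fun ξ hξ _ => (h ξ hξ).le) _ hb hq h0)
    (ext_le_w m₂ m₁ h₂ h₁ i₂ i₁ (fun ξ hξ _ => (h ξ hξ).ge) _ hb hq h0)
  have e2 := h (fun _ => C) ⟨contDiff_const, fun _ _ => rfl⟩
  simp only [add_mul] at e1
  rw [integral_add (bm_mul h₁ i₁ hη) (i₁.const_mul C),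
    integral_add (bm_mul h₂ i₂ hη) (i₂.const_mul C)] at e1
  linarith

end Vale.Agent.P232
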