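import Vale.Agent.P232.DDens

open MeasureTheory Set Function Filter Topology
open scoped ENNReal

namespace Vale.Agent.P232

namespace TFoldAux

/-- the sign of the slope of `nd` -/
noncomputable def sn (t : ℝ) : ℝ := if 0 ≤ t - round t then 1 else -1

theorem sn_sq (t : ℝ) : sn t * sn t = 1 := by
  unfold sn
  split_ifs <;> norm_num

theorem sn_add (t : ℝ) (k : ℤ) : sn (t + k) = sn t := by
  simp only [sn, round_add_intCast, Int.cast_add, add_sub_add_right_eq_sub]

theorem loc1 {t : ℝ} (h0 : 0 < nd t) (h1 : nd t < 1 / 2) :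
    ∀ᶠ s in 𝓝 t, sn s = sn t ∧ nd s = sn t * (s - round t) := by
  have hc : Continuous fun s : ℝ => s - round t := by fun_prop
  have h2 : ∀ᶠ s in 𝓝 t, round s = round t := by
    filter_upwards [(hc.abs.tendsto t).eventually (gt_mem_nhds h1)] with s hs
    rw [round_eq, Int.floor_eq_iff]
    obtain ⟨h3, h4⟩ := abs_lt.1 hs
    constructor <;> linarith
  rcases lt_or_gt_of_ne (abs_pos.1 h0) with h | h
  · filter_upwards [h2, (hc.tendsto t).eventually (gt_mem_nhds h)] with s h3 h4
    simp only [sn, nd, h3, if_neg h.not_ge, if_neg h4.not_ge, abs_of_neg h4, neg_one_mul, and_self]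
  · filter_upwards [h2, (hc.tendsto t).eventually (lt_mem_nhds h)] with s h3 h4
    simp only [sn, nd, h3, if_pos h.le, if_pos h4.le, abs_of_pos h4, one_mul, and_self]

theorem van {g : X → ℝ} (hg : CQ g) {z : X} {j : Fin 3} (h : z j ≤ 0 ∨ 1 ≤ z j) :
    g =ᶠ[𝓝 z] fun _ => 0 := by
  obtain ⟨δ, hδ, h0⟩ := hg.2
  have hc := (continuous_apply j).tendsto z
  rcases h with h | h
  · filter_upwards [hc.eventually (ge_mem_nhds (h.trans_lt hδ))] with y hy using h0 y ⟨j, .inl hy⟩
  · filter_upwards [hc.eventually (le_mem_nhds (show 1 - δ < z j by linarith))] with y hy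
      using h0 y ⟨j, .inr hy⟩

theorem key {g : X → ℝ} (hg : CQ g) (i : Fin 3) (x : X) :
    ContDiffAt ℝ 1 (fun y : X => sn (y i) * g (fold y)) x ∧
      fderiv ℝ (fun y : X => sn (y i) * g (fold y)) x (Pi.single i 1) =
        2 * fderiv ℝ g (fold x) (Pi.single i 1) := by
  by_cases h : ∀ j, 0 < nd (x j) ∧ nd (x j) < 1 / 2
  · have h1 : ∀ᶠ y in 𝓝 x, ∀ j, sn (y j) = sn (x j) ∧
        nd (y j) = sn (x j) * (y j - round (x j)) := eventually_all.2 fun j =>
      ((continuous_apply j).tendsto x).eventually (loc1 (h j).1 (h j).2)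
    let A : X → X := fun y j => 2 * (sn (x j) * (y j - round (x j)))
    have h2 : fold =ᶠ[𝓝 x] A := by
      filter_upwards [h1] with y hy
      funext j
      simp only [fold, A, (hy j).2]
    have h3 : (fun y : X => sn (y i) * g (fold y)) =ᶠ[𝓝 x] fun y => sn (x i) * g (A y) := by
      filter_upwards [h1, h2] with y hy hy'
      rw [(hy i).1, hy']
    have h4 : ContDiff ℝ 1 A := by
      simp only [A]
      fun_prop
    have h5 : HasFDerivAt A (ContinuousLinearMap.pi fun j =>
        (2 : ℝ) • sn (x j) • ContinuousLinearMap.proj j : X →L[ℝ] X) x :=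
      hasFDerivAt_pi.2 fun j =>
        (((hasFDerivAt_apply (𝕜 := ℝ) j x).sub_const (round (x j) : ℝ)).const_mul
          (sn (x j))).const_mul 2
    have h6 := (((hg.1.differentiable one_ne_zero (A x)).hasFDerivAt.comp x h5).const_mul
      (sn (x i))).fderiv
    have h7 : (ContinuousLinearMap.pi fun j => (2 : ℝ) • sn (x j) • ContinuousLinearMap.proj j :
        X →L[ℝ] X) (Pi.single i 1) = (2 * sn (x i)) • (Pi.single i 1 : X) := by
      funext j
      by_cases hj : j = i
      · subst hj
        simp
      · simp [hj]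
    refine ⟨(contDiff_const.mul (hg.1.comp h4)).contDiffAt.congr_of_eventuallyEq h3, ?_⟩
    rw [h3.fderiv_eq, h2.eq_of_nhds]
    refine (congrArg (fun L : X →L[ℝ] ℝ => L (Pi.single i 1)) h6).trans ?_
    simp only [smul_apply, ContinuousLinearMap.comp_apply, h7, map_smul, smul_eq_mul]
    linear_combination 2 * fderiv ℝ g (A x) (Pi.single i 1) * sn_sq (x i)
  · obtain ⟨j, hj⟩ := not_forall.1 h
    have h1 : fold x j ≤ 0 ∨ 1 ≤ fold x j := by
      simp only [fold]
      rcases not_and_or.1 hj with h1 | h1
      · exact .inl (by linarith [not_lt.1 h1])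
      · exact .inr (by linarith [not_lt.1 h1])
    have h2 := van hg h1
    have h3 : (fun y : X => sn (y i) * g (fold y)) =ᶠ[𝓝 x] fun _ => 0 := by
      filter_upwards [(continuous_fold.tendsto x).eventually h2] with y hy
      rw [hy, mul_zero]
    refine ⟨contDiffAt_const.congr_of_eventuallyEq h3, ?_⟩
    rw [h3.fderiv_eq, h2.fderiv_eq]
    simp

end TFoldAux

open TFoldAux in
theorem Dn.area_le_per {D : Set X} (hD : Dn D) {p : ℝ} (h : PerLe (fold ⁻¹' D) p) :
    2 * area D ≤ p := by
  suffices h1 : area D ≤ p / 2 by linarith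
  refine hD.area_le fun g hg h1 => ?_
  have h2 := h (fun i y => sn (y i) * g i (fold y))
    ⟨fun i => contDiff_iff_contDiffAt.2 fun x => (key (hg i) i x).1, fun i x k => by
      have e : fold (fun j => x j + (k j : ℝ)) = fold x := funext fun j => by
        simp only [fold, nd_add_int]
      simp only [e, sn_add], fun x => by
      simp only [mul_pow, sq (sn _), sn_sq, one_mul]
      exact h1 _⟩
  have h3 : ∀ x, dvg (fun i y => sn (y i) * g i (fold y)) x = 2 * dvg g (fold x) := fun x => by
    simp only [dvg, Finset.mul_sum, fun i => (key (hg i) i x).2]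
  have h4 : Continuous (dvg g) := continuous_finsetSum _ fun i _ =>
    ((hg i).1.continuous_fderiv one_ne_zero).clm_apply continuous_const
  have h5 := mp_fold.restrict_preimage hD.1.measurableSet
  simp only [h3] at h2
  rw [integral_const_mul,
    ← integral_map h5.measurable.aemeasurable h4.aestronglyMeasurable, h5.map_eq] at h2
  linarith

end Vale.Agent.P232
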