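import Vale.Agent.P232.APer
import Vale.Agent.P232.ARiesz

open MeasureTheory Set Function Filter Topology
open scoped ENNReal

namespace Vale.Agent.P232

namespace TGGAux

/-- points of the closed cube with a vector of the unit ball -/
def K : Set (X × X) := {z | z.1 ∈ Icc (0 : X) 1 ∧ ∑ i, z.2 i ^ 2 ≤ 1}

theorem abs_one {v : X} (h : ∑ i, v i ^ 2 ≤ 1) (i : Fin 3) : |v i| ≤ 1 :=
  (sq_le_one_iff_abs_le_one _).1
    ((Finset.single_le_sum (fun j _ => sq_nonneg (v j)) (Finset.mem_univ i)).trans h)

theorem closed_K : IsClosed K :=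
  (isClosed_Icc.preimage continuous_fst).inter
    (isClosed_le (f := fun z : X × X => ∑ i, z.2 i ^ 2) (by fun_prop) continuous_const)

theorem compact_K : IsCompact K :=
  ((isCompact_Icc (a := (0 : X)) (b := 1)).prod
    (isCompact_Icc (a := (-1 : X)) (b := 1))).of_isClosed_subset closed_K fun _ hz =>
      ⟨hz.1, fun i => (abs_le.1 (abs_one hz.2 i)).1, fun i => (abs_le.1 (abs_one hz.2 i)).2⟩

/-- periodic vector fields -/
def W : Submodule ℝ (Fin 3 → X → ℝ) where
  carrier := {Y | ∀ i, PC1 (Y i)}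
  add_mem' := fun ha hb i => ⟨(ha i).1.add (hb i).1, fun x k => by
    simp only [Pi.add_apply, (ha i).2 x k, (hb i).2 x k]⟩
  zero_mem' := fun _ => ⟨contDiff_const, fun _ _ => rfl⟩
  smul_mem' := fun c _ ha i => ⟨(ha i).1.const_smul c, fun x k => by
    simp only [Pi.smul_apply, (ha i).2 x k]⟩

/-- pairing with the normal -/
def T : W →ₗ[ℝ] C(K, ℝ) where
  toFun Y := ⟨fun z => ∑ i, Y.1 i z.1.1 * z.1.2 i, continuous_finsetSum _ fun i _ =>
    ((Y.2 i).1.continuous.comp (by fun_prop)).mul (by fun_prop)⟩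
  map_add' := fun _ _ => by
    ext z
    simp [add_mul, Finset.sum_add_distrib]
  map_smul' := fun _ _ => by
    ext z
    simp [Finset.mul_sum, mul_assoc]

theorem int_pd (E : Set X) (Y : W) (i : Fin 3) : Integrable (pd i (Y.1 i)) (vQ.restrict E) :=
  have := vQ_prob
  ((Y.2 i).bm_pd i).integrable _

/-- integral of the divergence -/
noncomputable def L (E : Set X) : W →ₗ[ℝ] ℝ where
  toFun Y := ∑ i, ∫ x in E, pd i (Y.1 i) x ∂vQ
  map_add' := fun a b => by
    rw [← Finset.sum_add_distrib]
    refine Finset.sum_congr rfl fun i _ => ?_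
    rw [← integral_add (int_pd E a i) (int_pd E b i)]
    refine integral_congr_ae (ae_of_all _ fun x => ?_)
    simp only [pd, Submodule.coe_add, Pi.add_apply]
    rw [fderiv_add ((a.2 i).1.differentiable one_ne_zero x)
      ((b.2 i).1.differentiable one_ne_zero x), add_apply]
  map_smul' := fun c a => by
    rw [RingHom.id_apply, smul_eq_mul, Finset.mul_sum]
    refine Finset.sum_congr rfl fun i _ => ?_
    rw [← integral_const_mul]
    refine integral_congr_ae (ae_of_all _ fun x => ?_)
    simp only [pd, Submodule.coe_smul, Pi.smul_apply]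
    rw [fderiv_const_smul ((a.2 i).1.differentiable one_ne_zero x),
      smul_apply, smul_eq_mul]

theorem L_eq (E : Set X) (Y : W) : L E Y = ∫ x in E, dvg Y.1 x ∂vQ :=
  (integral_finsetSum Finset.univ fun i _ => int_pd E Y i).symm

theorem sq_le (Y : W) {c : ℝ} (hc : 0 ≤ c) (h : ∀ z, T Y z ≤ c) (x : X) :
    ∑ i, Y.1 i x ^ 2 ≤ c ^ 2 := by
  have e : ∀ i, Y.1 i x = Y.1 i fun j => Int.fract (x j) := fun i => by
    have := (Y.2 i).2 (fun j => Int.fract (x j)) fun j => ⌊x j⌋
    simpa using this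
  simp only [e]
  generalize hy : (fun j => Int.fract (x j)) = y
  have hI : y ∈ Icc (0 : X) 1 :=
    hy ▸ ⟨fun j => Int.fract_nonneg _, fun j => (Int.fract_lt_one _).le⟩
  set s := ∑ i, Y.1 i y ^ 2 with hs
  have s0 : 0 ≤ s := Finset.sum_nonneg fun i _ => sq_nonneg _
  rcases s0.eq_or_lt with h0 | h0
  · rw [← h0]
    positivity
  · have n0 := Real.sqrt_pos.2 h0
    have := h ⟨(y, fun i => Y.1 i y / √s), hI, by
      simp only [div_pow, Real.sq_sqrt s0]
      rw [← Finset.sum_div, div_self h0.ne']⟩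
    change ∑ i, Y.1 i y * (Y.1 i y / √s) ≤ c at this
    simp only [← mul_div_assoc, ← sq] at this
    rw [← Finset.sum_div, ← hs, Real.div_sqrt] at this
    exact (Real.sqrt_le_left hc).1 this

theorem L_le {E : Set X} {p : ℝ} (h : PerLe E p) (Y : W) (c : ℝ) (hc : 0 ≤ c)
    (hY : ∀ z, T Y z ≤ c) : L E Y ≤ p * c := by
  have hs := sq_le Y hc hY
  rcases hc.eq_or_lt with rfl | hc
  · have : Y = 0 := by
      ext i x
      have := (Finset.single_le_sum (fun j _ => sq_nonneg (Y.1 j x)) (Finset.mem_univ i)).trans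
        (hs x)
      simpa using this
    simp [this]
  · have := h (c⁻¹ • Y).1 ⟨fun i => ((c⁻¹ • Y).2 i).1, fun i => ((c⁻¹ • Y).2 i).2, fun x => by
      simp only [Submodule.coe_smul, Pi.smul_apply, smul_eq_mul, mul_pow]
      rw [← Finset.mul_sum, inv_pow, inv_mul_le_iff₀ (by positivity), mul_one]
      exact hs x⟩
    rwa [← L_eq, map_smul, smul_eq_mul, inv_mul_le_iff₀ hc, mul_comm] at this

end TGGAux

open TGGAux in
theorem exists_var {E : Set X} {p : ℝ} (h : PerLe E p) : ∃ V, Var E p V := by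
  have := isCompact_iff_compactSpace.1 compact_K
  obtain ⟨V, hV, hm, hL⟩ := BR.exists_meas T (L E) (L_le h) h.nonneg
  have me := MeasurableEmbedding.subtype_coe closed_K.measurableSet
  refine ⟨V.map Subtype.val, inferInstance, ?_, me.ae_map_iff.2 (ae_of_all _ fun z => z.2.2),
    fun f i hf => ?_⟩
  · rwa [measureReal_def, me.map_apply, preimage_univ]
  · have hY : (Pi.single i f : Fin 3 → X → ℝ) ∈ W := fun j => by
      by_cases hj : j = i
      · rwa [hj, Pi.single_eq_same]
      · rw [Pi.single_eq_of_ne hj]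
        exact W.zero_mem j
    have := hL ⟨_, hY⟩
    rw [me.integral_map]
    change ∑ j, ∫ x in E, pd j ((Pi.single i f : Fin 3 → X → ℝ) j) x ∂vQ =
      ∫ z : K, ∑ j, (Pi.single i f : Fin 3 → X → ℝ) j z.1.1 * z.1.2 j ∂V at this
    rw [Finset.sum_eq_single i (fun j _ hj => by simp [Pi.single_eq_of_ne hj, pd]) (by simp),
      Pi.single_eq_same] at this
    rw [this]
    refine integral_congr_ae (ae_of_all _ fun z => ?_)
    simp only
    rw [Finset.sum_eq_single i (fun j _ hj => by simp [Pi.single_eq_of_ne hj]) (by simp),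
      Pi.single_eq_same]

/-- integrability against the Gauss-Green measure -/
theorem Var.integrable {E : Set X} {p : ℝ} {V : Measure (X × X)} (h : Var E p V) {f : X → ℝ}
    (hf : BM f) (i : Fin 3) : Integrable (fun z : X × X => f z.1 * z.2 i) V := by
  have := h.fin
  obtain ⟨hm, C, hC⟩ := hf
  refine (integrable_const C).mono' ((hm.comp measurable_fst).mul
    ((measurable_pi_apply i).comp measurable_snd)).aestronglyMeasurable ?_
  filter_upwards [h.unit] with z hz
  rw [Real.norm_eq_abs, abs_mul]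
  exact (mul_le_of_le_one_right (abs_nonneg _) (TGGAux.abs_one hz i)).trans (hC _)

theorem Var.integrable_abs {E : Set X} {p : ℝ} {V : Measure (X × X)} (h : Var E p V)
    {f : X → ℝ} (hf : BM f) (i : Fin 3) :
    Integrable (fun z : X × X => f z.1 * |z.2 i|) V := by
  refine (h.integrable hf i).norm.mono' ((hf.1.comp measurable_fst).mul
    ((measurable_pi_apply i).comp measurable_snd).abs).aestronglyMeasurable
    (ae_of_all _ fun z => ?_)
  simp

end Vale.Agent.P232
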