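import Vale.Agent.P232.TCut
import Vale.Agent.P232.AVol

open MeasureTheory Set Function Filter Topology
open scoped ENNReal

namespace Vale.Agent.P232

namespace TModPAux

variable {I : Finset (Fin 3)} {c : X} {d χ : ℝ → ℝ} {Y : Fin 3 → X → ℝ} {r s K C : ℝ}

/-- the smoothed squared distance -/
noncomputable def qq (I : Finset (Fin 3)) (c : X) (d : ℝ → ℝ) (x : X) : ℝ :=
  ∑ i ∈ I, d (x i - c i)

theorem pc1 (hd : ContDiff ℝ 1 d) (hp : Periodic d 1) (hχ : ContDiff ℝ 1 χ) :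
    PC1 fun x => χ (qq I c d x) := by
  refine ⟨hχ.comp (ContDiff.sum fun i _ => hd.comp ((contDiff_apply ℝ ℝ i).sub contDiff_const)),
    fun x k => congrArg χ (Finset.sum_congr rfl fun i _ => ?_)⟩
  have h := hp.int_mul (k i) (x i - c i)
  rw [mul_one] at h
  rw [← h]
  congr 1
  ring

theorem grad (hd : ContDiff ℝ 1 d) (hχ : ContDiff ℝ 1 χ) (x y : X) :
    ∑ j, pd j (fun x => χ (qq I c d x)) x * y j =
      deriv χ (qq I c d x) * ∑ i ∈ I, deriv d (x i - c i) * y i := by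
  have h1 : HasFDerivAt (qq I c d) (∑ i ∈ I, deriv d (x i - c i) •
      (ContinuousLinearMap.proj i : X →L[ℝ] ℝ)) x :=
    HasFDerivAt.fun_sum fun i _ => (hd.differentiable one_ne_zero _).hasDerivAt.comp_hasFDerivAt x
      ((hasFDerivAt_apply i x).sub_const (c i))
  have h2 := (hχ.differentiable one_ne_zero (qq I c d x)).hasDerivAt.comp_hasFDerivAt x h1
  have h3 : ∀ j, pd j (fun x => χ (qq I c d x)) x =
      deriv χ (qq I c d x) * if j ∈ I then deriv d (x j - c j) else 0 := fun j => by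
    rw [pd, show (fun x => χ (qq I c d x)) = χ ∘ qq I c d from rfl, h2.fderiv]
    simp [Pi.single_apply]
  simp only [h3, mul_assoc, ← Finset.mul_sum, ite_mul, zero_mul, Finset.sum_ite_mem,
    Finset.univ_inter]

theorem nd_lt {x : X} (h0 : 0 < r) (hx : x ∈ Mod I c r) {i : Fin 3} (hi : i ∈ I) :
    nd (x i - c i) < r :=
  lt_of_pow_lt_pow_left₀ 2 h0.le ((Finset.single_le_sum (f := fun i => nd (x i - c i) ^ 2)
    (fun _ _ => sq_nonneg _) hi).trans_lt hx)

theorem inner_le {x y : X} (h0 : 0 < r) (hx : x ∈ Mod I c r) (hy : ∑ i, y i ^ 2 ≤ 1) :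
    |∑ i ∈ I, 2 * (x i - c i - round (x i - c i)) * y i| ≤ 2 * r := by
  have h1 := Finset.sum_mul_sq_le_sq_mul_sq I (fun i => x i - c i - round (x i - c i)) y
  have h2 : ∑ i ∈ I, (x i - c i - round (x i - c i)) ^ 2 < r ^ 2 := by
    have h : ∑ i ∈ I, nd (x i - c i) ^ 2 < r ^ 2 := hx
    simpa only [nd, sq_abs] using h
  have h3 : ∑ i ∈ I, y i ^ 2 ≤ 1 :=
    (Finset.sum_le_sum_of_subset_of_nonneg I.subset_univ fun _ _ _ => sq_nonneg _).trans hy
  have h4 : (∑ i ∈ I, (x i - c i - round (x i - c i)) * y i) ^ 2 ≤ r ^ 2 :=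
    h1.trans ((mul_le_of_le_one_right (Finset.sum_nonneg fun _ _ => sq_nonneg _) h3).trans h2.le)
  simp only [mul_assoc, ← Finset.mul_sum]
  rw [abs_mul, abs_two]
  exact mul_le_mul_of_nonneg_left (abs_le_of_sq_le_sq' h4 h0.le |> abs_le.2) zero_le_two

theorem mod_mono (hs : 0 ≤ s) (hsr : s ≤ r) : Mod I c s ⊆ Mod I c r := fun _ hx =>
  lt_of_lt_of_le hx (pow_le_pow_left₀ hs hsr 2)

/-- the pointwise comparison -/
theorem pt_le (hs : 0 < s) (hsr : s < r) (hd : ContDiff ℝ 1 d) (hχ : ContDiff ℝ 1 χ)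
    (d1 : ∀ t, nd t ^ 2 ≤ d t)
    (d2 : ∀ t, nd t < r → d t = nd t ^ 2 ∧ deriv d t = 2 * (t - round t))
    (c0 : ∀ t, 0 ≤ χ t ∧ χ t ≤ 1) (c1 : ∀ t, t ≤ s ^ 2 → χ t = 1) (c2 : ∀ t, r ^ 2 ≤ t → χ t = 0)
    (c3 : ∀ t, |deriv χ t| ≤ K) (c4 : ∀ t, t ≤ s ^ 2 ∨ r ^ 2 ≤ t → deriv χ t = 0)
    (hY : IsField Y) (hC : ∀ x, |dvg Y x| ≤ C) (x : X) :
    (Mod I c r).indicator (dvg Y) x ≤ ∑ j, pd j (fun x => χ (qq I c d x) * Y j x) x +
      (Mod I c r \ Mod I c s).indicator (fun _ => C + K * (2 * r)) x := by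
  have h0 : 0 < r := hs.trans hsr
  have hf : ContDiff ℝ 1 fun x => χ (qq I c d x) :=
    hχ.comp (ContDiff.sum fun i _ => hd.comp ((contDiff_apply ℝ ℝ i).sub contDiff_const))
  have e1 : ∑ j, pd j (fun x => χ (qq I c d x) * Y j x) x =
      deriv χ (qq I c d x) * ∑ i ∈ I, deriv d (x i - c i) * Y i x + χ (qq I c d x) * dvg Y x := by
    rw [← grad hd hχ x fun i => Y i x, dvg, Finset.mul_sum, ← Finset.sum_add_distrib]
    exact Finset.sum_congr rfl fun j _ => pd_mul hf (hY.1 j) j x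
  rw [e1]
  by_cases hr : x ∈ Mod I c r
  · have e2 : qq I c d x = ∑ i ∈ I, nd (x i - c i) ^ 2 :=
      Finset.sum_congr rfl fun i hi => (d2 _ (nd_lt h0 hr hi)).1
    rw [indicator_of_mem hr]
    by_cases hx : x ∈ Mod I c s
    · have h1 : qq I c d x ≤ s ^ 2 := e2 ▸ le_of_lt hx
      rw [indicator_of_notMem fun h => h.2 hx, c1 _ h1, c4 _ (Or.inl h1)]
      simp
    · rw [indicator_of_mem (show x ∈ Mod I c r \ Mod I c s from ⟨hr, hx⟩),
        Finset.sum_congr rfl fun i hi => by rw [(d2 _ (nd_lt h0 hr hi)).2]]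
      have h1 := inner_le h0 hr (hY.2.2 x)
      have h2 := mul_le_mul (c3 (qq I c d x)) h1 (abs_nonneg _) ((abs_nonneg _).trans (c3 0))
      rw [← abs_mul] at h2
      have h3 := abs_le.1 (hC x)
      have h4 := c0 (qq I c d x)
      nlinarith [(abs_le.1 h2).1, mul_nonneg (sub_nonneg.2 h4.2) (sub_nonneg.2 h3.2),
        mul_nonneg h4.1 ((abs_nonneg _).trans (hC x))]
  · have h1 : r ^ 2 ≤ qq I c d x :=
      (not_lt.1 hr).trans (Finset.sum_le_sum fun i _ => d1 _)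
    rw [indicator_of_notMem hr, indicator_of_notMem fun h => hr h.1, c2 _ h1, c4 _ (Or.inr h1)]
    simp

theorem bm_dvg (hY : IsField Y) : BM (dvg Y) := by
  have h : ∀ i, BM (pd i (Y i)) := fun i => PC1.bm_pd ⟨hY.1 i, hY.2.1 i⟩ i
  have e : dvg Y = fun x => pd 0 (Y 0) x + pd 1 (Y 1) x + pd 2 (Y 2) x :=
    funext fun x => Fin.sum_univ_three _
  rw [e]
  exact ((h 0).add (h 1)).add (h 2)

/-- the bound with a shell -/
theorem shell (h1 : r < 1 / 2) (hs : 0 < s) (hsr : s < r) {η : ℝ} (hη : 0 < η) (hY : IsField Y)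
    (hC : ∀ x, |dvg Y x| ≤ C) : ∫ x in Mod I c r, dvg Y x ∂vQ ≤
      (vQ.real (Mod I c r) - vQ.real (Mod I c s)) * (C + (1 + η) / (r ^ 2 - s ^ 2) * (2 * r)) := by
  have := vQ_prob
  obtain ⟨_, d, -, -, hd, hp, d1, -, d2⟩ := exists_cut (hs.trans hsr) h1
  obtain ⟨χ, hχ, c0, c1, c2, c3, c4⟩ :=
    exists_step (show s ^ 2 < r ^ 2 from pow_lt_pow_left₀ hsr hs.le two_ne_zero) hη
  have mr := (isOpen_Mod I c r).measurableSet
  have ms := (isOpen_Mod I c s).measurableSet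
  have hf : ∀ j, PC1 fun x => χ (qq I c d x) * Y j x := fun j =>
    (pc1 hd hp hχ).mul ⟨hY.1 j, hY.2.1 j⟩
  have i1 : ∀ j, Integrable (pd j fun x => χ (qq I c d x) * Y j x) vQ := fun j =>
    ((hf j).bm_pd j).integrable vQ
  have i2 : Integrable ((Mod I c r \ Mod I c s).indicator
      fun _ => C + (1 + η) / (r ^ 2 - s ^ 2) * (2 * r)) vQ := (integrable_const _).indicator (mr.diff ms)
  have h2 := integral_mono (((bm_dvg hY).integrable vQ).indicator mr)
    ((integrable_finsetSum Finset.univ fun j _ => i1 j).add i2)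
    (pt_le hs hsr hd hχ d1 (fun t ht => (d2 t ht).2.2) c0 c1 c2 c3 c4 hY hC)
  rw [integral_indicator mr, integral_add' (integrable_finsetSum Finset.univ fun j _ => i1 j) i2,
    integral_finsetSum Finset.univ fun j _ => i1 j, integral_indicator_const _ (mr.diff ms),
    measureReal_sdiff (mod_mono hs.le hsr.le) ms] at h2
  simpa only [integral_pd_eq_zero (hf _), Finset.sum_const_zero, zero_add, smul_eq_mul] using h2

theorem num {κ e : ℝ} (m : ℕ) (hκ : 0 ≤ κ) (hC : 0 ≤ C) (he : 0 < e) (her : e < r) :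
    (κ * r ^ m - κ * (r - e) ^ m) * (C + (1 + e) / (r ^ 2 - (r - e) ^ 2) * (2 * r)) ≤
      κ * m * r ^ (m - 1) * (C * e + (1 + e) / (2 * r - e) * (2 * r)) := by
  have h0 : 0 < r := he.trans her
  have h1 := abs_pow_sub_pow_le r (r - e) m
  rw [sub_sub_cancel, abs_of_pos he, abs_of_pos h0, abs_of_pos (sub_pos.2 her),
    max_eq_left (by linarith)] at h1
  have h2 : 0 < 2 * r - e := by linarith
  have h3 : r ^ 2 - (r - e) ^ 2 = e * (2 * r - e) := by ring
  have h4 : κ * m * r ^ (m - 1) * (C * e + (1 + e) / (2 * r - e) * (2 * r)) =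
      κ * (e * m * r ^ (m - 1)) * (C + (1 + e) / (e * (2 * r - e)) * (2 * r)) := by
    field_simp
  rw [h3, h4, ← mul_sub]
  exact mul_le_mul_of_nonneg_right (mul_le_mul_of_nonneg_left ((le_abs_self _).trans h1) hκ)
    (by positivity)

end TModPAux

open TModPAux in
theorem perLe_Mod {I : Finset (Fin 3)} (hI : I.Nonempty) (c : X) {r : ℝ} (h0 : 0 < r)
    (h1 : r < 1 / 2) : PerLe (Mod I c r) (I.card * vQ.real (Mod I c r) / r) := by
  intro Y hY
  obtain ⟨κ, hκ, hv⟩ := vol_Mod_scale hI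
  obtain ⟨-, C, hC⟩ := bm_dvg hY
  have hc : ContinuousAt (fun e : ℝ =>
      κ * I.card * r ^ (I.card - 1) * (C * e + (1 + e) / (2 * r - e) * (2 * r))) 0 := by
    have : 2 * r - 0 ≠ 0 := by linarith
    fun_prop (disch := assumption)
  have h2 := ge_of_tendsto (hc.tendsto.mono_left (nhdsWithin_le_nhds (s := Ioi 0)))
    (b := ∫ x in Mod I c r, dvg Y x ∂vQ) (by
      filter_upwards [Ioo_mem_nhdsGT h0] with e he
      have h3 := shell (I := I) (c := c) h1 (sub_pos.2 he.2) (sub_lt_self r he.1) he.1 hY hC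
      rw [hv c r h0.le h1.le, hv c (r - e) (sub_pos.2 he.2).le (by linarith [he.1])] at h3
      exact h3.trans (num _ hκ.le ((abs_nonneg _).trans (hC 0)) he.1 he.2))
  refine h2.trans (le_of_eq ?_)
  obtain ⟨k, hk⟩ := Nat.exists_eq_succ_of_ne_zero hI.card_pos.ne'
  rw [hv c r h0.le h1.le, hk]
  simp only [Nat.succ_sub_one, pow_succ]
  field_simp
  ring

end Vale.Agent.P232
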