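import Vale.Agent.P232.TSt2

open MeasureTheory Set Function Filter Topology
open scoped ENNReal

namespace Vale.Agent.P232

namespace TMonoAux

/-- moving coordinate `k` closer to the integers keeps the point in the set -/
def Mono (k : Fin 3) (F : Set X) : Prop := ∀ x ∈ F, ∀ t, nd t ≤ nd (x k) → update x k t ∈ F

theorem mono_St (k : Fin 3) (E : Set X) : Mono k (St k E) := by
  intro x hx t ht'
  have h : nd (x k) < ht E k x / 2 := hx
  show nd (update x k t k) < ht E k (update x k t) / 2
  rw [update_self, ht_update]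
  linarith

theorem Mono.St {k j : Fin 3} {F : Set X} (h : Mono k F) (hj : j ≠ k) : Mono k (St j F) := by
  intro x hx t ht'
  have h1 : nd (x j) < ht F j x / 2 := hx
  show nd (update x k t j) < ht F j (update x k t) / 2
  rw [update_of_ne hj]
  have := vI_prob
  have h2 : ht F j x ≤ ht F j (update x k t) := by
    refine measureReal_mono fun s hs => ?_
    have h3 := h _ hs t (by rwa [update_of_ne hj.symm])
    rwa [update_comm hj] at h3
  linarith

theorem dom {F : Set X} (h : ∀ k, Mono k F) {x y : X} (hx : x ∈ F)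
    (hy : ∀ i, nd (y i) ≤ nd (x i)) : y ∈ F := by
  have h0 := h 0 x hx (y 0) (hy 0)
  have h1 := h 1 _ h0 (y 1) (by simpa using hy 1)
  have h2 := h 2 _ h1 (y 2) (by simpa using hy 2)
  have e : update (update (update x 0 (y 0)) 1 (y 1)) 2 (y 2) = y := by
    funext i
    fin_cases i <;> simp
  rwa [e] at h2

/-- clamp to the half period -/
noncomputable def cl (t : ℝ) : ℝ := max 0 (min t 1) / 2

theorem nd_cl (t : ℝ) : nd (cl t) = cl t := by
  have h0 : 0 ≤ cl t := div_nonneg (le_max_left _ _) zero_le_two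
  have h1 : cl t ≤ 1 / 2 :=
    div_le_div_of_nonneg_right (max_le zero_le_one (min_le_right _ _)) zero_le_two
  rw [nd_of_abs_le (by rwa [abs_of_nonneg h0]), abs_of_nonneg h0]

theorem cl_mono {s t : ℝ} (h : s ≤ t) : cl s ≤ cl t :=
  div_le_div_of_nonneg_right (max_le_max le_rfl (min_le_min h le_rfl)) zero_le_two

theorem cl_nd (t : ℝ) : cl (2 * nd t) = nd t := by
  have h0 := nd_nonneg t
  have h1 := nd_le_half t
  rw [cl, min_eq_left (by linarith), max_eq_right (by linarith)]
  ring

theorem down {F : Set X} (h : ∀ k, Mono k F) : ∃ D, Dn D ∧ F =ᵐ[vQ] fold ⁻¹' D := by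
  have hL : IsLowerSet {x : X | (fun i => cl (x i)) ∈ F} := fun x y hyx hx =>
    dom h hx fun i => by rw [nd_cl, nd_cl]; exact cl_mono (hyx i)
  have e : fold ⁻¹' {x : X | (fun i => cl (x i)) ∈ F} = F := by
    have k : ∀ (x : X) i, nd (cl (fold x i)) = nd (x i) := fun x i => by
      rw [nd_cl, fold, cl_nd]
    ext x
    exact ⟨fun hx => dom h hx fun i => (k x i).ge, fun hx => dom h hx fun i => (k x i).le⟩
  refine ⟨interior _, ⟨isOpen_interior, hL.interior⟩, ?_⟩
  have h1 : interior {x : X | (fun i => cl (x i)) ∈ F} =ᵐ[vQ] {x : X | (fun i => cl (x i)) ∈ F} :=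
    ae_restrict_of_ae (interior_ae_eq_of_null_frontier hL.null_frontier)
  have h2 := mp_fold.quasiMeasurePreserving.preimage_ae_eq h1
  rw [e] at h2
  exact h2.symm

end TMonoAux

open TMonoAux in
theorem exists_down {E : Set X} (hE : MeasurableSet E) (hP : PerSet E) :
    ∃ D, Dn D ∧ St 2 (St 1 (St 0 E)) =ᵐ[vQ] fold ⁻¹' D := by
  refine down fun k => ?_
  fin_cases k
  · exact ((mono_St 0 E).St (by decide)).St (by decide)
  · exact (mono_St 1 _).St (by decide)
  · exact mono_St 2 _

end Vale.Agent.P232
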