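import Vale.Agent.P232.TMol

open MeasureTheory Set Function Filter Topology
open scoped ENNReal

namespace Vale.Agent.P232

namespace TWCAux

theorem subseq {F : ℕ → X → ℝ} {f : X → ℝ} (hF : ∀ n, BM (F n)) (hf : BM f)
    (h : Tendsto (fun n => ∫ x, |F n x - f x| ∂vQ) atTop (𝓝 0)) :
    ∃ ns : ℕ → ℕ, StrictMono ns ∧ ∀ᵐ x ∂vQ, Tendsto (fun i => F (ns i) x) atTop (𝓝 (f x)) := by
  have := vQ_prob
  refine (tendstoInMeasure_of_tendsto_eLpNorm (p := 1) one_ne_zero
    (fun n => (hF n).1.aestronglyMeasurable) hf.1.aestronglyMeasurable ?_).exists_seq_tendsto_ae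
  have k := ENNReal.tendsto_ofReal h
  rw [ENNReal.ofReal_zero] at k
  refine k.congr fun n => ?_
  rw [eLpNorm_one_eq_lintegral_enorm]
  exact ofReal_integral_norm_eq_lintegral_enorm (((hF n).sub hf).integrable vQ)

theorem fderiv_zero {g : X → ℝ} {x : X} (h : ∀ j, pd j g x = 0) : fderiv ℝ g x = 0 := by
  ext v
  rw [pi_eq_sum_univ' v, map_sum]
  refine Finset.sum_eq_zero fun j _ => ?_
  rw [map_smul]
  exact smul_eq_zero_of_right _ (h j)

theorem near {I : Finset (Fin 3)} {c x y : X} {r δ : ℝ} (h1 : δ ≤ 1)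
    (hx : ∑ i ∈ I, (x i - c i) ^ 2 + 6 * δ < r ^ 2) (hy : ∀ i, nd (x i - y i) ≤ δ) :
    y ∈ Mod I c r := by
  have h0 : 0 ≤ δ := (nd_nonneg _).trans (hy 0)
  have k : ∀ i ∈ I, nd (y i - c i) ^ 2 ≤ (x i - c i) ^ 2 + 2 * δ := by
    intro i _
    have a1 := nd_add_le (x i - c i) (-(x i - y i))
    rw [nd_neg, show x i - c i + -(x i - y i) = y i - c i by ring] at a1
    have a2 := pow_le_pow_left₀ (nd_nonneg _) (nd_le_abs (x i - c i)) 2
    rw [sq_abs] at a2
    have a3 := pow_le_pow_left₀ (nd_nonneg _) (a1.trans (add_le_add_right (hy i) _)) 2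
    nlinarith [nd_le_half (x i - c i), nd_nonneg (x i - c i)]
  have k2 := Finset.sum_le_sum k
  rw [Finset.sum_add_distrib, Finset.sum_const, nsmul_eq_mul] at k2
  have k3 : (I.card : ℝ) ≤ 3 := by exact_mod_cast (Finset.card_le_univ I).trans (by simp)
  show ∑ i ∈ I, nd (y i - c i) ^ 2 < r ^ 2
  nlinarith

variable {ρ : ℕ → ℝ → ℝ} {f : X → ℝ} {I : Finset (Fin 3)} {c : X} {r : ℝ}

theorem flat (hρ : Ker ρ) (hf : BM f)
    (h : ∀ (η : X → ℝ) (j : Fin 3), PC1 η → tsupport η ⊆ Mod I c r → ∫ x, f x * pd j η x ∂vQ = 0)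
    (n : ℕ) {x : X} (hx : ∑ i ∈ I, (x i - c i) ^ 2 + 6 * (1 / ((n : ℝ) + 3)) < r ^ 2) :
    fderiv ℝ (conv f (kr ρ Finset.univ n)) x = 0 := by
  have hK := hρ.pc1 Finset.univ n
  have h1 : 1 / ((n : ℝ) + 3) ≤ 1 := by
    rw [div_le_one (by positivity)]
    linarith [Nat.cast_nonneg (α := ℝ) n]
  have hs : tsupport (fun y => kr ρ Finset.univ n (x - y)) ⊆
      {y | ∀ i, nd (x i - y i) ≤ 1 / ((n : ℝ) + 3)} := by
    refine closure_minimal (fun y hy i => (hρ.supp n _ ?_).le) ?_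
    · exact Finset.prod_ne_zero_iff.1 hy i (Finset.mem_univ i)
    · rw [ofPred_forall]
      exact isClosed_iInter fun i =>
        isClosed_le (continuous_nd.comp (by fun_prop)) continuous_const
  refine fderiv_zero fun j => ?_
  have k := h _ j (pc1_sub_left hK x) (hs.trans fun y hy => near h1 hx hy)
  simp only [pd_sub_left hK, mul_neg, integral_neg, neg_eq_zero] at k
  rw [pd_conv hf hK]
  exact k

theorem const (hρ : Ker ρ) (hf : BM f)
    (h : ∀ (η : X → ℝ) (j : Fin 3), PC1 η → tsupport η ⊆ Mod I c r → ∫ x, f x * pd j η x ∂vQ = 0)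
    (n : ℕ) {x : X} (hx : ∑ i ∈ I, nd (x i - c i) ^ 2 + 6 * (1 / ((n : ℝ) + 3)) < r ^ 2) :
    conv f (kr ρ Finset.univ n) x = conv f (kr ρ Finset.univ n) c := by
  have hP := pc1_conv hf (hρ.pc1 Finset.univ n)
  rw [← hP.2 x fun j => -round (x j - c j)]
  have k := (convex_segment c fun j => x j + ((-round (x j - c j) : ℤ) : ℝ)
    ).norm_image_sub_le_of_norm_fderiv_le (𝕜 := ℝ) (f := conv f (kr ρ Finset.univ n)) (C := 0)
    (fun z _ => (hP.1.differentiable one_ne_zero).differentiableAt) (fun z hz => ?_)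
    (left_mem_segment _ _ _) (right_mem_segment _ _ _)
  · rwa [zero_mul, norm_le_zero_iff, sub_eq_zero] at k
  obtain ⟨a, b, ha, hb, hab, rfl⟩ := hz
  refine (norm_eq_zero.2 (flat hρ hf h n (lt_of_le_of_lt ?_ hx))).le
  refine add_le_add_left (Finset.sum_le_sum fun i _ => ?_) _
  have e : (a • c + b • fun j => x j + ((-round (x j - c j) : ℤ) : ℝ)) i - c i =
      b * (x i - c i - round (x i - c i)) := by
    simp only [Pi.add_apply, Pi.smul_apply, smul_eq_mul, Int.cast_neg]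
    linear_combination (c i) * hab
  rw [e, nd, sq_abs, mul_pow]
  exact mul_le_of_le_one_left (sq_nonneg _) (pow_le_one₀ hb (by linarith))

end TWCAux

open TWCAux in
/-- weak gradient zero on a periodic model domain forces a.e. constancy -/
theorem weak_const {f : X → ℝ} (hf : BM f) (hp : Per f) (I : Finset (Fin 3)) (c : X) {r : ℝ}
    (h0 : 0 < r) (h1 : r < 1 / 2)
    (h : ∀ (η : X → ℝ) (j : Fin 3), PC1 η → tsupport η ⊆ Mod I c r →
      ∫ x, f x * pd j η x ∂vQ = 0) :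
    ∃ a : ℝ, ∀ᵐ x ∂vQ, x ∈ Mod I c r → f x = a := by
  obtain ⟨ρ, hρ⟩ := exists_ker
  obtain ⟨ns, hn, hae⟩ := subseq (fun n => (pc1_conv hf (hρ.pc1 Finset.univ n)).bm) hf
    (hρ.tendsto_conv Finset.univ hf hp fun k hk => absurd (Finset.mem_univ k) hk)
  refine ⟨limUnder atTop fun i => conv f (kr ρ Finset.univ (ns i)) c, ?_⟩
  filter_upwards [hae] with x hx hm
  have t1 : Tendsto (fun n : ℕ => 1 / ((n : ℝ) + 3)) atTop (𝓝 0) :=
    tendsto_const_nhds.div_atTop (tendsto_atTop_add_const_right _ _ tendsto_natCast_atTop_atTop)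
  have t2 := (t1.const_mul 6).const_add (∑ i ∈ I, nd (x i - c i) ^ 2)
  rw [mul_zero, add_zero] at t2
  have t3 := hn.tendsto_atTop.eventually (t2.eventually_lt_const hm)
  exact (hx.congr' (t3.mono fun i hi => const hρ hf h _ hi)).limUnder_eq.symm

end Vale.Agent.P232
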