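import Vale.Agent.P232.TRig3
import Vale.Agent.P232.TWC

open MeasureTheory Set Function Filter Topology
open scoped ENNReal

namespace Vale.Agent.P232

namespace TRig4Aux

theorem nd_eq {a b : ℝ} (h1 : Real.cos (2 * Real.pi * a + 0) = Real.cos (2 * Real.pi * b + 0))
    (h2 : Real.cos (2 * Real.pi * a + -(Real.pi / 2)) =
      Real.cos (2 * Real.pi * b + -(Real.pi / 2))) (t : ℝ) : nd (t - a) = nd (t - b) := by
  simp only [add_zero, ← sub_eq_add_neg, Real.cos_sub_pi_div_two] at h1 h2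
  have h3 : Real.cos (2 * Real.pi * a - 2 * Real.pi * b) = 1 := by
    rw [Real.cos_sub, h1, h2, ← sq, ← sq, Real.cos_sq_add_sin_sq]
  obtain ⟨n, hn⟩ := (Real.cos_eq_one_iff _).1 h3
  have h4 : (n : ℝ) = a - b :=
    mul_right_cancel₀ Real.two_pi_pos.ne' (hn.trans (by ring))
  rw [← nd_add_int (t - a) n, h4]
  congr 1
  ring

theorem mem_Mod {I : Finset (Fin 3)} {k : Fin 3} (hk : k ∈ I) (c x : X) (r s t : ℝ) :
    update x k t ∈ Mod I (update c k s) r ↔
      nd (t - s) < √(r ^ 2 - ∑ i ∈ I.erase k, nd (x i - c i) ^ 2) := by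
  have e : ∑ i ∈ I.erase k, nd (update x k t i - update c k s i) ^ 2 =
      ∑ i ∈ I.erase k, nd (x i - c i) ^ 2 :=
    Finset.sum_congr rfl fun i hi => by
      rw [update_of_ne (Finset.ne_of_mem_erase hi), update_of_ne (Finset.ne_of_mem_erase hi)]
  rw [Real.lt_sqrt (nd_nonneg _), Mod, mem_ofPred_eq, ← Finset.add_sum_erase I _ hk, e,
    update_self, update_self, lt_sub_iff_add_lt]

theorem bm_cos {θ : X → ℝ} (hθ : BM θ) (φ : ℝ) :
    BM fun x => Real.cos (2 * Real.pi * θ x + φ) :=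
  ⟨Real.measurable_cos.comp ((hθ.1.const_mul _).add_const _), 1, fun _ => Real.abs_cos_le_one _⟩

end TRig4Aux

open TRig4Aux in
theorem steiner_rigid {E : Set X} (hE : MeasurableSet E) (hP : PerSet E) {I : Finset (Fin 3)}
    {k : Fin 3} {c : X} {r : ℝ} (h0 : 0 < r) (h1 : r < 1 / 2)
    (hS : St k E =ᵐ[vQ] Mod I c r) (hp : PerLe E (I.card * vQ.real E / r)) :
    ∃ c', E =ᵐ[vQ] Mod I c' r := by
  by_cases hk : k ∉ I
  · exact ⟨c, eq_St_of_not_mem hE hk hS⟩
  rw [not_not] at hk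
  have hu : ht E k =ᵐ[vQ] ht (Mod I c r) k := by
    filter_upwards [ht_congr hS k] with x hx
    rw [← ht_St, hx]
  obtain ⟨V, hV⟩ := exists_var hp
  obtain ⟨hle, hn⟩ := hV.normal hE hP hk h0 h1 hu
  obtain ⟨θ, hθ, hθp, hθi, hθa⟩ := exists_centre hE hP k
  have ha : ∀ᵐ x ∂vQ, x ∈ Wd E k → ArcAt {t | update x k t ∈ E} (θ x) := by
    filter_upwards [hV.arc hE hP k hle] with x hx h using hθa x h (hx h)
  have hc := fun φ : ℝ => weak_const (bm_cos hθ φ) (fun x j => by rw [hθp x j]) (I.erase k) c h0 h1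
    fun η j hη hs => hV.weak_zero hE hP hk h0 h1 hu hθ hθp hθi ha hle hn φ η j hη hs
  obtain ⟨a, h2⟩ := hc 0
  obtain ⟨b, h3⟩ := hc (-(Real.pi / 2))
  obtain ⟨s, hs⟩ : ∃ s : ℝ, ∀ x, Real.cos (2 * Real.pi * θ x + 0) = a →
      Real.cos (2 * Real.pi * θ x + -(Real.pi / 2)) = b → ∀ t, nd (t - θ x) = nd (t - s) := by
    by_cases h : ∃ y, Real.cos (2 * Real.pi * θ y + 0) = a ∧
        Real.cos (2 * Real.pi * θ y + -(Real.pi / 2)) = b
    · obtain ⟨y, y1, y2⟩ := h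
      exact ⟨θ y, fun x x1 x2 => nd_eq (x1.trans y1.symm) (x2.trans y2.symm)⟩
    · exact ⟨0, fun x x1 x2 => absurd ⟨x, x1, x2⟩ h⟩
  refine ⟨update c k s, eventuallyEq_set.2 (ae_of_ae_update (measurableSet_setOfPred.2
    (hE.mem.iff (isOpen_Mod I _ r).measurableSet.mem)) k ?_)⟩
  filter_upwards [hu, ha, h2, h3] with x x0 x1 x2 x3
  have e := x0.trans (ht_Mod_mem hk c h0 h1 x)
  simp only [mem_Mod hk]
  by_cases hx : x ∈ Wd E k
  · have hM : x ∈ Mod (I.erase k) c r := by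
      rw [← Wd_Mod hk c h0 h1, Wd, mem_ofPred_eq, ← x0]
      exact hx
    refine ae_restrict_of_ae ?_
    filter_upwards [x1 hx] with t h
    rw [hs x (x2 hM) (x3 hM)] at h
    rw [h, show vI.real {t | update x k t ∈ E} = ht E k x from rfl, e, mul_div_cancel_left₀ _
      two_ne_zero]
  · have h4 : √(r ^ 2 - ∑ i ∈ I.erase k, nd (x i - c i) ^ 2) ≤ r :=
      Real.sqrt_le_iff.2 ⟨h0.le, sub_le_self _ (Finset.sum_nonneg fun _ _ => sq_nonneg _)⟩
    have h5 : ht E k x = 0 :=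
      le_antisymm (not_lt.1 fun h => hx ⟨h, by linarith⟩) (ht_nonneg E k x)
    have := vI_prob
    have h6 : vI {t | update x k t ∈ E} = 0 := (measureReal_eq_zero_iff (measure_ne_top _ _)).1 h5
    filter_upwards [measure_eq_zero_iff_ae_notMem.1 h6] with t h
    refine iff_of_false h (not_lt.2 ?_)
    have := nd_nonneg (t - s)
    linarith

end Vale.Agent.P232
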