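import Vale.Agent.P232.TSt4
import Vale.Agent.P232.TMono
import Vale.Agent.P232.TFold
import Vale.Agent.P232.TModP
import Vale.Agent.P232.TRig4
import Vale.Agent.P232.DMain

open MeasureTheory Set Function Filter Topology
open scoped ENNReal

namespace Vale.Agent.P232

namespace TMainAux

theorem Jt_eq (v : ℝ) : Jt v = 2 * Jc v := by
  unfold Jc
  ring

theorem down {E : Set X} (hE : MeasurableSet E) (hP : PerSet E) {p : ℝ} (h : PerLe E p) :
    ∃ D, Dn D ∧ St 2 (St 1 (St 0 E)) =ᵐ[vQ] fold ⁻¹' D ∧ vol D = vQ.real E ∧ 2 * area D ≤ p := by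
  obtain ⟨D, hD, e⟩ := exists_down hE hP
  have m0 := measurableSet_St hE 0
  have m1 := measurableSet_St m0 1
  have p0 := perSet_St hE hP 0
  have p1 := perSet_St m0 p0 1
  refine ⟨D, hD, e, ?_, hD.area_le_per
    ((((h.steiner hE hP 0).steiner m0 p0 1).steiner m1 p1 2).congr e)⟩
  rw [← vol_St hE 0, ← vol_St m0 1, ← vol_St m1 2, measureReal_congr e, vol, Measure.real,
    Measure.real, mp_fold.measure_preimage hD.1.measurableSet.nullMeasurableSet]

theorem model {V R : ℝ} {I : Finset (Fin 3)} (hI : I.Nonempty) (h0 : 0 < R) (h1 : R < 1)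
    (hV : vQ.real (ModQ I R) = V) (hJ : Jc V = I.card * V / R) :
    ∃ M : Set (Fin 3 → UnitAddCircle),
      MeasurableSet M ∧ vQ.real (proj ⁻¹' M) = V ∧ PerLe (proj ⁻¹' M) (Jt V) := by
  have e : proj ⁻¹' {y | ∑ i ∈ I, ‖y i‖ ^ 2 < (R / 2) ^ 2} = Mod I 0 (R / 2) := by
    ext x
    simp only [mem_preimage, mem_ofPred_eq, proj, Mod, Pi.zero_apply, sub_zero, nd_eq_norm]
  have e2 : vQ.real (Mod I 0 (R / 2)) = V := by
    rw [vol_Mod, mul_div_cancel₀ _ two_ne_zero, hV]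
  refine ⟨{y | ∑ i ∈ I, ‖y i‖ ^ 2 < (R / 2) ^ 2},
    (isOpen_lt (by fun_prop) continuous_const).measurableSet, e ▸ e2, ?_⟩
  have := perLe_Mod hI 0 (half_pos h0) (by linarith : R / 2 < 1 / 2)
  rw [e2] at this
  have e3 : Jt V = I.card * V / (R / 2) := by
    rw [Jt_eq, hJ]
    field_simp
  rw [e, e3]
  exact this

theorem upper {V : ℝ} (h0 : 0 < V) (h1 : V ≤ 1 / 2) : ∃ M : Set (Fin 3 → UnitAddCircle),
    MeasurableSet M ∧ vQ.real (proj ⁻¹' M) = V ∧ PerLe (proj ⁻¹' M) (Jt V) := by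
  rcases exists_model h0 h1 with ⟨R, r0, r1, e, hJ⟩ | ⟨R, r0, r1, e, hJ⟩ | hJ
  · exact model (I := Finset.univ) Finset.univ_nonempty r0 r1
      ((vol_ModQ_three (by simp) r0.le r1.le).trans e.symm) (by simpa using hJ)
  · have hc : ({0, 1} : Finset (Fin 3)).card = 2 := rfl
    exact model (I := {0, 1}) (Finset.insert_nonempty _ _) r0 r1
      ((vol_ModQ_two hc r0.le r1.le).trans e.symm) (by rw [hc, hJ]; simp)
  · exact model (I := {0}) (Finset.singleton_nonempty _) h0 (by linarith)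
      (vol_ModQ_one (Finset.card_singleton _) h0.le (by linarith))
      (by rw [hJ, Finset.card_singleton, Nat.cast_one, one_mul, div_self h0.ne'])

end TMainAux

theorem per_lower {E : Set X} (hE : MeasurableSet E) (hP : PerSet E) {p : ℝ} (h : PerLe E p) :
    Jt (vQ.real E) ≤ p := by
  obtain ⟨D, hD, -, e, ha⟩ := TMainAux.down hE hP h
  rw [TMainAux.Jt_eq, ← e]
  linarith [hD.lower]

theorem per_upper {V : ℝ} (h0 : 0 < V) (h1 : V < 1) : ∃ M : Set (Fin 3 → UnitAddCircle),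
    MeasurableSet M ∧ vQ.real (proj ⁻¹' M) = V ∧ PerLe (proj ⁻¹' M) (Jt V) := by
  rcases le_or_gt V (1 / 2) with h | h
  · exact TMainAux.upper h0 h
  obtain ⟨M, hM, e, hp⟩ := TMainAux.upper (V := 1 - V) (by linarith) (by linarith)
  have hm : MeasurableSet (proj ⁻¹' M) := mp_proj.measurable hM
  have := vQ_prob
  refine ⟨Mᶜ, hM.compl, ?_, ?_⟩
  · rw [preimage_compl, probReal_compl_eq_one_sub hm, e, sub_sub_cancel]
  · rw [TMainAux.Jt_eq, Jc_symm, ← TMainAux.Jt_eq] at hp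
    exact hp.compl hm

theorem per_rigid {E : Set X} (hE : MeasurableSet E) (hP : PerSet E) (h0 : 0 < vQ.real E)
    (h1 : vQ.real E ≤ 1 / 2) (h : PerLe E (Jt (vQ.real E))) :
    ∃ I : Finset (Fin 3), I.Nonempty ∧ ∃ c r, 0 < r ∧ r < 1 / 2 ∧ E =ᵐ[vQ] Mod I c r := by
  obtain ⟨D, hD, e, ev, ha⟩ := TMainAux.down hE hP h
  rw [TMainAux.Jt_eq, ← ev] at ha
  obtain ⟨I, hI, R, r0, r1, eD, hA⟩ := hD.rigid (ev ▸ h0) (ev ▸ h1) (by linarith)
  have hJ : Jt (vQ.real E) = I.card * vQ.real E / (R / 2) := by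
    rw [TMainAux.Jt_eq, ← ev, le_antisymm hD.lower (by linarith), hA]
    field_simp
  rw [hJ] at h
  have m0 := measurableSet_St hE 0
  have m1 := measurableSet_St m0 1
  have p0 := perSet_St hE hP 0
  have p1 := perSet_St m0 p0 1
  have s0 := h.steiner hE hP 0
  have s1 := s0.steiner m0 p0 1
  have q0 := half_pos r0
  have q1 : R / 2 < 1 / 2 := by linarith
  have e2 : St 2 (St 1 (St 0 E)) =ᵐ[vQ] Mod I 0 (R / 2) := by
    rw [← fold_ModQ, mul_div_cancel₀ _ two_ne_zero]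
    exact e.trans (mp_fold.quasiMeasurePreserving.preimage_ae_eq eD)
  obtain ⟨c1, e1⟩ := steiner_rigid m1 p1 q0 q1 e2 (by rwa [vol_St m0, vol_St hE])
  obtain ⟨c0, e0⟩ := steiner_rigid m0 p0 q0 q1 e1 (by rwa [vol_St hE])
  obtain ⟨c, e'⟩ := steiner_rigid hE hP q0 q1 e0 h
  exact ⟨I, hI, c, R / 2, q0, q1, e'⟩

end Vale.Agent.P232
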