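import Vale.Agent.P232.APer

open MeasureTheory Set Function Filter Topology
open scoped ENNReal

namespace Vale.Agent.P232

namespace TMolAux

theorem ker1 {e : ℝ} (h0 : 0 < e) (h1 : e < 1 / 2) : ∃ g : ℝ → ℝ, ContDiff ℝ 1 g ∧ Periodic g 1 ∧
    (∀ t, 0 ≤ g t) ∧ (∀ t, g (-t) = g t) ∧ ∫ t, g t ∂vI = 1 ∧ ∀ t, g t ≠ 0 → nd t < e := by
  let b : ContDiffBump (0 : ℝ) := ⟨e / 2, e, half_pos h0, half_lt_self h0⟩
  have s : ∀ t, b.normed volume t ≠ 0 → |t| < e := fun t ht => by
    have h2 : t ∈ support (b.normed volume) := ht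
    rwa [b.support_normed_eq, mem_ball_zero_iff] at h2
  have a : ∀ t, b.normed volume |t| = b.normed volume t := fun t => by
    rcases abs_choice t with h | h <;> rw [h]
    exact b.normed_neg t
  obtain ⟨p1, p2⟩ := per1 (g := b.normed volume) b.contDiff_normed h1
    fun t ht => by_contra fun h => absurd (s t h) (not_lt.2 ht)
  obtain ⟨C, hC⟩ := (b.continuous_normed (μ := volume)).bounded_above_of_compact_support
    b.hasCompactSupport_normed
  have e1 : ∀ t, b.normed volume (t - round t) = b.normed volume (nd t) := fun t => (a _).symm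
  refine ⟨_, p1, p2, fun t => b.nonneg_normed _, fun t => by rw [e1, e1, nd_neg], ?_,
    fun t ht => s _ ht⟩
  rw [integral_vI_add p2 ⟨p1.continuous.measurable, C, fun t => hC _⟩ (-(1 / 2)),
    intervalIntegral.integral_congr (g := b.normed volume) fun t ht => ?_,
    intervalIntegral.integral_eq_integral_of_support_subset fun t ht => ?_, b.integral_normed]
  · have := abs_lt.1 (s t ht)
    constructor <;> linarith
  · rw [uIcc_of_le (by norm_num)] at ht
    rw [e1, nd_of_abs_le (abs_le.2 ⟨ht.1, by linarith [ht.2]⟩), a]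

theorem fd_bound {K : X → ℝ} (hK : PC1 K) : ∃ C, ∀ x, ‖fderiv ℝ K x‖ ≤ C := by
  have hp : Per fun x => ‖fderiv ℝ K x‖ := fun x k => by
    have e : (fun y => K (y + fun j => (k j : ℝ))) = K := funext fun y => hK.2 y k
    have := fderiv_comp_add_right (𝕜 := ℝ) (f := K) (x := x) fun j => (k j : ℝ)
    rw [e] at this
    exact congrArg _ this.symm
  obtain ⟨C, hC⟩ := (hp.bm (hK.1.continuous_fderiv one_ne_zero).norm).2
  exact ⟨C, fun x => (le_abs_self _).trans (hC x)⟩

theorem fd_conv {f K : X → ℝ} (hf : BM f) (hK : PC1 K) :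
    (∀ x, Integrable (fun y => f y • fderiv ℝ K (x - y)) vQ) ∧
    Continuous (fun x => ∫ y, f y • fderiv ℝ K (x - y) ∂vQ) ∧
    ∀ x, HasFDerivAt (conv f K) (∫ y, f y • fderiv ℝ K (x - y) ∂vQ) x := by
  have := vQ_prob
  obtain ⟨C, hC⟩ := fd_bound hK
  obtain ⟨B, hB⟩ := hf.2
  have c := hK.1.continuous_fderiv one_ne_zero
  have m : ∀ x, AEStronglyMeasurable (fun y => f y • fderiv ℝ K (x - y)) vQ := fun x =>
    hf.1.aestronglyMeasurable.smul (c.comp (continuous_const.sub continuous_id)).aestronglyMeasurable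
  have b : ∀ x y, ‖f y • fderiv ℝ K (x - y)‖ ≤ B * C := fun x y => by
    rw [norm_smul]
    exact mul_le_mul (hB y) (hC _) (norm_nonneg _) ((abs_nonneg _).trans (hB y))
  have i : ∀ x, Integrable (fun y => f y * K (x - y)) vQ := fun x =>
    (hf.mul (hK.bm.comp (measurable_const.sub measurable_id))).integrable vQ
  refine ⟨fun x => (integrable_const (B * C)).mono' (m x) (ae_of_all _ (b x)),
    continuous_of_dominated m (fun x => ae_of_all _ (b x)) (integrable_const _)
      (ae_of_all _ fun y => (c.comp (continuous_id.sub continuous_const)).const_smul (f y)),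
    fun x => ?_⟩
  refine hasFDerivAt_integral_of_dominated_of_fderiv_le (F := fun x y => f y * K (x - y))
    (F' := fun x y => f y • fderiv ℝ K (x - y)) (bound := fun _ => B * C) univ_mem
    (Eventually.of_forall fun x => (i x).1) (i x) (m x) (ae_of_all _ fun y x _ => b x y)
    (integrable_const _) (ae_of_all _ fun y x _ => ?_)
  exact (((hK.1.differentiable one_ne_zero (x - y)).hasFDerivAt.comp x
    ((hasFDerivAt_id x).sub_const y)).const_mul (f y))

theorem trans_cont {F : X → ℝ} (hF : Integrable F volume) :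
    Tendsto (fun z => ∫ x, |F (x - z) - F x|) (𝓝 0) (𝓝 0) := by
  let G : C(X × X, X) := ⟨fun p => p.2 - p.1, by fun_prop⟩
  have hm : ∀ z, MeasurePreserving (G.curry z) volume volume := fun z =>
    measurePreserving_sub_right volume z
  have h := (Continuous.compMeasurePreservingLp (f := fun _ : X => hF.toL1 F) continuous_const
    G.curry.continuous hm ENNReal.one_ne_top).sub (continuous_const (y := hF.toL1 F))
  have e : ∀ z, ‖Lp.compMeasurePreserving (G.curry z) (hm z) (hF.toL1 F) - hF.toL1 F‖ =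
      ∫ x, |F (x - z) - F x| := fun z => by
    rw [L1.norm_eq_integral_norm]
    refine integral_congr_ae ?_
    filter_upwards [Lp.coeFn_sub (Lp.compMeasurePreserving (G.curry z) (hm z) (hF.toL1 F))
      (hF.toL1 F), Lp.coeFn_compMeasurePreserving (hF.toL1 F) (hm z), hF.coeFn_toL1,
      (hm z).quasiMeasurePreserving.ae_eq_comp hF.coeFn_toL1] with x h1 h2 h3 h4
    rw [h1, Pi.sub_apply, h2, h3, h4]
    rfl
  have h2 := (h.norm.congr e).tendsto 0
  simpa using h2

theorem trans_small {f : X → ℝ} (hf : BM f) {ε : ℝ} (hε : 0 < ε) :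
    ∃ δ > 0, ∀ z : X, ‖z‖ < δ → ∫ x, |f (x - z) - f x| ∂vQ ≤ ε := by
  obtain ⟨B, hB⟩ := hf.2
  have hF : Integrable ((Metric.closedBall (0 : X) 2).indicator f) volume :=
    (integrable_indicator_iff measurableSet_closedBall).2
      (Measure.integrableOn_of_bounded measure_closedBall_lt_top.ne hf.1.aestronglyMeasurable
        (ae_of_all _ hB))
  obtain ⟨δ, hδ, h⟩ := Metric.eventually_nhds_iff.1 ((trans_cont hF).eventually (ge_mem_nhds hε))
  refine ⟨min δ 1, by positivity, fun z hz => le_trans ?_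
    (h (y := z) (by rw [dist_zero_right]; exact hz.trans_le (min_le_left _ _)))⟩
  refine le_trans (setIntegral_congr_fun measurableSet_Q fun x hx => ?_).le
    (setIntegral_le_integral ((hF.comp_sub_right z).sub hF).abs (ae_of_all _ fun _ => abs_nonneg _))
  have h1 : ‖x‖ ≤ 1 := (pi_norm_le_iff_of_nonneg zero_le_one).2 fun i =>
    abs_le.2 ⟨by linarith [(hx i).1], (hx i).2.le⟩
  have h2 := norm_sub_le x z
  have h3 := hz.trans_le (min_le_right _ _)
  rw [indicator_of_mem (mem_closedBall_zero_iff.2 (by linarith)),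
    indicator_of_mem (mem_closedBall_zero_iff.2 (by linarith))]

theorem ind_congr {I : Finset (Fin 3)} {f : X → ℝ} (hi : ∀ k, k ∉ I → Ind k f) {a b : X}
    (h : ∀ i ∈ I, b i = a i) : f b = f a := by
  have s : ∀ k x t, (k ∈ I → t = x k) → f (update x k t) = f x := fun k x t ht => by
    by_cases hk : k ∈ I
    · rw [ht hk, update_eq_self]
    · exact hi k hk x t
  have e : b = update (update (update a 0 (b 0)) 1 (b 1)) 2 (b 2) := by
    funext i
    fin_cases i <;> simp
  rw [e, s, s, s]
  · exact h 0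
  · simpa using h 1
  · simpa using h 2

theorem per_sub {f : X → ℝ} (hp : Per f) (x : X) : Per fun y => f (x - y) := fun y k => by
  refine Eq.trans (congrArg f (funext fun j => ?_)) (hp (x - y) (-k))
  simp only [Pi.sub_apply, Pi.neg_apply, Int.cast_neg]
  ring

end TMolAux

open TMolAux

theorem exists_ker : ∃ ρ, Ker ρ := by
  have h : ∀ n : ℕ, _ := fun n => ker1 (e := 1 / ((n : ℝ) + 3)) (by positivity)
    (one_div_lt_one_div_of_lt two_pos (by linarith [n.cast_nonneg (α := ℝ)]))
  choose ρ h1 h2 h3 h4 h5 h6 using h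
  exact ⟨ρ, h1, h2, h3, h4, h5, h6⟩

variable {ρ : ℕ → ℝ → ℝ}

theorem Ker.pc1 (h : Ker ρ) (I : Finset (Fin 3)) (n : ℕ) : PC1 (kr ρ I n) :=
  ⟨contDiff_prod fun i _ => (h.c1 n).comp (contDiff_apply ℝ ℝ i), fun x k =>
    Finset.prod_congr rfl fun i _ => by simpa using (h.per n).int_mul (k i) (x i)⟩

theorem Ker.kr_nonneg (h : Ker ρ) (I : Finset (Fin 3)) (n : ℕ) (x : X) : 0 ≤ kr ρ I n x :=
  Finset.prod_nonneg fun _ _ => h.nonneg n _

theorem Ker.kr_even (h : Ker ρ) (I : Finset (Fin 3)) (n : ℕ) (x y : X) :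
    kr ρ I n (x - y) = kr ρ I n (y - x) :=
  Finset.prod_congr rfl fun i _ => by rw [← h.even, ← Pi.neg_apply, neg_sub]

theorem Ker.kr_ind (I : Finset (Fin 3)) (n : ℕ) {k : Fin 3} (hk : k ∉ I) :
    Ind k (kr ρ I n) := fun x t =>
  Finset.prod_congr rfl fun i hi => by rw [update_of_ne (ne_of_mem_of_not_mem hi hk)]

theorem TMolAux.integral_kr0 (h : Ker ρ) (I : Finset (Fin 3)) (n : ℕ) :
    ∫ y, kr ρ I n y ∂vQ = 1 := by
  have := vI_prob
  have e : ∀ y : X, kr ρ I n y = ∏ i, (if i ∈ I then ρ n else fun _ => 1) (y i) := fun y => by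
    simp only [ite_apply, Finset.prod_ite_mem, Finset.univ_inter, kr]
  simp only [e]
  rw [vQ_eq_pi, integral_fintype_prod_eq_prod]
  refine Finset.prod_eq_one fun i _ => ?_
  split_ifs
  · exact h.one n
  · simp

theorem Ker.integral_kr (h : Ker ρ) (I : Finset (Fin 3)) (n : ℕ) (x : X) :
    ∫ y, kr ρ I n (x - y) ∂vQ = 1 :=
  (integral_sub_left (h.pc1 I n).bm (h.pc1 I n).2 x).trans (integral_kr0 h I n)

theorem pc1_conv {f K : X → ℝ} (hf : BM f) (hK : PC1 K) : PC1 (conv f K) := by
  refine ⟨contDiff_one_iff_hasFDerivAt.2 ⟨_, (fd_conv hf hK).2⟩, fun x k => ?_⟩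
  refine integral_congr_ae (ae_of_all _ fun y => congrArg (f y * ·) ?_)
  refine Eq.trans (congrArg K (funext fun j => ?_)) (hK.2 (x - y) k)
  simp only [Pi.sub_apply]
  ring

theorem pd_conv {f K : X → ℝ} (hf : BM f) (hK : PC1 K) (i : Fin 3) (x : X) :
    pd i (conv f K) x = conv f (pd i K) x := by
  rw [pd, ((fd_conv hf hK).2.2 x).fderiv,
    ContinuousLinearMap.integral_apply ((fd_conv hf hK).1 x)]
  rfl

theorem ind_conv {f K : X → ℝ} {k : Fin 3} (hK : Ind k K) : Ind k (conv f K) := fun x t => by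
  refine integral_congr_ae (ae_of_all _ fun y => congrArg (f y * ·) ?_)
  refine Eq.trans (congrArg K (funext fun j => ?_)) (hK (x - y) (t - y k))
  rcases eq_or_ne j k with rfl | h
  · simp
  · simp [h]

theorem pc1_sub_left {K : X → ℝ} (hK : PC1 K) (x : X) : PC1 (fun y => K (x - y)) :=
  ⟨hK.1.comp (contDiff_const.sub contDiff_id), per_sub hK.2 x⟩

theorem pd_sub_left {K : X → ℝ} (hK : PC1 K) (x : X) (i : Fin 3) (y : X) :
    pd i (fun y => K (x - y)) y = - pd i K (x - y) := by
  have h := ((hK.1.differentiable one_ne_zero (x - y)).hasFDerivAt.comp y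
    ((hasFDerivAt_id y).const_sub x)).fderiv
  rw [pd, pd, show (fun y => K (x - y)) = K ∘ HSub.hSub x from rfl, h]
  simp

theorem Ker.tendsto_conv (h : Ker ρ) (I : Finset (Fin 3)) {f : X → ℝ} (hf : BM f) (hp : Per f)
    (hi : ∀ k, k ∉ I → Ind k f) :
    Tendsto (fun n => ∫ x, |conv f (kr ρ I n) x - f x| ∂vQ) atTop (𝓝 0) := by
  have := vQ_prob
  refine tendsto_order.2 ⟨fun a ha => Eventually.of_forall fun n =>
    ha.trans_le (integral_nonneg fun _ => abs_nonneg _), fun ε hε => ?_⟩
  obtain ⟨δ, hδ, hz⟩ := trans_small hf (half_pos hε)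
  filter_upwards [(tendsto_one_div_add_atTop_nhds_zero_nat (𝕜 := ℝ)).eventually (gt_mem_nhds hδ)]
    with n hn
  refine lt_of_le_of_lt ?_ (half_lt_self hε)
  have hK := h.pc1 I n
  have k0 := h.kr_nonneg I n
  have k1 := integral_kr0 h I n
  have hs : ∀ z, kr ρ I n z ≠ 0 → ∫ x, |f (x - z) - f x| ∂vQ ≤ ε / 2 := fun z h0 => by
    refine le_trans (integral_congr_ae (ae_of_all _ fun x => ?_)).le
      (hz (fun i => if i ∈ I then z i - round (z i) else 0) ((pi_norm_lt_iff hδ).2 fun i => ?_))
    · refine congrArg (fun t => |t - f x|) ((hp _ fun i => round (z i)).symm.trans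
        (ind_congr hi fun i hi => ?_))
      simp only [Pi.sub_apply, if_pos hi]
      ring
    · split_ifs with hi
      · exact ((h.supp n _ (Finset.prod_ne_zero_iff.1 h0 i hi)).trans_le
          (one_div_le_one_div_of_le (by positivity) (by linarith))).trans hn
      · rwa [norm_zero]
  generalize kr ρ I n = K at hK k0 k1 hs
  have b1 : BM fun p : X × X => f (p.1 - p.2) - f p.1 :=
    (hf.comp (measurable_fst.sub measurable_snd)).sub (hf.comp measurable_fst)
  have b2 : BM fun p : X × X => |f (p.1 - p.2) - f p.1| * K p.2 :=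
    BM.mul ⟨b1.1.abs, b1.2.imp fun C hC p => (abs_abs _).trans_le (hC p)⟩
      (hK.bm.comp measurable_snd)
  have i2 := b2.integrable (vQ.prod vQ)
  have e1 : ∀ x, |conv f K x - f x| ≤ ∫ z, |f (x - z) - f x| * K z ∂vQ := fun x => by
    have c1 : BM fun z => f (x - z) * K z :=
      (hf.comp (measurable_const.sub measurable_id)).mul hK.bm
    have c2 := integral_sub_left c1 (fun y k => congrArg₂ _ (per_sub hp x y k) (hK.2 y k)) x
    simp only [sub_sub_cancel] at c2
    have c3 : conv f K x - f x = ∫ z, (f (x - z) - f x) * K z ∂vQ := by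
      simp only [sub_mul]
      rw [integral_sub (c1.integrable vQ) ((hK.bm.integrable vQ).const_mul _), integral_const_mul,
        k1, mul_one, ← c2]
      rfl
    rw [c3]
    refine abs_integral_le_integral_abs.trans_eq (integral_congr_ae (ae_of_all _ fun z => ?_))
    beta_reduce
    rw [abs_mul, abs_of_nonneg (k0 z)]
  refine (integral_mono_of_nonneg (ae_of_all _ fun _ => abs_nonneg _) i2.integral_prod_left
    (ae_of_all _ e1)).trans ?_
  rw [integral_integral_swap (f := fun x z => |f (x - z) - f x| * K z) i2]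
  refine (integral_mono_of_nonneg (g := fun z => ε / 2 * K z)
    (ae_of_all _ fun z => integral_nonneg fun x => mul_nonneg (abs_nonneg _) (k0 z))
    ((hK.bm.integrable vQ).const_mul _) (ae_of_all _ fun z => ?_)).trans_eq
    (by rw [integral_const_mul, k1, mul_one])
  beta_reduce
  rw [integral_mul_const]
  by_cases h0 : K z = 0
  · rw [h0, mul_zero, mul_zero]
  · exact mul_le_mul_of_nonneg_right (hs z h0) (k0 z)

end Vale.Agent.P232
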