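import Vale.Agent.P232.APer

open MeasureTheory Set Function Filter Topology
open scoped ENNReal

namespace Vale.Agent.P232

variable {E : Set X}

namespace TSt2Aux

theorem ms (c r : ℝ) : MeasurableSet {t | nd (t - c) < r} :=
  (isOpen_lt (continuous_nd.comp (continuous_sub_right c)) continuous_const).measurableSet

theorem arc {g : ℝ → ℝ} (hg : BM g) (hp : Periodic g 1) {c r : ℝ} (h0 : 0 ≤ r)
    (h1 : r ≤ 1 / 2) : ∫ t in {t | nd (t - c) < r}, g t ∂vI = ∫ t in (c - r)..(c + r), g t := by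
  have e : Ioc (c - 1 / 2) (c - 1 / 2 + 1) ∩ {t | nd (t - c) < r} = Ioo (c - r) (c + r) := by
    ext t
    constructor
    · rintro ⟨⟨a, b⟩, h⟩
      rw [mem_ofPred_eq, nd_of_abs_le (abs_le.2 ⟨by linarith, by linarith⟩), abs_lt] at h
      exact ⟨by linarith, by linarith⟩
    · rintro ⟨a, b⟩
      exact ⟨⟨by linarith, by linarith⟩,
        (nd_le_abs _).trans_lt (abs_lt.2 ⟨by linarith, by linarith⟩)⟩
  have p : Periodic ({t | nd (t - c) < r}.indicator g) 1 := fun t => by
    have : nd (t + 1 - c) = nd (t - c) := by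
      rw [← nd_add_int (t - c) 1, Int.cast_one, add_sub_right_comm]
    simp only [indicator, mem_ofPred_eq, this, hp t]
  rw [← integral_indicator (ms c r), integral_vI_add p (hg.indicator (ms c r)) (c - 1 / 2),
    intervalIntegral.integral_of_le (by linarith), setIntegral_indicator (ms c r), e,
    intervalIntegral.integral_of_le (by linarith), integral_Ioc_eq_integral_Ioo]

theorem len {c r : ℝ} (h0 : 0 ≤ r) (h1 : r ≤ 1 / 2) : vI.real {t | nd (t - c) < r} = 2 * r := by
  have := arc (c := c) (BM.const 1) (fun _ => rfl) h0 h1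
  simp only [setIntegral_const, intervalIntegral.integral_const, smul_eq_mul] at this
  linarith

theorem sec (E : Set X) (k : Fin 3) (x : X) :
    {t | update x k t ∈ St k E} = {t | nd (t - 0) < ht E k x / 2} := by
  ext t
  simp only [St, mem_ofPred_eq, update_self, ht_update, sub_zero]

theorem h0 (E : Set X) (k : Fin 3) (x : X) : 0 ≤ ht E k x / 2 := by
  linarith [ht_nonneg E k x]

theorem h1 (E : Set X) (k : Fin 3) (x : X) : ht E k x / 2 ≤ 1 / 2 := by
  linarith [ht_le_one E k x]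

theorem upd {I : Finset (Fin 3)} {k : Fin 3} (hk : k ∉ I) (c x : X) (t : ℝ) :
    ∑ i ∈ I, nd (update x k t i - c i) ^ 2 = ∑ i ∈ I, nd (x i - c i) ^ 2 :=
  Finset.sum_congr rfl fun i hi => by rw [update_of_ne (ne_of_mem_of_not_mem hi hk)]

end TSt2Aux

open TSt2Aux

theorem measurableSet_St (hE : MeasurableSet E) (k : Fin 3) : MeasurableSet (St k E) :=
  measurableSet_lt (continuous_nd.measurable.comp (measurable_pi_apply k))
    ((measurable_ht hE k).div_const 2)

theorem perSet_St (hE : MeasurableSet E) (hP : PerSet E) (k : Fin 3) : PerSet (St k E) :=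
  fun x m => by simp only [St, mem_ofPred_eq, nd_add_int, hP.per_ht hE k x m]

theorem ht_St (E : Set X) (k : Fin 3) (x : X) : ht (St k E) k x = ht E k x := by
  rw [ht, sec, len (h0 E k x) (h1 E k x), mul_div_cancel₀ _ two_ne_zero]

theorem vol_St (hE : MeasurableSet E) (k : Fin 3) : vQ.real (St k E) = vQ.real E := by
  rw [← integral_ht (measurableSet_St hE k) k, ← integral_ht hE k]
  simp only [ht_St]

theorem vI_arc {c r : ℝ} (h0 : 0 ≤ r) (h1 : r ≤ 1 / 2) :
    vI.real {t | nd (t - c) < r} = 2 * r := len h0 h1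

theorem integral_arc {g : ℝ → ℝ} (hg : BM g) (hp : Periodic g 1) {c r : ℝ} (h0 : 0 ≤ r)
    (h1 : r ≤ 1 / 2) : ∫ t in {t | nd (t - c) < r}, g t ∂vI = ∫ t in (c - r)..(c + r), g t :=
  arc hg hp h0 h1

theorem integral_St (hE : MeasurableSet E) (k : Fin 3) {f : X → ℝ} (hf : BM f) (hp : Per f) :
    ∫ x in St k E, f x ∂vQ =
      ∫ x, (∫ t in (-(ht E k x / 2))..(ht E k x / 2), f (update x k t)) ∂vQ := by
  have := vQ_prob
  have m := measurableSet_St hE k
  rw [← integral_indicator m, integral_update ((hf.indicator m).integrable vQ) k]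
  refine integral_congr_ae (Eventually.of_forall fun x => ?_)
  have e := arc (c := 0) (hf.comp (measurable_update x (a := k))) (hp.update_add_one x k)
    (h0 E k x) (h1 E k x)
  rw [zero_sub, zero_add, ← integral_indicator (ms _ _), ← sec] at e
  exact e

/-- sections of the model sets -/
theorem ht_Mod_mem {I : Finset (Fin 3)} {k : Fin 3} (hk : k ∈ I) (c : X) {r : ℝ} (h0 : 0 < r)
    (h1 : r < 1 / 2) (x : X) :
    ht (Mod I c r) k x = 2 * √(r ^ 2 - ∑ i ∈ I.erase k, nd (x i - c i) ^ 2) := by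
  have s : 0 ≤ ∑ i ∈ I.erase k, nd (x i - c i) ^ 2 := Finset.sum_nonneg fun _ _ => sq_nonneg _
  rw [← len (c := c k) (Real.sqrt_nonneg _)
    ((Real.sqrt_le_left h0.le).2 (sub_le_self _ s) |>.trans h1.le), ht]
  congr 1
  ext t
  rw [mem_ofPred_eq, mem_ofPred_eq, Mod, mem_ofPred_eq, ← Finset.add_sum_erase I _ hk,
    upd (Finset.notMem_erase k I), update_self, Real.lt_sqrt (nd_nonneg _), lt_sub_iff_add_lt]

theorem Wd_Mod {I : Finset (Fin 3)} {k : Fin 3} (hk : k ∈ I) (c : X) {r : ℝ} (h0 : 0 < r)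
    (h1 : r < 1 / 2) : Wd (Mod I c r) k = Mod (I.erase k) c r := by
  ext x
  have s : 0 ≤ ∑ i ∈ I.erase k, nd (x i - c i) ^ 2 := Finset.sum_nonneg fun _ _ => sq_nonneg _
  have := (Real.sqrt_le_left h0.le).2 (sub_le_self (r ^ 2) s)
  rw [Wd, mem_ofPred_eq, ht_Mod_mem hk c h0 h1, Mod, mem_ofPred_eq, ← sub_pos (a := r ^ 2),
    ← Real.sqrt_pos (x := r ^ 2 - ∑ i ∈ I.erase k, nd (x i - c i) ^ 2)]
  exact ⟨fun h => by linarith [h.1], fun h => ⟨by linarith, by linarith⟩⟩

/-- if the symmetrisation does not depend on `x k`, it changed nothing -/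
theorem eq_St_of_not_mem (hE : MeasurableSet E) {I : Finset (Fin 3)} {k : Fin 3} (hk : k ∉ I)
    {c : X} {r : ℝ} (h : St k E =ᵐ[vQ] Mod I c r) : E =ᵐ[vQ] Mod I c r := by
  have := vI_prob
  have u : ∀ x t, update x k t ∈ Mod I c r ↔ x ∈ Mod I c r := fun x t => by
    simp only [Mod, mem_ofPred_eq, upd hk]
  refine eventuallyEq_set.2 (ae_of_ae_update (hE.iff (isOpen_Mod I c r).measurableSet) k ?_)
  filter_upwards [ht_congr h k] with x hx
  rw [ht_St, ht, ht] at hx
  have m : MeasurableSet {t | update x k t ∈ E} := measurable_update x hE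
  by_cases hM : x ∈ Mod I c r
  · simp only [u, hM, ofPred_true, probReal_univ, iff_true] at hx ⊢
    exact (prob_compl_eq_zero_iff m).2 ((ENNReal.toReal_eq_one_iff _).1 hx)
  · simp only [u, hM, ofPred_false, measureReal_empty, iff_false] at hx ⊢
    exact compl_mem_ae_iff.2 ((measureReal_eq_zero_iff (measure_ne_top _ _)).1 hx)

end Vale.Agent.P232
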