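import Vale.Agent.P232.TSlice
import Vale.Agent.P232.TSt2
import Vale.Agent.P232.TCut

open MeasureTheory Set Function Filter Topology
open scoped ENNReal

namespace Vale.Agent.P232

variable {E : Set X} {V : Measure (X × X)} {I : Finset (Fin 3)} {k : Fin 3} {c : X} {r : ℝ}

namespace TRig1Aux

theorem ind_pd {f : X → ℝ} (h : Ind k f) (j : Fin 3) : Ind k (pd j f) := fun x t => by
  have e : ∀ y : X, y + Pi.single k (t - x k) = update y k (y k + (t - x k)) := fun y => by
    ext i
    by_cases hi : i = k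
    · subst hi; simp
    · simp [hi]
  have e1 : (fun y => f (y + Pi.single k (t - x k))) = f := funext fun y => by rw [e, h]
  have e2 : update x k t = x + Pi.single k (t - x k) := by rw [e, add_sub_cancel]
  rw [pd, pd, e2, ← fderiv_comp_add_right, e1]

theorem integral_ind (hE : MeasurableSet E) {f : X → ℝ} (hf : BM f) (h : Ind k f) :
    ∫ x in E, f x ∂vQ = ∫ x, ht E k x * f x ∂vQ := by
  have := vQ_prob
  rw [← integral_indicator hE, integral_update ((hf.indicator hE).integrable vQ) k]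
  refine integral_congr_ae (Eventually.of_forall fun x => ?_)
  have hm : MeasurableSet {t | update x k t ∈ E} := measurable_update x hE
  have e : (fun t => E.indicator f (update x k t)) =
      {t | update x k t ∈ E}.indicator fun _ => f x := funext fun t => by
    by_cases ht : update x k t ∈ E
    · simp [ht, h x t]
    · simp [ht]
  beta_reduce
  rw [e, integral_indicator_const _ hm, smul_eq_mul, ht]

theorem bm_div {f : X → ℝ} (hf : BM f) (a : ℝ) : BM fun x => f x / a := by
  simpa only [div_eq_mul_inv] using hf.mul (BM.const a⁻¹)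

/-- the closed model set -/
def Cl (I : Finset (Fin 3)) (c : X) (r : ℝ) : Set X := {x | ∑ i ∈ I, nd (x i - c i) ^ 2 ≤ r ^ 2}

/-- the radial field -/
noncomputable def rad (I : Finset (Fin 3)) (c : X) (r : ℝ) (j : Fin 3) : X → ℝ :=
  (Cl I c r).indicator fun x => (x j - c j - round (x j - c j)) / r

theorem measurableSet_Cl (I : Finset (Fin 3)) (c : X) (r : ℝ) : MeasurableSet (Cl I c r) :=
  (isClosed_le (continuous_finsetSum _ fun i _ =>
    (continuous_nd.comp ((continuous_apply i).sub continuous_const)).pow 2)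
    continuous_const).measurableSet

theorem mod_sub {x : X} (hx : x ∈ Mod I c r) : x ∈ Cl I c r :=
  le_of_lt (show ∑ i ∈ I, nd (x i - c i) ^ 2 < r ^ 2 from hx)

theorem bm_rad (I : Finset (Fin 3)) (c : X) (r : ℝ) (j : Fin 3) : BM (rad I c r j) := by
  refine BM.indicator (bm_div ⟨?_, 1 / 2, fun x => nd_le_half _⟩ r) (measurableSet_Cl I c r)
  have h1 : Measurable fun x : X => x j - c j := (measurable_pi_apply j).sub_const _
  have h2 : Measurable fun t : ℝ => (round t : ℝ) := by
    simp only [round_eq]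
    exact (measurable_of_countable _).comp (measurable_id.add_const _).floor
  exact h1.sub (h2.comp h1)

theorem nd_le {x : X} (h0 : 0 < r) (hx : x ∈ Cl I c r) {i : Fin 3} (hi : i ∈ I) :
    nd (x i - c i) ≤ r :=
  (pow_le_pow_iff_left₀ (nd_nonneg _) h0.le two_ne_zero).1
    ((Finset.single_le_sum (f := fun i => nd (x i - c i) ^ 2) (fun _ _ => sq_nonneg _) hi).trans hx)

theorem term {p : ℝ} (h : Var E p V) (hE : MeasurableSet E) (hk : k ∈ I) (h0 : 0 < r)
    (h1 : r < 1 / 2) (hu : ht E k =ᵐ[vQ] ht (Mod I c r) k) {j : Fin 3} (hj : j ∈ I.erase k) :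
    ∫ z, rad (I.erase k) c r j z.1 * z.2 j ∂V = vQ.real E / r := by
  obtain ⟨s, d, s1, s2, d1, d2, d3, s3, s4⟩ := exists_cut (r := (r + 1 / 2) / 2) (by linarith)
    (by linarith)
  have hb : ∀ n : ℕ, r ^ 2 < r ^ 2 + 1 / ((n : ℝ) + 1) := fun n => by
    have : 0 < 1 / ((n : ℝ) + 1) := by positivity
    linarith
  choose χ c1 c2 c3 c4 _ using fun n => exists_step (hb n) one_pos
  have per : ∀ {g : ℝ → ℝ}, Periodic g 1 → ∀ (a b : ℝ) (m : ℤ), g (a + m - b) = g (a - b) :=
    fun hg a b m => by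
      rw [show a + m - b = a - b + m * 1 by ring]
      exact hg.int_mul m _
  set G : ℕ → X → ℝ := fun n x =>
    χ n (∑ i ∈ I.erase k, d (x i - c i)) * (s (x j - c j) / r) with hG
  have pc : ∀ n, PC1 (G n) := fun n => by
    refine ⟨((c1 n).comp (ContDiff.sum fun i _ => d1.comp ?_)).mul
      ((s1.comp ?_).div_const r), fun x m => ?_⟩
    · exact (contDiff_apply ℝ ℝ i).sub contDiff_const
    · exact (contDiff_apply ℝ ℝ j).sub contDiff_const
    · simp only [hG, per s2, per d2]
  have ind : ∀ n, Ind k (G n) := fun n x t => by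
    simp only [hG, update_of_ne (Finset.ne_of_mem_erase hj)]
    rw [Finset.sum_congr rfl fun i hi => by rw [update_of_ne (Finset.ne_of_mem_erase hi)]]
  have one : ∀ n, ∀ x ∈ Cl (I.erase k) c r, G n x = s (x j - c j) / r := fun n x hx => by
    have e : ∑ i ∈ I.erase k, d (x i - c i) = ∑ i ∈ I.erase k, nd (x i - c i) ^ 2 :=
      Finset.sum_congr rfl fun i hi => (s4 _ (by linarith [nd_le h0 hx hi])).2.2.1
    simp only [hG]
    rw [e, c3 n _ hx, one_mul]
  have val : ∀ n, ∫ z, G n z.1 * z.2 j ∂V = vQ.real E / r := fun n => by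
    rw [← h.gg _ j (pc n), integral_ind hE ((pc n).bm_pd j) (ind_pd (ind n) j), ← integral_ht hE k,
      ← integral_div]
    refine integral_congr_ae (hu.mono fun x hx => ?_)
    beta_reduce
    by_cases hW : x ∈ Mod (I.erase k) c r
    · have e : G n =ᶠ[𝓝 x] fun y => (fun t => s (t - c j) / r) (y j) :=
        eventually_of_mem ((isOpen_Mod _ _ _).mem_nhds hW) fun y hy => one n y (mod_sub hy)
      have e1 : pd j (G n) x = pd j (fun y => (fun t => s (t - c j) / r) (y j)) x := by
        rw [pd, pd, e.fderiv_eq]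
      rw [e1, pd_coord (g := fun t => s (t - c j) / r)
        ((s1.comp (contDiff_id.sub contDiff_const)).div_const r), if_pos rfl, deriv_div_const, deriv_comp_sub_const,
        (s4 _ (by linarith [nd_le h0 (mod_sub hW) hj])).2.1, mul_one_div]
    · rw [hx, ht_Mod_mem hk c h0 h1, Real.sqrt_eq_zero'.2 (sub_nonpos.2 (not_lt.1 hW))]
      simp
  have lim := tendsto_integral_of_dominated_convergence (μ := V) (F := fun n z => G n z.1 * z.2 j)
    (f := fun z => rad (I.erase k) c r j z.1 * z.2 j) (fun z => 1 / 2 / r * |z.2 j|)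
    (fun n => (h.integrable (pc n).bm j).1) (h.integrable_abs (BM.const _) j)
    (fun n => Eventually.of_forall fun z => ?_) (Eventually.of_forall fun z => ?_)
  · simp only [val] at lim
    exact tendsto_nhds_unique lim tendsto_const_nhds
  · rw [Real.norm_eq_abs, abs_mul]
    refine mul_le_mul_of_nonneg_right ?_ (abs_nonneg _)
    simp only [hG]
    rw [abs_mul, abs_div, abs_of_pos h0, abs_of_nonneg (c2 n _).1]
    exact (mul_le_of_le_one_left (by positivity) (c2 n _).2).trans
      (div_le_div_of_nonneg_right ((s3 _).trans (nd_le_half _)) h0.le)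
  · refine Tendsto.mul_const _ (tendsto_const_nhds.congr' ?_)
    by_cases hz : z.1 ∈ Cl (I.erase k) c r
    · refine Eventually.of_forall fun n => ?_
      beta_reduce
      rw [one n _ hz, rad, indicator_of_mem hz, (s4 _ (by linarith [nd_le h0 hz hj])).1]
    · have e : r ^ 2 < ∑ i ∈ I.erase k, d (z.1 i - c i) :=
        (not_le.1 hz).trans_le (Finset.sum_le_sum fun i _ => d3 _)
      filter_upwards [tendsto_one_div_add_atTop_nhds_zero_nat.eventually
        (ge_mem_nhds (sub_pos.2 e))] with n hn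
      simp only [hG]
      rw [c4 n _ (by linarith), zero_mul, rad, indicator_of_notMem hz]

theorem sq_le (hk : k ∈ I) (h0 : 0 < r) (h1 : r < 1 / 2) (x : X) :
    ∑ j ∈ I.erase k, rad (I.erase k) c r j x ^ 2 + (ht (Mod I c r) k x / (2 * r)) ^ 2 ≤ 1 := by
  rw [ht_Mod_mem hk c h0 h1]
  by_cases hx : x ∈ Cl (I.erase k) c r
  · have e : ∑ j ∈ I.erase k, rad (I.erase k) c r j x ^ 2 =
        (∑ j ∈ I.erase k, nd (x j - c j) ^ 2) / r ^ 2 := by
      rw [Finset.sum_div]
      exact Finset.sum_congr rfl fun j _ => by rw [rad, indicator_of_mem hx, div_pow, nd, sq_abs]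
    rw [e, div_pow, mul_pow, Real.sq_sqrt (sub_nonneg.2 hx)]
    refine le_of_eq ?_
    field_simp
    ring
  · rw [Real.sqrt_eq_zero'.2 (sub_nonpos.2 (not_le.1 hx).le)]
    simp [rad, hx]

theorem rigid (hk : k ∈ I) {ν g : X} {a : ℝ} (hν : ∑ i, ν i ^ 2 ≤ 1)
    (hg : ∑ j ∈ I.erase k, g j ^ 2 + a ^ 2 ≤ 1) :
    ∑ j ∈ I.erase k, g j * ν j + a * |ν k| ≤ 1 ∧
      (∑ j ∈ I.erase k, g j * ν j + a * |ν k| = 1 →
        |ν k| = a ∧ (∀ j ∈ I.erase k, ν j = g j) ∧ ∀ j, j ∉ I → ν j = 0) := by
  rw [← Finset.sum_add_sum_compl I, ← Finset.sum_erase_add I _ hk, ← sq_abs (ν k)] at hν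
  have e : ∑ j ∈ I.erase k, (ν j - g j) ^ 2 = ∑ j ∈ I.erase k, ν j ^ 2 +
      ∑ j ∈ I.erase k, g j ^ 2 - 2 * ∑ j ∈ I.erase k, g j * ν j := by
    rw [Finset.mul_sum, ← Finset.sum_add_distrib, ← Finset.sum_sub_distrib]
    exact Finset.sum_congr rfl fun j _ => by ring
  have p1 : 0 ≤ ∑ j ∈ I.erase k, (ν j - g j) ^ 2 := Finset.sum_nonneg fun _ _ => sq_nonneg _
  have p2 : 0 ≤ ∑ j ∈ Iᶜ, ν j ^ 2 := Finset.sum_nonneg fun _ _ => sq_nonneg _
  have p3 := sq_nonneg (|ν k| - a)
  refine ⟨by nlinarith, fun h => ⟨?_, fun j hj => ?_, fun j hj => ?_⟩⟩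
  · exact sub_eq_zero.1 (pow_eq_zero_iff two_ne_zero |>.1 (le_antisymm (by nlinarith) p3))
  · exact sub_eq_zero.1 (pow_eq_zero_iff two_ne_zero |>.1 ((Finset.sum_eq_zero_iff_of_nonneg
      fun _ _ => sq_nonneg _).1 (le_antisymm (by nlinarith) p1) j hj))
  · exact pow_eq_zero_iff two_ne_zero |>.1 ((Finset.sum_eq_zero_iff_of_nonneg
      fun _ _ => sq_nonneg _).1 (le_antisymm (by nlinarith) p2) j (Finset.mem_compl.2 hj))

end TRig1Aux

open TRig1Aux

theorem Var.radial {p : ℝ} (h : Var E p V) (hE : MeasurableSet E) (hk : k ∈ I) (h0 : 0 < r)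
    (h1 : r < 1 / 2) (hu : ht E k =ᵐ[vQ] ht (Mod I c r) k) :
    ∑ j ∈ I.erase k, ∫ z in {z : X × X | ∑ i ∈ I.erase k, nd (z.1 i - c i) ^ 2 ≤ r ^ 2},
        (z.1 j - c j - round (z.1 j - c j)) / r * z.2 j ∂V =
      (I.erase k).card * vQ.real E / r := by
  rw [mul_div_assoc, ← nsmul_eq_mul, ← Finset.sum_const]
  refine Finset.sum_congr rfl fun j hj => ?_
  rw [← term h hE hk h0 h1 hu hj]
  refine (integral_indicator (measurable_fst (measurableSet_Cl (I.erase k) c r))).symm.trans
    (integral_congr_ae (Eventually.of_forall fun z => ?_))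
  by_cases hz : z.1 ∈ Cl (I.erase k) c r
  · simp only [rad, indicator_of_mem hz, indicator_of_mem (mem_preimage.2 hz)]
  · simp only [rad, indicator_of_notMem hz, indicator_of_notMem (mt mem_preimage.1 hz), zero_mul]

theorem Var.normal (h : Var E (I.card * vQ.real E / r) V) (hE : MeasurableSet E)
    (hP : PerSet E) (hk : k ∈ I) (h0 : 0 < r) (h1 : r < 1 / 2)
    (hu : ht E k =ᵐ[vQ] ht (Mod I c r) k) :
    ∫ z, |z.2 k| ∂V ≤ 2 * vQ.real (Wd E k) ∧
    ∀ᵐ z ∂V, z.1 ∈ Mod (I.erase k) c r → |z.2 k| = ht (Mod I c r) k z.1 / (2 * r) ∧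
      (∀ j ∈ I.erase k, z.2 j = (z.1 j - c j - round (z.1 j - c j)) / r) ∧
      ∀ j, j ∉ I → z.2 j = 0 := by
  have := h.fin
  have := vQ_prob
  have hM := (isOpen_Mod I c r).measurableSet
  set a : X → ℝ := fun x => ht (Mod I c r) k x / (2 * r) with ha
  have a1 : BM a := bm_div (bm_ht hM k) _
  have a2 : Per a := fun x m => by simp only [ha, (perSet_Mod I c r).per_ht hM k x m]
  have a3 : Ind k a := fun x t => by simp only [ha, ht_update]
  have a4 : ∀ x, 0 ≤ a x := fun x => div_nonneg (ht_nonneg _ _ _) (by linarith)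
  have a5 : 2 * ∫ x in Wd E k, a x ∂vQ = vQ.real E / r := by
    rw [← integral_ht hE k, ← integral_div, ← integral_indicator (measurableSet_Wd hE k),
      ← integral_const_mul]
    refine integral_congr_ae (hu.mono fun x hx => ?_)
    beta_reduce
    by_cases hW : x ∈ Wd E k
    · rw [indicator_of_mem hW, hx, ha]
      field_simp
    · have h2 : x ∉ Mod (I.erase k) c r := fun h2 => by
        rw [← Wd_Mod hk c h0 h1] at h2
        exact hW ⟨hx ▸ h2.1, hx ▸ h2.2⟩
      rw [indicator_of_notMem hW, hx, ht_Mod_mem hk c h0 h1,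
        Real.sqrt_eq_zero'.2 (sub_nonpos.2 (not_lt.1 h2))]
      simp
  have s1 := h.slice_le hE hP k a1 a2 a3 a4
  have i1 := h.integrable_abs a1 k
  have i2 : Integrable (fun z : X × X => ∑ j ∈ I.erase k, rad (I.erase k) c r j z.1 * z.2 j) V :=
    integrable_finsetSum _ fun j _ => h.integrable (bm_rad _ _ _ j) j
  have i3 : ∫ z, ∑ j ∈ I.erase k, rad (I.erase k) c r j z.1 * z.2 j ∂V =
      (I.card - 1) * (vQ.real E / r) := by
    rw [integral_finsetSum _ fun j _ => h.integrable (bm_rad _ _ _ j) j,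
      Finset.sum_congr rfl fun j hj => term h hE hk h0 h1 hu hj, Finset.sum_const, nsmul_eq_mul,
      Finset.cast_card_erase_of_mem hk]
  have rg := h.unit.mono fun z hz => rigid hk hz (sq_le (c := c) hk h0 h1 z.1)
  have i5 : Integrable (fun z : X × X =>
      ∑ j ∈ I.erase k, rad (I.erase k) c r j z.1 * z.2 j + a z.1 * |z.2 k|) V := i2.add i1
  have i4 : Integrable (fun z : X × X =>
      1 - (∑ j ∈ I.erase k, rad (I.erase k) c r j z.1 * z.2 j + a z.1 * |z.2 k|)) V :=
    (integrable_const _).sub i5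
  have n4 : 0 ≤ᵐ[V] fun z : X × X =>
      1 - (∑ j ∈ I.erase k, rad (I.erase k) c r j z.1 * z.2 j + a z.1 * |z.2 k|) :=
    rg.mono fun z hz => sub_nonneg.2 hz.1
  have p4 := integral_nonneg_of_ae n4
  have e4 := integral_eq_zero_iff_of_nonneg_ae n4 i4
  rw [integral_sub (integrable_const _) i5, integral_add i2 i1, i3, integral_const,
    smul_eq_mul, mul_one] at p4 e4
  have hm := h.mass
  rw [mul_div_assoc] at hm
  have key := (rg.and (e4.1 (by linarith))).mono fun z hz => hz.1.2 (sub_eq_zero.1 hz.2).symm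
  refine ⟨?_, key.mono fun z hz hW => ⟨hz.1, fun j hj => ?_, hz.2.2⟩⟩
  · have b1 : ∀ n : ℕ, BM fun x => min (n * a x) 1 := fun n =>
      ⟨(a1.1.const_mul _).min measurable_const, 1, fun x => by
        rw [abs_of_nonneg (le_min (mul_nonneg n.cast_nonneg (a4 x)) zero_le_one)]
        exact min_le_right _ _⟩
    have b2 : ∀ n : ℕ, ∫ z, min (n * a z.1) 1 * |z.2 k| ∂V ≤ 2 * vQ.real (Wd E k) := fun n => by
      have t1 := h.slice_le hE hP k (((BM.const (n : ℝ)).mul a1).sub (b1 n))
        (fun x m => by simp only [a2 x m]) (fun x t => by simp only [a3 x t])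
        fun x => sub_nonneg.2 (min_le_left _ _)
      simp only [sub_mul, mul_assoc] at t1
      rw [integral_sub ((a1.integrable _).const_mul _) ((b1 n).integrable _),
        integral_sub (i1.const_mul _) (h.integrable_abs (b1 n) k), integral_const_mul,
        integral_const_mul] at t1
      have t2 : ∫ x in Wd E k, min (n * a x) 1 ∂vQ ≤ ∫ _ in Wd E k, 1 ∂vQ :=
        integral_mono ((b1 n).integrable _) (integrable_const _) fun x => min_le_right _ _
      rw [setIntegral_const, smul_eq_mul, mul_one] at t2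
      have t3 : ∫ z, a z.1 * |z.2 k| ∂V = 2 * ∫ x in Wd E k, a x ∂vQ := by linarith
      rw [t3] at t1
      linarith
    refine le_of_tendsto' (tendsto_integral_of_dominated_convergence (fun z => 1 * |z.2 k|)
      (fun n => (h.integrable_abs (b1 n) k).1) (h.integrable_abs (BM.const _) k)
      (fun n => Eventually.of_forall fun z => ?_) (key.mono fun z hz => ?_)) b2
    · rw [Real.norm_eq_abs, abs_mul, abs_abs,
        abs_of_nonneg (le_min (mul_nonneg n.cast_nonneg (a4 _)) zero_le_one)]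
      exact mul_le_mul_of_nonneg_right (min_le_right _ _) (abs_nonneg _)
    · rcases (a4 z.1).eq_or_lt with e | e
      · have e1 : |z.2 k| = 0 := hz.1.trans e.symm
        simp only [e1, mul_zero, tendsto_const_nhds]
      · refine tendsto_const_nhds.congr' ?_
        filter_upwards [(tendsto_natCast_atTop_atTop.atTop_mul_const e).eventually_ge_atTop 1]
          with n hn
        rw [min_eq_right hn, one_mul]
  · rw [hz.2.1 j hj, rad, indicator_of_mem (mod_sub hW)]

end Vale.Agent.P232
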