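import Vale.Agent.P232.TSlice
import Vale.Agent.P232.TSt2

open MeasureTheory Set Function Filter Topology
open scoped ENNReal

namespace Vale.Agent.P232

variable {E : Set X} {p : ℝ} {V : Measure (X × X)}

namespace TRig2Aux

theorem arc_int {S : Set ℝ} {c : ℝ} (h : ArcAt S c) {g : ℝ → ℝ} (hg : BM g) (hp : Periodic g 1) :
    ∫ t in S, g t ∂vI = ∫ t in (c - vI.real S / 2)..(c + vI.real S / 2), g t := by
  have := vI_prob
  rw [← integral_arc hg hp (by positivity) (by linarith [measureReal_le_one (μ := vI) (s := S)])]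
  exact setIntegral_congr_set ((ae_restrict_of_ae h).mono fun t ht => propext ht)

theorem meas_up (k : Fin 3) : Measurable fun q : X × ℝ => update q.1 k q.2 :=
  (mp_update k).measurable

theorem meas_sec (hE : MeasurableSet E) (k : Fin 3) (x : X) :
    MeasurableSet {t | update x k t ∈ E} :=
  ((meas_up k).comp measurable_prodMk_left) hE

theorem meas_int (hE : MeasurableSet E) (k : Fin 3) {g : ℝ → ℝ} (hg : Measurable g) :
    Measurable fun x => ∫ t in {t | update x k t ∈ E}, g t ∂vI := by
  have := vI_prob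
  simp_rw [← integral_indicator (meas_sec hE k _)]
  exact (((hg.comp measurable_snd).indicator (meas_up k hE)).stronglyMeasurable.integral_prod_right'
    (ν := vI)).measurable

/-- the centre of an arc -/
noncomputable def cen (S : Set ℝ) : ℝ :=
  Complex.arg ((∫ t in S, Real.cos (2 * Real.pi * t) ∂vI : ℝ) +
    (∫ t in S, Real.sin (2 * Real.pi * t) ∂vI : ℝ) * Complex.I) / (2 * Real.pi)

theorem arc_cen {S : Set ℝ} {c : ℝ} (h : ArcAt S c) (h0 : 0 < vI.real S) (h1 : vI.real S < 1) :
    ArcAt S (cen S) := by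
  have hpi := Real.pi_pos
  have hs : 0 < Real.sin (Real.pi * vI.real S) / Real.pi :=
    div_pos (Real.sin_pos_of_pos_of_lt_pi (by positivity) (by nlinarith)) hpi
  have e : ∀ a : ℝ, 2 * Real.pi * (c + a / 2) = 2 * Real.pi * c + Real.pi * a := fun a => by ring
  have e' : ∀ a : ℝ, 2 * Real.pi * (c - a / 2) = 2 * Real.pi * c - Real.pi * a := fun a => by ring
  have e1 : ∫ t in S, Real.cos (2 * Real.pi * t) ∂vI =
      Real.sin (Real.pi * vI.real S) / Real.pi * Real.cos (2 * Real.pi * c) := by
    rw [arc_int h ⟨by fun_prop, 1, fun _ => Real.abs_cos_le_one _⟩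
      (fun t => by simp [mul_add]), intervalIntegral.integral_comp_mul_left _ (by positivity),
      integral_cos, e, e', Real.sin_add, Real.sin_sub, smul_eq_mul]
    field_simp
    ring
  have e2 : ∫ t in S, Real.sin (2 * Real.pi * t) ∂vI =
      Real.sin (Real.pi * vI.real S) / Real.pi * Real.sin (2 * Real.pi * c) := by
    rw [arc_int h ⟨by fun_prop, 1, fun _ => Real.abs_sin_le_one _⟩
      (fun t => by simp [mul_add]), intervalIntegral.integral_comp_mul_left _ (by positivity),
      integral_sin, e, e', Real.cos_add, Real.cos_sub, smul_eq_mul]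
    field_simp
    ring
  have e3 := Complex.arg_mul_cos_add_sin_mul_I_sub hs (2 * Real.pi * c)
  generalize ⌊(Real.pi - 2 * Real.pi * c) / (2 * Real.pi)⌋ = m at e3
  have hm : cen S = c + m := by
    rw [cen, e1, e2, Complex.ofReal_mul, Complex.ofReal_mul, mul_assoc _ _ Complex.I, ← mul_add,
      Complex.ofReal_cos, Complex.ofReal_sin, sub_eq_iff_eq_add.1 e3]
    field_simp
    exact add_comm _ _
  refine h.mono fun t ht => ?_
  rwa [hm, ← nd_add_int _ m, show t - (c + m) + m = t - c by ring]

theorem ftc {f : X → ℝ} (hf : PC1 f) (k : Fin 3) (x : X) (a b : ℝ) :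
    ∫ t in a..b, pd k f (update x k t) = f (update x k b) - f (update x k a) :=
  intervalIntegral.integral_eq_sub_of_hasDerivAt (fun t _ => hasDerivAt_update hf.1 k x t)
    (((hf.continuous_pd k).comp (continuous_const.update k continuous_id)).intervalIntegrable _ _)

theorem smooth (h : Var E p V) (hE : MeasurableSet E) (k : Fin 3) {θ : X → ℝ}
    (ha : ∀ᵐ x ∂vQ, x ∈ Wd E k → ArcAt {t | update x k t ∈ E} (θ x)) {f : X → ℝ} (hf : PC1 f) :
    ∫ z, f z.1 * z.2 k ∂V = ∫ x in Wd E k,
      (f (update x k (θ x + ht E k x / 2)) - f (update x k (θ x - ht E k x / 2))) ∂vQ := by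
  have := vI_prob
  have := vQ_prob
  rw [← h.gg f k hf, ← integral_indicator hE,
    integral_update (((hf.bm_pd k).indicator hE).integrable _) k, ← integral_indicator (measurableSet_Wd hE k)]
  refine integral_congr_ae (ha.mono fun x hx => ?_)
  have hb : BM fun t => pd k f (update x k t) :=
    (hf.bm_pd k).comp ((meas_up k).comp measurable_prodMk_left)
  have hp : Periodic (fun t => pd k f (update x k t)) 1 := (hf.per_pd k).update_add_one x k
  have e : ∫ t, E.indicator (pd k f) (update x k t) ∂vI =
      ∫ t in {t | update x k t ∈ E}, pd k f (update x k t) ∂vI :=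
    integral_indicator (f := fun t => pd k f (update x k t)) (meas_sec hE k x)
  simp only [e]
  by_cases hw : x ∈ Wd E k
  · rw [indicator_of_mem hw, arc_int (hx hw) hb hp, ftc hf]
    rfl
  rw [indicator_of_notMem hw]
  rcases (ht_nonneg E k x).eq_or_lt with h0 | h0
  · exact setIntegral_measure_zero _ ((measureReal_eq_zero_iff (measure_ne_top _ _)).1 h0.symm)
  · have h1 : ht E k x = 1 := (ht_le_one E k x).antisymm (not_lt.1 fun h2 => hw ⟨h0, h2⟩)
    rw [Measure.restrict_eq_self_of_ae_mem (s := {t | update x k t ∈ E})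
      ((mem_ae_iff_prob_eq_one (meas_sec hE k x)).2 ((ENNReal.toReal_eq_one_iff _).1 h1)),
      integral_vI_add hp hb 0, ftc hf,
      hf.2.update_add_one, sub_self]

theorem signed (h : Var E p V) (hE : MeasurableSet E) (k : Fin 3) {θ : X → ℝ} (hθ : BM θ)
    (ha : ∀ᵐ x ∂vQ, x ∈ Wd E k → ArcAt {t | update x k t ∈ E} (θ x)) {F : X → ℝ} (hF : BM F)
    (hp : Per F) : ∫ z, F z.1 * z.2 k ∂V = ∫ x in Wd E k,
      (F (update x k (θ x + ht E k x / 2)) - F (update x k (θ x - ht E k x / 2))) ∂vQ := by
  have := vQ_prob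
  let w : X × Bool → ℝ := fun a => if a.2 = true then 1 else -1
  let π : X × Bool → X := fun a => update a.1 k (θ a.1 + w a * (ht E k a.1 / 2))
  have hw : BM w := ⟨Measurable.ite (measurable_snd (measurableSet_singleton true))
    measurable_const measurable_const, 1, fun a => by simp only [w]; split_ifs <;> simp⟩
  have hπ : Measurable π := (meas_up k).comp (measurable_fst.prodMk ((hθ.1.comp measurable_fst).add
    (hw.1.mul (((measurable_ht hE k).comp measurable_fst).div_const 2))))
  have e : ∀ G, BM G → ∫ a, G (π a) * w a ∂(vQ.restrict (Wd E k)).prod Measure.count =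
      ∫ x in Wd E k,
        (G (update x k (θ x + ht E k x / 2)) - G (update x k (θ x - ht E k x / 2))) ∂vQ :=
    fun G hG => by
      rw [integral_prod _ (((hG.comp hπ).mul hw).integrable _)]
      simp [π, w, sub_eq_add_neg]
  rw [← e F hF]
  exact ext_eq_w V _ measurable_fst hπ (by simpa using h.integrable (BM.const 1) k)
    (hw.integrable _) (fun f hf => (smooth h hE k ha hf).trans (e f hf.bm).symm) F hF hp

end TRig2Aux

open TRig2Aux in
/-- measurable periodic choice of the centre of the arcs -/
theorem exists_centre (hE : MeasurableSet E) (hP : PerSet E) (k : Fin 3) :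
    ∃ θ : X → ℝ, BM θ ∧ Per θ ∧ Ind k θ ∧ ∀ x, x ∈ Wd E k →
      (∃ c, ArcAt {t | update x k t ∈ E} c) → ArcAt {t | update x k t ∈ E} (θ x) := by
  refine ⟨fun x => cen {t | update x k t ∈ E}, ⟨?_, Real.pi / (2 * Real.pi), fun x => ?_⟩,
    fun x m => ?_, fun x s => by simp only [update_idem],
    fun x hx ⟨c, hc⟩ => arc_cen hc hx.1 hx.2⟩
  · exact (Complex.measurable_arg.comp ((Complex.measurable_ofReal.comp
      (meas_int hE k (by fun_prop))).add ((Complex.measurable_ofReal.comp
        (meas_int hE k (by fun_prop))).mul_const _))).div_const _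
  · simp only [cen, abs_div, abs_of_pos Real.two_pi_pos]
    exact div_le_div_of_nonneg_right (Complex.abs_arg_le_pi _) Real.two_pi_pos.le
  · refine congrArg cen (Set.ext fun t => Iff.trans ?_ (hP (update x k t) (update m k 0)))
    refine iff_of_eq (congrArg (· ∈ E) (funext fun j => ?_))
    by_cases hj : j = k
    · simp [hj]
    · simp [hj]

open TRig2Aux in
theorem Var.graphs (h : Var E p V) (hE : MeasurableSet E) (hP : PerSet E) (k : Fin 3)
    {θ : X → ℝ} (hθ : BM θ) (hθp : Per θ) (hθi : Ind k θ)
    (ha : ∀ᵐ x ∂vQ, x ∈ Wd E k → ArcAt {t | update x k t ∈ E} (θ x))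
    (hle : ∫ z, |z.2 k| ∂V ≤ 2 * vQ.real (Wd E k)) {F : X → ℝ} (hF : BM F) (hp : Per F) :
    ∫ z, F z.1 * |z.2 k| ∂V = ∫ x in Wd E k,
      (F (update x k (θ x + ht E k x / 2)) + F (update x k (θ x - ht E k x / 2))) ∂vQ := by
  let s : X → ℝ := fun x => if Int.fract (x k - θ x) < 1 / 2 then 1 else -1
  have h1 : ∀ x, |s x| = 1 := fun x => by simp only [s]; split_ifs <;> simp
  have hs : BM s := ⟨Measurable.ite (measurableSet_lt (measurable_fract.comp
    ((measurable_pi_apply k).sub hθ.1)) measurable_const) measurable_const measurable_const,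
    1, fun x => (h1 x).le⟩
  have hsp : Per s := fun x m => by
    simp only [s, hθp x m, add_sub_right_comm, Int.fract_add_intCast]
  have key : ∀ G, BM G → Per G → ∫ z, G z.1 * s z.1 * z.2 k ∂V = ∫ x in Wd E k,
      (G (update x k (θ x + ht E k x / 2)) + G (update x k (θ x - ht E k x / 2))) ∂vQ := by
    intro G hG hGp
    rw [signed h hE k hθ ha (hG.mul hs) fun x m => by rw [hGp, hsp]]
    refine setIntegral_congr_fun (measurableSet_Wd hE k) fun x hx => ?_
    have e : Int.fract (ht E k x / 2) = ht E k x / 2 :=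
      Int.fract_eq_self.2 ⟨by linarith [hx.1], by linarith [hx.2]⟩
    simp only [s, update_self, hθi x, add_sub_cancel_left, sub_sub_cancel_left]
    rw [Int.fract_neg (by rw [e]; linarith [hx.1]), e, if_pos (by linarith [hx.2]),
      if_neg (by linarith [hx.2])]
    ring
  have i1 : Integrable (fun z : X × X => |z.2 k|) V := by
    simpa using h.integrable_abs (BM.const 1) k
  have i2 := h.integrable hs k
  have h2 : ∀ z : X × X, s z.1 * z.2 k ≤ |z.2 k| := fun z =>
    (le_abs_self _).trans (by rw [abs_mul, h1, one_mul])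
  have h3 := key _ (BM.const 1) fun _ _ => rfl
  simp only [one_mul, integral_const, smul_eq_mul, measureReal_restrict_apply_univ] at h3
  rw [← key F hF hp]
  refine integral_congr_ae (((integral_eq_iff_of_ae_le i2 i1 (ae_of_all _ h2)).1
    ((integral_mono i2 i1 h2).antisymm (by linarith))).mono fun z hz => ?_)
  simp only [mul_assoc] at hz ⊢
  rw [hz]

end Vale.Agent.P232
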