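import Vale.Agent.P232.TSt2
import Vale.Agent.P232.TCut

open MeasureTheory Set Function Filter Topology
open scoped ENNReal

namespace Vale.Agent.P232

namespace TZetaAux

theorem nd_lt {J : Finset (Fin 3)} {c x : X} {r : ℝ} (h0 : 0 < r) (hx : x ∈ Mod J c r) {i : Fin 3}
    (hi : i ∈ J) : nd (x i - c i) < r := by
  have h1 : nd (x i - c i) ^ 2 ≤ ∑ i ∈ J, nd (x i - c i) ^ 2 :=
    Finset.single_le_sum (f := fun i => nd (x i - c i) ^ 2) (fun _ _ => sq_nonneg _) hi
  have h2 : ∑ i ∈ J, nd (x i - c i) ^ 2 < r ^ 2 := hx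
  exact lt_of_pow_lt_pow_left₀ 2 h0.le (h1.trans_lt h2)

theorem zero_near {η : X → ℝ} {J : Finset (Fin 3)} {c : X} {r r₁ : ℝ} (h0 : 0 < r₁)
    (h01 : r₁ < r) (hs : ∀ x, x ∉ Mod J c r₁ → η x = 0) {x : X} (hx : x ∉ Mod J c r) :
    ∀ᶠ y in 𝓝 x, η y = 0 := by
  have hc : Continuous (fun y : X => ∑ i ∈ J, nd (y i - c i) ^ 2) :=
    continuous_finsetSum _ (fun i _ =>
      (continuous_nd.comp ((continuous_apply i).sub continuous_const)).pow 2)
  have h1 : r ^ 2 ≤ ∑ i ∈ J, nd (x i - c i) ^ 2 := not_lt.1 hx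
  have h2 : r₁ ^ 2 < ∑ i ∈ J, nd (x i - c i) ^ 2 := by nlinarith
  filter_upwards [(isOpen_lt continuous_const hc).mem_nhds h2] with y hy
  exact hs y (not_lt.2 (le_of_lt hy))

theorem hasDerivAt_q {d : ℝ → ℝ} (hd : ContDiff ℝ 1 d) (J : Finset (Fin 3)) (c x : X) (j : Fin 3) :
    HasDerivAt (fun s => ∑ i ∈ J, d (update x j s i - c i))
      (if j ∈ J then deriv d (x j - c j) else 0) (x j) := by
  have h : ∀ i ∈ J, HasDerivAt (fun s => d (update x j s i - c i))
      (if i = j then deriv d (x i - c i) else 0) (x j) := by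
    intro i _
    by_cases hij : i = j
    · subst hij
      simp only [update_self, if_true]
      exact ((hd.differentiable one_ne_zero) (x i - c i)).hasDerivAt.comp_sub_const _ _
    · simp only [update_of_ne hij, if_neg hij]
      exact hasDerivAt_const _ _
  have h2 := HasDerivAt.fun_sum h
  rwa [Finset.sum_ite_eq'] at h2

end TZetaAux

theorem exists_zeta {η : X → ℝ} (hη : PC1 η) {I : Finset (Fin 3)} {k : Fin 3} (hk : k ∈ I)
    (hi : Ind k η) {c : X} {r r₁ : ℝ} (h0 : 0 < r₁) (h01 : r₁ < r) (h1 : r < 1 / 2)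
    (hs : ∀ x, x ∉ Mod (I.erase k) c r₁ → η x = 0) :
    ∃ ζ : X → ℝ, PC1 ζ ∧ Ind k ζ ∧
      (∀ x, x ∉ Mod (I.erase k) c r → ζ x = 0 ∧ ∀ j, pd j ζ x = 0 ∧ pd j η x = 0) ∧
      ∀ x, x ∈ Mod (I.erase k) c r →
        ζ x = η x * (Real.pi / Real.sin (Real.pi * ht (Mod I c r) k x)) ∧
        ∀ j, pd j ζ x = pd j η x * (Real.pi / Real.sin (Real.pi * ht (Mod I c r) k x)) +
          η x * (Real.pi ^ 2 * Real.cos (Real.pi * ht (Mod I c r) k x) /
            Real.sin (Real.pi * ht (Mod I c r) k x) ^ 2) *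
          (if j ∈ I.erase k then
            4 * (x j - c j - round (x j - c j)) / ht (Mod I c r) k x else 0) := by
  have hr : 0 < r := h0.trans h01
  obtain ⟨s, d, -, -, hd, -, -, -, hcut⟩ := exists_cut hr h1
  set J := I.erase k with hJ
  set u : X → ℝ := ht (Mod I c r) k with hu
  set q : X → ℝ := fun x => ∑ i ∈ J, d (x i - c i) with hq
  have hqc : ContDiff ℝ 1 q :=
    ContDiff.sum (fun i _ => hd.comp ((contDiff_apply ℝ ℝ i).sub contDiff_const))
  have hqW : ∀ x ∈ Mod J c r, q x = ∑ i ∈ J, nd (x i - c i) ^ 2 := fun x hx =>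
    Finset.sum_congr rfl (fun i hi => (hcut _ (TZetaAux.nd_lt hr hx hi)).2.2.1)
  have huW : ∀ x ∈ Mod J c r, u x = 2 * √(r ^ 2 - q x) := fun x hx => by
    rw [hqW x hx]; exact ht_Mod_mem hk c hr h1 x
  have hpos : ∀ x ∈ Mod J c r, 0 < r ^ 2 - q x := fun x hx => by
    rw [hqW x hx]; exact sub_pos.2 hx
  have hu01 : ∀ x ∈ Mod J c r, 0 < u x ∧ u x < 1 := fun x hx => by
    have : x ∈ Wd (Mod I c r) k := by rw [Wd_Mod hk c hr h1]; exact hx
    exact this
  have hsin : ∀ x ∈ Mod J c r, 0 < Real.sin (Real.pi * u x) := fun x hx =>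
    Real.sin_pos_of_pos_of_lt_pi (mul_pos Real.pi_pos (hu01 x hx).1)
      (by nlinarith [Real.pi_pos, (hu01 x hx).2])
  have hz : ∀ x, x ∉ Mod J c r →
      (fun y => η y * (Real.pi / Real.sin (Real.pi * u y))) =ᶠ[𝓝 x] fun _ => 0 := fun x hx => by
    filter_upwards [TZetaAux.zero_near h0 h01 hs hx] with y hy
    rw [hy, zero_mul]
  have hev : ∀ x ∈ Mod J c r, (fun y => η y * (Real.pi / Real.sin (Real.pi * u y))) =ᶠ[𝓝 x]
      fun y => η y * (Real.pi / Real.sin (Real.pi * (2 * √(r ^ 2 - q y)))) := fun x hx => by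
    filter_upwards [(isOpen_Mod J c r).mem_nhds hx] with y hy
    rw [huW y hy]
  have hC : ContDiff ℝ 1 (fun y => η y * (Real.pi / Real.sin (Real.pi * u y))) := by
    rw [contDiff_iff_contDiffAt]
    intro x
    by_cases hx : x ∈ Mod J c r
    · refine ContDiffAt.congr_of_eventuallyEq ?_ (hev x hx)
      refine hη.1.contDiffAt.mul (contDiffAt_const.div ?_ ?_)
      · exact (contDiffAt_const.mul (contDiffAt_const.mul
          ((contDiffAt_const.sub hqc.contDiffAt).sqrt (hpos x hx).ne'))).sin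
      · rw [← huW x hx]; exact (hsin x hx).ne'
    · exact contDiffAt_const.congr_of_eventuallyEq (hz x hx)
  refine ⟨fun y => η y * (Real.pi / Real.sin (Real.pi * u y)), ⟨hC, ?_⟩, ?_, ?_, ?_⟩
  · intro x m
    have h2 := (perSet_Mod I c r).per_ht (isOpen_Mod I c r).measurableSet k x m
    simp only [hu, h2, hη.2 x m]
  · intro x t
    simp only [hu, ht_update, hi x t]
  · intro x hx
    refine ⟨(hz x hx).self_of_nhds, fun j => ⟨?_, ?_⟩⟩
    · rw [pd, (hz x hx).fderiv_eq]; simp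
    · have h2 : η =ᶠ[𝓝 x] fun _ => 0 := TZetaAux.zero_near h0 h01 hs hx
      rw [pd, h2.fderiv_eq]; simp
  · intro x hx
    refine ⟨rfl, fun j => ?_⟩
    have e0 : update x j (x j) = x := update_eq_self j x
    have d1 := hasDerivAt_update hC j x (x j)
    have d2 := hasDerivAt_update hη.1 j x (x j)
    rw [e0] at d1 d2
    have d3 : HasDerivAt (fun s => q (update x j s))
        (if j ∈ J then deriv d (x j - c j) else 0) (x j) := TZetaAux.hasDerivAt_q hd J c x j
    have hp : r ^ 2 - q (update x j (x j)) ≠ 0 := by rw [e0]; exact (hpos x hx).ne'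
    have d4 := ((((d3.const_sub (r ^ 2)).sqrt hp).const_mul 2).const_mul Real.pi).sin
    have hs0 : Real.sin (Real.pi * (2 * √(r ^ 2 - q (update x j (x j))))) ≠ 0 := by
      rw [e0, ← huW x hx]; exact (hsin x hx).ne'
    have d5 := d2.mul ((hasDerivAt_const (x j) Real.pi).div d4 hs0)
    have hc : Tendsto (fun s => update x j s) (𝓝 (x j)) (𝓝 x) := by
      have := (continuous_const.update j continuous_id :
        Continuous (fun s : ℝ => update x j s)).tendsto (x j)
      rwa [e0] at this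
    have d6 := d5.congr_of_eventuallyEq (hc.eventually (hev x hx))
    rw [d1.unique d6]
    have hsq : √(r ^ 2 - q x) = u x / 2 := by rw [huW x hx]; ring
    have hu0 := (hu01 x hx).1.ne'
    have hs1 := (hsin x hx).ne'
    simp only [Pi.div_apply, e0, hsq]
    have e2 : 2 * (u x / 2) = u x := by ring
    rw [e2]
    by_cases hj : j ∈ J
    · rw [if_pos hj, if_pos hj, (hcut _ (TZetaAux.nd_lt hr hx hj)).2.2.2]
      field_simp
      ring
    · rw [if_neg hj, if_neg hj]
      simp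

end Vale.Agent.P232
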