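import Vale.Agent.P232.TRig1
import Vale.Agent.P232.TRig2
import Vale.Agent.P232.TAvg
import Vale.Agent.P232.TZeta

open MeasureTheory Set Function Filter Topology
open scoped ENNReal

namespace Vale.Agent.P232

namespace TRig3Aux

theorem ind_pd {f : X → ℝ} {k j : Fin 3} (h : Ind k f) (hf : ContDiff ℝ 1 f) (hj : j ≠ k) :
    Ind k (pd j f) := by
  intro x t
  have h1 := hasDerivAt_update hf j (update x k t) (x j)
  have h2 := hasDerivAt_update hf j x (x j)
  have e : (fun s => f (update (update x k t) j s)) = fun s => f (update x j s) :=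
    funext fun s => by rw [update_comm hj.symm, h]
  rw [e, update_comm hj.symm] at h1
  simpa only [update_eq_self] using h1.unique h2

/-- the test function of one variable -/
noncomputable def cs (φ t : ℝ) : ℝ := Real.cos (2 * Real.pi * t + φ)

theorem cs_c1 (φ : ℝ) : ContDiff ℝ 1 (cs φ) := by unfold cs; fun_prop

theorem cs_int (φ t : ℝ) (n : ℤ) : cs φ (t + n) = cs φ t := by
  rw [cs, cs, ← Real.cos_add_int_mul_two_pi (2 * Real.pi * t + φ) n]
  congr 1
  ring

theorem cs_per (φ : ℝ) : Periodic (cs φ) 1 := fun t => by simpa using cs_int φ t 1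

theorem cs_bm (φ : ℝ) : BM (cs φ) :=
  ⟨(cs_c1 φ).continuous.measurable, 1, fun _ => Real.abs_cos_le_one _⟩

theorem cs_arc {S : Set ℝ} {θ : ℝ} (φ : ℝ) (h : ArcAt S θ) (hS : vI.real S ≤ 1) :
    ∫ t in S, cs φ t ∂vI = cs φ θ * Real.sin (Real.pi * vI.real S) / Real.pi := by
  have e : S =ᵐ[vI] {t | nd (t - θ) < vI.real S / 2} :=
    eventuallyEq_set.2 (ae_restrict_of_ae h)
  have d : ∀ t, HasDerivAt (fun t => Real.sin (2 * Real.pi * t + φ) / (2 * Real.pi)) (cs φ t) t :=
    fun t => by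
      have := ((((hasDerivAt_id t).const_mul (2 * Real.pi)).add_const φ).sin).div_const
        (2 * Real.pi)
      refine this.congr_deriv ?_
      simp only [cs, id]
      field_simp
  rw [setIntegral_congr_set e, integral_arc (cs_bm φ) (cs_per φ) (by positivity) (by linarith),
    intervalIntegral.integral_eq_sub_of_hasDerivAt (fun t _ => d t)
      ((cs_c1 φ).continuous.intervalIntegrable _ _),
    show 2 * Real.pi * (θ + vI.real S / 2) + φ = 2 * Real.pi * θ + φ + Real.pi * vI.real S by ring,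
    show 2 * Real.pi * (θ - vI.real S / 2) + φ = 2 * Real.pi * θ + φ - Real.pi * vI.real S by ring,
    Real.sin_add, Real.sin_sub, cs]
  field_simp
  ring

theorem cs_two (φ θ u : ℝ) :
    cs φ (θ + u / 2) + cs φ (θ - u / 2) = 2 * cs φ θ * Real.cos (Real.pi * u) := by
  rw [cs, cs, cs, show 2 * Real.pi * (θ + u / 2) + φ = 2 * Real.pi * θ + φ + Real.pi * u by ring,
    show 2 * Real.pi * (θ - u / 2) + φ = 2 * Real.pi * θ + φ - Real.pi * u by ring,
    Real.cos_add (_ + φ), Real.cos_sub]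
  ring

theorem slice {E : Set X} (hE : MeasurableSet E) {k : Fin 3} {a : X → ℝ} (ha : BM a)
    (hi : Ind k a) {g : ℝ → ℝ} (hg : BM g) :
    ∫ x in E, a x * g (x k) ∂vQ = ∫ x, a x * (∫ t in {t | update x k t ∈ E}, g t ∂vI) ∂vQ := by
  have := vQ_prob
  have b : BM fun x : X => a x * g (x k) := ha.mul (hg.comp (measurable_pi_apply k))
  rw [← integral_indicator hE, integral_update ((b.indicator hE).integrable _) k]
  refine integral_congr_ae (ae_of_all _ fun x => ?_)
  have m : MeasurableSet {t | update x k t ∈ E} := measurable_update x hE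
  beta_reduce
  rw [← integral_const_mul, ← integral_indicator m]
  refine integral_congr_ae (ae_of_all _ fun t => ?_)
  by_cases ht : update x k t ∈ E <;> simp [ht, hi x t]

/-- the slope of the boundary -/
noncomputable def slp (I : Finset (Fin 3)) (k j : Fin 3) (c : X) (r : ℝ) (x : X) : ℝ :=
  if j ∈ I.erase k then 2 * (x j - c j - round (x j - c j)) / ht (Mod I c r) k x else 0

theorem slp_meas (I : Finset (Fin 3)) (k j : Fin 3) (c : X) (r : ℝ) :
    Measurable (slp I k j c r) := by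
  unfold slp
  split_ifs
  · have m : Measurable fun x : X => x j - c j := by fun_prop
    simp only [round_eq]
    exact ((m.sub ((measurable_of_countable (fun n : ℤ => (n : ℝ))).comp
      (m.add_const _).floor)).const_mul 2).div (measurable_ht (isOpen_Mod I c r).measurableSet k)
  · exact measurable_const

theorem slp_per (I : Finset (Fin 3)) (k j : Fin 3) (c : X) (r : ℝ) : Per (slp I k j c r) := by
  intro x n
  simp only [slp, (perSet_Mod I c r).per_ht (isOpen_Mod I c r).measurableSet k x n]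
  rw [add_sub_right_comm, round_add_intCast]
  push_cast
  rw [add_sub_add_right_eq_sub]

theorem slp_ind (I : Finset (Fin 3)) {k j : Fin 3} (hj : j ≠ k) (c : X) (r : ℝ) :
    Ind k (slp I k j c r) := fun x t => by
  simp only [slp, ht_update, update_of_ne hj]

theorem slp_le {I : Finset (Fin 3)} {k : Fin 3} (hk : k ∈ I) (j : Fin 3) {c : X} {r r₁ : ℝ}
    (h0 : 0 < r₁) (h01 : r₁ < r) (h1 : r < 1 / 2) {x : X} (hx : x ∈ Mod (I.erase k) c r₁) :
    |slp I k j c r x| ≤ 1 / (2 * √(r ^ 2 - r₁ ^ 2)) := by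
  have p : 0 < 2 * √(r ^ 2 - r₁ ^ 2) := mul_pos two_pos (Real.sqrt_pos.2 (by nlinarith))
  unfold slp
  split_ifs
  · rw [ht_Mod_mem hk c (h0.trans h01) h1, abs_div, abs_mul, abs_two]
    refine div_le_div₀ zero_le_one (by linarith [abs_sub_round (x j - c j)]) p ?_
    refine le_trans ?_ (le_abs_self _)
    gcongr
    exact le_of_lt hx
  · rw [abs_zero]
    positivity

end TRig3Aux

open TRig3Aux in
theorem Var.weak_zero {E : Set X} {p : ℝ} {V : Measure (X × X)} {I : Finset (Fin 3)} {k : Fin 3}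
    {c : X} {r : ℝ} (h : Var E p V) (hE : MeasurableSet E) (hP : PerSet E) (hk : k ∈ I)
    (h0 : 0 < r) (h1 : r < 1 / 2) (hu : ht E k =ᵐ[vQ] ht (Mod I c r) k)
    {θ : X → ℝ} (hθ : BM θ) (hθp : Per θ) (hθi : Ind k θ)
    (ha : ∀ᵐ x ∂vQ, x ∈ Wd E k → ArcAt {t | update x k t ∈ E} (θ x))
    (hle : ∫ z, |z.2 k| ∂V ≤ 2 * vQ.real (Wd E k))
    (hn : ∀ᵐ z ∂V, z.1 ∈ Mod (I.erase k) c r → |z.2 k| = ht (Mod I c r) k z.1 / (2 * r) ∧
      (∀ j ∈ I.erase k, z.2 j = (z.1 j - c j - round (z.1 j - c j)) / r) ∧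
      ∀ j, j ∉ I → z.2 j = 0)
    (φ : ℝ) (η : X → ℝ) (j : Fin 3) (hη : PC1 η) (hs : tsupport η ⊆ Mod (I.erase k) c r) :
    ∫ x, Real.cos (2 * Real.pi * θ x + φ) * pd j η x ∂vQ = 0 := by
  have := vQ_prob
  have bC : BM fun x => cs φ (θ x) := (cs_bm φ).comp hθ.1
  obtain ⟨η', r₁, r0, r1, e1, e2, e3, e4⟩ := exists_avg hη (Finset.notMem_erase k I) h0 hs
  refine (e4 (fun x => cs φ (θ x)) bC (fun x t => by simp only [hθi x t]) j).trans ?_
  by_cases hj : j = k
  · simp only [hj, e2.pd_eq_zero e1.1, mul_zero, integral_zero]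
  obtain ⟨ζ, z1, z2, z3, z4⟩ := exists_zeta e1 hk e2 r0 r1 h1 e3
  have hW : ∀ x, x ∈ Mod (I.erase k) c r ↔ 0 < ht (Mod I c r) k x ∧ ht (Mod I c r) k x < 1 :=
    fun x => by rw [← Wd_Mod hk c h0 h1]; rfl
  have mu := measurable_ht (isOpen_Mod I c r).measurableSet k
  have bF : BM fun x => ζ x * slp I k j c r x := by
    obtain ⟨m, A, hA⟩ := z1.bm
    refine ⟨m.mul (slp_meas I k j c r), A * (1 / (2 * √(r ^ 2 - r₁ ^ 2))), fun x => ?_⟩
    have A0 := (abs_nonneg _).trans (hA x)
    by_cases hx : x ∈ Mod (I.erase k) c r₁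
    · rw [abs_mul]
      exact mul_le_mul (hA x) (slp_le hk j r0 r1 h1 hx) (abs_nonneg _) A0
    · have : ζ x = 0 := by
        by_cases hx' : x ∈ Mod (I.erase k) c r
        · rw [(z4 x hx').1, e3 x hx, zero_mul]
        · exact (z3 x hx').1
      simp only [this, zero_mul, abs_zero]
      positivity
  have gg := h.gg (fun x => ζ x * cs φ (x k)) j (z1.mul (pc1_coord (cs_c1 φ) (cs_per φ) k))
  have hL : ∫ x in E, pd j (fun x => ζ x * cs φ (x k)) x ∂vQ = ∫ x, pd j ζ x *
      (cs φ (θ x) * Real.sin (Real.pi * ht (Mod I c r) k x) / Real.pi) ∂vQ := by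
    simp only [pd_mul z1.1 (pc1_coord (cs_c1 φ) (cs_per φ) k).1, pd_coord (cs_c1 φ), if_neg hj,
      mul_zero, add_zero]
    rw [slice hE (z1.bm_pd j) (ind_pd z2 z1.1 hj) (cs_bm φ)]
    refine integral_congr_ae ?_
    filter_upwards [hu, ha] with x x1 x2
    by_cases hx : x ∈ Mod (I.erase k) c r
    · rw [cs_arc φ (x2 (by rw [hW, ← x1] at hx; exact hx)) (ht_le_one E k x), ← x1]
      rfl
    · simp only [((z3 x hx).2 j).1, zero_mul]
  have hR : ∫ z, ζ z.1 * cs φ (z.1 k) * z.2 j ∂V = ∫ x, ζ x * slp I k j c r x *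
      (2 * cs φ (θ x) * Real.cos (Real.pi * ht (Mod I c r) k x)) ∂vQ := by
    have g := h.graphs hE hP k hθ hθp hθi ha hle (F := fun x => ζ x * slp I k j c r x * cs φ (x k))
      (bF.mul ((cs_bm φ).comp (measurable_pi_apply k))) fun x n => by
        simp only [z1.2 x n, slp_per I k j c r x n, cs_int]
    refine (integral_congr_ae ?_).trans (g.trans ?_)
    · filter_upwards [hn] with z hz
      by_cases hx : z.1 ∈ Mod (I.erase k) c r
      · obtain ⟨a1, a2, a3⟩ := hz hx
        have := ((hW _).1 hx).1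
        rw [a1, slp]
        split_ifs with q
        · rw [a2 j q]
          field_simp
        · rw [a3 j fun q' => q (Finset.mem_erase.2 ⟨hj, q'⟩)]
          simp
      · simp only [(z3 _ hx).1, zero_mul]
    · rw [← integral_indicator (measurableSet_Wd hE k)]
      refine integral_congr_ae ?_
      filter_upwards [hu] with x x1
      by_cases hx : x ∈ Mod (I.erase k) c r
      · rw [indicator_of_mem (by rw [hW, ← x1] at hx; exact hx), z2, z2, slp_ind I hj, slp_ind I hj,
          update_self, update_self, ← mul_add, cs_two, x1]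
      · rw [indicator_of_notMem (by rw [hW, ← x1] at hx; exact hx), (z3 x hx).1, zero_mul, zero_mul]
  have bs : BM fun x => Real.sin (Real.pi * ht (Mod I c r) k x) :=
    ⟨(mu.const_mul _).sin, 1, fun _ => Real.abs_sin_le_one _⟩
  have bc : BM fun x => Real.cos (Real.pi * ht (Mod I c r) k x) :=
    ⟨(mu.const_mul _).cos, 1, fun _ => Real.abs_cos_le_one _⟩
  have b1 : BM fun x => pd j ζ x *
      (cs φ (θ x) * Real.sin (Real.pi * ht (Mod I c r) k x) / Real.pi) :=
    (z1.bm_pd j).mul ((bC.mul bs).mul (BM.const Real.pi⁻¹))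
  rw [hL, hR, ← sub_eq_zero, ← integral_sub (b1.integrable _)
    ((bF.mul (((BM.const 2).mul bC).mul bc)).integrable _)] at gg
  refine (integral_congr_ae (ae_of_all _ fun x => ?_)).trans gg
  by_cases hx : x ∈ Mod (I.erase k) c r
  · obtain ⟨u0, u1⟩ := (hW x).1 hx
    have s0 : 0 < Real.sin (Real.pi * ht (Mod I c r) k x) :=
      Real.sin_pos_of_pos_of_lt_pi (by positivity) (mul_lt_of_lt_one_right Real.pi_pos u1)
    rw [(z4 x hx).1, (z4 x hx).2 j, slp]
    split_ifs <;> field_simp <;> ring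
  · simp only [(z3 x hx).1, ((z3 x hx).2 j).1, ((z3 x hx).2 j).2, zero_mul, mul_zero, sub_zero]

end Vale.Agent.P232
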