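import Vale.Agent.P232.TGG
import Vale.Agent.P232.TExt
import Vale.Agent.P232.TArc2

open MeasureTheory Set Function Filter Topology
open scoped ENNReal

namespace Vale.Agent.P232

variable {E : Set X} {p : ℝ} {V : Measure (X × X)}

namespace TSliceAux

variable {k : Fin 3} {η : X → ℝ} {A : Set X}

/-- the section of `E` through `x` -/
def sec (E : Set X) (k : Fin 3) (x : X) : Set ℝ := {t | update x k t ∈ E}

theorem upd_add (x : X) (m : Fin 3 → ℤ) (k : Fin 3) (t : ℝ) :
    update (fun j => x j + (m j : ℝ)) k t =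
      fun j => update x k t j + ((update m k 0 j : ℤ) : ℝ) := by
  funext j
  by_cases h : j = k
  · subst h
    simp
  · simp [update_of_ne h]

theorem sec_meas (hE : MeasurableSet E) (k : Fin 3) (x : X) : MeasurableSet (sec E k x) :=
  measurable_update x hE

theorem sec_add (hP : PerSet E) (k : Fin 3) (x : X) (m : Fin 3 → ℤ) :
    sec E k (fun j => x j + (m j : ℝ)) = sec E k x := by
  ext t
  simp only [sec, mem_setOf_eq, upd_add]
  exact hP _ _

theorem sec_upd (E : Set X) (k : Fin 3) (x : X) (t : ℝ) : sec E k (update x k t) = sec E k x := by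
  simp only [sec, update_idem]

/-- integral of `g` over the section -/
noncomputable def Vt (E : Set X) (k : Fin 3) (g : ℝ → ℝ) (x : X) : ℝ := ∫ t in sec E k x, g t ∂vI

theorem Vt_eq (hE : MeasurableSet E) (k : Fin 3) (g : ℝ → ℝ) (x : X) :
    Vt E k g x = ∫ t, E.indicator (fun y => g (y k)) (update x k t) ∂vI := by
  rw [Vt, ← integral_indicator (sec_meas hE k x)]
  refine integral_congr_ae (ae_of_all _ fun t => ?_)
  by_cases h : update x k t ∈ E
  · simp [h, show t ∈ sec E k x from h]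
  · simp [h, show t ∉ sec E k x from h]

theorem bm_Vt (hE : MeasurableSet E) (k : Fin 3) {g : ℝ → ℝ} (hg : BM g) : BM (Vt E k g) := by
  haveI := vI_prob
  have hb : BM (E.indicator fun y : X => g (y k)) := (hg.comp (measurable_pi_apply k)).indicator hE
  have e : Vt E k g = fun x => ∫ t, E.indicator (fun y => g (y k)) (update x k t) ∂vI :=
    funext (Vt_eq hE k g)
  obtain ⟨hm, C, hC⟩ := hb
  rw [e]
  refine ⟨((hm.comp measurable_update').stronglyMeasurable.integral_prod_right').measurable, C,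
    fun x => ?_⟩
  have := norm_integral_le_of_norm_le_const (μ := vI) (C := C)
    (f := fun t => E.indicator (fun y => g (y k)) (update x k t)) (ae_of_all _ fun t => hC _)
  simpa using this

theorem bm_deriv {θ : ℝ → ℝ} (h1 : ContDiff ℝ 1 θ) (h2 : Periodic θ 1) : BM (deriv θ) := by
  obtain ⟨-, C, hC⟩ := (pc1_coord h1 h2 0).bm_pd 0
  refine ⟨measurable_deriv θ, C, fun t => ?_⟩
  simpa [pd_coord h1] using hC fun _ => t

theorem pc1_upd (h : PC1 η) (k : Fin 3) : PC1 fun x => η (update x k 0) := by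
  refine ⟨h.1.comp (contDiff_pi.2 fun j => ?_), fun x m => ?_⟩
  · by_cases e : j = k
    · subst e
      simpa using contDiff_const
    · simpa [update_of_ne e] using contDiff_apply ℝ ℝ j
  · simp only [upd_add]
    exact h.2 _ _

theorem test_pc1 (h : Var E p V) (hE : MeasurableSet E) {θ : ℝ → ℝ} (h1 : ContDiff ℝ 1 θ)
    (h2 : Periodic θ 1) (h3 : ∀ t, |θ t| ≤ 1) (hη : PC1 η) (hi : Ind k η) (h0 : ∀ x, 0 ≤ η x) :
    ∫ x, η x * Vt E k (deriv θ) x ∂vQ ≤ ∫ z, η z.1 * |z.2 k| ∂V := by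
  haveI := vQ_prob
  have hc := pc1_coord h1 h2 k
  have g := h.gg _ k (hη.mul hc)
  have e : ∀ x, pd k (fun x => η x * θ (x k)) x = η x * deriv θ (x k) := fun x => by
    rw [pd_mul hη.1 hc.1, hi.pd_eq_zero hη.1, pd_coord h1]
    simp
  have hb : BM (E.indicator fun x : X => η x * deriv θ (x k)) :=
    (hη.bm.mul ((bm_deriv h1 h2).comp (measurable_pi_apply k))).indicator hE
  simp only [e] at g
  rw [← integral_indicator hE, integral_update (hb.integrable vQ) k] at g
  have e2 : ∀ x, ∫ t, E.indicator (fun x : X => η x * deriv θ (x k)) (update x k t) ∂vI =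
      η x * Vt E k (deriv θ) x := fun x => by
    rw [Vt_eq hE, ← integral_const_mul]
    refine integral_congr_ae (ae_of_all _ fun t => ?_)
    by_cases q : update x k t ∈ E
    · simp [q, hi x t]
    · simp [q]
  simp only [e2] at g
  rw [g]
  refine integral_mono (h.integrable (hη.mul hc).bm k) (h.integrable_abs hη.bm k) fun z => ?_
  show η z.1 * θ (z.1 k) * z.2 k ≤ η z.1 * |z.2 k|
  rw [mul_assoc]
  refine mul_le_mul_of_nonneg_left ((le_abs_self _).trans ?_) (h0 _)
  rw [abs_mul]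
  exact mul_le_of_le_one_left (abs_nonneg _) (h3 _)

/-- admissible weights -/
structure Ad (k : Fin 3) (η : X → ℝ) : Prop where
  bm : BM η
  per : Per η
  ind : Ind k η
  pos : ∀ x, 0 ≤ η x

/-- admissible sets -/
structure As (k : Fin 3) (A : Set X) : Prop where
  meas : MeasurableSet A
  per : PerSet A
  ind : ∀ x t, update x k t ∈ A ↔ x ∈ A

theorem As.compl (h : As k A) : As k Aᶜ :=
  ⟨h.meas.compl, fun x m => not_congr (h.per x m), fun x t => not_congr (h.ind x t)⟩

theorem Ad.indicator (h : Ad k η) (hA : As k A) : Ad k (A.indicator η) := by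
  refine ⟨h.bm.indicator hA.meas, fun x m => ?_, fun x t => ?_, indicator_nonneg fun x _ => h.pos x⟩
  · by_cases q : x ∈ A
    · rw [indicator_of_mem q, indicator_of_mem ((hA.per x m).2 q), h.per]
    · rw [indicator_of_notMem q, indicator_of_notMem (mt (hA.per x m).1 q)]
  · by_cases q : x ∈ A
    · rw [indicator_of_mem q, indicator_of_mem ((hA.ind x t).2 q), h.ind]
    · rw [indicator_of_notMem q, indicator_of_notMem (mt (hA.ind x t).1 q)]

theorem ad_one (k : Fin 3) : Ad k fun _ => 1 :=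
  ⟨BM.const 1, fun _ _ => rfl, fun _ _ => rfl, fun _ => zero_le_one⟩

theorem as_lev (hE : MeasurableSet E) (hP : PerSet E) (k : Fin 3) {g : ℝ → ℝ} (hg : BM g)
    (c : ℝ) : As k {x | x ∈ Wd E k ∧ c ≤ Vt E k g x} := by
  refine ⟨(measurableSet_Wd hE k).inter (measurableSet_le measurable_const (bm_Vt hE k hg).1),
    fun x m => ?_, fun x t => ?_⟩
  · simp only [mem_setOf_eq, Wd, hP.per_ht hE k x m, Vt, sec_add hP]
  · simp only [mem_setOf_eq, Wd, ht_update, Vt, sec_upd]

theorem split (h : Var E p V) (hη : Ad k η) (hA : As k A) :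
    ∫ z, η z.1 * |z.2 k| ∂V =
      ∫ z, A.indicator η z.1 * |z.2 k| ∂V + ∫ z, Aᶜ.indicator η z.1 * |z.2 k| ∂V := by
  rw [← integral_add (h.integrable_abs (hη.indicator hA).bm k)
    (h.integrable_abs (hη.indicator hA.compl).bm k)]
  refine integral_congr_ae (ae_of_all _ fun z => ?_)
  show η z.1 * |z.2 k| = A.indicator η z.1 * |z.2 k| + Aᶜ.indicator η z.1 * |z.2 k|
  rw [← add_mul, indicator_self_add_compl_apply]

theorem cover (h : Var E p V) {c : ℝ} {A : ℕ → Set X} (hA : ∀ n, As k (A n))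
    (hc : ∀ n η, Ad k η → c * ∫ x in A n, η x ∂vQ ≤ ∫ z, (A n).indicator η z.1 * |z.2 k| ∂V)
    (hη : Ad k η) : c * ∫ x in ⋃ n, A n, η x ∂vQ ≤ ∫ z, η z.1 * |z.2 k| ∂V := by
  haveI := vQ_prob
  have hm : ∀ n, MeasurableSet (accumulate A n) := fun n =>
    MeasurableSet.biUnion (to_countable _) fun j _ => (hA j).meas
  have key : ∀ n η, Ad k η →
      c * ∫ x in accumulate A n, η x ∂vQ ≤ ∫ z, η z.1 * |z.2 k| ∂V := by
    intro n
    induction n with
    | zero =>
      intro η hη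
      have a : 0 ≤ ∫ z, (A 0)ᶜ.indicator η z.1 * |z.2 k| ∂V := integral_nonneg fun z =>
        mul_nonneg ((hη.indicator (hA 0).compl).pos _) (abs_nonneg _)
      rw [accumulate_zero_nat, split h hη (hA 0)]
      linarith [hc 0 η hη]
    | succ n ih =>
      intro η hη
      have a := ih _ (hη.indicator (hA (n + 1)).compl)
      have i := hη.bm.integrable vQ
      rw [setIntegral_indicator (hA (n + 1)).compl.meas] at a
      rw [accumulate_succ, ← diff_union_self, setIntegral_union disjoint_sdiff_left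
        (hA (n + 1)).meas i.integrableOn i.integrableOn, split h hη (hA (n + 1)), mul_add, diff_eq]
      linarith [hc (n + 1) η hη]
  have l := (tendsto_setIntegral_of_monotone (μ := vQ) hm monotone_accumulate
    (hη.bm.integrable vQ).integrableOn).const_mul c
  rw [iUnion_accumulate] at l
  exact le_of_tendsto' l fun n => key n η hη

end TSliceAux

open TSliceAux

theorem Var.test_le (h : Var E p V) (hE : MeasurableSet E) (hP : PerSet E) (k : Fin 3)
    {θ : ℝ → ℝ} (h1 : ContDiff ℝ 1 θ) (h2 : Periodic θ 1) (h3 : ∀ t, |θ t| ≤ 1)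
    {η : X → ℝ} (hη : BM η) (hp : Per η) (hi : Ind k η) (h0 : ∀ x, 0 ≤ η x) :
    ∫ x, η x * (∫ t in {t | update x k t ∈ E}, deriv θ t ∂vI) ∂vQ ≤
      ∫ z, η z.1 * |z.2 k| ∂V := by
  haveI := vQ_prob
  have i2 : Integrable (fun z : X × X => |z.2 k|) V := by
    simpa using h.integrable_abs (BM.const (1 : ℝ)) k
  have key := ext_le_w vQ V (π₁ := fun x => update x k 0) (π₂ := fun z => update z.1 k 0)
    measurable_update_left (measurable_update_left.comp measurable_fst)
    ((bm_Vt hE k (bm_deriv h1 h2)).integrable vQ) i2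
    (fun ζ a b => test_pc1 h hE h1 h2 h3 (pc1_upd a k)
      (fun x t => by simp only [update_idem]) fun x => b _) η hη hp h0
  simp only [hi _ 0] at key
  exact key

theorem TSliceAux.lev_le (h : Var E p V) (hE : MeasurableSet E) (hP : PerSet E) (k : Fin 3)
    {θ : ℝ → ℝ} (h1 : ContDiff ℝ 1 θ) (h2 : Periodic θ 1) (h3 : ∀ t, |θ t| ≤ 1) (c : ℝ)
    {η : X → ℝ} (hη : Ad k η) :
    c * ∫ x in {x | x ∈ Wd E k ∧ c ≤ Vt E k (deriv θ) x}, η x ∂vQ ≤
      ∫ z, {x | x ∈ Wd E k ∧ c ≤ Vt E k (deriv θ) x}.indicator η z.1 * |z.2 k| ∂V := by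
  haveI := vQ_prob
  have hA := as_lev hE hP k (bm_deriv h1 h2) c
  have a := hη.indicator hA
  refine le_trans ?_ (h.test_le hE hP k h1 h2 h3 a.bm a.per a.ind a.pos)
  rw [← integral_indicator hA.meas, ← integral_const_mul]
  refine integral_mono (((BM.const c).mul a.bm).integrable vQ)
    ((a.bm.mul (bm_Vt hE k (bm_deriv h1 h2))).integrable vQ) fun x => ?_
  by_cases q : x ∈ {x | x ∈ Wd E k ∧ c ≤ Vt E k (deriv θ) x}
  · simp only [indicator_of_mem q]
    rw [mul_comm]
    exact mul_le_mul_of_nonneg_left q.2 (hη.pos x)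
  · simp only [indicator_of_notMem q, mul_zero, zero_mul, le_refl]

theorem Var.slice_le (h : Var E p V) (hE : MeasurableSet E) (hP : PerSet E) (k : Fin 3)
    {η : X → ℝ} (hη : BM η) (hp : Per η) (hi : Ind k η) (h0 : ∀ x, 0 ≤ η x) :
    2 * ∫ x in Wd E k, η x ∂vQ ≤ ∫ z, η z.1 * |z.2 k| ∂V := by
  obtain ⟨θ, t1, t2⟩ := exists_fam
  have key : ∀ ε : ℝ, 0 < ε → (2 - ε) * ∫ x in Wd E k, η x ∂vQ ≤ ∫ z, η z.1 * |z.2 k| ∂V := by
    intro ε hε
    have e : Wd E k = ⋃ n, {x | x ∈ Wd E k ∧ 2 - ε ≤ Vt E k (deriv (θ n)) x} := by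
      refine Subset.antisymm (fun x hx => ?_) (iUnion_subset fun n x hx => hx.1)
      obtain ⟨n, hn⟩ := (t2 _ (sec_meas hE k x) (hP.update_add_one x k) hx.1 hx.2).1 ε hε
      exact mem_iUnion.2 ⟨n, hx, hn⟩
    have := cover h (fun n => as_lev hE hP k (bm_deriv (t1 n).1 (t1 n).2.1) (2 - ε))
      (fun n ζ a => lev_le h hE hP k (t1 n).1 (t1 n).2.1 (t1 n).2.2 (2 - ε) a) ⟨hη, hp, hi, h0⟩
    rwa [← e] at this
  have c : Continuous fun ε : ℝ => (2 - ε) * ∫ x in Wd E k, η x ∂vQ := by fun_prop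
  have l := (c.tendsto 0).mono_left (nhdsWithin_le_nhds (s := Ioi (0 : ℝ)))
  rw [sub_zero] at l
  exact le_of_tendsto l (eventually_mem_nhdsWithin.mono key)

theorem Var.arc (h : Var E p V) (hE : MeasurableSet E) (hP : PerSet E) (k : Fin 3)
    (hle : ∫ z, |z.2 k| ∂V ≤ 2 * vQ.real (Wd E k)) :
    ∀ᵐ x ∂vQ, x ∈ Wd E k → ∃ c, ArcAt {t | update x k t ∈ E} c := by
  haveI := vQ_prob
  obtain ⟨θ, t1, t2⟩ := exists_fam
  have key : ∀ n, ∀ᵐ x ∂vQ, x ∉ {x | x ∈ Wd E k ∧ 3 ≤ Vt E k (deriv (θ n)) x} := by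
    intro n
    have hA := as_lev hE hP k (bm_deriv (t1 n).1 (t1 n).2.1) 3
    have a1 := lev_le h hE hP k (t1 n).1 (t1 n).2.1 (t1 n).2.2 3 (ad_one k)
    have b := (ad_one k).indicator hA.compl
    have a2 := h.slice_le hE hP k b.bm b.per b.ind b.pos
    have a3 := split h (ad_one k) hA
    have hs : {x | x ∈ Wd E k ∧ 3 ≤ Vt E k (deriv (θ n)) x} ⊆ Wd E k := fun x hx => hx.1
    rw [setIntegral_indicator hA.compl.meas, ← diff_eq] at a2
    generalize {x | x ∈ Wd E k ∧ 3 ≤ Vt E k (deriv (θ n)) x} = B at hA a1 a2 a3 hs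
    have a4 := measureReal_diff (μ := vQ) hs hA.meas
    simp only [integral_const, smul_eq_mul, mul_one, one_mul, measureReal_restrict_apply_univ]
      at a1 a2 a3
    have a5 : vQ.real B = 0 := le_antisymm (by linarith) measureReal_nonneg
    exact measure_eq_zero_iff_ae_notMem.1 ((measureReal_eq_zero_iff (measure_ne_top _ _)).1 a5)
  filter_upwards [ae_all_iff.2 key] with x hx hW
  by_contra q
  obtain ⟨n, hn⟩ := (t2 _ (sec_meas hE k x) (hP.update_add_one x k) hW.1 hW.2).2 q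
  exact hx n ⟨hW, hn⟩

end Vale.Agent.P232
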