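import Vale.Agent.P232.APer

open MeasureTheory Set Function Filter Topology
open scoped ENNReal

namespace Vale.Agent.P232

namespace TSt1Aux

theorem Q_sub : Q ⊆ Icc 0 1 := fun _ hx => ⟨fun i => (hx i).1.le, fun i => (hx i).2.le⟩

theorem int1 {g : X → ℝ} (hg : Continuous g) : Integrable g vQ :=
  (hg.continuousOn.integrableOn_compact isCompact_Icc).mono_set Q_sub

theorem int2 {G : ℝ → X → ℝ} (hG : Continuous (uncurry G)) (a b : ℝ) :
    Integrable (uncurry G) (((volume : Measure ℝ).restrict (uIoc a b)).prod vQ) := by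
  rw [vQ, Measure.prod_restrict]
  exact (hG.continuousOn.integrableOn_compact (isCompact_uIcc.prod isCompact_Icc)).mono_set
    (prod_mono uIoc_subset_uIcc Q_sub)

variable {w F : X → ℝ} {j k : Fin 3}

theorem cd (hw : ContDiff ℝ 1 w) (k : Fin 3) (τ : ℝ) :
    ContDiff ℝ 1 fun x : X => update x k (w x * τ) := by
  refine contDiff_pi.2 fun i => ?_
  by_cases h : i = k
  · subst h
    simpa using hw.mul contDiff_const
  · simpa [update_of_ne h] using contDiff_apply ℝ ℝ i

theorem pc (hw : PC1 w) (hF : PC1 F) (k : Fin 3) (τ : ℝ) :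
    PC1 fun x : X => F (update x k (w x * τ)) := by
  refine ⟨hF.1.comp (cd hw.1 k τ), fun x m => ?_⟩
  beta_reduce
  rw [hw.2 x m, ← hF.2 (update x k (w x * τ)) (update m k 0)]
  congr 1
  funext i
  by_cases h : i = k
  · subst h; simp
  · simp [update_of_ne h]

theorem chain (hw : ContDiff ℝ 1 w) (hF : ContDiff ℝ 1 F) (h : j ≠ k) (τ : ℝ) (x : X) :
    pd j (fun x : X => F (update x k (w x * τ))) x =
      pd j F (update x k (w x * τ)) + τ * pd j w x * pd k F (update x k (w x * τ)) := by
  have h1 := hasDerivAt_update (hF.comp (cd hw k τ)) j x (x j)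
  have h2 := hasDerivAt_update hw j x (x j)
  rw [update_eq_self] at h1 h2
  have h3 : HasDerivAt (fun s => update (update x j s) k (w (update x j s) * τ))
      ((Pi.single j 1 : X) + (τ * pd j w x) • (Pi.single k 1 : X)) (x j) := by
    refine hasDerivAt_pi.2 fun i => ?_
    by_cases hi : i = k
    · subst hi
      simpa [h.symm, mul_comm] using h2.mul_const τ
    · by_cases hj : i = j
      · subst hj
        simpa [update_of_ne hi, hi] using hasDerivAt_id' (x i)
      · simpa [update_of_ne hi, update_of_ne hj, hi, hj] using hasDerivAt_const (x j) (x i)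
  have h4 := ((hF.differentiable one_ne_zero _).hasFDerivAt).comp_hasDerivAt (x j) h3
  rw [update_eq_self] at h4
  have h5 := h1.unique h4
  rw [map_add, map_smul, smul_eq_mul] at h5
  exact h5

/-- the integrand -/
noncomputable def G (w F : X → ℝ) (j k : Fin 3) (τ : ℝ) (x : X) : ℝ :=
  pd j w x * (F (update x k (w x * τ)) + τ * (pd k F (update x k (w x * τ)) * w x)) +
    w x * pd j F (update x k (w x * τ))

theorem cG (hw : PC1 w) (hF : PC1 F) (j k : Fin 3) : Continuous (uncurry (G w F j k)) := by
  have h0 : Continuous fun p : ℝ × X => w p.2 := hw.1.continuous.comp continuous_snd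
  have h1 : Continuous fun p : ℝ × X => update p.2 k (w p.2 * p.1) :=
    continuous_snd.update k (h0.mul continuous_fst)
  exact (((hw.continuous_pd j).comp continuous_snd).mul ((hF.1.continuous.comp h1).add
    (continuous_fst.mul (((hF.continuous_pd k).comp h1).mul h0)))).add
    (h0.mul ((hF.continuous_pd j).comp h1))

theorem G0 (hw : PC1 w) (hF : PC1 F) (h : j ≠ k) (τ : ℝ) : ∫ x, G w F j k τ x ∂vQ = 0 := by
  rw [← integral_pd_eq_zero (hw.mul (pc hw hF k τ)) j]
  refine integral_congr_ae (Eventually.of_forall fun x => ?_)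
  rw [pd_mul hw.1 (pc hw hF k τ).1, chain hw.1 hF.1 h, G]
  ring

theorem A0 (hw : PC1 w) (hF : PC1 F) (h : j ≠ k) :
    ∫ x, (∫ τ in (-(1 / 2) : ℝ)..(1 / 2), G w F j k τ x) ∂vQ = 0 := by
  have := vQ_prob
  rw [← intervalIntegral_integral_swap (int2 (cG hw hF j k) _ _)]
  simp [G0 hw hF h]

theorem cA (hw : PC1 w) (hF : PC1 F) (j k : Fin 3) :
    Continuous fun x => ∫ τ in (-(1 / 2) : ℝ)..(1 / 2), G w F j k τ x :=
  intervalIntegral.continuous_parametric_intervalIntegral_of_continuous'
    (f := fun x τ => G w F j k τ x) ((cG hw hF j k).comp continuous_swap) _ _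

theorem Aeq (hF : PC1 F) (j k : Fin 3) (x : X) :
    ∫ τ in (-(1 / 2) : ℝ)..(1 / 2), G w F j k τ x =
      pd j w x * ((F (update x k (w x / 2)) + F (update x k (-(w x / 2)))) / 2) +
        ∫ t in (-(w x / 2))..(w x / 2), pd j F (update x k t) := by
  have h1 : Continuous fun τ : ℝ => update x k (w x * τ) :=
    continuous_const.update k (continuous_const.mul continuous_id)
  have c1 : Continuous fun τ : ℝ =>
      F (update x k (w x * τ)) + τ * (pd k F (update x k (w x * τ)) * w x) :=
    (hF.1.continuous.comp h1).add (continuous_id.mul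
      (((hF.continuous_pd k).comp h1).mul continuous_const))
  have c2 : Continuous fun τ : ℝ => w x * pd j F (update x k (w x * τ)) :=
    continuous_const.mul ((hF.continuous_pd j).comp h1)
  have d1 : ∀ τ : ℝ, HasDerivAt (fun τ : ℝ => τ * F (update x k (w x * τ)))
      (F (update x k (w x * τ)) + τ * (pd k F (update x k (w x * τ)) * w x)) τ := fun τ => by
    have k1 := (hasDerivAt_update hF.1 k x (w x * τ)).comp τ ((hasDerivAt_id' τ).const_mul (w x))
    have k2 := (hasDerivAt_id' τ).mul k1
    exact k2.congr_deriv (by simp)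
  have e1 : w x * (1 / 2) = w x / 2 := by ring
  have e2 : w x * -(1 / 2) = -(w x / 2) := by ring
  have e3 := intervalIntegral.smul_integral_comp_mul_left (a := -(1 / 2)) (b := 1 / 2)
    (fun t => pd j F (update x k t)) (w x)
  have c3 : Continuous fun τ : ℝ => pd j w x *
      (F (update x k (w x * τ)) + τ * (pd k F (update x k (w x * τ)) * w x)) :=
    continuous_const.mul c1
  rw [smul_eq_mul] at e3
  unfold G
  rw [intervalIntegral.integral_add (c3.intervalIntegrable _ _)
    (c2.intervalIntegrable _ _), intervalIntegral.integral_const_mul,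
    intervalIntegral.integral_const_mul,
    intervalIntegral.integral_eq_sub_of_hasDerivAt (fun τ _ => d1 τ) (c1.intervalIntegrable _ _),
    e3, e1, e2]
  ring

end TSt1Aux

open TSt1Aux in
theorem smooth_formula {w : X → ℝ} (hw : PC1 w) {k : Fin 3} (_hi : Ind k w)
    {Y : Fin 3 → X → ℝ} (hY : ∀ i, PC1 (Y i)) :
    ∫ x, (∫ t in (-(w x / 2))..(w x / 2), dvg Y (update x k t)) ∂vQ =
      ∫ x, ((Y k (update x k (w x / 2)) - Y k (update x k (-(w x / 2)))) -
        ∑ j ∈ Finset.univ.erase k, pd j w x *
          ((Y j (update x k (w x / 2)) + Y j (update x k (-(w x / 2)))) / 2)) ∂vQ := by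
  have cu : ∀ (i : Fin 3) (x : X), Continuous fun t : ℝ => pd i (Y i) (update x k t) :=
    fun i x => ((hY i).continuous_pd i).comp (continuous_const.update k continuous_id)
  have e : ∀ x, ∫ t in (-(w x / 2))..(w x / 2), dvg Y (update x k t) =
      ((Y k (update x k (w x / 2)) - Y k (update x k (-(w x / 2)))) -
        ∑ j ∈ Finset.univ.erase k, pd j w x *
          ((Y j (update x k (w x / 2)) + Y j (update x k (-(w x / 2)))) / 2)) +
        ∑ j ∈ Finset.univ.erase k, ∫ τ in (-(1 / 2) : ℝ)..(1 / 2), G w (Y j) j k τ x := by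
    intro x
    have e0 : ∀ t, dvg Y (update x k t) = ∑ i, pd i (Y i) (update x k t) := fun _ => rfl
    simp only [e0, Aeq (hY _), Finset.sum_add_distrib]
    rw [intervalIntegral.integral_finsetSum fun i _ => (cu i x).intervalIntegrable _ _,
      ← Finset.add_sum_erase _ _ (Finset.mem_univ k),
      intervalIntegral.integral_eq_sub_of_hasDerivAt (fun t _ => hasDerivAt_update (hY k).1 k x t)
        ((cu k x).intervalIntegrable _ _)]
    ring
  have p1 : Continuous fun x : X => update x k (w x / 2) :=
    continuous_id.update k (hw.1.continuous.div_const 2)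
  have p2 : Continuous fun x : X => update x k (-(w x / 2)) :=
    continuous_id.update k (hw.1.continuous.div_const 2).neg
  have p3 : Continuous fun x : X => (Y k (update x k (w x / 2)) - Y k (update x k (-(w x / 2)))) -
      ∑ j ∈ Finset.univ.erase k, pd j w x *
        ((Y j (update x k (w x / 2)) + Y j (update x k (-(w x / 2)))) / 2) :=
    (((hY k).1.continuous.comp p1).sub ((hY k).1.continuous.comp p2)).sub
      (continuous_finsetSum _ fun j _ => (hw.continuous_pd j).mul
        ((((hY j).1.continuous.comp p1).add ((hY j).1.continuous.comp p2)).div_const 2))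
  simp only [e]
  rw [integral_add (int1 p3) (int1 (continuous_finsetSum _ fun j _ => cA hw (hY j) j k)),
    integral_finsetSum _ fun j _ => int1 (cA hw (hY j) j k),
    Finset.sum_eq_zero fun j hj => A0 hw (hY j) (Finset.mem_erase.1 hj).1, add_zero]

end Vale.Agent.P232
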