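import Vale.Agent.P232.TSlice
import Vale.Agent.P232.TMol

open MeasureTheory Set Function Filter Topology
open scoped ENNReal

namespace Vale.Agent.P232

namespace TSt3Aux

theorem swap {α : Type} [MeasurableSpace α] {μ : Measure α} [IsFiniteMeasure μ] {a K : X → ℝ}
    (ha : BM a) (hK : BM K) {φ : α → X} (hφ : Measurable φ) {b : α → ℝ} (hb : Integrable b μ) :
    ∫ x, a x * (∫ z, K (x - φ z) * b z ∂μ) ∂vQ =
      ∫ z, (∫ x, a x * K (x - φ z) ∂vQ) * b z ∂μ := by
  have := vQ_prob
  have h1 : BM fun q : X × α => a q.1 * K (q.1 - φ q.2) :=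
    (ha.comp measurable_fst).mul (hK.comp (measurable_fst.sub (hφ.comp measurable_snd)))
  obtain ⟨C, hC⟩ := h1.2
  have h2 : Integrable (fun q : X × α => a q.1 * K (q.1 - φ q.2) * b q.2) (vQ.prod μ) :=
    (hb.comp_snd vQ).bdd_mul h1.1.aestronglyMeasurable (ae_of_all _ hC)
  simp only [← integral_const_mul, ← integral_mul_const, ← mul_assoc]
  exact integral_integral_swap h2

theorem ind_pd {K : X → ℝ} {k : Fin 3} (h : Ind k K) (j : Fin 3) : Ind k (pd j K) := by
  intro x t
  have e : ∀ y : X, y + Pi.single k (t - x k) = update y k (y k + (t - x k)) := fun y => by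
    funext i
    by_cases hi : i = k
    · subst hi
      simp
    · simp [hi]
  have e1 : (fun y => K (y + Pi.single k (t - x k))) = K := funext fun y => by rw [e, h]
  have e2 : update x k t = x + Pi.single k (t - x k) := by rw [e, add_sub_cancel]
  rw [pd, pd, e2, ← fderiv_comp_add_right, e1]

theorem ind_sub {f : X → ℝ} {k : Fin 3} (h : Ind k f) (x : X) : Ind k fun y => f (x - y) := by
  intro y t
  have e : x - update y k t = update (x - y) k (x k - t) := by
    funext i
    by_cases hi : i = k
    · subst hi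
      simp
    · simp [hi]
  simp only [e, h (x - y)]

theorem set_ht {E : Set X} (hE : MeasurableSet E) {k : Fin 3} {f : X → ℝ} (hf : BM f)
    (hi : Ind k f) : ∫ y in E, f y ∂vQ = ∫ y, ht E k y * f y ∂vQ := by
  have := vQ_prob
  rw [← integral_indicator hE, integral_update ((hf.indicator hE).integrable vQ) k]
  refine integral_congr_ae (ae_of_all _ fun y => ?_)
  have m : MeasurableSet {t | update y k t ∈ E} := measurable_update y hE
  have e : (fun t => E.indicator f (update y k t)) =
      {t | update y k t ∈ E}.indicator fun _ => f y := by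
    funext t
    by_cases ht : update y k t ∈ E
    · rw [indicator_of_mem ht, indicator_of_mem (s := {t | update y k t ∈ E}) ht, hi]
    · rw [indicator_of_notMem ht, indicator_of_notMem (s := {t | update y k t ∈ E}) ht]
  simp only [e, integral_indicator_const _ m, smul_eq_mul, ht]

theorem cs {g ν : Fin 3 → ℝ} (hg : ∑ j, g j ^ 2 ≤ 1) (hν : ∑ j, ν j ^ 2 ≤ 1) (k : Fin 3) :
    g k * |ν k| + ∑ j ∈ Finset.univ.erase k, g j * ν j ≤ 1 := by
  rw [← Finset.add_sum_erase _ _ (Finset.mem_univ k)] at hg hν
  have h1 : ∑ j ∈ Finset.univ.erase k, g j * ν j ≤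
      ∑ j ∈ Finset.univ.erase k, (g j ^ 2 + ν j ^ 2) / 2 :=
    Finset.sum_le_sum fun j _ => by nlinarith [sq_nonneg (g j - ν j)]
  rw [← Finset.sum_div, Finset.sum_add_distrib] at h1
  nlinarith [sq_nonneg (g k - |ν k|), sq_abs (ν k)]

end TSt3Aux

open TSt3Aux in
/-- the key estimate for the mollified section length -/
theorem Var.conv_le {E : Set X} {p : ℝ} {V : Measure (X × X)} (h : Var E p V)
    (hE : MeasurableSet E) (hP : PerSet E) (k : Fin 3) {ρ : ℕ → ℝ → ℝ} (hρ : Ker ρ) (n : ℕ)
    {G : Fin 3 → X → ℝ} (hG : ∀ j, BM (G j)) (hGp : ∀ j, Per (G j)) (hGi : ∀ j, Ind k (G j))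
    (h0 : ∀ x, 0 ≤ G k x) (h1 : ∀ x, ∑ j, G j x ^ 2 ≤ 1) :
    2 * ∫ x, G k x * conv ((Wd E k).indicator 1) (kr ρ (Finset.univ.erase k) n) x ∂vQ -
      ∑ j ∈ Finset.univ.erase k,
        ∫ x, pd j (conv (ht E k) (kr ρ (Finset.univ.erase k) n)) x * G j x ∂vQ ≤ p := by
  have := vQ_prob
  have := h.fin
  set K := kr ρ (Finset.univ.erase k) n with hK
  have k1 : PC1 K := hρ.pc1 _ n
  have k2 : Ind k K := Ker.kr_ind _ n (Finset.notMem_erase k _)
  have e : ∀ j y, ∫ x, G j x * K (x - y) ∂vQ = conv (G j) K y := fun j y =>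
    integral_congr_ae (ae_of_all _ fun x => by simp only [hK, hρ.kr_even _ n x y])
  have c1 := fun j => (pc1_conv (hG j) k1).bm
  have mν : ∀ j, Measurable fun z : X × X => z.2 j := fun j =>
    (measurable_pi_apply j).comp measurable_snd
  have iν : ∀ j, Integrable (fun z : X × X => z.2 j) V := fun j =>
    Integrable.of_bound (mν j).aestronglyMeasurable 1 (h.unit.mono fun z hz => by
      have := Finset.single_le_sum (f := fun i => z.2 i ^ 2) (fun _ _ => sq_nonneg _)
        (Finset.mem_univ j)
      exact abs_le_one_iff_mul_self_le_one.2 (by nlinarith))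
  have mW := measurableSet_Wd hE k
  have t1 : ∫ x, G k x * conv ((Wd E k).indicator 1) K x ∂vQ =
      ∫ y in Wd E k, conv (G k) K y ∂vQ := by
    have := swap (μ := vQ) (hG k) k1.bm measurable_id
      (((BM.const (1 : ℝ)).indicator mW).integrable vQ)
    simp only [id, e] at this
    rw [← integral_indicator mW]
    refine Eq.trans (integral_congr_ae (ae_of_all _ fun x => ?_))
      (this.trans (integral_congr_ae (ae_of_all _ fun y => ?_)))
    · exact congrArg _ (integral_congr_ae (ae_of_all _ fun y => mul_comm _ _))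
    · by_cases hy : y ∈ Wd E k <;> simp [hy]
  have t2 := h.slice_le hE hP k (c1 k) (pc1_conv (hG k) k1).2 (ind_conv k2) fun y =>
    integral_nonneg fun x => mul_nonneg (h0 x) (hρ.kr_nonneg _ n _)
  have t3 : ∀ j, ∫ x, pd j (conv (ht E k) K) x * G j x ∂vQ =
      -∫ z, conv (G j) K z.1 * z.2 j ∂V := fun j => by
    have := swap (μ := V) (hG j) k1.bm measurable_fst (iν j)
    simp only [e] at this
    rw [← this, ← integral_neg]
    refine integral_congr_ae (ae_of_all _ fun x => ?_)
    have g1 := h.gg _ j (pc1_sub_left k1 x)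
    simp only [pd_sub_left k1, integral_neg] at g1
    rw [set_ht hE (f := fun y => pd j K (x - y)) ((k1.bm_pd j).comp (measurable_const.sub measurable_id))
      (ind_sub (ind_pd k2 j) x)] at g1
    simp only [pd_conv (bm_ht hE k) k1, ← g1, conv]
    ring
  have i1 : ∀ j {b : X × X → ℝ}, Integrable b V →
      Integrable (fun z => conv (G j) K z.1 * b z) V := fun j b hb => by
    obtain ⟨C, hC⟩ := (c1 j).2
    exact hb.bdd_mul ((c1 j).1.comp measurable_fst).aestronglyMeasurable
      (ae_of_all _ fun z => hC z.1)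
  have t4 : ∫ z, (conv (G k) K z.1 * |z.2 k| +
      ∑ j ∈ Finset.univ.erase k, conv (G j) K z.1 * z.2 j) ∂V ≤ ∫ _, 1 ∂V := by
    refine integral_mono_ae ((i1 k (iν k).abs).add
      (integrable_finsetSum _ fun j _ => i1 j (iν j))) (integrable_const _) ?_
    filter_upwards [h.unit] with z hz
    have b1 : ∀ j (c : ℝ), Integrable (fun y => G j y * K (z.1 - y) * c) vQ := fun j c =>
      (((hG j).mul (k1.bm.comp (measurable_const.sub measurable_id))).integrable vQ).mul_const c
    simp only [conv, ← integral_mul_const]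
    rw [← integral_finsetSum _ fun j _ => b1 j _,
      ← integral_add (b1 k _) (integrable_finsetSum _ fun j _ => b1 j _),
      ← hρ.integral_kr (Finset.univ.erase k) n z.1]
    refine integral_mono ((b1 k _).add (integrable_finsetSum _ fun j _ => b1 j _))
      ((k1.bm.comp (measurable_const.sub measurable_id)).integrable vQ) fun y => ?_
    have := mul_le_mul_of_nonneg_left (cs (h1 y) hz k)
      (hρ.kr_nonneg (Finset.univ.erase k) n (z.1 - y))
    rw [mul_one, mul_add, Finset.mul_sum] at this
    refine le_trans (le_of_eq ?_) this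
    exact congrArg₂ _ (by ring) (Finset.sum_congr rfl fun j _ => by ring)
  rw [integral_add (i1 k (iν k).abs) (integrable_finsetSum _ fun j _ => i1 j (iν j)),
    integral_finsetSum _ fun j _ => i1 j (iν j), integral_const, smul_eq_mul, mul_one] at t4
  simp only [t1, t3, Finset.sum_neg_distrib]
  linarith [h.mass]

end Vale.Agent.P232
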