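import Vale.Agent.P232.TSt1
import Vale.Agent.P232.TSt2
import Vale.Agent.P232.TSt3

open MeasureTheory Set Function Filter Topology
open scoped ENNReal

namespace Vale.Agent.P232

namespace TSt4Aux

variable {D : X → ℝ} {k : Fin 3}

theorem cont_line (hD : Continuous D) (x : X) : Continuous fun t : ℝ => D (update x k t) :=
  hD.comp (continuous_const.update k continuous_id)

/-- primitive along the line in direction `k` -/
noncomputable def Th (D : X → ℝ) (k : Fin 3) (x : X) (s : ℝ) : ℝ :=
  ∫ t in (0 : ℝ)..s, D (update x k t)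

theorem th_sub (hD : Continuous D) (x : X) (a b : ℝ) :
    ∫ t in a..b, D (update x k t) = Th D k x b - Th D k x a :=
  (intervalIntegral.integral_interval_sub_left ((cont_line hD x).intervalIntegrable _ _)
    ((cont_line hD x).intervalIntegrable _ _)).symm

theorem th_cont (hD : Continuous D) : Continuous fun p : X × ℝ => Th D k p.1 p.2 :=
  intervalIntegral.continuous_parametric_primitive_of_continuous
    (f := fun x t => D (update x k t)) (hD.comp (continuous_fst.update k continuous_snd))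

theorem th_lip (hD : Continuous D) {C : ℝ} (hC : ∀ x, |D x| ≤ C) (x : X) (a b : ℝ) :
    |Th D k x b - Th D k x a| ≤ C * |b - a| := by
  rw [← th_sub hD]
  exact intervalIntegral.norm_integral_le_of_norm_le_const
    (f := fun t => D (update x k t)) fun t _ => hC _

theorem psi_lip (hD : Continuous D) {C : ℝ} (hC : ∀ x, |D x| ≤ C) (x : X) (s s' : ℝ) :
    |(∫ t in (-(s / 2))..(s / 2), D (update x k t))
      - ∫ t in (-(s' / 2))..(s' / 2), D (update x k t)| ≤ C * |s - s'| := by
  have h1 := th_lip (k := k) hD hC x (s' / 2) (s / 2)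
  have h2 := th_lip (k := k) hD hC x (-(s / 2)) (-(s' / 2))
  have e1 : |s / 2 - s' / 2| = |s - s'| / 2 := by
    rw [← sub_div, abs_div, abs_two]
  have e2 : -(s' / 2) - -(s / 2) = s / 2 - s' / 2 := by ring
  rw [e2] at h2
  rw [e1] at h1 h2
  rw [th_sub hD, th_sub hD, abs_le]
  rw [abs_le] at h1 h2
  constructor <;> linarith [h1.1, h1.2, h2.1, h2.2]

theorem psi_bm (hD : Continuous D) {C : ℝ} (hC : ∀ x, |D x| ≤ C) {u : X → ℝ} (hu : BM u) :
    BM fun x => ∫ t in (-(u x / 2))..(u x / 2), D (update x k t) := by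
  obtain ⟨hm, B, hB⟩ := hu
  refine ⟨?_, C * B, fun x => ?_⟩
  · simp only [th_sub hD]
    exact ((th_cont hD).measurable.comp (measurable_id.prodMk (hm.div_const 2))).sub
      ((th_cont hD).measurable.comp (measurable_id.prodMk (hm.div_const 2).neg))
  · have h := psi_lip (k := k) hD hC x (u x) 0
    simp only [zero_div, neg_zero, intervalIntegral.integral_same, sub_zero] at h
    exact h.trans (mul_le_mul_of_nonneg_left (hB x) ((abs_nonneg _).trans (hC x)))

theorem per_update {f w : X → ℝ} (hf : Per f) (hw : Per w) (g : ℝ → ℝ) :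
    Per fun x => f (update x k (g (w x))) := by
  intro x n
  have e : update (fun j => x j + (n j : ℝ)) k (g (w x))
      = fun j => update x k (g (w x)) j + ((update n k 0 j : ℤ) : ℝ) := by
    funext j
    by_cases hj : j = k
    · subst hj
      simp
    · simp [update_of_ne hj]
  simp only [hw x n, e]
  exact hf _ _

theorem bm_update {f w : X → ℝ} (hf : BM f) (hw : Continuous w) {g : ℝ → ℝ} (hg : Continuous g) :
    BM fun x => f (update x k (g (w x))) :=
  hf.comp (continuous_id.update k (hg.comp hw)).measurable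

theorem bm_abs {f : X → ℝ} (hf : BM f) : BM fun x => |f x| := by
  obtain ⟨hm, C, hC⟩ := hf
  exact ⟨hm.abs, C, fun x => by rw [abs_abs]; exact hC x⟩

theorem bm_half {f : X → ℝ} (hf : BM f) : BM fun x => f x / 2 := by
  simp only [div_eq_mul_inv]
  exact hf.mul (BM.const _)

theorem line_lip {f : X → ℝ} (hf : ContDiff ℝ 1 f) {C : ℝ} (hC : ∀ x, |pd k f x| ≤ C) (x : X)
    (a b : ℝ) : |f (update x k a) - f (update x k b)| ≤ C * |a - b| :=
  convex_univ.norm_image_sub_le_of_norm_hasDerivWithin_le (f := fun s => f (update x k s))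
    (fun z _ => (hasDerivAt_update hf k x z).hasDerivWithinAt) (fun _ _ => hC _)
    (mem_univ b) (mem_univ a)

/-- the test field on the quotient -/
noncomputable def G (Y : Fin 3 → X → ℝ) (k : Fin 3) (w : X → ℝ) (j : Fin 3) (x : X) : ℝ :=
  if j = k then |Y j (update x k (w x / 2)) - Y j (update x k (-(w x / 2)))| / 2
  else (Y j (update x k (w x / 2)) + Y j (update x k (-(w x / 2)))) / 2

variable {Y : Fin 3 → X → ℝ} {w : X → ℝ}

theorem bmP (hY : ∀ i, PC1 (Y i)) (hw : PC1 w) (j : Fin 3) :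
    BM fun x => Y j (update x k (w x / 2)) :=
  bm_update (g := fun s => s / 2) (hY j).bm hw.1.continuous (by fun_prop)

theorem bmM (hY : ∀ i, PC1 (Y i)) (hw : PC1 w) (j : Fin 3) :
    BM fun x => Y j (update x k (-(w x / 2))) :=
  bm_update (g := fun s => -(s / 2)) (hY j).bm hw.1.continuous (by fun_prop)

theorem G_bm (hY : ∀ i, PC1 (Y i)) (hw : PC1 w) (j : Fin 3) : BM (G Y k w j) := by
  unfold G
  split_ifs
  · exact bm_half (bm_abs ((bmP hY hw j).sub (bmM hY hw j)))
  · exact bm_half ((bmP hY hw j).add (bmM hY hw j))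

theorem G_per (hY : ∀ i, PC1 (Y i)) (hw : PC1 w) (j : Fin 3) : Per (G Y k w j) := by
  intro x n
  have h1 := per_update (k := k) (hY j).2 hw.2 (fun s => s / 2) x n
  have h2 := per_update (k := k) (hY j).2 hw.2 (fun s => -(s / 2)) x n
  simp only at h1 h2
  simp only [G, h1, h2]

theorem G_ind (hi : Ind k w) (j : Fin 3) : Ind k (G Y k w j) := by
  intro x t
  simp only [G, hi x t, update_idem]

theorem G_sq (h : ∀ x, ∑ i, Y i x ^ 2 ≤ 1) (x : X) : ∑ j, G Y k w j x ^ 2 ≤ 1 := by
  have h1 := h (update x k (w x / 2))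
  have h2 := h (update x k (-(w x / 2)))
  have h3 : ∑ j, G Y k w j x ^ 2 ≤ ∑ j, (Y j (update x k (w x / 2)) ^ 2 / 2
      + Y j (update x k (-(w x / 2))) ^ 2 / 2) := by
    refine Finset.sum_le_sum fun j _ => ?_
    unfold G
    split_ifs
    · rw [div_pow, sq_abs]
      nlinarith [sq_nonneg (Y j (update x k (w x / 2)) + Y j (update x k (-(w x / 2))))]
    · nlinarith [sq_nonneg (Y j (update x k (w x / 2)) - Y j (update x k (-(w x / 2))))]
  rw [Finset.sum_add_distrib, ← Finset.sum_div, ← Finset.sum_div] at h3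
  linarith

theorem G_nonneg (x : X) : 0 ≤ G Y k w k x := by
  rw [G, if_pos rfl]
  positivity

theorem G_le (h : ∀ x, ∑ i, Y i x ^ 2 ≤ 1) (x : X) : G Y k w k x ≤ 1 := by
  have h1 : G Y k w k x ^ 2 ≤ 1 := (Finset.single_le_sum (f := fun j => G Y k w j x ^ 2)
    (fun j _ => sq_nonneg _) (Finset.mem_univ k)).trans (G_sq h x)
  nlinarith

theorem G_off (hY : ∀ i, PC1 (Y i)) {C : ℝ} (hC : ∀ x, |pd k (Y k) x| ≤ C) {E : Set X} {x : X}
    (hx : x ∉ Wd E k) : 2 * G Y k w k x ≤ C * |w x - ht E k x| := by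
  rw [G, if_pos rfl, mul_div_cancel₀ _ two_ne_zero]
  by_cases h0 : 0 < ht E k x
  · have h1 : ht E k x = 1 := le_antisymm (ht_le_one E k x) (not_lt.1 fun h => hx ⟨h0, h⟩)
    rw [← (hY k).2.update_add_one x k (-(w x / 2)), h1]
    refine (line_lip (hY k).1 hC x _ _).trans (le_of_eq ?_)
    congr 2
    ring
  · have h1 : ht E k x = 0 := le_antisymm (not_lt.1 h0) (ht_nonneg E k x)
    rw [h1]
    refine (line_lip (hY k).1 hC x _ _).trans (le_of_eq ?_)
    congr 2
    ring

theorem bound (hY : ∀ i, PC1 (Y i)) (h1 : ∀ x, ∑ i, Y i x ^ 2 ≤ 1) (hw : PC1 w) (hi : Ind k w)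
    {C p : ℝ} (hC : ∀ x, |pd k (Y k) x| ≤ C) {E : Set X} (hE : MeasurableSet E) {c : X → ℝ}
    (hc : BM c) (hp : 2 * ∫ x, G Y k w k x * c x ∂vQ -
      ∑ j ∈ Finset.univ.erase k, ∫ x, pd j w x * G Y k w j x ∂vQ ≤ p) :
    ∫ x, (∫ t in (-(w x / 2))..(w x / 2), dvg Y (update x k t)) ∂vQ
      ≤ p + 2 * ∫ x, |c x - (Wd E k).indicator 1 x| ∂vQ + C * ∫ x, |w x - ht E k x| ∂vQ := by
  have := vQ_prob
  have b1 : BM ((Wd E k).indicator (1 : X → ℝ)) := (BM.const 1).indicator (measurableSet_Wd hE k)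
  have i1 := ((bmP (k := k) hY hw k).sub (bmM (k := k) hY hw k)).integrable vQ
  have i2 : ∀ j, Integrable (fun x => pd j w x * G Y k w j x) vQ := fun j =>
    ((hw.bm_pd j).mul (G_bm hY hw j)).integrable vQ
  have i3 := ((G_bm (k := k) hY hw k).mul hc).integrable vQ
  have i4 := (bm_abs (hc.sub b1)).integrable vQ
  have i5 := (bm_abs (hw.bm.sub (bm_ht hE k))).integrable vQ
  have e : ∀ x, ∑ j ∈ Finset.univ.erase k, pd j w x *
      ((Y j (update x k (w x / 2)) + Y j (update x k (-(w x / 2)))) / 2)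
      = ∑ j ∈ Finset.univ.erase k, pd j w x * G Y k w j x := fun x =>
    Finset.sum_congr rfl fun j hj => by rw [G, if_neg (Finset.ne_of_mem_erase hj)]
  rw [smooth_formula hw hi hY]
  simp only [e]
  rw [integral_sub i1 (integrable_finsetSum _ fun j _ => i2 j),
    integral_finsetSum _ fun j _ => i2 j]
  have m := integral_mono i1 (((i3.const_mul 2).add (i4.const_mul 2)).add (i5.const_mul C))
    fun x => by
      have a0 := G_nonneg (Y := Y) (k := k) (w := w) x
      have a1 := G_le (k := k) (w := w) h1 x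
      have a2 : Y k (update x k (w x / 2)) - Y k (update x k (-(w x / 2))) ≤ 2 * G Y k w k x := by
        rw [G, if_pos rfl, mul_div_cancel₀ _ two_ne_zero]
        exact le_abs_self _
      have a3 : 0 ≤ C * |w x - ht E k x| :=
        mul_nonneg ((abs_nonneg _).trans (hC x)) (abs_nonneg _)
      simp only [Pi.add_apply]
      by_cases hx : x ∈ Wd E k
      · rw [indicator_of_mem hx, Pi.one_apply]
        have a4 := neg_abs_le (c x - 1)
        nlinarith [abs_nonneg (c x - 1)]
      · rw [indicator_of_notMem hx, sub_zero]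
        have a4 := neg_abs_le (c x)
        have a5 := G_off (w := w) hY hC hx
        nlinarith [abs_nonneg (c x)]
  rw [integral_add' ((i3.const_mul 2).add (i4.const_mul 2)) (i5.const_mul C),
    integral_add' (i3.const_mul 2) (i4.const_mul 2), integral_const_mul, integral_const_mul,
    integral_const_mul] at m
  linarith

theorem ind_eq {E : Set X} {x y : X} (h : ht E k x = ht E k y) :
    (Wd E k).indicator (1 : X → ℝ) x = (Wd E k).indicator 1 y := by
  have e : x ∈ Wd E k ↔ y ∈ Wd E k := by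
    simp only [Wd, mem_ofPred_eq, h]
  by_cases hy : y ∈ Wd E k
  · rw [indicator_of_mem hy, indicator_of_mem (e.2 hy), Pi.one_apply, Pi.one_apply]
  · rw [indicator_of_notMem hy, indicator_of_notMem fun hx => hy (e.1 hx)]

end TSt4Aux

open TSt4Aux in
theorem PerLe.steiner {E : Set X} {p : ℝ} (h : PerLe E p) (hE : MeasurableSet E)
    (hP : PerSet E) (k : Fin 3) : PerLe (St k E) p := by
  intro Y hY
  have := vQ_prob
  obtain ⟨V, hV⟩ := exists_var h
  obtain ⟨ρ, hρ⟩ := exists_ker
  have hY1 : ∀ i, PC1 (Y i) := fun i => ⟨hY.1 i, hY.2.1 i⟩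
  have hD : Continuous (dvg Y) := continuous_finsetSum _ fun i _ => (hY1 i).continuous_pd i
  have hDp : Per (dvg Y) := fun x n => Finset.sum_congr rfl fun i _ => (hY1 i).per_pd i x n
  obtain ⟨-, C, hC⟩ := hDp.bm hD
  obtain ⟨-, C', hC'⟩ := (hY1 k).bm_pd k
  have bu := bm_ht hE k
  have pu := hP.per_ht hE k
  have b1 : BM ((Wd E k).indicator (1 : X → ℝ)) := (BM.const 1).indicator (measurableSet_Wd hE k)
  have p1 : Per ((Wd E k).indicator (1 : X → ℝ)) := fun x n => ind_eq (pu x n)
  have hk : ∀ j, j ∉ Finset.univ.erase k → j = k := fun j hj => by simpa using hj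
  have t1 := hρ.tendsto_conv (Finset.univ.erase k) bu pu fun j hj x t => by
    rw [hk j hj]
    exact ht_update E k x t
  have t2 := hρ.tendsto_conv (Finset.univ.erase k) b1 p1 fun j hj x t => by
    rw [hk j hj]
    exact ind_eq (ht_update E k x t)
  have t3 := ((tendsto_const_nhds (x := p)).add (t2.const_mul 2)).add (t1.const_mul (C' + C))
  simp only [mul_zero, add_zero] at t3
  rw [integral_St hE k (hDp.bm hD) hDp]
  refine ge_of_tendsto' t3 fun n => ?_
  have hw := pc1_conv bu (hρ.pc1 (Finset.univ.erase k) n)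
  have hi : Ind k (conv (ht E k) (kr ρ (Finset.univ.erase k) n)) :=
    ind_conv (Ker.kr_ind _ n (Finset.notMem_erase k _))
  have a := bound hY1 hY.2.2 hw hi hC' hE (pc1_conv b1 (hρ.pc1 (Finset.univ.erase k) n)).bm
    (hV.conv_le hE hP k hρ n (G_bm hY1 hw) (G_per hY1 hw) (G_ind hi) G_nonneg (G_sq hY.2.2))
  have i1 := (psi_bm (k := k) hD hC bu).integrable vQ
  have i2 := (psi_bm (k := k) hD hC hw.bm).integrable vQ
  have i3 := (bm_abs (hw.bm.sub bu)).integrable vQ
  have m := integral_mono i1 (i2.add (i3.const_mul C)) fun x => by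
    have := (abs_le.1 (psi_lip (k := k) hD hC x
      (conv (ht E k) (kr ρ (Finset.univ.erase k) n) x) (ht E k x))).1
    simp only [Pi.add_apply]
    linarith
  rw [integral_add' i2 (i3.const_mul C), integral_const_mul] at m
  linarith

end Vale.Agent.P232
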